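import Mathlib.Algebra.BigOperators.Group.Finset.Basic
import Mathlib.Algebra.Order.BigOperators.Group.Finset
import Mathlib.Algebra.BigOperators.Ring.Finset
import Mathlib.Data.Finset.Max
import Mathlib.Order.Lattice.Nat
import Mathlib.Tactic

/-!
R305 (S0468), doc 1783 FACT 2 : the sparse integral certificate.
-/

set_option autoImplicit false

namespace Crest.Agent.R305.Cert900

open Finset

variable {α : Type*} [DecidableEq α]

/-- Abstract data: `r` = rank over `X ∪ p`, `c A = 1` iff `p ∈ cl (X ∪ A)`. -/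
structure Core (D : Finset α) (k : ℕ) (r c : Finset α → ℕ) : Prop where
  hk : 2 ≤ k
  r_empty : r ∅ = 0
  r_mono : ∀ A B, A ⊆ B → B ⊆ D → r A ≤ r B
  r_sub : ∀ A B, A ⊆ D → B ⊆ D → r (A ∪ B) + r (A ∩ B) ≤ r A + r B
  c_le : ∀ A, A ⊆ D → c A ≤ 1
  c_mono : ∀ A B, A ⊆ B → B ⊆ D → c A ≤ c B
  c_jump : ∀ A B, A ⊆ D → B ⊆ D → c A = 0 → c B = 0 → c (A ∪ B) = 1 →
    r (A ∪ B) + r (A ∩ B) + 1 ≤ r A + r B

/-- (U) -/
def U (D : Finset α) (k : ℕ) (r c : Finset α → ℕ) (w : α → ℕ) : Prop :=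
  ∀ A, A ⊆ D → A.Nonempty → ∑ z ∈ A, w z + 1 ≤ k * (r A + c A)

/-- (L) -/
def L (D : Finset α) (k : ℕ) (r : Finset α → ℕ) (w : α → ℕ) : Prop :=
  ∀ A, A ⊆ D → k * r D ≤ k * r A + ∑ z ∈ D \ A, w z

/-- (G) -/
def G (D : Finset α) (k : ℕ) (r c : Finset α → ℕ) (w : α → ℕ) : Prop :=
  ∀ A, A ⊆ D → A.Nonempty → ∑ z ∈ A, w z + 1 ≤ k * r A + c A

/-- tight sets -/
def Tight (D : Finset α) (k : ℕ) (r c : Finset α → ℕ) (w : α → ℕ) (A : Finset α) : Prop :=
  A ⊆ D ∧ A.Nonempty ∧ ∑ z ∈ A, w z + 1 = k * r A + c A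

section
variable {D : Finset α} {k : ℕ} {r c : Finset α → ℕ} {w : α → ℕ}

theorem sum_sdiff_add (A : Finset α) (hA : A ⊆ D) :
    ∑ z ∈ D \ A, w z + ∑ z ∈ A, w z = ∑ z ∈ D, w z := Finset.sum_sdiff hA

theorem G_of_UL (hT : ∑ z ∈ D, w z = k * r D) (hc : ∀ A, A ⊆ D → c A ≤ 1)
    (hU : U D k r c w) (hL : L D k r w) : G D k r c w := by
  intro A hA hne
  have h1 := hU A hA hne
  have h2 := hL A hA
  have h3 := sum_sdiff_add (w := w) A hA
  have h4 := hc A hA
  rcases Nat.eq_zero_or_pos (c A) with h0 | h0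
  · rw [h0] at h1 ⊢; simpa using h1
  · omega

theorem UL_of_G (hk : 2 ≤ k) (hr : r ∅ = 0) (hT : ∑ z ∈ D, w z = k * r D)
    (hc : ∀ A, A ⊆ D → c A ≤ 1)
    (hG : G D k r c w) : U D k r c w ∧ L D k r w := by
  constructor
  · intro A hA hne
    have h1 := hG A hA hne
    have : c A ≤ k * c A := Nat.le_mul_of_pos_left _ (by omega)
    rw [Nat.mul_add]; omega
  · intro A hA
    have h3 := sum_sdiff_add (w := w) A hA
    rcases A.eq_empty_or_nonempty with rfl | hne
    · simp only [sdiff_empty, hr]; omega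
    · have h1 := hG A hA hne
      have h4 := hc A hA
      omega

theorem g_sub (C : Core D k r c) {A B : Finset α} (hA : A ⊆ D) (hB : B ⊆ D) :
    (k * r (A ∪ B) + c (A ∪ B)) + (k * r (A ∩ B) + c (A ∩ B)) ≤
      (k * r A + c A) + (k * r B + c B) := by
  have hAB : A ∪ B ⊆ D := union_subset hA hB
  have hi : A ∩ B ⊆ D := inter_subset_left.trans hA
  have h1 := C.r_sub A B hA hB
  have h2 : k * r (A ∪ B) + k * r (A ∩ B) ≤ k * r A + k * r B := by
    have := Nat.mul_le_mul_left k h1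
    simpa [Nat.mul_add] using this
  have hcA := C.c_le A hA
  have hcB := C.c_le B hB
  have hcU := C.c_le _ hAB
  have hcI := C.c_le _ hi
  have hIA := C.c_mono _ _ (inter_subset_left (s₁ := A) (s₂ := B)) hA
  have hIB := C.c_mono _ _ (inter_subset_right (s₁ := A) (s₂ := B)) hB
  by_cases hz : c A = 0 ∧ c B = 0
  · by_cases hu : c (A ∪ B) = 1
    · have h3 := C.c_jump A B hA hB hz.1 hz.2 hu
      have h4 : k * r (A ∪ B) + k * r (A ∩ B) + k ≤ k * r A + k * r B := by
        have := Nat.mul_le_mul_left k h3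
        simpa [Nat.mul_add] using this
      have := C.hk
      omega
    · omega
  · omega

theorem tight_inter_union (C : Core D k r c) (hG : G D k r c w) {A B : Finset α}
    (hA : Tight D k r c w A) (hB : Tight D k r c w B) (hne : (A ∩ B).Nonempty) :
    Tight D k r c w (A ∩ B) ∧ Tight D k r c w (A ∪ B) := by
  have hAB : A ∪ B ⊆ D := union_subset hA.1 hB.1
  have hi : A ∩ B ⊆ D := inter_subset_left.trans hA.1
  have hneU : (A ∪ B).Nonempty := hA.2.1.mono subset_union_left
  have h1 := hG _ hi hne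
  have h2 := hG _ hAB hneU
  have h3 := g_sub C hA.1 hB.1
  have h4 := Finset.sum_union_inter (s₁ := A) (s₂ := B) (f := w)
  have h5 := hA.2.2
  have h6 := hB.2.2
  refine ⟨⟨hi, hne, ?_⟩, ⟨hAB, hneU, ?_⟩⟩ <;> omega

/-- Step 1 : reduce the total to `k * r D`. -/
theorem exists_total (C : Core D k r c) (w0 : α → ℕ) (hU : U D k r c w0) (hL : L D k r w0) :
    ∃ w : α → ℕ, (∀ z, z ∉ D → w z = 0) ∧ U D k r c w ∧ L D k r w ∧
      ∑ z ∈ D, w z = k * r D := by
  classical
  let S : Set ℕ := {n | ∃ w : α → ℕ, (∀ z, z ∉ D → w z = 0) ∧ U D k r c w ∧ L D k r w ∧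
      ∑ z ∈ D, w z = n}
  have hS : S.Nonempty := by
    refine ⟨_, fun z => if z ∈ D then w0 z else 0, ?_, ?_, ?_, rfl⟩
    · intro z hz; simp [hz]
    · intro A hA hne
      have : ∑ z ∈ A, (if z ∈ D then w0 z else 0) = ∑ z ∈ A, w0 z :=
        Finset.sum_congr rfl fun z hz => by simp [hA hz]
      rw [this]; exact hU A hA hne
    · intro A hA
      have : ∑ z ∈ D \ A, (if z ∈ D then w0 z else 0) = ∑ z ∈ D \ A, w0 z :=
        Finset.sum_congr rfl fun z hz => by simp [(mem_sdiff.1 hz).1]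
      rw [this]; exact hL A hA
  obtain ⟨w, hw0, hwU, hwL, hwS⟩ := Nat.sInf_mem hS
  have hmin : ∀ n ∈ S, sInf S ≤ n := fun n hn => Nat.sInf_le hn
  refine ⟨w, hw0, hwU, hwL, ?_⟩
  -- tight for (L)
  let T : Finset (Finset α) := D.powerset.filter
    (fun A => k * r D = k * r A + ∑ z ∈ D \ A, w z)
  have hDT : D ∈ T := by simp [T]
  obtain ⟨A0, hA0, hA0min⟩ := Finset.exists_min_image T Finset.card ⟨D, hDT⟩
  have hA0D : A0 ⊆ D := by
    have := (Finset.mem_filter.1 hA0).1; exact Finset.mem_powerset.1 this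
  have hA0t : k * r D = k * r A0 + ∑ z ∈ D \ A0, w z := (Finset.mem_filter.1 hA0).2
  have hzero : ∀ z ∈ A0, w z = 0 := by
    intro z hz
    by_contra hne
    have hwz : 1 ≤ w z := Nat.one_le_iff_ne_zero.2 hne
    have hzD := hA0D hz
    -- there is a tight set missing z
    have hex : ∃ A, A ⊆ D ∧ z ∉ A ∧ k * r D = k * r A + ∑ z ∈ D \ A, w z := by
      by_contra hcon
      push Not at hcon
      let w' : α → ℕ := fun x => if x = z then w z - 1 else w x
      have hpt : ∀ x, w' x + (if x = z then 1 else 0) = w x := by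
        intro x
        by_cases hx : x = z
        · subst hx; simp [w']; omega
        · simp [w', hx]
      have hsum : ∀ A : Finset α, ∑ x ∈ A, w' x + (if z ∈ A then 1 else 0) = ∑ x ∈ A, w x := by
        intro A
        rw [← Finset.sum_congr rfl (fun x _ => hpt x), Finset.sum_add_distrib]
        congr 1
        simp
      have hU' : U D k r c w' := by
        intro A hA hne
        have h1 := hwU A hA hne
        have h2 := hsum A
        omega
      have hL' : L D k r w' := by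
        intro A hA
        have h1 := hwL A hA
        have h2 := hsum (D \ A)
        by_cases hzA : z ∈ A
        · have : z ∉ D \ A := by simp [hzA]
          rw [if_neg this] at h2
          omega
        · have : z ∈ D \ A := by simp [hzA, hzD]
          rw [if_pos this] at h2
          have h3 := hcon A hA hzA
          omega
      have hS' : ∑ x ∈ D, w' x ∈ S := by
        refine ⟨w', ?_, hU', hL', rfl⟩
        intro x hx
        have hxz : x ≠ z := fun h => hx (h ▸ hzD)
        simp [w', hxz, hw0 x hx]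
      have h1 := hmin _ hS'
      have h2 := hsum D
      rw [if_pos hzD] at h2
      omega
    obtain ⟨A, hAD, hzA, hAt⟩ := hex
    -- A0 ∩ A is tight and smaller
    have hi : A0 ∩ A ⊆ D := inter_subset_left.trans hA0D
    have hu : A0 ∪ A ⊆ D := union_subset hA0D hAD
    have h1 := hwL _ hi
    have h2 := hwL _ hu
    have h3 := C.r_sub A0 A hA0D hAD
    have h3' : k * r (A0 ∪ A) + k * r (A0 ∩ A) ≤ k * r A0 + k * r A := by
      have := Nat.mul_le_mul_left k h3
      simpa [Nat.mul_add] using this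
    have h4 := Finset.sum_union_inter (s₁ := A0) (s₂ := A) (f := w)
    have h5 := sum_sdiff_add (w := w) _ hi
    have h6 := sum_sdiff_add (w := w) _ hu
    have h7 := sum_sdiff_add (w := w) _ hA0D
    have h8 := sum_sdiff_add (w := w) _ hAD
    have hmem : A0 ∩ A ∈ T := by
      refine Finset.mem_filter.2 ⟨Finset.mem_powerset.2 hi, ?_⟩
      omega
    have hle := hA0min _ hmem
    have hss : A0 ∩ A ⊂ A0 := by
      refine (Finset.ssubset_iff_of_subset inter_subset_left).2 ⟨z, hz, ?_⟩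
      simp [hzA]
    have := Finset.card_lt_card hss
    omega
  have h1 := sum_sdiff_add (w := w) _ hA0D
  have h2 : ∑ z ∈ A0, w z = 0 := Finset.sum_eq_zero hzero
  have h3 := hwL ∅ (Finset.empty_subset _)
  simp only [sdiff_empty, C.r_empty] at h3
  omega

/-- moving one unit of weight from `y` to `z`. -/
def move (w : α → ℕ) (z y : α) : α → ℕ :=
  fun x => if x = z then w z + 1 else if x = y then w y - 1 else w x

theorem move_pt {z y : α} (hzy : z ≠ y) (hy : 1 ≤ w y) (x : α) :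
    move w z y x + (if x = y then 1 else 0) = w x + (if x = z then 1 else 0) := by
  unfold move
  by_cases h1 : x = z
  · subst h1; simp [hzy]
  · by_cases h2 : x = y
    · subst h2; simp [h1]; omega
    · simp [h1, h2]

theorem move_sum {z y : α} (hzy : z ≠ y) (hy : 1 ≤ w y) (A : Finset α) :
    ∑ x ∈ A, move w z y x + (if y ∈ A then 1 else 0) =
      ∑ x ∈ A, w x + (if z ∈ A then 1 else 0) := by
  have h := Finset.sum_congr rfl (fun x (_ : x ∈ A) => move_pt (w := w) hzy hy x)
  rw [Finset.sum_add_distrib, Finset.sum_add_distrib] at h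
  simpa using h

theorem move_sq {z y : α} (hzy : z ≠ y) (hy : 1 ≤ w y) (x : α) :
    (move w z y x) ^ 2 + (if x = y then 2 * w y - 1 else 0) =
      (w x) ^ 2 + (if x = z then 2 * w z + 1 else 0) := by
  unfold move
  by_cases h1 : x = z
  · subst h1; simp [hzy]; ring
  · by_cases h2 : x = y
    · subst h2
      simp only [h1, if_false, if_true]
      obtain ⟨m, hm⟩ : ∃ m, w x = m + 1 := ⟨w x - 1, by omega⟩
      rw [hm]
      have : 2 * (m + 1) - 1 = 2 * m + 1 := by omega
      rw [this]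
      simp
      ring
    · simp [h1, h2]

theorem move_sumsq {z y : α} (hzy : z ≠ y) (hy : 1 ≤ w y) (hyz : w y ≤ w z)
    (hzD : z ∈ D) (hyD : y ∈ D) :
    ∑ x ∈ D, (w x) ^ 2 < ∑ x ∈ D, (move w z y x) ^ 2 := by
  have h := Finset.sum_congr rfl (fun x (_ : x ∈ D) => move_sq (w := w) hzy hy x)
  rw [Finset.sum_add_distrib, Finset.sum_add_distrib] at h
  simp only [Finset.sum_ite_eq', hzD, hyD, if_true] at h
  omega

/-- Step 2 : a maximiser of the sum of squares. -/
theorem exists_max (w0 : α → ℕ) (hz0 : ∀ z, z ∉ D → w0 z = 0)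
    (hG0 : G D k r c w0) (hT0 : ∑ z ∈ D, w0 z = k * r D) :
    ∃ w : α → ℕ, (∀ z, z ∉ D → w z = 0) ∧ G D k r c w ∧ ∑ z ∈ D, w z = k * r D ∧
      ∀ z ∈ D, ∀ y ∈ D, z ≠ y → 1 ≤ w y → w y ≤ w z →
        ∃ A, Tight D k r c w A ∧ z ∈ A ∧ y ∉ A := by
  classical
  let P : (α → ℕ) → Prop := fun w => (∀ z, z ∉ D → w z = 0) ∧ G D k r c w ∧
    ∑ z ∈ D, w z = k * r D
  let S : Set ℕ := {n | ∃ w, P w ∧ ∑ z ∈ D, (w z) ^ 2 = n}
  have hbdd : BddAbove S := by
    refine ⟨(k * r D) ^ 2, ?_⟩
    rintro n ⟨w, hw, rfl⟩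
    calc ∑ z ∈ D, (w z) ^ 2 ≤ (∑ z ∈ D, w z) ^ 2 := by
            have : ∀ z ∈ D, (w z) ^ 2 ≤ w z * ∑ x ∈ D, w x := by
              intro z hz
              rw [sq]
              exact Nat.mul_le_mul_left _ (Finset.single_le_sum (fun _ _ => Nat.zero_le _) hz)
            calc ∑ z ∈ D, (w z) ^ 2 ≤ ∑ z ∈ D, w z * ∑ x ∈ D, w x := Finset.sum_le_sum this
              _ = (∑ z ∈ D, w z) ^ 2 := by rw [← Finset.sum_mul, sq]
      _ = (k * r D) ^ 2 := by rw [hw.2.2]
  have hS : S.Nonempty := ⟨_, w0, ⟨hz0, hG0, hT0⟩, rfl⟩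
  obtain ⟨w, hw, hwS⟩ := Nat.sSup_mem hS hbdd
  refine ⟨w, hw.1, hw.2.1, hw.2.2, ?_⟩
  intro z hzD y hyD hzy hy hyz
  by_contra hcon
  push Not at hcon
  have hP : P (move w z y) := by
    refine ⟨?_, ?_, ?_⟩
    · intro x hx
      have h1 : x ≠ z := fun h => hx (h ▸ hzD)
      have h2 : x ≠ y := fun h => hx (h ▸ hyD)
      simp [move, h1, h2, hw.1 x hx]
    · intro A hA hne
      by_contra hlt
      have h1 := hw.2.1 A hA hne
      have h2 := move_sum (w := w) hzy hy A
      by_cases hzA : z ∈ A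
      · by_cases hyA : y ∈ A
        · rw [if_pos hzA, if_pos hyA] at h2
          omega
        · rw [if_pos hzA, if_neg hyA] at h2
          have ht : Tight D k r c w A := ⟨hA, hne, by omega⟩
          exact hyA (hcon A ht hzA)
      · rw [if_neg hzA] at h2
        split_ifs at h2 <;> omega
    · have h2 := move_sum (w := w) hzy hy D
      rw [if_pos hzD, if_pos hyD] at h2
      have := hw.2.2
      omega
  have h1 : ∑ x ∈ D, (move w z y x) ^ 2 ∈ S := ⟨_, hP, rfl⟩
  have h2 := le_csSup hbdd h1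
  have h3 := move_sumsq (w := w) (D := D) hzy hy hyz hzD hyD
  omega

/-- merging a tight set with tight sets that meet it. -/
theorem tight_merge (C : Core D k r c) (hG : G D k r c w) {A : Finset α}
    (hA : Tight D k r c w A) (Q : Finset (Finset α))
    (hQ : ∀ P ∈ Q, Tight D k r c w P ∧ (P ∩ A).Nonempty) :
    Tight D k r c w (A ∪ Q.biUnion id) := by
  induction Q using Finset.induction_on with
  | empty => simpa using hA
  | insert P Q hPQ ih =>
    have h1 := ih (fun P' hP' => hQ P' (mem_insert_of_mem hP'))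
    have h2 := hQ P (mem_insert_self _ _)
    have hne : ((A ∪ Q.biUnion id) ∩ P).Nonempty := by
      obtain ⟨x, hx⟩ := h2.2
      refine ⟨x, ?_⟩
      simp only [mem_inter] at hx ⊢
      exact ⟨mem_union_left _ hx.2, hx.1⟩
    have h3 := (tight_inter_union C hG h1 h2.1 hne).2
    have : A ∪ (insert P Q).biUnion id = (A ∪ Q.biUnion id) ∪ P := by
      rw [Finset.biUnion_insert]
      ext x; simp only [mem_union, id]; tauto
    rw [this]; exact h3

/-- the block structure attached to an initial part `B` of the support. -/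
structure Blocks (D : Finset α) (k : ℕ) (r c : Finset α → ℕ) (w : α → ℕ) (B : Finset α)
    (Q : Finset (Finset α)) (n0 nr : ℕ) : Prop where
  tight : ∀ P ∈ Q, Tight D k r c w P
  disj : ∀ P ∈ Q, ∀ P' ∈ Q, P ≠ P' → Disjoint P P'
  cover : ∀ y, w y ≠ 0 → (y ∈ B ↔ ∃ P ∈ Q, y ∈ P)
  count : B.card + Q.card + (Q.filter (fun P => c P = 0)).card ≤ 3 * n0 + nr
  wt : (k - 1) * n0 + k * nr ≤ ∑ z ∈ B, w z


theorem exists_A (C : Core D k r c) (hw0 : ∀ z, z ∉ D → w z = 0) (hG : G D k r c w)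
    (hT : ∑ z ∈ D, w z = k * r D)
    (hmv : ∀ z ∈ D, ∀ y ∈ D, z ≠ y → 1 ≤ w y → w y ≤ w z →
        ∃ A, Tight D k r c w A ∧ z ∈ A ∧ y ∉ A)
    (B : Finset α) (z : α) (hz : w z ≠ 0) (hmax : ∀ y, y ∉ B → w y ≤ w z) :
    ∃ A, Tight D k r c w A ∧ z ∈ A ∧ ∀ y ∈ A, w y ≠ 0 → y ∈ insert z B := by
  classical
  have hzD : z ∈ D := by
    by_contra h; exact hz (hw0 z h)
  have hD : Tight D k r c w D := by
    refine ⟨Finset.Subset.refl _, ⟨z, hzD⟩, ?_⟩
    have h1 := hG D (Finset.Subset.refl _) ⟨z, hzD⟩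
    have h2 := C.c_le D (Finset.Subset.refl _)
    omega
  let T : Finset (Finset α) := D.powerset.filter (fun A => Tight D k r c w A ∧ z ∈ A)
  have hDT : D ∈ T := by
    simp only [T, Finset.mem_filter, Finset.mem_powerset]
    exact ⟨Finset.Subset.refl _, hD, hzD⟩
  obtain ⟨A0, hA0, hA0min⟩ := Finset.exists_min_image T Finset.card ⟨D, hDT⟩
  obtain ⟨hA0t, hzA0⟩ := (Finset.mem_filter.1 hA0).2
  refine ⟨A0, hA0t, hzA0, ?_⟩
  intro y hyA hyw
  by_contra hyB
  rw [Finset.mem_insert, not_or] at hyB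
  have hyD : y ∈ D := hA0t.1 hyA
  obtain ⟨A, hAt, hzA, hyA'⟩ := hmv z hzD y hyD (Ne.symm hyB.1) (Nat.one_le_iff_ne_zero.2 hyw)
    (hmax y hyB.2)
  have hne : (A0 ∩ A).Nonempty := ⟨z, Finset.mem_inter.2 ⟨hzA0, hzA⟩⟩
  have h1 := (tight_inter_union C hG hA0t hAt hne).1
  have hmem : A0 ∩ A ∈ T := by
    simp only [T, Finset.mem_filter, Finset.mem_powerset]
    exact ⟨h1.1, h1, Finset.mem_inter.2 ⟨hzA0, hzA⟩⟩
  have hle := hA0min _ hmem
  have hss : A0 ∩ A ⊂ A0 := by
    refine (Finset.ssubset_iff_of_subset inter_subset_left).2 ⟨y, hyA, ?_⟩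
    simp [hyA']
  have := Finset.card_lt_card hss
  omega

theorem blocks_step (C : Core D k r c) (hw0 : ∀ z, z ∉ D → w z = 0) (hG : G D k r c w)
    (hT : ∑ z ∈ D, w z = k * r D)
    (hmv : ∀ z ∈ D, ∀ y ∈ D, z ≠ y → 1 ≤ w y → w y ≤ w z →
        ∃ A, Tight D k r c w A ∧ z ∈ A ∧ y ∉ A)
    {B : Finset α} {Q : Finset (Finset α)} {n0 nr : ℕ} (hB : Blocks D k r c w B Q n0 nr)
    (z : α) (hzB : z ∉ B) (hz : w z ≠ 0) (hmax : ∀ y, y ∉ B → w y ≤ w z) :
    ∃ (Q' : Finset (Finset α)) (n0' nr' : ℕ), Blocks D k r c w (insert z B) Q' n0' nr' := by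
  classical
  obtain ⟨A, hA, hzA, hAB⟩ := exists_A C hw0 hG hT hmv B z hz hmax
  let met : Finset (Finset α) := Q.filter (fun P => (P ∩ A).Nonempty)
  let rest : Finset (Finset α) := Q.filter (fun P => ¬ (P ∩ A).Nonempty)
  have hcardQ : met.card + rest.card = Q.card :=
    Finset.card_filter_add_card_filter_not (s := Q) (fun P => (P ∩ A).Nonempty)
  have hcard0 : (met.filter (fun P => c P = 0)).card + (rest.filter (fun P => c P = 0)).card =
      (Q.filter (fun P => c P = 0)).card := by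
    have := Finset.card_filter_add_card_filter_not (s := Q.filter (fun P => c P = 0))
      (fun P => (P ∩ A).Nonempty)
    rw [← this]
    congr 1
    · congr 1; ext P; simp only [met, mem_filter]; tauto
    · congr 1; ext P; simp only [rest, mem_filter]; tauto
  let M : Finset α := met.biUnion id
  let N : Finset α := A ∪ M
  have hmetQ : ∀ P ∈ met, P ∈ Q ∧ (P ∩ A).Nonempty := fun P hP => Finset.mem_filter.1 hP
  have hN : Tight D k r c w N :=
    tight_merge C hG hA met (fun P hP => ⟨hB.tight P (hmetQ P hP).1, (hmetQ P hP).2⟩)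
  have hzM : z ∉ M := by
    intro h
    obtain ⟨P, hP, hzP⟩ := Finset.mem_biUnion.1 h
    exact hzB ((hB.cover z hz).2 ⟨P, (hmetQ P hP).1, hzP⟩)
  have hsumN : ∑ x ∈ N, w x = w z + ∑ x ∈ M, w x := by
    have h1 : ∑ x ∈ N \ M, w x + ∑ x ∈ M, w x = ∑ x ∈ N, w x :=
      Finset.sum_sdiff Finset.subset_union_right
    have h2 : ∑ x ∈ N \ M, w x = w z := by
      refine Finset.sum_eq_single z ?_ ?_
      · intro y hy hyz
        by_contra hyw
        obtain ⟨hyN, hyM⟩ := Finset.mem_sdiff.1 hy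
        have hyA : y ∈ A := by
          rcases Finset.mem_union.1 hyN with h | h
          · exact h
          · exact absurd h hyM
        have hyB : y ∈ B := by
          rcases Finset.mem_insert.1 (hAB y hyA hyw) with h | h
          · exact absurd h hyz
          · exact h
        obtain ⟨P, hP, hyP⟩ := (hB.cover y hyw).1 hyB
        exact hyM (Finset.mem_biUnion.2 ⟨P, Finset.mem_filter.2
          ⟨hP, ⟨y, Finset.mem_inter.2 ⟨hyP, hyA⟩⟩⟩, hyP⟩)
      · intro h
        exact absurd (Finset.mem_sdiff.2 ⟨Finset.mem_union_left _ hzA, hzM⟩) h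
    omega
  have hsumB : ∑ x ∈ insert z B, w x = w z + ∑ x ∈ B, w x := Finset.sum_insert hzB
  have hcardB : (insert z B).card = B.card + 1 := Finset.card_insert_of_notMem hzB
  have hcN := C.c_le N hN.1
  -- structural part
  have hstr : ∀ (a b : ℕ),
      (insert z B).card + (insert N rest).card +
        ((insert N rest).filter (fun P => c P = 0)).card ≤ 3 * a + b →
      (k - 1) * a + k * b ≤ ∑ x ∈ insert z B, w x →
      Blocks D k r c w (insert z B) (insert N rest) a b := by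
    intro a b h1 h2
    refine ⟨?_, ?_, ?_, h1, h2⟩
    · intro P hP
      rcases Finset.mem_insert.1 hP with rfl | hP
      · exact hN
      · exact hB.tight P (Finset.mem_filter.1 hP).1
    · have key : ∀ P ∈ rest, Disjoint N P := by
        intro P hP
        obtain ⟨hPQ, hPA⟩ := Finset.mem_filter.1 hP
        rw [Finset.disjoint_union_left]
        constructor
        · rw [Finset.disjoint_left]
          intro x hxA hxP
          exact hPA ⟨x, Finset.mem_inter.2 ⟨hxP, hxA⟩⟩
        · rw [Finset.disjoint_biUnion_left]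
          intro P' hP'
          refine hB.disj P' (hmetQ P' hP').1 P hPQ ?_
          rintro rfl
          exact hPA (hmetQ _ hP').2
      intro P hP P' hP' hne
      rcases Finset.mem_insert.1 hP with rfl | hP
      · rcases Finset.mem_insert.1 hP' with rfl | hP'
        · exact absurd rfl hne
        · exact key P' hP'
      · rcases Finset.mem_insert.1 hP' with rfl | hP'
        · exact (key P hP).symm
        · exact hB.disj P (Finset.mem_filter.1 hP).1 P' (Finset.mem_filter.1 hP').1 hne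
    · intro y hyw
      constructor
      · intro hy
        rcases Finset.mem_insert.1 hy with rfl | hy
        · exact ⟨N, Finset.mem_insert_self _ _, Finset.mem_union_left _ hzA⟩
        · obtain ⟨P, hP, hyP⟩ := (hB.cover y hyw).1 hy
          by_cases hm : (P ∩ A).Nonempty
          · exact ⟨N, Finset.mem_insert_self _ _, Finset.mem_union_right _
              (Finset.mem_biUnion.2 ⟨P, Finset.mem_filter.2 ⟨hP, hm⟩, hyP⟩)⟩
          · exact ⟨P, Finset.mem_insert_of_mem (Finset.mem_filter.2 ⟨hP, hm⟩), hyP⟩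
      · rintro ⟨P, hP, hyP⟩
        rcases Finset.mem_insert.1 hP with rfl | hP
        · rcases Finset.mem_union.1 hyP with h | h
          · exact hAB y h hyw
          · obtain ⟨P', hP', hyP'⟩ := Finset.mem_biUnion.1 h
            exact Finset.mem_insert_of_mem ((hB.cover y hyw).2 ⟨P', (hmetQ P' hP').1, hyP'⟩)
        · exact Finset.mem_insert_of_mem
            ((hB.cover y hyw).2 ⟨P, (Finset.mem_filter.1 hP).1, hyP⟩)
  have hcins : (insert N rest).card ≤ rest.card + 1 := Finset.card_insert_le _ _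
  have hc0ins : ((insert N rest).filter (fun P => c P = 0)).card ≤
      (rest.filter (fun P => c P = 0)).card + (if c N = 0 then 1 else 0) := by
    rw [Finset.filter_insert]
    split_ifs with h
    · exact Finset.card_insert_le _ _
    · simp
  have hcnt := hB.count
  have hwt := hB.wt
  have hk := C.hk
  have hmono : ∀ P ∈ met, c P ≤ c N := by
    intro P hP
    refine C.c_mono P N ?_ hN.1
    intro x hx
    exact Finset.mem_union_right _ (Finset.mem_biUnion.2 ⟨P, hP, hx⟩)
  rcases Nat.lt_or_ge met.card 2 with hlt | hge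
  · rcases Nat.lt_or_ge met.card 1 with hlt' | hge'
    · -- no block met
      have hm0 : met = ∅ := Finset.card_eq_zero.1 (by omega)
      have hM0 : M = ∅ := by simp [M, hm0]
      have hNt := hN.2.2
      rw [hsumN, hM0] at hNt
      simp only [Finset.sum_empty, add_zero] at hNt
      have hr1 : 1 ≤ r N := by
        by_contra hcon
        have : r N = 0 := by omega
        rw [this] at hNt
        simp only [Nat.mul_zero] at hNt
        omega
      have hkr : k ≤ k * r N := Nat.le_mul_of_pos_right _ hr1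
      have hf0 : (met.filter (fun P => c P = 0)).card = 0 := by simp [hm0]
      have hm0' : met.card = 0 := by omega
      refine ⟨insert N rest, n0 + 1, nr, hstr _ _ ?_ ?_⟩
      · have : (if c N = 0 then 1 else 0) ≤ 1 := by split_ifs <;> omega
        omega
      · rw [hsumB, Nat.mul_add]
        omega
    · -- exactly one block met
      obtain ⟨P, hP⟩ := Finset.card_eq_one.1 (show met.card = 1 by omega)
      have hPm : P ∈ met := by rw [hP]; exact Finset.mem_singleton_self _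
      have hMP : M = P := by simp [M, hP]
      have hNt := hN.2.2
      rw [hsumN, hMP] at hNt
      have hPt := (hB.tight P (hmetQ P hPm).1).2.2
      have hPN : P ⊆ N := by
        intro x hx
        exact Finset.mem_union_right _ (Finset.mem_biUnion.2 ⟨P, hPm, hx⟩)
      have hrPN := C.r_mono P N hPN hN.1
      have hcPN := hmono P hPm
      have hmc : met.card = 1 := by omega
      have hf0 : (met.filter (fun P => c P = 0)).card = if c P = 0 then 1 else 0 := by
        rw [hP, Finset.filter_singleton]; split_ifs <;> simp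
      rcases Nat.lt_or_ge (r P) (r N) with hlt2 | hge2
      · -- rank grows
        have h1 : k * (r P + 1) ≤ k * r N := Nat.mul_le_mul_left _ hlt2
        rw [Nat.mul_add, Nat.mul_one] at h1
        refine ⟨insert N rest, n0, nr + 1, hstr _ _ ?_ ?_⟩
        · have : (if c N = 0 then 1 else 0) ≤ (if c P = 0 then 1 else 0) := by
            split_ifs <;> omega
          omega
        · rw [hsumB, Nat.mul_add]
          omega
      · have hreq : r N = r P := le_antisymm hge2 hrPN
        rw [hreq] at hNt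
        have hcN1 : c N = 1 := by omega
        have hcP0 : c P = 0 := by omega
        rw [if_pos hcP0] at hf0
        rw [if_neg (by omega)] at hc0ins
        refine ⟨insert N rest, n0, nr, hstr _ _ ?_ ?_⟩
        · omega
        · rw [hsumB]; omega
  · -- at least two blocks met
    refine ⟨insert N rest, n0, nr, hstr _ _ ?_ ?_⟩
    · have : (if c N = 0 then 1 else 0) ≤ (met.filter (fun P => c P = 0)).card := by
        split_ifs with h
        · have : met.filter (fun P => c P = 0) = met := by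
            apply Finset.filter_true_of_mem
            intro P hP
            have := hmono P hP
            omega
          rw [this]; omega
        · omega
      omega
    · rw [hsumB]; omega

theorem blocks_exist (C : Core D k r c) (hw0 : ∀ z, z ∉ D → w z = 0) (hG : G D k r c w)
    (hT : ∑ z ∈ D, w z = k * r D)
    (hmv : ∀ z ∈ D, ∀ y ∈ D, z ≠ y → 1 ≤ w y → w y ≤ w z →
        ∃ A, Tight D k r c w A ∧ z ∈ A ∧ y ∉ A) :
    ∀ n, n ≤ (D.filter (fun z => w z ≠ 0)).card →
      ∃ (B : Finset α) (Q : Finset (Finset α)) (n0 nr : ℕ), B ⊆ D.filter (fun z => w z ≠ 0) ∧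
        B.card = n ∧ Blocks D k r c w B Q n0 nr := by
  classical
  intro n
  induction n with
  | zero =>
    intro _
    refine ⟨∅, ∅, 0, 0, Finset.empty_subset _, rfl, ?_⟩
    refine ⟨by simp, by simp, by simp, by simp, by simp⟩
  | succ n ih =>
    intro hn
    obtain ⟨B, Q, n0, nr, hBs, hBn, hB⟩ := ih (by omega)
    have hne : (D.filter (fun z => w z ≠ 0) \ B).Nonempty := by
      rw [← Finset.card_pos, Finset.card_sdiff_of_subset hBs]; omega
    obtain ⟨z, hz, hzmax⟩ := Finset.exists_max_image _ w hne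
    obtain ⟨hzs, hzB⟩ := Finset.mem_sdiff.1 hz
    have hzw : w z ≠ 0 := (Finset.mem_filter.1 hzs).2
    have hmax : ∀ y, y ∉ B → w y ≤ w z := by
      intro y hyB
      by_cases hyw : w y = 0
      · omega
      · refine hzmax y (Finset.mem_sdiff.2 ⟨Finset.mem_filter.2 ⟨?_, hyw⟩, hyB⟩)
        by_contra h; exact hyw (hw0 y h)
    obtain ⟨Q', n0', nr', hB'⟩ := blocks_step C hw0 hG hT hmv hB z hzB hzw hmax
    refine ⟨insert z B, Q', n0', nr', ?_, ?_, hB'⟩
    · intro x hx
      rcases Finset.mem_insert.1 hx with rfl | hx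
      · exact hzs
      · exact hBs hx
    · rw [Finset.card_insert_of_notMem hzB, hBn]

/-- FACT 2, core form. -/
theorem cert_core (C : Core D k r c) (w0 : α → ℕ) (hU : U D k r c w0) (hL : L D k r w0) :
    ∃ w : α → ℕ, (∀ z, z ∉ D → w z = 0) ∧ U D k r c w ∧ L D k r w ∧ G D k r c w ∧
      ∑ z ∈ D, w z = k * r D ∧ (D.filter (fun z => w z ≠ 0)).card ≤ 6 * r D := by
  obtain ⟨w1, h1z, h1U, h1L, h1T⟩ := exists_total C w0 hU hL
  have h1G := G_of_UL h1T C.c_le h1U h1L
  obtain ⟨w, hwz, hwG, hwT, hmv⟩ := exists_max w1 h1z h1G h1T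
  obtain ⟨hwU, hwL⟩ := UL_of_G C.hk C.r_empty hwT C.c_le hwG
  refine ⟨w, hwz, hwU, hwL, hwG, hwT, ?_⟩
  obtain ⟨B, Q, n0, nr, hBs, hBn, hB⟩ := blocks_exist C hwz hwG hwT hmv _ le_rfl
  have h1 := hB.count
  have h2 := hB.wt
  have h3 : ∑ z ∈ B, w z ≤ ∑ z ∈ D, w z :=
    Finset.sum_le_sum_of_subset (hBs.trans (Finset.filter_subset _ _))
  rw [hwT] at h3
  have hk := C.hk
  have h4 : (k - 1) * n0 + k * nr ≤ k * r D := h2.trans h3
  have h5 : k * n0 ≤ 2 * ((k - 1) * n0) := by
    have : k ≤ 2 * (k - 1) := by omega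
    calc k * n0 ≤ (2 * (k - 1)) * n0 := Nat.mul_le_mul_right _ this
      _ = 2 * ((k - 1) * n0) := by ring
  have h6 : k * (n0 + 2 * nr) ≤ k * (2 * r D) := by
    calc k * (n0 + 2 * nr) = k * n0 + 2 * (k * nr) := by ring
      _ ≤ 2 * ((k - 1) * n0) + 2 * (k * nr) := by omega
      _ = 2 * ((k - 1) * n0 + k * nr) := by ring
      _ ≤ 2 * (k * r D) := Nat.mul_le_mul_left _ h4
      _ = k * (2 * r D) := by ring
  have h7 : n0 + 2 * nr ≤ 2 * r D := Nat.le_of_mul_le_mul_left h6 (by omega)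
  omega

end

/-- FACT 2 with a Prop-valued `h A = (p ∈ cl (X ∪ A))`. -/
theorem cert_prop (D : Finset α) (k : ℕ) (hk : 2 ≤ k) (r : Finset α → ℕ)
    (h : Finset α → Prop) [DecidablePred h]
    (r_empty : r ∅ = 0)
    (r_mono : ∀ A B, A ⊆ B → B ⊆ D → r A ≤ r B)
    (r_sub : ∀ A B, A ⊆ D → B ⊆ D → r (A ∪ B) + r (A ∩ B) ≤ r A + r B)
    (h_mono : ∀ A B, A ⊆ B → B ⊆ D → h A → h B)
    (h_jump : ∀ A B, A ⊆ D → B ⊆ D → ¬ h A → ¬ h B → h (A ∪ B) →
      r (A ∪ B) + r (A ∩ B) + 1 ≤ r A + r B)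
    (w0 : α → ℕ)
    (hU : ∀ A, A ⊆ D → A.Nonempty → ∑ z ∈ A, w0 z + 1 ≤ k * (r A + if h A then 1 else 0))
    (hL : ∀ A, A ⊆ D → k * r D ≤ k * r A + ∑ z ∈ D \ A, w0 z) :
    ∃ w : α → ℕ, (∀ z, z ∉ D → w z = 0) ∧
      (∀ A, A ⊆ D → A.Nonempty → ∑ z ∈ A, w z + 1 ≤ k * (r A + if h A then 1 else 0)) ∧
      (∀ A, A ⊆ D → k * r D ≤ k * r A + ∑ z ∈ D \ A, w z) ∧
      ∑ z ∈ D, w z = k * r D ∧ (D.filter (fun z => w z ≠ 0)).card ≤ 6 * r D := by
  have C : Core D k r (fun A => if h A then 1 else 0) := by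
    refine ⟨hk, r_empty, r_mono, r_sub, ?_, ?_, ?_⟩
    · intro A _; split_ifs <;> omega
    · intro A B hAB hB
      by_cases hA : h A
      · rw [if_pos hA, if_pos (h_mono A B hAB hB hA)]
      · rw [if_neg hA]; exact Nat.zero_le _
    · intro A B hA hB h1 h2 h3
      refine h_jump A B hA hB ?_ ?_ ?_
      · intro hh; simp [hh] at h1
      · intro hh; simp [hh] at h2
      · by_contra hh; simp [hh] at h3
  obtain ⟨w, hz, hwU, hwL, _, hwT, hwc⟩ := cert_core C w0 hU hL
  exact ⟨w, hz, hwU, hwL, hwT, hwc⟩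

/-- FACT 2 with two rank functions : `ρ` = rank over `X`, `r` = rank over `X ∪ p`
(`r ≤ ρ ≤ r + 1`, `ρ - r` monotone). -/
theorem cert_rank (D : Finset α) (k : ℕ) (hk : 2 ≤ k) (r ρ : Finset α → ℕ)
    (r_empty : r ∅ = 0)
    (r_mono : ∀ A B, A ⊆ B → B ⊆ D → r A ≤ r B)
    (r_sub : ∀ A B, A ⊆ D → B ⊆ D → r (A ∪ B) + r (A ∩ B) ≤ r A + r B)
    (ρ_sub : ∀ A B, A ⊆ D → B ⊆ D → ρ (A ∪ B) + ρ (A ∩ B) ≤ ρ A + ρ B)
    (hle : ∀ A, A ⊆ D → r A ≤ ρ A) (hle' : ∀ A, A ⊆ D → ρ A ≤ r A + 1)
    (hdiff : ∀ A B, A ⊆ B → B ⊆ D → ρ A + r B ≤ ρ B + r A)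
    (w0 : α → ℕ)
    (hU : ∀ A, A ⊆ D → A.Nonempty → ∑ z ∈ A, w0 z + 1 ≤ k * ρ A)
    (hL : ∀ A, A ⊆ D → k * r D ≤ k * r A + ∑ z ∈ D \ A, w0 z) :
    ∃ w : α → ℕ, (∀ z, z ∉ D → w z = 0) ∧
      (∀ A, A ⊆ D → A.Nonempty → ∑ z ∈ A, w z + 1 ≤ k * ρ A) ∧
      (∀ A, A ⊆ D → k * r D ≤ k * r A + ∑ z ∈ D \ A, w z) ∧
      ∑ z ∈ D, w z = k * r D ∧ (D.filter (fun z => w z ≠ 0)).card ≤ 6 * r D := by
  have heq : ∀ A, A ⊆ D → r A + (ρ A - r A) = ρ A := fun A hA => by have := hle A hA; omega
  have C : Core D k r (fun A => ρ A - r A) := by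
    refine ⟨hk, r_empty, r_mono, r_sub, ?_, ?_, ?_⟩
    · intro A hA; have := hle' A hA; omega
    · intro A B hAB hB
      have h1 := hdiff A B hAB hB
      have h2 := hle A (hAB.trans hB)
      have h3 := hle B hB
      omega
    · intro A B hA hB h1 h2 h3
      have hs := ρ_sub A B hA hB
      have h4 := hle A hA
      have h5 := hle B hB
      have h6 := hle _ (Finset.union_subset hA hB)
      have h7 := hle _ ((Finset.inter_subset_left (s₁ := A) (s₂ := B)).trans hA)
      omega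
  obtain ⟨w, hz, hwU, hwL, _, hwT, hwc⟩ := cert_core C w0
    (by intro A hA hne; dsimp only; rw [heq A hA]; exact hU A hA hne) hL
  refine ⟨w, hz, ?_, hwL, hwT, hwc⟩
  intro A hA hne
  have := hwU A hA hne
  dsimp only at this
  rwa [heq A hA] at this

end Crest.Agent.R305.Cert900
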