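import Crest.Agent.R305.Dep_310

/-!
# R305: the class operator (operator form of Theorem 1, doc 1673)

Classes `0, 1, 2, …` (light to heavy), `cls a` the class of `a`, `c n` a monotone extensive operator
on sets for every class. `flat n S` is the flat generated by the elements of `S` of class `< n`
after applying `c m` at every class `m < n`; `K S = {z | z ∈ c (cls z) (flat (cls z) S)}`.
-/

set_option autoImplicit false

namespace Crest.Agent.R305.Cls310

open Finset Dep310

variable {α : Type*} [Fintype α] [DecidableEq α]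

/-- data: a matroid, classes, and a monotone extensive operator for every class -/
structure Data (α : Type*) where
  M : Matroid α
  cls : α → ℕ
  c : ℕ → Set α → Set α
  mono : ∀ n {F F' : Set α}, F ⊆ F' → c n F ⊆ c n F'
  ext : ∀ n (F : Set α), F ⊆ c n F

variable (D : Data α)

/-- the flat generated by the classes `< n` of `S` -/
def flat : ℕ → Finset α → Set α
  | 0, _ => D.M.closure ∅
  | n + 1, S => D.M.closure (D.c n (flat n S) ∪ {a | a ∈ S ∧ D.cls a = n})

omit [Fintype α] [DecidableEq α] in
theorem flat_mono {S T : Finset α} (h : S ⊆ T) (n : ℕ) : flat D n S ⊆ flat D n T := by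
  induction n with
  | zero => exact subset_rfl
  | succ n ih =>
    refine D.M.closure_subset_closure (Set.union_subset_union (D.mono n ih) ?_)
    rintro a ⟨ha, hn⟩
    exact ⟨h ha, hn⟩

omit [Fintype α] [DecidableEq α] in
/-- the flat of the classes `< n` depends only on the elements of the classes `< n` -/
theorem flat_congr {S T : Finset α} {n : ℕ} (h : ∀ a, D.cls a < n → (a ∈ S ↔ a ∈ T)) :
    flat D n S = flat D n T := by
  induction n with
  | zero => rfl
  | succ n ih =>
    have h1 : flat D n S = flat D n T := ih fun a ha => h a (by omega)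
    have h2 : {a | a ∈ S ∧ D.cls a = n} = {a | a ∈ T ∧ D.cls a = n} := by
      ext a
      simp only [Set.mem_ofPred_eq]
      constructor
      · rintro ⟨ha, hn⟩; exact ⟨(h a (by omega)).1 ha, hn⟩
      · rintro ⟨ha, hn⟩; exact ⟨(h a (by omega)).2 ha, hn⟩
    rw [flat, flat, h1, h2]

open Classical in
/-- the elements `z` inside `c (cls z) (flat (cls z) S)` -/
noncomputable def K (S : Finset α) : Finset α :=
  univ.filter fun z => z ∈ D.c (D.cls z) (flat D (D.cls z) S)

omit [DecidableEq α] in
theorem mem_K {S : Finset α} {z : α} : z ∈ K D S ↔ z ∈ D.c (D.cls z) (flat D (D.cls z) S) := by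
  simp [K]

/-- absorbing elements of `K S` -/
theorem flat_abs {S T : Finset α} (h : T ⊆ K D S) (n : ℕ) : flat D n (S ∪ T) = flat D n S := by
  induction n with
  | zero => rfl
  | succ n ih =>
    refine Set.Subset.antisymm ?_ (flat_mono D subset_union_left _)
    rw [flat, flat, ih]
    refine D.M.closure_subset_closure ?_
    rintro a (ha | ⟨ha, hn⟩)
    · exact Or.inl ha
    · rcases mem_union.1 ha with ha | ha
      · exact Or.inr ⟨ha, hn⟩
      · left
        have := (mem_K D).1 (h ha)
        rwa [hn] at this

/-- the class operator -/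
noncomputable def op : Op α D.cls where
  K := K D
  mono {S T} h z hz := by
    rw [mem_K] at hz ⊢
    exact D.mono _ (flat_mono D h _) hz
  loc {S z} hz := by
    rw [mem_K] at hz ⊢
    rwa [flat_congr D (T := S) (fun a ha => by simp [ha])]
  abs {S T} h z hz := by
    rw [mem_K] at hz ⊢
    rwa [flat_abs D h] at hz

theorem op_K (S : Finset α) : (op D).K S = K D S := rfl

/-- the chain of flats `f_t` -/
noncomputable def fl (A : Finset α) (t n : ℕ) : Set α := flat D n (A ∩ chain (op D) A t univ)

theorem fl_anti (A : Finset α) (t n : ℕ) : fl D A (t + 1) n ⊆ fl D A t n := by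
  refine flat_mono D (inter_subset_inter_left ?_) n
  rw [chain_succ]
  exact next_subset _ _ _

/-- the exit: `y ∈ S_t`, `y ∉ K (A ∩ S_t)` -/
def Exit (A : Finset α) (y : α) (t : ℕ) : Prop :=
  y ∈ chain (op D) A t univ ∧ y ∉ chain (op D) A (t + 1) univ

theorem exit_iff {A : Finset α} {y : α} {t : ℕ} :
    Exit D A y t ↔ y ∈ chain (op D) A t univ ∧ y ∉ D.c (D.cls y) (fl D A t (D.cls y)) := by
  unfold Exit fl
  rw [chain_succ, next, mem_inter, op_K, mem_K]
  tauto

/-- the flat `g_t` generated by the part of `A` in `S_{t+1}` and the part of `B` in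
`D_t = S_t \ S_{t+1}` -/
noncomputable def gl (A B : Finset α) (t n : ℕ) : Set α :=
  flat D n ((A ∩ chain (op D) A (t + 1) univ) ∪
    (B ∩ (chain (op D) A t univ \ chain (op D) A (t + 1) univ)))

theorem fl_subset_gl (A B : Finset α) (t n : ℕ) : fl D A (t + 1) n ⊆ gl D A B t n :=
  flat_mono D subset_union_left n

/-- everything of `S_{t+1}` is absorbed by `A ∩ S_t` -/
theorem gl_subset_fl (A B : Finset α) (t n : ℕ) : gl D A B (t + 1) n ⊆ fl D A t n := by
  unfold gl fl
  have h : (chain (op D) A (t + 1) univ) ⊆ K D (A ∩ chain (op D) A t univ) := by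
    rw [chain_succ, next, op_K]
    exact inter_subset_right
  rw [← flat_abs D h n]
  refine flat_mono D ?_ n
  refine union_subset ?_ ?_
  · refine (inter_subset_right.trans ?_).trans subset_union_right
    rw [chain_succ]
    exact next_subset _ _ _
  · exact (inter_subset_right.trans sdiff_subset).trans subset_union_right

theorem good_iff {A B : Finset α} {y : α} {t : ℕ} :
    Good (op D) y A B univ t ↔ Exit D A y t ∧ y ∉ D.c (D.cls y) (gl D A B t (D.cls y)) := by
  rw [exit_iff]
  unfold Good fl gl
  rw [op_K, mem_K, op_K, mem_K]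
  tauto

/-- the exit is unique -/
theorem exit_unique {A : Finset α} {y : α} {t t' : ℕ} (h : Exit D A y t) (h' : Exit D A y t') :
    t = t' := by
  have key : ∀ t t' : ℕ, t < t' → Exit D A y t → Exit D A y t' → False := by
    intro t t' hlt h h'
    have : ∀ d, chain (op D) A (t + 1 + d) univ ⊆ chain (op D) A (t + 1) univ := by
      intro d
      induction d with
      | zero => exact subset_rfl
      | succ d ih =>
        rw [show t + 1 + (d + 1) = (t + 1 + d) + 1 by omega, chain_succ]
        exact (next_subset _ _ _).trans ih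
    obtain ⟨d, rfl⟩ : ∃ d, t' = t + 1 + d := ⟨t' - (t + 1), by omega⟩
    exact h.2 (this d h'.1)
  rcases lt_trichotomy t t' with h1 | h1 | h1
  · exact (key t t' h1 h h').elim
  · exact h1
  · exact (key t' t h1 h' h).elim

open Classical in
/-- **Theorem 1, operator form**: an element `y` which is not in `c (cls y) (flat (cls y) ∅)` is in
`B \ A` and at its exit `t` it is not in `c (cls y) (g_t)`, with probability at least
`p (1 - p) / 2` -/
theorem half_le_cls {p : α → ℝ} (h0 : ∀ a, 0 ≤ p a) (h1 : ∀ a, p a ≤ 1) {y : α}
    (he : y ∉ D.c (D.cls y) (flat D (D.cls y) ∅)) :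
    p y * (1 - p y) / 2 ≤ ∑ A, ∑ B, w p A * w p B *
      (if y ∉ A ∧ y ∈ B ∧ ∃ t, Exit D A y t ∧ y ∉ D.c (D.cls y) (gl D A B t (D.cls y))
        then (1 : ℝ) else 0) := by
  have := half_le_online (op D) h0 h1 (y := y) (by rwa [op_K, mem_K])
  simpa only [good_iff] using this

end Crest.Agent.R305.Cls310
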