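import Crest.Agent.R305.TopDef_137

/-!
# R305: the sum over ALL classes (helper621)

On the names of `TopDef_137`. No selection of classes: the per-class bounds are summed with the
weights `Λ ^ n`; the candidates are controlled by the one-element exchange `e ∈ T ↔ e ∉ T`, the
heavier classes by a geometric sum.
-/

set_option autoImplicit false
set_option linter.unusedSectionVars false

namespace Crest.Agent.R305.Cls621

open Finset Dep310 Kd447 TopDef137

variable {α : Type*} [Fintype α] [DecidableEq α]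

/-! ### greedy bases -/

section grd

variable {R : RankFn α} {pos : α → ℕ}

theorem mem_grd {S : Finset α} {e : α} :
    e ∈ grd R pos S ↔ e ∈ S ∧ e ∉ R.cl (below pos S e) := by
  simp [grd]

theorem grd_subset (S : Finset α) : grd R pos S ⊆ S := filter_subset _ _

theorem below_mono {S T : Finset α} (h : S ⊆ T) (e : α) : below pos S e ⊆ below pos T e :=
  filter_subset_filter _ h

/-- **rank formula**: prefixes of the greedy basis -/
theorem card_grd_prefix (hpos : Function.Injective pos) (S : Finset α) (m : ℕ) :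
    ((grd R pos S).filter fun e => pos e < m).card = R.r (S.filter fun e => pos e < m) := by
  induction m with
  | zero => simp [R.r_empty]
  | succ m ih =>
    by_cases hx : ∃ x ∈ S, pos x = m
    · obtain ⟨x, hxS, hxm⟩ := hx
      have h1 : (S.filter fun e => pos e < m + 1) = insert x (S.filter fun e => pos e < m) := by
        ext e
        simp only [mem_filter, mem_insert]
        constructor
        · rintro ⟨he, h⟩
          by_cases h2 : pos e = m
          · left; exact hpos (h2.trans hxm.symm)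
          · right; exact ⟨he, by omega⟩
        · rintro (rfl | ⟨he, h⟩)
          · exact ⟨hxS, by omega⟩
          · exact ⟨he, by omega⟩
      have h2 : below pos S x = S.filter fun e => pos e < m := by rw [below, hxm]
      by_cases hc : x ∈ R.cl (S.filter fun e => pos e < m)
      · have h3 : ((grd R pos S).filter fun e => pos e < m + 1) =
            (grd R pos S).filter fun e => pos e < m := by
          ext e
          simp only [mem_filter]
          constructor
          · rintro ⟨he, h⟩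
            refine ⟨he, ?_⟩
            by_contra h4
            have : e = x := hpos (by omega)
            subst this
            rw [mem_grd, h2] at he
            exact he.2 hc
          · rintro ⟨he, h⟩; exact ⟨he, by omega⟩
        rw [h3, ih, h1]
        exact (R.mem_cl.1 hc).symm
      · have h3 : ((grd R pos S).filter fun e => pos e < m + 1) =
            insert x ((grd R pos S).filter fun e => pos e < m) := by
          ext e
          simp only [mem_filter, mem_insert]
          constructor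
          · rintro ⟨he, h⟩
            by_cases h4 : pos e = m
            · left; exact hpos (h4.trans hxm.symm)
            · right; exact ⟨he, by omega⟩
          · rintro (rfl | ⟨he, h⟩)
            · refine ⟨mem_grd.2 ⟨hxS, ?_⟩, by omega⟩
              rwa [h2]
            · exact ⟨he, by omega⟩
        rw [h3, card_insert_of_notMem (by simp [hxm]), ih, h1]
        exact (R.notMem_cl.1 hc).symm
    · have h1 : (S.filter fun e => pos e < m + 1) = S.filter fun e => pos e < m := by
        ext e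
        simp only [mem_filter]
        constructor
        · rintro ⟨he, h⟩
          refine ⟨he, ?_⟩
          by_contra h4
          exact hx ⟨e, he, by omega⟩
        · rintro ⟨he, h⟩; exact ⟨he, by omega⟩
      have h2 : ((grd R pos S).filter fun e => pos e < m + 1) =
            (grd R pos S).filter fun e => pos e < m := by
        ext e
        simp only [mem_filter]
        constructor
        · rintro ⟨he, h⟩
          refine ⟨he, ?_⟩
          by_contra h4
          exact hx ⟨e, grd_subset S he, by omega⟩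
        · rintro ⟨he, h⟩; exact ⟨he, by omega⟩
      rw [h1, h2, ih]

theorem filter_pos_top (S : Finset α) : (S.filter fun e => pos e < univ.sup pos + 1) = S := by
  rw [filter_eq_self]
  intro a _
  exact Nat.lt_succ_of_le (Finset.le_sup (mem_univ a))

theorem card_grd (hpos : Function.Injective pos) (S : Finset α) :
    (grd R pos S).card = R.r S := by
  have := card_grd_prefix (R := R) hpos S (univ.sup pos + 1)
  rwa [filter_pos_top, filter_pos_top] at this

theorem indep_subset {I J : Finset α} (hI : R.r I = I.card) (h : J ⊆ I) : R.r J = J.card := by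
  refine le_antisymm (R.r_le_card J) ?_
  have h1 := R.r_union_le_card J (I \ J)
  rw [union_sdiff_of_subset h] at h1
  have h2 := card_sdiff_add_card_eq_card h
  omega

/-- the greedy basis is independent -/
theorem grd_indep (hpos : Function.Injective pos) (S : Finset α) :
    R.r (grd R pos S) = (grd R pos S).card := by
  have h1 : grd R pos (grd R pos S) = grd R pos S := by
    refine Subset.antisymm (grd_subset _) ?_
    intro e he
    refine mem_grd.2 ⟨he, fun h => (mem_grd.1 he).2 ?_⟩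
    exact R.cl_mono (below_mono (grd_subset S) e) h
  have h2 := card_grd (R := R) hpos (grd R pos S)
  rw [h1] at h2
  exact h2.symm

theorem card_prefix_le (hpos : Function.Injective pos) {J V : Finset α} (hJV : J ⊆ V)
    (hJ : R.r J = J.card) (m : ℕ) : (J.filter fun e => pos e < m).card ≤
      ((grd R pos V).filter fun e => pos e < m).card := by
  rw [card_grd_prefix hpos, ← indep_subset hJ (filter_subset (fun e => pos e < m) _)]
  exact R.mono (filter_subset_filter _ hJV)

/-- Abel summation along `pos` -/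
theorem abel (hpos : Function.Injective pos) {v : α → ℝ} {W : Finset α}
    (hv0 : ∀ e ∈ W, 0 ≤ v e) (hv : ∀ e ∈ W, ∀ f ∈ W, pos e < pos f → v f ≤ v e)
    {I J : Finset α} (hI : I ⊆ W) (hJ : J ⊆ W)
    (hc : ∀ m, (I.filter fun e => pos e < m).card ≤ (J.filter fun e => pos e < m).card) :
    ∑ e ∈ I, v e ≤ ∑ e ∈ J, v e := by
  have key : ∀ m : ℕ, ∀ c : ℝ, 0 ≤ c → (∀ e ∈ W, pos e < m → c ≤ v e) →
      c * (((J.filter fun e => pos e < m).card : ℝ) - ((I.filter fun e => pos e < m).card : ℝ)) ≤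
      ∑ e ∈ J.filter (fun e => pos e < m), v e - ∑ e ∈ I.filter (fun e => pos e < m), v e := by
    intro m
    induction m with
    | zero => intro c _ _; simp
    | succ m ih =>
      intro c hc0 hcv
      by_cases hx : ∃ x ∈ W, pos x = m
      · obtain ⟨x, hxW, hx⟩ := hx
        have h1 : ∀ S : Finset α, (((S.filter fun e => pos e < m + 1).card : ℕ) : ℝ) =
            ((S.filter fun e => pos e < m).card : ℝ) + (if x ∈ S then 1 else 0) := by
          intro S
          have h2 : (S.filter fun e => pos e < m + 1) =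
              (S.filter fun e => pos e < m) ∪ (if x ∈ S then {x} else ∅) := by
            ext e
            by_cases hxS : x ∈ S
            · simp only [hxS, if_true, mem_filter, mem_union, mem_singleton]
              constructor
              · rintro ⟨he, h⟩
                by_cases h4 : pos e = m
                · right; exact hpos (h4.trans hx.symm)
                · left; exact ⟨he, by omega⟩
              · rintro (⟨he, h⟩ | rfl)
                · exact ⟨he, by omega⟩
                · exact ⟨hxS, by omega⟩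
            · simp only [hxS, if_false, mem_filter, union_empty]
              constructor
              · rintro ⟨he, h⟩
                refine ⟨he, ?_⟩
                by_contra h4
                have : e = x := hpos (by omega)
                exact hxS (this ▸ he)
              · rintro ⟨he, h⟩; exact ⟨he, by omega⟩
          rw [h2, card_union_of_disjoint]
          · by_cases hxS : x ∈ S <;> simp [hxS]
          · by_cases hxS : x ∈ S
            · simp [hxS, hx]
            · simp [hxS]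
        have h3 : ∀ S : Finset α, ∑ e ∈ S.filter (fun e => pos e < m + 1), v e =
            ∑ e ∈ S.filter (fun e => pos e < m), v e + v x * (if x ∈ S then 1 else 0) := by
          intro S
          rw [Finset.sum_filter, Finset.sum_filter]
          have h4 : ∀ e ∈ S, (if pos e < m + 1 then v e else 0) =
              (if pos e < m then v e else 0) + (if e = x then v x else 0) := by
            intro e _
            by_cases h5 : e = x
            · subst h5; simp [hx]
            · have : pos e ≠ m := fun h => h5 (hpos (h.trans hx.symm))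
              by_cases h6 : pos e < m
              · simp [h5, h6, Nat.lt_succ_of_lt h6]
              · simp [h5, h6, show ¬ pos e < m + 1 by omega]
          rw [Finset.sum_congr rfl h4, Finset.sum_add_distrib, Finset.sum_ite_eq']
          by_cases h5 : x ∈ S <;> simp [h5]
        have h6 := ih (v x) (hv0 x hxW) (fun e he hlt => hv e he x hxW (by omega))
        have h7 := h1 I
        have h8 := h1 J
        have h9 : ((I.filter fun e => pos e < m + 1).card : ℝ) ≤
            ((J.filter fun e => pos e < m + 1).card : ℝ) := by exact_mod_cast hc (m + 1)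
        have h10 : c ≤ v x := hcv x hxW (by omega)
        rw [h3, h3]
        have h11 : c * (((J.filter fun e => pos e < m + 1).card : ℝ) -
            ((I.filter fun e => pos e < m + 1).card : ℝ)) ≤ v x *
            (((J.filter fun e => pos e < m + 1).card : ℝ) -
            ((I.filter fun e => pos e < m + 1).card : ℝ)) :=
          mul_le_mul_of_nonneg_right h10 (by linarith)
        refine h11.trans ?_
        rw [h7, h8]
        linarith
      · have h1 : ∀ S ⊆ W, (S.filter fun e => pos e < m + 1) =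
            S.filter fun e => pos e < m := by
          intro S hS
          ext e
          simp only [mem_filter]
          constructor
          · rintro ⟨he, h⟩
            refine ⟨he, ?_⟩
            by_contra h4
            exact hx ⟨e, hS he, by omega⟩
          · rintro ⟨he, h⟩; exact ⟨he, by omega⟩
        rw [h1 I hI, h1 J hJ]
        exact ih c hc0 (fun e he hlt => hcv e he (by omega))
  have := key (univ.sup pos + 1) 0 le_rfl (fun e he _ => hv0 e he)
  rw [filter_pos_top, filter_pos_top] at this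
  linarith

/-- **greedy optimality** -/
theorem greedy_max (hpos : Function.Injective pos) {v : α → ℝ} {W : Finset α}
    (hv0 : ∀ e ∈ W, 0 ≤ v e) (hv : ∀ e ∈ W, ∀ f ∈ W, pos e < pos f → v f ≤ v e)
    {J : Finset α} (hJW : J ⊆ W) (hJ : R.r J = J.card) :
    ∑ e ∈ J, v e ≤ ∑ e ∈ grd R pos W, v e :=
  abel hpos hv0 hv hJW (grd_subset W) (card_prefix_le hpos hJW hJ)

end grd

/-! ### expectations over the sample `T` -/

section exp

variable (I : Inst α)

/-- the indicator that `e` is not spanned by the heavier elements of `T ∩ Vd` -/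
def ind (e : α) (T : Finset α) : ℝ :=
  if e ∈ I.Vd ∧ e ∉ I.M.cl (below I.pos (T ∩ I.Vd) e) then 1 else 0

theorem ind_congr (e : α) {A A' : Finset α} (h : ∀ a, a ≠ e → (a ∈ A ↔ a ∈ A')) :
    ind I e A = ind I e A' := by
  have : below I.pos (A ∩ I.Vd) e = below I.pos (A' ∩ I.Vd) e := by
    ext f
    simp only [below, mem_filter, mem_inter]
    constructor
    · rintro ⟨⟨h1, h3⟩, h2⟩
      exact ⟨⟨(h f (by rintro rfl; exact lt_irrefl _ h2)).1 h1, h3⟩, h2⟩
    · rintro ⟨⟨h1, h3⟩, h2⟩
      exact ⟨⟨(h f (by rintro rfl; exact lt_irrefl _ h2)).2 h1, h3⟩, h2⟩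
  unfold ind
  rw [this]

theorem mem_cand {T : Finset α} {e : α} :
    e ∈ cand I T ↔ e ∈ I.Vd ∧ e ∉ T ∧ e ∉ I.M.cl (below I.pos (T ∩ I.Vd) e) := by
  simp [cand]

theorem mem_opt {e : α} : e ∈ opt I ↔ e ∈ I.Vd ∧ e ∉ I.M.cl (below I.pos I.Vd e) := by
  simp [opt, grd]

theorem opt_sdiff_subset (T : Finset α) : opt I \ T ⊆ cand I T := by
  intro e he
  rw [mem_sdiff, mem_opt] at he
  rw [mem_cand]
  exact ⟨he.1.1, he.2, fun h => he.1.2 (I.M.cl_mono (below_mono inter_subset_right e) h)⟩

theorem sum_mem_basis (p : α → ℝ) (e : α) :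
    ∑ T, w p T * (if e ∈ grd I.M I.pos (T ∩ I.Vd) then 1 else 0) =
      p e * ∑ T, w p T * ind I e T := by
  rw [← sum_mem_mul p e _ (fun A A' h => ind_congr I e h)]
  refine Finset.sum_congr rfl fun T _ => ?_
  congr 1
  by_cases h : e ∈ T <;> by_cases hV : e ∈ I.Vd <;>
    by_cases h2 : e ∈ I.M.cl (below I.pos (T ∩ I.Vd) e) <;> simp [mem_grd, ind, h, h2, hV]

theorem sum_mem_cand (p : α → ℝ) (e : α) :
    ∑ T, w p T * (if e ∈ cand I T then 1 else 0) = (1 - p e) * ∑ T, w p T * ind I e T := by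
  have h1 := sum_mem_basis I p e
  have h2 : ∀ T : Finset α, w p T * (if e ∈ cand I T then 1 else 0) =
      w p T * ind I e T - w p T * (if e ∈ grd I.M I.pos (T ∩ I.Vd) then 1 else 0) := by
    intro T
    by_cases h : e ∈ T <;> by_cases hV : e ∈ I.Vd <;>
      by_cases h2 : e ∈ I.M.cl (below I.pos (T ∩ I.Vd) e) <;>
      simp [mem_grd, mem_cand, ind, h, h2, hV]
  rw [Finset.sum_congr rfl fun T _ => h2 T, Finset.sum_sub_distrib, h1]
  ring

/-- one-element exchange -/
theorem swap {p : α → ℝ} {τ : ℝ} (e : α) (hp : p e = τ) :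
    τ * ∑ T, w p T * (if e ∈ cand I T then 1 else 0) =
      (1 - τ) * ∑ T, w p T * (if e ∈ grd I.M I.pos (T ∩ I.Vd) then 1 else 0) := by
  rw [sum_mem_cand, sum_mem_basis, hp]
  ring

theorem sum_not_mem (p : α → ℝ) (e : α) :
    ∑ T, w p T * (if e ∉ T then 1 else 0) = 1 - p e := by
  have h2 : ∀ T : Finset α, w p T * (if e ∉ T then 1 else 0) =
      w p T - w p T * (if e ∈ T then 1 else 0) := by
    intro T
    by_cases h : e ∈ T <;> simp [h]
  have h3 := Dep310.sum_mem p e
  rw [Finset.sum_congr rfl fun T _ => h2 T, Finset.sum_sub_distrib, sum_w]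
  congr 1

/-- expectation of a sum over a random set -/
theorem sum_w_sum (p : α → ℝ) (S : Finset α → Finset α) (f : α → ℝ) :
    ∑ T, w p T * ∑ e ∈ S T, f e = ∑ e, f e * ∑ T, w p T * (if e ∈ S T then 1 else 0) := by
  have h1 : ∀ T : Finset α, w p T * ∑ e ∈ S T, f e =
      ∑ e, f e * (w p T * (if e ∈ S T then 1 else 0)) := by
    intro T
    have h2 : ∑ e ∈ S T, f e = ∑ e, if e ∈ S T then f e else 0 := by
      rw [← Finset.sum_filter, Finset.filter_univ_mem]
    rw [h2, Finset.mul_sum]
    refine Finset.sum_congr rfl fun e _ => ?_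
    by_cases h : e ∈ S T <;> simp [h, mul_comm]
  rw [Finset.sum_congr rfl fun T _ => h1 T, Finset.sum_comm]
  refine Finset.sum_congr rfl fun e _ => ?_
  rw [Finset.mul_sum]

/-- the expected value of `opt \ T` -/
theorem exp_opt {p : α → ℝ} {τ : ℝ} (hp : ∀ e, p e = τ) (f : α → ℝ) :
    ∑ T, w p T * ∑ e ∈ opt I \ T, f e = (1 - τ) * ∑ e ∈ opt I, f e := by
  rw [sum_w_sum p (fun T => opt I \ T) f]
  have h1 : ∀ e, f e * ∑ T, w p T * (if e ∈ opt I \ T then (1 : ℝ) else 0) =
      if e ∈ opt I then f e * (1 - τ) else 0 := by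
    intro e
    by_cases h : e ∈ opt I
    · have h2 : ∀ T : Finset α, w p T * (if e ∈ opt I \ T then (1 : ℝ) else 0) =
          w p T * (if e ∉ T then 1 else 0) := by
        intro T; simp [h]
      rw [if_pos h, ← hp e, ← sum_not_mem p e, Finset.sum_congr rfl fun T _ => h2 T]
    · simp [h]
  rw [Finset.sum_congr rfl fun e _ => h1 e, ← Finset.sum_filter, Finset.filter_univ_mem,
    Finset.mul_sum]
  exact Finset.sum_congr rfl fun e _ => mul_comm _ _

/-- **(L3c)** expected value of the candidates -/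
theorem exp_cand_le {v : α → ℝ} (hv0 : ∀ e ∈ I.Vd, 0 ≤ v e)
    (hv : ∀ e ∈ I.Vd, ∀ f ∈ I.Vd, I.pos e < I.pos f → v f ≤ v e) {p : α → ℝ} {τ : ℝ}
    (hp : ∀ e, p e = τ) (hτ : 0 < τ) (hτ1 : τ ≤ 1) :
    ∑ T, w p T * ∑ e ∈ cand I T, v e ≤ (1 - τ) / τ * ∑ e ∈ opt I, v e := by
  have hw : ∀ T, 0 ≤ w p T :=
    w_nonneg (fun a => by rw [hp]; exact hτ.le) (fun a => by rw [hp]; exact hτ1)
  have h1 : τ * ∑ T, w p T * ∑ e ∈ cand I T, v e =
      (1 - τ) * ∑ T, w p T * ∑ e ∈ grd I.M I.pos (T ∩ I.Vd), v e := by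
    rw [sum_w_sum p (fun T => cand I T) v, sum_w_sum p (fun T => grd I.M I.pos (T ∩ I.Vd)) v,
      Finset.mul_sum, Finset.mul_sum]
    refine Finset.sum_congr rfl fun e _ => ?_
    have := swap I (p := p) e (hp e)
    calc τ * (v e * ∑ T, w p T * (if e ∈ cand I T then (1 : ℝ) else 0))
        = v e * (τ * ∑ T, w p T * (if e ∈ cand I T then (1 : ℝ) else 0)) := by ring
      _ = v e * ((1 - τ) *
            ∑ T, w p T * (if e ∈ grd I.M I.pos (T ∩ I.Vd) then (1 : ℝ) else 0)) := by rw [this]
      _ = _ := by ring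
  have h2 : ∑ T, w p T * ∑ e ∈ grd I.M I.pos (T ∩ I.Vd), v e ≤ ∑ e ∈ opt I, v e := by
    calc ∑ T, w p T * ∑ e ∈ grd I.M I.pos (T ∩ I.Vd), v e
        ≤ ∑ T, w p T * ∑ e ∈ opt I, v e :=
          Finset.sum_le_sum fun T _ => mul_le_mul_of_nonneg_left
            (greedy_max I.inj hv0 hv ((grd_subset _).trans inter_subset_right)
              (grd_indep I.inj (T ∩ I.Vd))) (hw T)
      _ = ∑ e ∈ opt I, v e := by rw [← Finset.sum_mul, sum_w, one_mul]
  have h3 : ∑ T, w p T * ∑ e ∈ cand I T, v e =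
      (1 - τ) / τ * ∑ T, w p T * ∑ e ∈ grd I.M I.pos (T ∩ I.Vd), v e := by
    rw [div_mul_eq_mul_div, eq_div_iff hτ.ne', mul_comm, h1]
  rw [h3]
  exact mul_le_mul_of_nonneg_left h2 (div_nonneg (by linarith) hτ.le)

end exp

/-! ### sums over the classes -/

theorem sum_class (u : ℕ → ℝ) (κ : α → ℕ) {N : ℕ} (S : Finset α) (hN : ∀ a ∈ S, κ a < N) :
    ∑ n ∈ range N, u n * ((S.filter fun e => κ e = n).card : ℝ) = ∑ e ∈ S, u (κ e) := by
  have h1 : ∀ n ∈ range N, u n * ((S.filter fun e => κ e = n).card : ℝ) =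
      ∑ e ∈ S.filter (fun e => κ e = n), u (κ e) := by
    intro n _
    rw [Finset.sum_congr rfl (g := fun _ => u n) (fun e he => by rw [(mem_filter.1 he).2]),
      Finset.sum_const, nsmul_eq_mul, mul_comm]
  rw [Finset.sum_congr rfl h1, Finset.sum_fiberwise_of_maps_to]
  intro e he
  exact mem_range.2 (hN e he)

theorem sum_heavier {u : ℕ → ℝ} {κ : α → ℕ} {θ : ℝ}
    (hθ : ∀ m, ∑ n ∈ range m, u n ≤ θ * u m) {N : ℕ} (S : Finset α) (hN : ∀ a ∈ S, κ a < N) :
    ∑ n ∈ range N, u n * ((S.filter fun e => n < κ e).card : ℝ) ≤ θ * ∑ e ∈ S, u (κ e) := by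
  have h1 : ∀ n ∈ range N, u n * ((S.filter fun e => n < κ e).card : ℝ) =
      ∑ e ∈ S, if n < κ e then u n else 0 := by
    intro n _
    rw [← Finset.sum_filter, Finset.sum_const, nsmul_eq_mul, mul_comm]
  rw [Finset.sum_congr rfl h1, Finset.sum_comm, Finset.mul_sum]
  refine Finset.sum_le_sum fun e he => ?_
  rw [← Finset.sum_filter]
  refine le_trans (le_of_eq ?_) (hθ (κ e))
  refine Finset.sum_congr ?_ fun _ _ => rfl
  ext n
  have := hN e he
  simp only [mem_filter, mem_range]
  omega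

theorem geo {Λ : ℝ} (hΛ : 1 < Λ) (m : ℕ) : ∑ n ∈ range m, Λ ^ n ≤ 1 / (Λ - 1) * Λ ^ m := by
  have h1 : 0 < Λ - 1 := by linarith
  rw [geom_sum_eq hΛ.ne', div_mul_eq_mul_div, one_mul]
  exact div_le_div_of_nonneg_right (by linarith) h1.le

section main

variable (I : Inst α) {Λ : ℝ} (hΛ : 1 < Λ)
include hΛ

theorem pow_anti : ∀ e ∈ I.Vd, ∀ f ∈ I.Vd, I.pos e < I.pos f → Λ ^ I.cls f ≤ Λ ^ I.cls e :=
  fun e he f hf h => pow_le_pow_right₀ hΛ.le (I.anti e he f hf h)

/-- `opt` is optimal -/
theorem opt_max {J : Finset α} (hJ : J ⊆ I.Vd) (hJi : I.M.r J = J.card) :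
    ∑ e ∈ J, Λ ^ I.cls e ≤ ∑ e ∈ opt I, Λ ^ I.cls e :=
  greedy_max I.inj (fun _ _ => pow_nonneg (by linarith) _) (pow_anti I hΛ) hJ hJi

/-- **ALL CLASSES AT ONCE**: per-class bounds for every sample `T`, summed with `Λ ^ n`. -/
theorem class_sum {τ : ℝ} (hτ : 0 < τ) (hτ1 : τ ≤ 1) {c1 c2 c3 : ℝ} (h2 : 0 ≤ c2) (h3 : 0 ≤ c3)
    {N : ℕ} (hN : ∀ a ∈ I.Vd, I.cls a < N) (V : Finset α → ℕ → ℝ)
    (hV : ∀ T, ∀ n < N, c1 * ((On I T n).card : ℝ) - c2 * ((En I T n).card : ℝ)
      - c3 * (((cand I T).filter fun e => n < I.cls e).card : ℝ) ≤ V T n) :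
    ((1 - τ) * c1 - (c2 + c3 / (Λ - 1)) * ((1 - τ) / τ)) * ∑ e ∈ opt I, Λ ^ I.cls e ≤
      ∑ T, w (fun _ => τ) T * ∑ n ∈ range N, Λ ^ n * V T n := by
  set p : α → ℝ := fun _ => τ with hp'
  have hp : ∀ e, p e = τ := fun _ => rfl
  have hw : ∀ T, 0 ≤ w p T := w_nonneg (fun _ => hτ.le) (fun _ => hτ1)
  have h0 : (0 : ℝ) < Λ := by linarith
  have hΛ1 : 0 < Λ - 1 := by linarith
  -- summation over the classes, fixed `T`
  have key : ∀ T, c1 * ∑ e ∈ opt I \ T, Λ ^ I.cls e
      - (c2 + c3 / (Λ - 1)) * ∑ e ∈ cand I T, Λ ^ I.cls e ≤ ∑ n ∈ range N, Λ ^ n * V T n := by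
    intro T
    have e1 := sum_class (fun n => Λ ^ n) I.cls (N := N) (opt I \ T)
      (fun a ha => hN a (mem_opt I |>.1 (mem_sdiff.1 ha).1).1)
    have e2 := sum_class (fun n => Λ ^ n) I.cls (N := N) (cand I T)
      (fun a ha => hN a (mem_cand I |>.1 ha).1)
    have e3 := sum_heavier (κ := I.cls) (geo hΛ) (N := N) (cand I T)
      (fun a ha => hN a (mem_cand I |>.1 ha).1)
    calc c1 * ∑ e ∈ opt I \ T, Λ ^ I.cls e - (c2 + c3 / (Λ - 1)) * ∑ e ∈ cand I T, Λ ^ I.cls e
        = c1 * ∑ e ∈ opt I \ T, Λ ^ I.cls e - c2 * ∑ e ∈ cand I T, Λ ^ I.cls e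
          - c3 * (1 / (Λ - 1) * ∑ e ∈ cand I T, Λ ^ I.cls e) := by ring
      _ ≤ c1 * ∑ n ∈ range N, Λ ^ n * (((opt I \ T).filter fun e => I.cls e = n).card : ℝ)
          - c2 * ∑ n ∈ range N, Λ ^ n * (((cand I T).filter fun e => I.cls e = n).card : ℝ)
          - c3 * ∑ n ∈ range N, Λ ^ n * (((cand I T).filter fun e => n < I.cls e).card : ℝ) := by
            rw [e1, e2]
            have := mul_le_mul_of_nonneg_left e3 h3
            linarith
      _ = ∑ n ∈ range N, Λ ^ n * (c1 * ((On I T n).card : ℝ) - c2 * ((En I T n).card : ℝ)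
          - c3 * (((cand I T).filter fun e => n < I.cls e).card : ℝ)) := by
            rw [Finset.mul_sum, Finset.mul_sum, Finset.mul_sum, ← Finset.sum_sub_distrib,
              ← Finset.sum_sub_distrib]
            refine Finset.sum_congr rfl fun n _ => ?_
            simp only [On, En]
            ring
      _ ≤ _ := Finset.sum_le_sum fun n hn => mul_le_mul_of_nonneg_left
            (hV T n (mem_range.1 hn)) (pow_nonneg h0.le n)
  have s1 := exp_opt I hp (fun e => Λ ^ I.cls e)
  have s2 := exp_cand_le I (fun _ _ => pow_nonneg h0.le _) (pow_anti I hΛ) hp hτ hτ1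
  have hc : 0 ≤ c2 + c3 / (Λ - 1) := by positivity
  calc ((1 - τ) * c1 - (c2 + c3 / (Λ - 1)) * ((1 - τ) / τ)) * ∑ e ∈ opt I, Λ ^ I.cls e
      = c1 * ((1 - τ) * ∑ e ∈ opt I, Λ ^ I.cls e)
        - (c2 + c3 / (Λ - 1)) * ((1 - τ) / τ * ∑ e ∈ opt I, Λ ^ I.cls e) := by ring
    _ ≤ c1 * (∑ T, w p T * ∑ e ∈ opt I \ T, Λ ^ I.cls e)
        - (c2 + c3 / (Λ - 1)) * (∑ T, w p T * ∑ e ∈ cand I T, Λ ^ I.cls e) := by
          rw [s1]
          have := mul_le_mul_of_nonneg_left s2 hc
          linarith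
    _ = ∑ T, w p T * (c1 * ∑ e ∈ opt I \ T, Λ ^ I.cls e
      - (c2 + c3 / (Λ - 1)) * ∑ e ∈ cand I T, Λ ^ I.cls e) := by
          rw [Finset.mul_sum, Finset.mul_sum, ← Finset.sum_sub_distrib]
          exact Finset.sum_congr rfl fun T _ => by ring
    _ ≤ _ := Finset.sum_le_sum fun T _ => mul_le_mul_of_nonneg_left (key T) (hw T)

/-- the same for every independent set of valid elements -/
theorem class_sum_indep {τ : ℝ} (hτ : 0 < τ) (hτ1 : τ ≤ 1) {c1 c2 c3 : ℝ} (h2 : 0 ≤ c2)
    (h3 : 0 ≤ c3) {N : ℕ} (hN : ∀ a ∈ I.Vd, I.cls a < N) (V : Finset α → ℕ → ℝ)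
    (hV : ∀ T, ∀ n < N, c1 * ((On I T n).card : ℝ) - c2 * ((En I T n).card : ℝ)
      - c3 * (((cand I T).filter fun e => n < I.cls e).card : ℝ) ≤ V T n)
    {c : ℝ} (hc0 : 0 ≤ c) (hc : c ≤ (1 - τ) * c1 - (c2 + c3 / (Λ - 1)) * ((1 - τ) / τ))
    {J : Finset α} (hJ : J ⊆ I.Vd) (hJi : I.M.r J = J.card) :
    c * ∑ e ∈ J, Λ ^ I.cls e ≤ ∑ T, w (fun _ => τ) T * ∑ n ∈ range N, Λ ^ n * V T n := by
  refine le_trans ?_ (class_sum I hΛ hτ hτ1 h2 h3 hN V hV)
  have h4 : 0 ≤ ∑ e ∈ opt I, Λ ^ I.cls e :=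
    Finset.sum_nonneg fun _ _ => pow_nonneg (by linarith) _
  exact mul_le_mul hc (opt_max I hΛ hJ hJi) (Finset.sum_nonneg fun _ _ => pow_nonneg (by linarith) _)
    (hc0.trans hc)

end main

/-! ### back to the class vector `q` -/

section val

variable (I : Inst α) {Λ : ℝ} (q : α → Option ℤ) (s : ℤ) (v : α → ℝ)

/-- values of a set of valid elements, class by class; `v e = Λ ^ (s + cls e)` -/
theorem sum_val (hΛ : 0 < Λ) (hv : ∀ e ∈ I.Vd, v e = Λ ^ (s + I.cls e)) {N : ℕ}
    (hN : ∀ a ∈ I.Vd, I.cls a < N) {A : Finset α} (hA : A ⊆ I.Vd) :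
    ∑ e ∈ A, v e = Λ ^ s * ∑ n ∈ range N, Λ ^ n * ((A.filter fun e => I.cls e = n).card : ℝ) := by
  rw [sum_class (fun n => Λ ^ n) I.cls A (fun a ha => hN a (hA ha)), Finset.mul_sum]
  refine Finset.sum_congr rfl fun e he => ?_
  rw [hv e (hA he), zpow_add₀ hΛ.ne', zpow_natCast]

/-- **VALUE**: seeds `r` with weights `μ r`, accepted sets `Acc r`; the seed contains the sample
`T`, so that the expected number of accepted elements of class `n` is `∑ T, w T * V T n`. -/
theorem value (hΛ : 1 < Λ) (hv : ∀ e ∈ I.Vd, v e = Λ ^ (s + I.cls e)) {N : ℕ}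
    (hN : ∀ a ∈ I.Vd, I.cls a < N) {τ : ℝ} (hτ : 0 < τ) (hτ1 : τ ≤ 1) {c1 c2 c3 : ℝ}
    (h2 : 0 ≤ c2) (h3 : 0 ≤ c3) (V : Finset α → ℕ → ℝ)
    (hV : ∀ T, ∀ n < N, c1 * ((On I T n).card : ℝ) - c2 * ((En I T n).card : ℝ)
      - c3 * (((cand I T).filter fun e => n < I.cls e).card : ℝ) ≤ V T n)
    {Ω : Type*} [Fintype Ω] (μ : Ω → ℝ) (Acc : Ω → Finset α) (hAcc : ∀ r, Acc r ⊆ I.Vd)
    (hVμ : ∀ n < N, ∑ T, w (fun _ => τ) T * V T n ≤
      ∑ r, μ r * (((Acc r).filter fun e => I.cls e = n).card : ℝ))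
    {c : ℝ} (hc0 : 0 ≤ c) (hc : c ≤ (1 - τ) * c1 - (c2 + c3 / (Λ - 1)) * ((1 - τ) / τ))
    {J : Finset α} (hJ : J ⊆ I.Vd) (hJi : I.M.r J = J.card) :
    c * ∑ e ∈ J, v e ≤ ∑ r, μ r * ∑ e ∈ Acc r, v e := by
  have h0 : (0 : ℝ) < Λ := by linarith
  have k1 := class_sum_indep I hΛ hτ hτ1 h2 h3 hN V hV hc0 hc hJ hJi
  have k2 : ∑ e ∈ J, v e = Λ ^ s * ∑ e ∈ J, Λ ^ I.cls e := by
    rw [Finset.mul_sum]
    refine Finset.sum_congr rfl fun e he => ?_
    rw [hv e (hJ he), zpow_add₀ h0.ne', zpow_natCast]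
  have k3 : ∑ r, μ r * ∑ e ∈ Acc r, v e = Λ ^ s * ∑ n ∈ range N, Λ ^ n *
      ∑ r, μ r * (((Acc r).filter fun e => I.cls e = n).card : ℝ) := by
    calc ∑ r, μ r * ∑ e ∈ Acc r, v e
        = ∑ r, μ r * (Λ ^ s * ∑ n ∈ range N, Λ ^ n *
            (((Acc r).filter fun e => I.cls e = n).card : ℝ)) :=
          Finset.sum_congr rfl fun r _ => by rw [sum_val I s v h0 hv hN (hAcc r)]
      _ = ∑ r, ∑ n ∈ range N, Λ ^ s * (Λ ^ n * (μ r *
            (((Acc r).filter fun e => I.cls e = n).card : ℝ))) := by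
          refine Finset.sum_congr rfl fun r _ => ?_
          rw [Finset.mul_sum, Finset.mul_sum]
          exact Finset.sum_congr rfl fun n _ => by ring
      _ = _ := by
          rw [Finset.sum_comm, Finset.mul_sum]
          refine Finset.sum_congr rfl fun n _ => ?_
          rw [Finset.mul_sum, Finset.mul_sum]
  have k4 : ∑ T, w (fun _ => τ) T * ∑ n ∈ range N, Λ ^ n * V T n =
      ∑ n ∈ range N, Λ ^ n * ∑ T, w (fun _ => τ) T * V T n := by
    calc ∑ T, w (fun _ => τ) T * ∑ n ∈ range N, Λ ^ n * V T n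
        = ∑ T : Finset α, ∑ n ∈ range N, Λ ^ n * (w (fun _ => τ) T * V T n) := by
          refine Finset.sum_congr rfl fun T _ => ?_
          rw [Finset.mul_sum]
          exact Finset.sum_congr rfl fun n _ => by ring
      _ = _ := by
          rw [Finset.sum_comm]
          exact Finset.sum_congr rfl fun n _ => by rw [Finset.mul_sum]
  rw [k2, k3]
  have hs : 0 ≤ Λ ^ s := zpow_nonneg h0.le s
  calc c * (Λ ^ s * ∑ e ∈ J, Λ ^ I.cls e) = Λ ^ s * (c * ∑ e ∈ J, Λ ^ I.cls e) := by ring
    _ ≤ Λ ^ s * ∑ n ∈ range N, Λ ^ n * ∑ T, w (fun _ => τ) T * V T n := by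
        rw [← k4]
        exact mul_le_mul_of_nonneg_left k1 hs
    _ ≤ _ := by
        refine mul_le_mul_of_nonneg_left (Finset.sum_le_sum fun n hn => ?_) hs
        exact mul_le_mul_of_nonneg_left (hVμ n (mem_range.1 hn)) (pow_nonneg h0.le n)

end val

end Crest.Agent.R305.Cls621
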