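import Crest.Agent.R305.Kd_447

/-!
# R305: the k-dense chain is decoded from a short code (Theorem A of helper306, doc 1793)
-/

set_option autoImplicit false
set_option linter.unusedSectionVars false

namespace Crest.Agent.R305.Code860

open Finset Crest.Agent.R305.Kd447

variable {α : Type*} [DecidableEq α] [Fintype α] (M : RankFn α)

/-! ### closure basics -/

theorem mem_cl {A : Finset α} {x : α} : x ∈ M.cl A ↔ M.r (insert x A) = M.r A := by
  simp [RankFn.cl]

theorem sub_cl (A : Finset α) : A ⊆ M.cl A := by
  intro x hx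
  rw [mem_cl, insert_eq_of_mem hx]

theorem r_insert_of_subset {A B : Finset α} (h : A ⊆ B) {x : α} (hx : M.r (insert x A) = M.r A) :
    M.r (insert x B) = M.r B := by
  have h1 := M.submod (insert x A) B
  have h2 : insert x A ∪ B = insert x B := by
    ext y; simp only [mem_union, mem_insert]
    constructor
    · rintro ((h1 | h1) | h1)
      · exact Or.inl h1
      · exact Or.inr (h h1)
      · exact Or.inr h1
    · rintro (h1 | h1)
      · exact Or.inl (Or.inl h1)
      · exact Or.inr h1
  have h3 : A ⊆ insert x A ∩ B := by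
    intro y hy
    simp only [mem_inter, mem_insert]
    exact ⟨Or.inr hy, h hy⟩
  have h4 := M.mono h3
  rw [h2] at h1
  have h5 := M.mono (subset_insert x B)
  omega

theorem cl_mono {A B : Finset α} (h : A ⊆ B) : M.cl A ⊆ M.cl B := by
  intro x hx
  rw [mem_cl] at hx ⊢
  exact r_insert_of_subset M h hx

theorem r_union_of_sub_cl {A B : Finset α} (h : B ⊆ M.cl A) : M.r (A ∪ B) = M.r A := by
  induction B using Finset.induction_on with
  | empty => simp
  | insert b B hb ih =>
    have h1 : A ∪ insert b B = insert b (A ∪ B) := by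
      ext y; simp only [mem_union, mem_insert]; tauto
    have h2 : b ∈ M.cl A := h (mem_insert_self _ _)
    rw [mem_cl] at h2
    rw [h1, r_insert_of_subset M (subset_union_left : A ⊆ A ∪ B) h2]
    exact ih ((subset_insert _ _).trans h)

theorem r_cl (A : Finset α) : M.r (M.cl A) = M.r A := by
  have h1 := r_union_of_sub_cl M (Finset.Subset.refl (M.cl A))
  rwa [union_eq_right.2 (sub_cl M A)] at h1

theorem cl_cl (A : Finset α) : M.cl (M.cl A) = M.cl A := by
  refine Finset.Subset.antisymm ?_ (sub_cl M _)
  intro x hx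
  rw [mem_cl] at hx ⊢
  rw [r_cl] at hx
  have h1 := M.mono (insert_subset_insert x (sub_cl M A))
  have h2 := M.mono (subset_insert x A)
  omega

theorem cl_sub_of_sub {A B : Finset α} (h : A ⊆ M.cl B) : M.cl A ⊆ M.cl B := by
  have := cl_mono M h
  rwa [cl_cl] at this

theorem cl_sub_flat {A F : Finset α} (hF : M.cl F = F) (h : A ⊆ F) : M.cl A ⊆ F := by
  have := cl_mono M h
  rwa [hF] at this

theorem exch {A : Finset α} {x y : α} (hx : x ∉ M.cl A) (hy : x ∈ M.cl (insert y A)) :
    y ∈ M.cl (insert x A) := by
  rw [mem_cl] at hx hy ⊢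
  have h1 := M.unit x A
  have h2 := M.unit y A
  have h3 := M.mono (subset_insert x A)
  have h4 := M.mono (subset_insert y (insert x A))
  have h5 : insert y (insert x A) = insert x (insert y A) := Finset.insert_comm _ _ _
  rw [h5] at h4 ⊢
  omega

/-! ### relative independence -/

/-- `S` is independent over `F` -/
def Ind (F S : Finset α) : Prop := M.r (F ∪ S) = M.r F + S.card

theorem r_union_le (F S : Finset α) : M.r (F ∪ S) ≤ M.r F + S.card := by
  induction S using Finset.induction_on with
  | empty => simp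
  | insert b B hb ih =>
    have h1 : F ∪ insert b B = insert b (F ∪ B) := by
      ext y; simp only [mem_union, mem_insert]; tauto
    rw [h1, card_insert_of_notMem hb]
    have := M.unit b (F ∪ B)
    omega

variable {M}

theorem Ind.empty (F : Finset α) : Ind M F ∅ := by simp [Ind]

theorem Ind.subset {F S S' : Finset α} (h : Ind M F S) (hs : S' ⊆ S) : Ind M F S' := by
  unfold Ind at *
  have h1 := r_union_le M (F ∪ S') (S \ S')
  have h2 : F ∪ S' ∪ S \ S' = F ∪ S := by
    ext y; simp only [mem_union, mem_sdiff]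
    have := @hs y
    tauto
  rw [h2, h, card_sdiff_of_subset hs] at h1
  have h3 := r_union_le M F S'
  have h4 := card_le_card hs
  omega

theorem Ind.not_mem_cl {F S : Finset α} (h : Ind M F S) {c : α} (hc : c ∈ S) :
    c ∉ M.cl (F ∪ S.erase c) := by
  intro hcl
  rw [mem_cl] at hcl
  have h1 : insert c (F ∪ S.erase c) = F ∪ S := by
    ext y; simp only [mem_union, mem_insert, mem_erase]
    constructor
    · rintro (h1 | h1 | h1)
      · exact Or.inr (h1 ▸ hc)
      · exact Or.inl h1
      · exact Or.inr h1.2
    · rintro (h1 | h1)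
      · exact Or.inr (Or.inl h1)
      · by_cases hyc : y = c
        · exact Or.inl hyc
        · exact Or.inr (Or.inr ⟨hyc, h1⟩)
  rw [h1] at hcl
  unfold Ind at h
  have h2 := r_union_le M F (S.erase c)
  have h3 := card_erase_of_mem hc
  have h4 := card_pos.2 ⟨c, hc⟩
  omega

theorem Ind.disjoint {F S : Finset α} (h : Ind M F S) : Disjoint F S := by
  rw [disjoint_right]
  intro c hc hF
  exact h.not_mem_cl hc (sub_cl M _ (mem_union_left _ hF))

theorem Ind.union {F S F' S' : Finset α} (h : Ind M F S) (h' : Ind M F' S') (hF : F ∪ S ⊆ F') :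
    Ind M F (S ∪ S') := by
  have hd : Disjoint S S' := by
    have := h'.disjoint
    exact disjoint_of_subset_left ((subset_union_right).trans hF) this
  unfold Ind at *
  have h1 := M.submod (F ∪ S ∪ S') F'
  have h2 : F ∪ S ∪ S' ∪ F' = F' ∪ S' := by
    ext y; simp only [mem_union]
    have := @hF y
    simp only [mem_union] at this
    tauto
  have h3 : F ∪ S ⊆ (F ∪ S ∪ S') ∩ F' := by
    intro y hy
    simp only [mem_inter]
    exact ⟨mem_union_left _ hy, hF hy⟩
  have h4 := M.mono h3
  rw [h2] at h1
  have h5 := r_union_le M F (S ∪ S')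
  rw [card_union_of_disjoint hd] at h5 ⊢
  rw [← union_assoc] at h5 ⊢
  omega

/-- relative basis inside `S` -/
theorem exists_basis (M : RankFn α) (F S : Finset α) :
    ∃ B ⊆ S, Ind M F B ∧ S ⊆ M.cl (F ∪ B) := by
  induction S using Finset.induction_on with
  | empty => exact ⟨∅, by simp, Ind.empty F, by simp⟩
  | insert b S hb ih =>
    obtain ⟨B, hBS, hB, hcl⟩ := ih
    by_cases hbc : b ∈ M.cl (F ∪ B)
    · exact ⟨B, hBS.trans (subset_insert _ _), hB, insert_subset hbc hcl⟩
    · refine ⟨insert b B, insert_subset_insert _ hBS, ?_, ?_⟩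
      · have hbB : b ∉ B := fun h => hb (hBS h)
        unfold Ind at *
        rw [mem_cl] at hbc
        have h1 : F ∪ insert b B = insert b (F ∪ B) := by
          ext y; simp only [mem_union, mem_insert]; tauto
        rw [h1, card_insert_of_notMem hbB]
        have h2 := M.unit b (F ∪ B)
        have h3 := M.mono (subset_insert b (F ∪ B))
        omega
      · refine insert_subset (sub_cl M _ (mem_union_right _ (mem_insert_self _ _))) ?_
        exact hcl.trans (cl_mono M (union_subset_union_right (subset_insert _ _)))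

theorem sub_cl_of_r {A X : Finset α} (h : A ⊆ X) (hr : M.r X ≤ M.r A) : X ⊆ M.cl A := by
  intro x hx
  rw [mem_cl]
  have h1 := M.mono (insert_subset hx h)
  have h2 := M.mono (subset_insert x A)
  omega

/-! ### fundamental circuits over a flat -/

/-- the fundamental circuit of `x` over `F` with respect to `C` -/
def Gc (M : RankFn α) (C F : Finset α) (x : α) : Finset α :=
  C.filter (fun c => x ∉ M.cl (F ∪ C.erase c))

theorem Gc_sub {C F : Finset α} {x : α} : Gc M C F x ⊆ C := filter_subset _ _

theorem Gc_anti {C F F' : Finset α} {x : α} (h : F ⊆ F') : Gc M C F' x ⊆ Gc M C F x := by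
  intro c hc
  simp only [Gc, mem_filter] at hc ⊢
  exact ⟨hc.1, fun h1 => hc.2 (cl_mono M (union_subset_union_left h) h1)⟩

theorem Gc_sub_of_mem {C F V : Finset α} {x : α} (hV : V ⊆ C) (hx : x ∈ M.cl (F ∪ V)) :
    Gc M C F x ⊆ V := by
  intro c hc
  simp only [Gc, mem_filter] at hc
  by_contra hcV
  refine hc.2 (cl_mono M (union_subset_union_right ?_) hx)
  intro v hv
  rw [mem_erase]
  exact ⟨fun h => hcV (h ▸ hv), hV hv⟩

theorem Gc_disj {C F : Finset α} {x : α} (hx : x ∈ M.cl (F ∪ C)) : Disjoint F (Gc M C F x) := by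
  rw [disjoint_right]
  intro c hc hF
  simp only [Gc, mem_filter] at hc
  refine hc.2 (cl_mono M ?_ hx)
  intro v hv
  rw [mem_union] at hv ⊢
  by_cases h : v = c
  · exact Or.inl (h ▸ hF)
  · rcases hv with hv | hv
    · exact Or.inl hv
    · exact Or.inr (mem_erase.2 ⟨h, hv⟩)

/-- `C \ F` is independent over `F` -/
def IndC (M : RankFn α) (C F : Finset α) : Prop := ∀ c ∈ C, c ∉ F → c ∉ M.cl (F ∪ C.erase c)

theorem mem_cl_Gc {C F : Finset α} {x : α} (h : IndC M C F) (hx : x ∈ M.cl (F ∪ C)) :
    x ∈ M.cl (F ∪ Gc M C F x) := by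
  have key : ∀ S : Finset α, S ⊆ C \ Gc M C F x → x ∈ M.cl (F ∪ (C \ S)) := by
    intro S
    induction S using Finset.induction_on with
    | empty => intro _; simpa using hx
    | insert d S hd ih =>
      intro hS
      have h1 := ih ((subset_insert _ _).trans hS)
      have h2 := hS (mem_insert_self _ _)
      rw [mem_sdiff] at h2
      have h3 : x ∈ M.cl (F ∪ C.erase d) := by
        by_contra h4
        exact h2.2 (by simp only [Gc, mem_filter]; exact ⟨h2.1, h4⟩)
      by_contra h4
      have h5 : F ∪ (C \ S) = insert d (F ∪ (C \ insert d S)) := by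
        ext y
        simp only [mem_union, mem_sdiff, mem_insert]
        by_cases hy : y = d
        · subst hy; tauto
        · tauto
      rw [h5] at h1
      have h6 := exch M h4 h1
      have h7 : insert x (F ∪ (C \ insert d S)) ⊆ M.cl (F ∪ C.erase d) := by
        refine insert_subset h3 ?_
        refine Finset.Subset.trans ?_ (sub_cl M _)
        intro y hy
        simp only [mem_union, mem_sdiff, mem_insert, mem_erase] at hy ⊢
        tauto
      have h8 := cl_sub_of_sub M h7 h6
      by_cases hdF : d ∈ F
      · apply h4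
        have h9 : F ∪ (C \ insert d S) = insert d (F ∪ (C \ insert d S)) := by
          rw [insert_eq_of_mem (mem_union_left _ hdF)]
        rw [h9]; exact h1
      · exact h d h2.1 hdF h8
  have h1 := key (C \ Gc M C F x) (Finset.Subset.refl _)
  rwa [Finset.sdiff_sdiff_eq_self Gc_sub] at h1

theorem IndC.extend {C Y V : Finset α} (h : IndC M C Y) (hV : V ⊆ C) :
    IndC M C (M.cl (Y ∪ V)) := by
  intro c hc hcF hcl
  have hcY : c ∉ Y := fun h1 => hcF (sub_cl M _ (mem_union_left _ h1))
  have hcV : c ∉ V := fun h1 => hcF (sub_cl M _ (mem_union_right _ h1))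
  refine h c hc hcY ?_
  refine cl_sub_of_sub M ?_ hcl
  refine union_subset (cl_mono M (union_subset_union_right ?_)) ((subset_union_right).trans (sub_cl M _))
  intro v hv
  exact mem_erase.2 ⟨fun h1 => hcV (h1 ▸ hv), hV hv⟩

theorem Gc_nonempty {C F : Finset α} {x : α} (h : IndC M C F) (hF : M.cl F = F)
    (hx : x ∈ M.cl (F ∪ C)) (hxF : x ∉ F) : (Gc M C F x).Nonempty := by
  rw [nonempty_iff_ne_empty]
  intro h1
  have h2 := mem_cl_Gc h hx
  rw [h1, union_empty, hF] at h2
  exact hxF h2

end Crest.Agent.R305.Code860
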