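import Crest.Agent.R305.CodeA_860

set_option autoImplicit false
set_option linter.unusedSectionVars false
set_option linter.unusedVariables false

namespace Crest.Agent.R305.Code860

open Finset Crest.Agent.R305.Kd447

variable {α : Type*} [DecidableEq α] [Fintype α] {M : RankFn α}

/-- a `k`-dense chain `X` over the increasing sequence `f`, for the sample `Z` -/
structure KChain (M : RankFn α) (k : ℕ) (Z : Finset α) (f X : ℕ → Finset α) : Prop where
  flat : ∀ i, M.cl (X i) = X i
  sub : ∀ i, X i ⊆ X (i + 1)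
  fsub : ∀ i, f i ⊆ X i
  sparse : ∀ i, ∀ A ⊆ Z \ X i, A.Nonempty → A.card < k * (M.r (X i ∪ A) - M.r (X i))
  dense0 : ∀ V ⊆ X 0, k * (M.r (X 0) - M.r (f 0 ∪ V)) ≤ ((Z ∩ X 0) \ M.cl (f 0 ∪ V)).card
  dense : ∀ i, ∀ V ⊆ X (i + 1), k * (M.r (X (i + 1)) - M.r (X i ∪ f (i + 1) ∪ V)) ≤
    ((Z ∩ X (i + 1)) \ M.cl (X i ∪ f (i + 1) ∪ V)).card

/-- basis of a dense step inside the sample -/
theorem step_basis {k : ℕ} (hk : 1 ≤ k) {Z f X : Finset α} (hX : M.cl X = X) (hf : f ⊆ X)
    (hd : ∀ V ⊆ X, k * (M.r X - M.r (f ∪ V)) ≤ ((Z ∩ X) \ M.cl (f ∪ V)).card) :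
    ∃ B : Finset α, B ⊆ Z ∧ B ⊆ X ∧ Ind M f B ∧ M.cl (f ∪ B) = X ∧
      k * B.card ≤ ((Z ∩ X) \ M.cl f).card := by
  obtain ⟨B, hBS, hB, hcl⟩ := exists_basis M f (Z ∩ X)
  have hBX : B ⊆ X := hBS.trans inter_subset_right
  have h1 := hd (Z ∩ X) inter_subset_right
  have h2 : (Z ∩ X) \ M.cl (f ∪ (Z ∩ X)) = ∅ := by
    rw [sdiff_eq_empty_iff_subset]
    exact (subset_union_right).trans (sub_cl M _)
  rw [h2, card_empty] at h1
  have h3 : M.r X ≤ M.r (f ∪ (Z ∩ X)) := by
    by_contra h4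
    have h5 : 1 ≤ M.r X - M.r (f ∪ (Z ∩ X)) := by omega
    have h6 : 1 ≤ k * (M.r X - M.r (f ∪ (Z ∩ X))) := Nat.one_le_iff_ne_zero.2 (by positivity)
    omega
  have h4 : M.r (f ∪ (Z ∩ X)) ≤ M.r (f ∪ B) := by
    have h5 : f ∪ (Z ∩ X) ⊆ M.cl (f ∪ B) :=
      union_subset ((subset_union_left).trans (sub_cl M _)) hcl
    have h6 := M.mono h5
    rwa [r_cl] at h6
  have h5 : M.cl (f ∪ B) = X := by
    refine Finset.Subset.antisymm (cl_sub_flat M hX (union_subset hf hBX)) ?_
    exact sub_cl_of_r (union_subset hf hBX) (h3.trans h4)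
  refine ⟨B, hBS.trans inter_subset_left, hBX, hB, h5, ?_⟩
  have h6 := hd ∅ (empty_subset _)
  rw [union_empty] at h6
  have h7 : M.r X = M.r f + B.card := by
    have : M.r (M.cl (f ∪ B)) = M.r X := by rw [h5]
    rw [r_cl] at this
    rw [← this]; exact hB
  rw [h7] at h6
  simpa using h6

/-- connectors of one step -/
theorem connectors {k : ℕ} (hk : 1 ≤ k) {Z C B X Y X' : Finset α} (hXX : X ⊆ Y)
    (hYf : M.cl Y = Y) (hX'f : M.cl X' = X') (hYX : Y ⊆ X')
    (hBC : B ⊆ C) (hB : Ind M Y B) (hcl : M.cl (Y ∪ B) = X')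
    (hIX : IndC M C X) (hIY : IndC M C Y)
    (hs : ∀ A ⊆ Z \ X, A.Nonempty → A.card < k * (M.r (X ∪ A) - M.r X))
    (hd : ∀ V ⊆ X', k * (M.r X' - M.r (Y ∪ V)) ≤ ((Z ∩ X') \ M.cl (Y ∪ V)).card) :
    ∀ (m : ℕ) (V : Finset α), V ⊆ B → (B \ V).card ≤ m →
    ∃ n : α → ℕ, (∀ x, n x ≠ 0 → x ∈ Z ∧ x ∈ X' ∧ x ∉ M.cl (Y ∪ V)) ∧
      ∑ x, n x = (B \ V).card ∧
      (∀ V', V ⊆ V' → V' ⊆ B → V' ≠ B → ∃ x, n x ≠ 0 ∧ x ∉ M.cl (Y ∪ V') ∧
        (Gc M C (M.cl (Y ∪ V')) x).card ≤ n x) ∧
      (∀ x, n x ≠ 0 → x ∈ M.cl (X ∪ C) → n x < (Gc M C X x).card) := by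
  have hBX' : B ⊆ X' := by
    rw [← hcl]; exact (subset_union_right).trans (sub_cl M _)
  intro m
  induction m with
  | zero =>
    intro V hVB hm
    have h1 : B \ V = ∅ := card_eq_zero.1 (by omega)
    refine ⟨fun _ => 0, by simp, by simp [h1], ?_, by simp⟩
    intro V' hV hV' hne
    exact absurd (Finset.Subset.antisymm hV' ((sdiff_eq_empty_iff_subset.1 h1).trans hV)) hne
  | succ m ih =>
    intro V hVB hm
    by_cases hVeq : B \ V = ∅
    · refine ⟨fun _ => 0, by simp, by simp [hVeq], ?_, by simp⟩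
      intro V' hV hV' hne
      exact absurd (Finset.Subset.antisymm hV' ((sdiff_eq_empty_iff_subset.1 hVeq).trans hV)) hne
    set U := M.cl (Y ∪ V) with hU
    have hUf : M.cl U = U := cl_cl M _
    have hYU : Y ⊆ U := (subset_union_left).trans (sub_cl M _)
    have hVU : V ⊆ U := (subset_union_right).trans (sub_cl M _)
    have hXU : X ⊆ U := hXX.trans hYU
    have hcp : 0 < (B \ V).card := card_pos.2 (nonempty_iff_ne_empty.2 hVeq)
    have hd1 := hd V (hVB.trans hBX')
    have hr1 : M.r X' = M.r Y + B.card := by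
      have : M.r (M.cl (Y ∪ B)) = M.r X' := by rw [hcl]
      rw [r_cl] at this
      rw [← this]; exact hB
    have hr2 : M.r (Y ∪ V) = M.r Y + V.card := hB.subset hVB
    have hr3 : (B \ V).card = B.card - V.card := card_sdiff_of_subset hVB
    have hr4 := card_le_card hVB
    have hA1 : k * (B \ V).card ≤ ((Z ∩ X') \ U).card := by
      have : M.r X' - M.r (Y ∪ V) = (B \ V).card := by omega
      rw [this] at hd1
      exact hd1
    have hA2 : ((Z ∩ X') \ U).Nonempty := by
      rw [← card_pos]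
      have : 0 < k * (B \ V).card := Nat.mul_pos (by omega) hcp
      omega
    obtain ⟨x, hxA, hxn⟩ : ∃ x ∈ (Z ∩ X') \ U, x ∉ M.cl (X ∪ (B \ V)) := by
      by_contra hno
      push Not at hno
      have h1 : M.r (X ∪ ((Z ∩ X') \ U)) ≤ M.r X + (B \ V).card := by
        have h2 : X ∪ ((Z ∩ X') \ U) ⊆ M.cl (X ∪ (B \ V)) :=
          union_subset ((subset_union_left).trans (sub_cl M _)) hno
        have h3 := M.mono h2
        rw [r_cl] at h3
        exact h3.trans (r_union_le M X _)
      have h2 := hs ((Z ∩ X') \ U) (by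
        intro y hy
        simp only [mem_sdiff, mem_inter] at hy ⊢
        exact ⟨hy.1.1, fun h => hy.2 (hXU h)⟩) hA2
      have h3 : M.r (X ∪ ((Z ∩ X') \ U)) - M.r X ≤ (B \ V).card := by omega
      have h4 := Nat.mul_le_mul_left k h3
      omega
    simp only [mem_sdiff, mem_inter] at hxA
    obtain ⟨⟨hxZ, hxX'⟩, hxU⟩ := hxA
    set G := Gc M C U x with hG
    have hxclB : x ∈ M.cl (U ∪ B) := by
      have : X' ⊆ M.cl (U ∪ B) := by
        rw [← hcl]; exact cl_mono M (union_subset_union_left hYU)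
      exact this hxX'
    have hxclC : x ∈ M.cl (U ∪ C) := cl_mono M (union_subset_union_right hBC) hxclB
    have hGB : G ⊆ B := Gc_sub_of_mem hBC hxclB
    have hGU : Disjoint U G := Gc_disj hxclC
    have hIU : IndC M C U := hIY.extend (hVB.trans hBC)
    have hGne : G.Nonempty := Gc_nonempty hIU hUf hxclC hxU
    have hxG : x ∈ M.cl (U ∪ G) := mem_cl_Gc hIU hxclC
    have hGV : Disjoint V G := disjoint_of_subset_left hVU hGU
    have hV1 : V ∪ G ⊆ B := union_subset hVB hGB
    have hc1 : (B \ (V ∪ G)).card + G.card = (B \ V).card := by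
      have h1 := card_sdiff_of_subset hV1
      have h2 := card_union_of_disjoint hGV
      have h3 := card_le_card hV1
      omega
    have hGp := card_pos.2 hGne
    obtain ⟨n1, hn1, hn2, hn3, hn4⟩ := ih (V ∪ G) hV1 (by omega)
    have hx1 : n1 x = 0 := by
      by_contra h0
      apply (hn1 x h0).2.2
      have : U ∪ G ⊆ M.cl (Y ∪ (V ∪ G)) := by
        refine union_subset (cl_mono M (union_subset_union_right subset_union_left)) ?_
        exact (subset_union_right.trans subset_union_right).trans (sub_cl M _)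
      exact cl_sub_of_sub M this hxG
    refine ⟨fun y => n1 y + if y = x then G.card else 0, ?_, ?_, ?_, ?_⟩
    · intro y hy
      by_cases hyx : y = x
      · subst hyx; exact ⟨hxZ, hxX', hxU⟩
      · have h1 : n1 y ≠ 0 := by simpa [hyx] using hy
        obtain ⟨h2, h3, h4⟩ := hn1 y h1
        exact ⟨h2, h3, fun h5 => h4 (cl_mono M (union_subset_union_right subset_union_left) h5)⟩
    · rw [sum_add_distrib, hn2, sum_ite_eq' univ x]
      simp only [mem_univ, if_true]
      exact hc1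
    · intro V' hVV' hV'B hV'ne
      by_cases hG' : G ⊆ V'
      · obtain ⟨y, hy1, hy2, hy3⟩ := hn3 V' (union_subset hVV' hG') hV'B hV'ne
        refine ⟨y, ?_, hy2, ?_⟩
        · have := Nat.pos_of_ne_zero hy1
          show n1 y + _ ≠ 0
          omega
        · exact hy3.trans (Nat.le_add_right _ _)
      · refine ⟨x, ?_, ?_, ?_⟩
        · simp only [if_true]; omega
        · intro hxcl
          apply hG'
          refine Gc_sub_of_mem (hV'B.trans hBC) ?_
          exact cl_mono M (union_subset_union_left hYU) hxcl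
        · simp only [if_true, hx1, zero_add]
          exact card_le_card (Gc_anti (cl_mono M (union_subset_union_right hVV')))
    · intro y hy hycl
      by_cases hyx : y = x
      · subst hyx
        simp only [if_true, hx1, zero_add]
        refine card_lt_card ⟨Gc_anti hXU, ?_⟩
        intro hsub
        apply hxn
        have h1 := mem_cl_Gc hIX hycl
        refine cl_mono M (union_subset_union_right ?_) h1
        refine hsub.trans ?_
        intro g hg
        rw [mem_sdiff]
        exact ⟨hGB hg, fun hgV => (disjoint_left.1 hGV) hgV hg⟩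
      · have h1 : n1 y ≠ 0 := by simpa [hyx] using hy
        simp only [hyx, if_false, add_zero]
        exact hn4 y h1 hycl

end Crest.Agent.R305.Code860
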