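import Crest.Agent.R305.CodeB_860

set_option autoImplicit false
set_option linter.unusedSectionVars false
set_option linter.unusedVariables false

namespace Crest.Agent.R305.Code860

open Finset Crest.Agent.R305.Kd447

variable {α : Type*} [DecidableEq α] [Fintype α] {M : RankFn α}

/-- a code: basis of the initial step, bases of the other steps, connectors with their sizes -/
abbrev Code (α : Type*) := Finset α × Finset α × (α → ℕ)

/-- fire all connectors at once -/
def fire (M : RankFn α) (C : Finset α) (n : α → ℕ) (F : Finset α) : Finset α :=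
  M.cl (F ∪ (univ.filter (fun x => n x ≠ 0 ∧ x ∉ F ∧ x ∈ M.cl (F ∪ C) ∧
    (Gc M C F x).card ≤ n x)).biUnion (Gc M C F))

/-- the decoder -/
def dec (M : RankFn α) (f : ℕ → Finset α) (c : Code α) : ℕ → Finset α
  | 0 => M.cl (f 0 ∪ c.1)
  | i + 1 => (fire M c.2.1 c.2.2)^[Fintype.card α] (M.cl (dec M f c i ∪ f (i + 1)))

theorem iterate_fix {g : Finset α → Finset α} {P : Finset α → Prop} {X' : Finset α}
    (hP : ∀ F, P F → F ⊆ g F ∧ P (g F) ∧ F ⊆ X' ∧ (F ≠ X' → g F ≠ F)) {F0 : Finset α}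
    (h0 : P F0) : g^[Fintype.card α] F0 = X' := by
  have key : ∀ m, P (g^[m] F0) ∧ (m ≤ (g^[m] F0).card ∨ g^[m] F0 = X') := by
    intro m
    induction m with
    | zero => exact ⟨h0, Or.inl (Nat.zero_le _)⟩
    | succ m ih =>
      obtain ⟨h1, h2⟩ := ih
      rw [Function.iterate_succ_apply']
      obtain ⟨h3, h4, h5, h6⟩ := hP _ h1
      refine ⟨h4, ?_⟩
      by_cases h7 : g^[m] F0 = X'
      · right
        rw [h7] at h3 h4 ⊢
        exact Finset.Subset.antisymm (hP _ h4).2.2.1 h3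
      · left
        have h8 : m ≤ (g^[m] F0).card := by
          rcases h2 with h2 | h2
          · exact h2
          · exact absurd h2 h7
        have h9 : g^[m] F0 ⊂ g (g^[m] F0) :=
          ⟨h3, fun h => h6 h7 (Finset.Subset.antisymm h h3)⟩
        have := card_lt_card h9
        omega
  obtain ⟨h1, h2⟩ := key (Fintype.card α)
  rcases h2 with h2 | h2
  · have h3 : g^[Fintype.card α] F0 = univ := by
      rw [← card_eq_iff_eq_univ]
      exact le_antisymm (card_le_univ _) h2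
    have h4 := (hP _ h1).2.2.1
    rw [h3] at h4 ⊢
    exact (Finset.Subset.antisymm h4 (subset_univ _))
  · exact h2

theorem cl_cl_union (A B : Finset α) : M.cl (M.cl A ∪ B) = M.cl (A ∪ B) := by
  refine Finset.Subset.antisymm ?_ (cl_mono M (union_subset_union_left (sub_cl M _)))
  refine cl_sub_of_sub M (union_subset (cl_mono M subset_union_left) ?_)
  exact subset_union_right.trans (sub_cl M _)

theorem fire_step {C : Finset α} {n : α → ℕ} {B Y X' : Finset α} (hBC : B ⊆ C)
    (hIY : IndC M C Y) (hcl : M.cl (Y ∪ B) = X')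
    (hP1 : ∀ V' ⊆ B, V' ≠ B → ∃ x, n x ≠ 0 ∧ x ∉ M.cl (Y ∪ V') ∧ x ∈ X' ∧
      (Gc M C (M.cl (Y ∪ V')) x).card ≤ n x)
    (hloc : ∀ F, Y ⊆ F → F ⊆ X' → ∀ x, n x ≠ 0 → x ∉ F → x ∈ M.cl (F ∪ C) →
      (Gc M C F x).card ≤ n x → x ∈ X') :
    (fire M C n)^[Fintype.card α] (M.cl Y) = X' := by
  refine iterate_fix (P := fun F => ∃ V ⊆ B, F = M.cl (Y ∪ V)) ?_ ⟨∅, empty_subset _, by simp⟩
  rintro F ⟨V, hV, rfl⟩
  set F := M.cl (Y ∪ V) with hF
  have hYF : Y ⊆ F := subset_union_left.trans (sub_cl M _)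
  have hFX : F ⊆ X' := by
    rw [← hcl]; exact cl_mono M (union_subset_union_right hV)
  have hxB : ∀ x ∈ X', x ∈ M.cl (F ∪ B) := by
    intro x hx
    rw [← hcl] at hx
    exact cl_mono M (union_subset_union_left hYF) hx
  set S := (univ.filter (fun x => n x ≠ 0 ∧ x ∉ F ∧ x ∈ M.cl (F ∪ C) ∧
    (Gc M C F x).card ≤ n x)) with hS
  have hW : S.biUnion (Gc M C F) ⊆ B := by
    rw [biUnion_subset]
    intro x hx
    simp only [hS, mem_filter, mem_univ, true_and] at hx
    exact Gc_sub_of_mem hBC (hxB x (hloc F hYF hFX x hx.1 hx.2.1 hx.2.2.1 hx.2.2.2))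
  refine ⟨subset_union_left.trans (sub_cl M _), ⟨V ∪ S.biUnion (Gc M C F), union_subset hV hW, ?_⟩,
    hFX, ?_⟩
  · show M.cl (F ∪ S.biUnion (Gc M C F)) = _
    rw [hF, cl_cl_union, union_assoc]
  · intro hne heq
    have hVB : V ≠ B := by
      rintro rfl
      exact hne hcl
    obtain ⟨x, hx1, hx2, hx3, hx4⟩ := hP1 V hV hVB
    have hxC : x ∈ M.cl (F ∪ C) := cl_mono M (union_subset_union_right hBC) (hxB x hx3)
    obtain ⟨c, hc⟩ := Gc_nonempty (hIY.extend (hV.trans hBC)) (cl_cl M _) hxC hx2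
    have hcF : c ∉ F := fun h => (disjoint_left.1 (Gc_disj hxC)) h hc
    apply hcF
    have hxS : x ∈ S := by
      simp only [hS, mem_filter, mem_univ, true_and]
      exact ⟨hx1, hx2, hxC, hx4⟩
    have : c ∈ fire M C n F :=
      sub_cl M _ (mem_union_right _ (mem_biUnion.2 ⟨x, hxS, hc⟩))
    rwa [heq] at this

/-- **Theorem A (coding)**: a `k`-dense chain is decoded from a short code inside the sample. -/
theorem exists_code {k : ℕ} (hk : 1 ≤ k) {Z : Finset α} {f X : ℕ → Finset α}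
    (h : KChain M k Z f X) (T : ℕ) :
    ∃ c : Code α, c.1 ⊆ Z ∧ c.2.1 ⊆ Z ∧ (∀ x, c.2.2 x ≠ 0 → x ∈ Z) ∧
      ∑ x, c.2.2 x = c.2.1.card ∧ k * (c.1.card + c.2.1.card) ≤ Z.card ∧
      ∀ i ≤ T, dec M f c i = X i := by
  classical
  have hXm : Monotone X := monotone_nat_of_le_succ h.sub
  set Y : ℕ → Finset α := fun i => M.cl (X i ∪ f (i + 1)) with hY
  have hYX : ∀ i, Y i ⊆ X (i + 1) := fun i =>
    cl_sub_flat M (h.flat (i + 1)) (union_subset (h.sub i) (h.fsub (i + 1)))
  have hXY : ∀ i, X i ⊆ Y i := fun i => subset_union_left.trans (sub_cl M _)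
  have hYf : ∀ i, M.cl (Y i) = Y i := fun i => cl_cl M _
  have hd : ∀ i, ∀ V ⊆ X (i + 1), k * (M.r (X (i + 1)) - M.r (Y i ∪ V)) ≤
      ((Z ∩ X (i + 1)) \ M.cl (Y i ∪ V)).card := by
    intro i V hV
    have h1 := h.dense i V hV
    have h2 : M.cl (Y i ∪ V) = M.cl (X i ∪ f (i + 1) ∪ V) := cl_cl_union _ _
    have h3 : M.r (Y i ∪ V) = M.r (X i ∪ f (i + 1) ∪ V) := by
      rw [← r_cl M (Y i ∪ V), h2, r_cl]
    rw [h2, h3]; exact h1
  have hstep : ∀ i, ∃ B : Finset α, B ⊆ Z ∧ B ⊆ X (i + 1) ∧ Ind M (Y i) B ∧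
      M.cl (Y i ∪ B) = X (i + 1) ∧ k * B.card ≤ ((Z ∩ X (i + 1)) \ M.cl (Y i)).card := fun i =>
    step_basis hk (h.flat (i + 1)) (hYX i) (hd i)
  choose B hB1 hB2 hB3 hB4 hB5 using hstep
  obtain ⟨C0, hC1, hC2, hC3, hC4, hC5⟩ := step_basis hk (h.flat 0) (h.fsub 0) h.dense0
  set C := (range T).biUnion B with hC
  have hBC : ∀ i, i < T → B i ⊆ C := fun i hi => subset_biUnion_of_mem B (mem_range.2 hi)
  -- independence of the tails
  have htail : ∀ d i, T ≤ i + d → Ind M (Y i) ((Ico i T).biUnion B) := by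
    intro d
    induction d with
    | zero =>
      intro i hi
      rw [Ico_eq_empty (by omega), biUnion_empty]
      exact Ind.empty _
    | succ d ih =>
      intro i hi
      have h1 := (hB3 i).union (ih (i + 1) (by omega)) (by
        refine union_subset ?_ ?_
        · exact (hYX i).trans (hXY (i + 1))
        · exact (hB2 i).trans (hXY (i + 1)))
      refine h1.subset ?_
      intro x hx
      rw [mem_biUnion] at hx
      obtain ⟨j, hj, hxj⟩ := hx
      rw [mem_Ico] at hj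
      rw [mem_union, mem_biUnion]
      by_cases hji : j = i
      · exact Or.inl (hji ▸ hxj)
      · exact Or.inr ⟨j, mem_Ico.2 ⟨by omega, hj.2⟩, hxj⟩
  have hCtail : ∀ i, ∀ c ∈ C, c ∉ X i → c ∈ (Ico i T).biUnion B := by
    intro i c hc hcX
    rw [hC, mem_biUnion] at hc
    obtain ⟨j, hj, hcj⟩ := hc
    rw [mem_range] at hj
    rw [mem_biUnion]
    refine ⟨j, mem_Ico.2 ⟨?_, hj⟩, hcj⟩
    by_contra hlt
    exact hcX (hXm (by omega : j + 1 ≤ i) (hB2 j hcj))
  have hIY0 : ∀ i, ∀ c ∈ C, c ∉ X i → c ∉ M.cl (Y i ∪ C.erase c) := by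
    intro i c hc hcX hcl
    have h1 := htail T i (by omega)
    refine h1.not_mem_cl (hCtail i c hc hcX) (cl_sub_of_sub M ?_ hcl)
    refine union_subset (subset_union_left.trans (sub_cl M _)) ?_
    intro d hd'
    rw [mem_erase] at hd'
    by_cases hdX : d ∈ X i
    · exact sub_cl M _ (mem_union_left _ (hXY i hdX))
    · exact sub_cl M _ (mem_union_right _ (mem_erase.2 ⟨hd'.1, hCtail i d hd'.2 hdX⟩))
  have hIY : ∀ i, IndC M C (Y i) := fun i c hc hcY =>
    hIY0 i c hc (fun hX => hcY (hXY i hX))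
  have hIX : ∀ i, IndC M C (X i) := fun i c hc hcX hcl =>
    hIY0 i c hc hcX (cl_mono M (union_subset_union_left (hXY i)) hcl)
  -- the connectors
  have hconn : ∀ i, ∃ n : α → ℕ, i < T →
      (∀ x, n x ≠ 0 → x ∈ Z ∧ x ∈ X (i + 1) ∧ x ∉ Y i) ∧
      ∑ x, n x = (B i).card ∧
      (∀ V' ⊆ B i, V' ≠ B i → ∃ x, n x ≠ 0 ∧ x ∉ M.cl (Y i ∪ V') ∧
        (Gc M C (M.cl (Y i ∪ V')) x).card ≤ n x) ∧
      (∀ x, n x ≠ 0 → x ∈ M.cl (X i ∪ C) → n x < (Gc M C (X i) x).card) := by
    intro i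
    by_cases hi : i < T
    · obtain ⟨n, h1, h2, h3, h4⟩ := connectors hk (hXY i) (hYf i) (h.flat (i + 1)) (hYX i)
        (hBC i hi) (hB3 i) (hB4 i) (hIX i) (hIY i) (h.sparse i) (hd i) (B i).card ∅
        (empty_subset _) (card_le_card sdiff_subset)
      refine ⟨n, fun _ => ⟨?_, ?_, ?_, h4⟩⟩
      · intro x hx
        have := h1 x hx
        rw [union_empty, hYf i] at this
        exact this
      · rw [h2, sdiff_empty]
      · intro V' hV' hne
        exact h3 V' (empty_subset _) hV' hne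
    · exact ⟨fun _ => 0, fun h => absurd h hi⟩
  choose n hn using hconn
  set nt : α → ℕ := fun x => ∑ i ∈ range T, n i x with hnt
  have hnt1 : ∀ i, i < T → ∀ x, n i x ≠ 0 → nt x = n i x := by
    intro i hi x hx
    obtain ⟨-, hx1, hx2⟩ := (hn i hi).1 x hx
    refine sum_eq_single_of_mem i (mem_range.2 hi) ?_
    intro j hj hji
    rw [mem_range] at hj
    by_contra h0
    obtain ⟨-, hy1, hy2⟩ := (hn j hj).1 x h0
    rcases Nat.lt_or_gt_of_ne hji with hlt | hlt
    · exact hx2 (hXY i (hXm (by omega : j + 1 ≤ i) hy1))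
    · exact hy2 (hXY j (hXm (by omega : i + 1 ≤ j) hx1))
  have hnt2 : ∀ x, nt x ≠ 0 → ∃ i, i < T ∧ n i x ≠ 0 := by
    intro x hx
    obtain ⟨i, hi, h1⟩ := exists_ne_zero_of_sum_ne_zero hx
    exact ⟨i, mem_range.1 hi, h1⟩
  have hdisj : ∀ i ∈ range T, ∀ j ∈ range T, i ≠ j → Disjoint (B i) (B j) := by
    intro i _ j _ hij
    have hlt : ∀ a b, a < b → Disjoint (B a) (B b) := by
      intro a b hab
      refine disjoint_of_subset_left ?_ (hB3 b).disjoint
      exact (hB2 a).trans ((hXm (by omega : a + 1 ≤ b)).trans (hXY b))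
    rcases Nat.lt_or_gt_of_ne hij with h1 | h1
    · exact hlt i j h1
    · exact (hlt j i h1).symm
  refine ⟨(C0, C, nt), hC1, ?_, ?_, ?_, ?_, ?_⟩
  · exact biUnion_subset.2 fun i _ => hB1 i
  · intro x hx
    obtain ⟨i, hi, h1⟩ := hnt2 x hx
    exact ((hn i hi).1 x h1).1
  · show ∑ x, ∑ i ∈ range T, n i x = C.card
    rw [sum_comm, hC, card_biUnion hdisj]
    exact sum_congr rfl fun i hi => (hn i (mem_range.1 hi)).2.1
  · show k * (C0.card + C.card) ≤ Z.card
    have h1 : ∀ T', k * (C0.card + ∑ i ∈ range T', (B i).card) ≤ (Z ∩ X T').card := by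
      intro T'
      induction T' with
      | zero =>
        rw [range_zero, sum_empty, add_zero]
        exact hC5.trans (card_le_card sdiff_subset)
      | succ T' ih =>
        rw [sum_range_succ, ← add_assoc, Nat.mul_add]
        have h2 := hB5 T'
        rw [hYf] at h2
        have h3 : Disjoint (Z ∩ X T') ((Z ∩ X (T' + 1)) \ Y T') := by
          rw [disjoint_left]
          intro x hx hx'
          rw [mem_inter] at hx
          rw [mem_sdiff] at hx'
          exact hx'.2 (hXY _ hx.2)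
        have h4 : (Z ∩ X T') ∪ ((Z ∩ X (T' + 1)) \ Y T') ⊆ Z ∩ X (T' + 1) :=
          union_subset (inter_subset_inter_left (h.sub T')) sdiff_subset
        have h5 := card_le_card h4
        rw [card_union_of_disjoint h3] at h5
        omega
    rw [hC, card_biUnion hdisj]
    exact (h1 T).trans (card_le_card inter_subset_left)
  · intro i
    induction i with
    | zero => intro _; exact hC4
    | succ i ih =>
      intro hi
      have hiT : i < T := by omega
      show (fire M C nt)^[Fintype.card α] (M.cl (dec M f (C0, C, nt) i ∪ f (i + 1))) = X (i + 1)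
      rw [ih (by omega)]
      have h1 := fire_step (M := M) (n := nt) (X' := X (i + 1)) (hBC i hiT) (hIY i) (hB4 i) ?_ ?_
      · rw [hYf] at h1
        exact h1
      · intro V' hV' hne
        obtain ⟨x, hx1, hx2, hx3⟩ := (hn i hiT).2.2.1 V' hV' hne
        refine ⟨x, ?_, hx2, ((hn i hiT).1 x hx1).2.1, ?_⟩
        · rw [hnt1 i hiT x hx1]; exact hx1
        · rw [hnt1 i hiT x hx1]; exact hx3
      · intro F hYF hFX x hx hxF hxC hxn
        obtain ⟨j, hj, hxj⟩ := hnt2 x hx
        rw [hnt1 j hj x hxj] at hxn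
        by_cases hji : j ≤ i
        · exact hXm (by omega : j + 1 ≤ i + 1) ((hn j hj).1 x hxj).2.1
        · exfalso
          have hFj : F ⊆ X j := hFX.trans (hXm (by omega : i + 1 ≤ j))
          have h2 := (hn j hj).2.2.2 x hxj (cl_mono M (union_subset_union_left hFj) hxC)
          have h3 := card_le_card (Gc_anti (M := M) (C := C) (x := x) hFj)
          omega

end Crest.Agent.R305.Code860
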