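import Crest.Agent.R305.CodeC_860

/-!
# R305: coding theorem for `kc` chains, the finite set of codes and its cardinality
-/

set_option autoImplicit false
set_option linter.unusedSectionVars false
set_option linter.unusedVariables false

namespace Crest.Agent.R305.Code860

open Finset Crest.Agent.R305.Kd447

variable {α : Type*} [DecidableEq α] [Fintype α]

/-- the `k`-dense closures of an increasing sequence form a chain -/
theorem kchain_kc (M : RankFn α) (k : ℕ) (Z : Finset α) {f : ℕ → Finset α} (hf : Monotone f) :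
    KChain M k Z f (fun i => M.kc k Z (f i)) where
  flat i := M.kc_flat k Z (f i)
  sub i := M.kc_mono (Finset.Subset.refl _) (hf (Nat.le_succ i))
  fsub i := M.subset_kc k Z (f i)
  sparse i := M.kc_sparse k Z (f i)
  dense0 := by
    intro V hV
    have h1 := M.kc_dense (k := k) (Z := Z) (F := f 0) hV
    have h2 : M.rr (M.cl (f 0 ∪ V)) (M.kc k Z (f 0)) =
        M.r (M.kc k Z (f 0)) - M.r (f 0 ∪ V) := by
      have h3 : M.cl (f 0 ∪ V) ⊆ M.kc k Z (f 0) :=
        (M.kc_flat k Z (f 0)).cl_subset (union_subset (M.subset_kc k Z _) hV)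
      have h4 := M.r_add_rr_of_subset h3
      rw [M.r_cl] at h4
      omega
    rwa [h2] at h1
  dense := by
    intro i V hV
    set X := M.kc k Z (f (i + 1)) with hX
    have hXi : M.kc k Z (f i) ⊆ X := M.kc_mono (Finset.Subset.refl _) (hf (Nat.le_succ i))
    have hfX : f (i + 1) ⊆ X := M.subset_kc k Z _
    have hsub : M.kc k Z (f i) ∪ f (i + 1) ∪ V ⊆ X :=
      union_subset (union_subset hXi hfX) hV
    have h3 : M.cl (M.kc k Z (f i) ∪ f (i + 1) ∪ V) ⊆ X :=
      (M.kc_flat k Z (f (i + 1))).cl_subset hsub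
    have h1 := M.kc_dense_flat (k := k) (Z := Z) (F := f (i + 1))
      (G := M.cl (M.kc k Z (f i) ∪ f (i + 1) ∪ V))
      ((subset_union_right.trans subset_union_left).trans (M.subset_cl _)) h3 (M.flat_cl _)
    have h4 := M.r_add_rr_of_subset h3
    rw [M.r_cl] at h4
    have h2 : M.rr (M.cl (M.kc k Z (f i) ∪ f (i + 1) ∪ V)) X =
        M.r X - M.r (M.kc k Z (f i) ∪ f (i + 1) ∪ V) := by omega
    rw [← hX, h2] at h1
    exact h1

/-- the finite set of codes supported on `E` -/
noncomputable def codes (E : Finset α) (k : ℕ) : Finset (Code α) :=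
  (E.powerset ×ˢ E.powerset ×ˢ
    Fintype.piFinset (fun x => if x ∈ E then range (E.card + 1) else {0})).filter
    (fun c => k * (c.1.card + c.2.1.card) ≤ E.card ∧ ∑ x, c.2.2 x = c.2.1.card)

/-- **Theorem A**: the chain of `k`-dense closures is one of the decoded codes. -/
theorem exists_code_kc (M : RankFn α) {k : ℕ} (hk : 1 ≤ k) {Z E : Finset α} (hZ : Z ⊆ E)
    {f : ℕ → Finset α} (hf : Monotone f) (T : ℕ) :
    ∃ c ∈ codes E k, c.1 ⊆ Z ∧ c.2.1 ⊆ Z ∧ (∀ x, c.2.2 x ≠ 0 → x ∈ Z) ∧
      k * (c.1.card + c.2.1.card) ≤ Z.card ∧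
      ∀ i ≤ T, dec M f c i = M.kc k Z (f i) := by
  obtain ⟨c, h1, h2, h3, h4, h5, h6⟩ := exists_code hk (kchain_kc M k Z hf) T
  refine ⟨c, ?_, h1, h2, h3, h5, h6⟩
  simp only [codes, mem_filter, mem_product, mem_powerset, Fintype.mem_piFinset]
  refine ⟨⟨h1.trans hZ, h2.trans hZ, ?_⟩, h5.trans (card_le_card hZ), h4⟩
  intro x
  split_ifs with hx
  · rw [mem_range]
    have h7 : c.2.2 x ≤ ∑ y, c.2.2 y := single_le_sum (fun _ _ => Nat.zero_le _) (mem_univ x)
    have h8 := card_le_card (h2.trans hZ)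
    omega
  · rw [mem_singleton]
    by_contra h0
    exact hx (hZ (h3 x h0))

/-- weight of a code -/
noncomputable def cw (u : ℝ) (c : Code α) : ℝ :=
  u ^ c.1.card * (u ^ c.2.1.card * ∏ x, if c.2.2 x = 0 then 1 else u * (1 / 2) ^ c.2.2 x)

theorem sum_geo (L : ℕ) : ∑ j ∈ range (L + 1), (if j = 0 then (0 : ℝ) else (1 / 2) ^ j) ≤ 1 := by
  have h : ∀ L : ℕ, ∑ j ∈ range (L + 1), (if j = 0 then (0 : ℝ) else (1 / 2) ^ j) =
      1 - (1 / 2) ^ L := by
    intro L
    induction L with
    | zero => simp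
    | succ L ih =>
      rw [sum_range_succ, ih]
      simp only [Nat.succ_ne_zero, if_false, pow_succ]
      ring
  rw [h]
  have : (0 : ℝ) ≤ (1 / 2) ^ L := by positivity
  linarith

/-- total weight of all codes -/
theorem sum_cw_le (E : Finset α) (k : ℕ) {u : ℝ} (hu : 0 ≤ u) :
    ∑ c ∈ codes E k, cw u c ≤ (1 + u) ^ (3 * E.card) := by
  have hcw : ∀ c : Code α, 0 ≤ cw u c := by
    intro c
    unfold cw
    refine mul_nonneg (by positivity) (mul_nonneg (by positivity) (prod_nonneg fun x _ => ?_))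
    split_ifs <;> positivity
  have h1 : ∑ c ∈ codes E k, cw u c ≤ ∑ c ∈ E.powerset ×ˢ E.powerset ×ˢ
      Fintype.piFinset (fun x => if x ∈ E then range (E.card + 1) else {0}), cw u c :=
    sum_le_sum_of_subset_of_nonneg (filter_subset _ _) fun c _ _ => hcw c
  refine h1.trans ?_
  have h2 : ∑ A ∈ E.powerset, u ^ A.card = (1 + u) ^ E.card := by
    have := Finset.sum_pow_mul_eq_add_pow u 1 E
    simp only [one_pow, mul_one] at this
    rw [this, add_comm]
  have h3 : ∑ n ∈ Fintype.piFinset (fun x : α => if x ∈ E then range (E.card + 1) else {0}),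
      ∏ x, (if n x = 0 then (1 : ℝ) else u * (1 / 2) ^ n x) ≤ (1 + u) ^ E.card := by
    rw [← Finset.prod_univ_sum (fun x : α => if x ∈ E then range (E.card + 1) else {0})
      (fun _ j => if j = 0 then (1 : ℝ) else u * (1 / 2) ^ j)]
    have h4 : ∀ x : α, ∑ j ∈ (if x ∈ E then range (E.card + 1) else {0}),
        (if j = 0 then (1 : ℝ) else u * (1 / 2) ^ j) ≤ if x ∈ E then 1 + u else 1 := by
      intro x
      split_ifs with hx
      · have h5 : ∀ j ∈ range (E.card + 1), (if j = 0 then (1 : ℝ) else u * (1 / 2) ^ j) =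
            (if j = 0 then 1 else 0) + u * (if j = 0 then (0 : ℝ) else (1 / 2) ^ j) := by
          intro j _
          split_ifs <;> simp
        rw [sum_congr rfl h5, sum_add_distrib, ← mul_sum, sum_ite_eq' (range (E.card + 1)) 0]
        have h6 := mul_le_mul_of_nonneg_left (sum_geo E.card) hu
        have h7 : (if 0 ∈ range (E.card + 1) then (1 : ℝ) else 0) ≤ 1 := by split_ifs <;> norm_num
        linarith
      · simp
    calc ∏ x, ∑ j ∈ (if x ∈ E then range (E.card + 1) else {0}),
          (if j = 0 then (1 : ℝ) else u * (1 / 2) ^ j)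
        ≤ ∏ x : α, (if x ∈ E then 1 + u else 1) := by
          refine prod_le_prod (fun x _ => ?_) (fun x _ => h4 x)
          refine sum_nonneg fun j _ => ?_
          split_ifs <;> positivity
      _ = (1 + u) ^ E.card := by
          rw [prod_ite_mem univ E (fun _ => 1 + u)]
          simp
  rw [sum_product]
  have h5 : ∀ A ∈ E.powerset, ∑ y ∈ E.powerset ×ˢ
      Fintype.piFinset (fun x : α => if x ∈ E then range (E.card + 1) else {0}), cw u (A, y) ≤
      u ^ A.card * ((1 + u) ^ E.card * (1 + u) ^ E.card) := by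
    intro A _
    simp only [cw]
    rw [← mul_sum]
    refine mul_le_mul_of_nonneg_left ?_ (by positivity)
    rw [sum_product]
    calc ∑ C ∈ E.powerset, ∑ n ∈ Fintype.piFinset (fun x : α =>
            if x ∈ E then range (E.card + 1) else {0}),
            u ^ C.card * ∏ x, (if n x = 0 then (1 : ℝ) else u * (1 / 2) ^ n x)
        ≤ ∑ C ∈ E.powerset, u ^ C.card * (1 + u) ^ E.card := by
          refine sum_le_sum fun C _ => ?_
          rw [← mul_sum]
          exact mul_le_mul_of_nonneg_left h3 (by positivity)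
      _ = (1 + u) ^ E.card * (1 + u) ^ E.card := by rw [← sum_mul, h2]
  calc ∑ A ∈ E.powerset, ∑ y ∈ E.powerset ×ˢ
      Fintype.piFinset (fun x : α => if x ∈ E then range (E.card + 1) else {0}), cw u (A, y)
      ≤ ∑ A ∈ E.powerset, u ^ A.card * ((1 + u) ^ E.card * (1 + u) ^ E.card) := sum_le_sum h5
    _ = (1 + u) ^ E.card * ((1 + u) ^ E.card * (1 + u) ^ E.card) := by rw [← sum_mul, h2]
    _ = (1 + u) ^ (3 * E.card) := by rw [← pow_add, ← pow_add]; ring_nf

theorem cw_ge {u : ℝ} (hu : 0 < u) (hu1 : u ≤ 1) {E : Finset α} {k : ℕ} (hk : 1 ≤ k)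
    {c : Code α} (hc : c ∈ codes E k) : (u ^ 2 / 2) ^ (E.card / k) ≤ cw u c := by
  simp only [codes, mem_filter] at hc
  obtain ⟨-, h1, h2⟩ := hc
  have h3 : c.1.card + c.2.1.card ≤ E.card / k := by
    rw [Nat.le_div_iff_mul_le (by omega)]
    rwa [Nat.mul_comm] at h1
  have h4 : (u / 2) ^ c.2.1.card ≤ ∏ x, if c.2.2 x = 0 then 1 else u * (1 / 2) ^ c.2.2 x := by
    rw [← h2, ← prod_pow_eq_pow_sum]
    refine prod_le_prod (fun x _ => by positivity) (fun x _ => ?_)
    split_ifs with h0
    · rw [h0, pow_zero]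
    · rw [div_eq_mul_one_div, mul_pow]
      refine mul_le_mul_of_nonneg_right ?_ (by positivity)
      calc u ^ c.2.2 x ≤ u ^ 1 := pow_le_pow_of_le_one hu.le hu1 (Nat.one_le_iff_ne_zero.2 h0)
        _ = u := pow_one u
  have hq0 : 0 < u ^ 2 / 2 := by positivity
  have hq1 : u ^ 2 / 2 ≤ 1 := by nlinarith
  have hua : u ^ 2 / 2 ≤ u := by nlinarith
  calc (u ^ 2 / 2) ^ (E.card / k) ≤ (u ^ 2 / 2) ^ (c.1.card + c.2.1.card) :=
        pow_le_pow_of_le_one hq0.le hq1 h3
    _ = (u ^ 2 / 2) ^ c.1.card * (u ^ c.2.1.card * (u / 2) ^ c.2.1.card) := by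
        rw [pow_add, ← mul_pow]
        congr 2
        ring
    _ ≤ cw u c := by
        unfold cw
        refine mul_le_mul (pow_le_pow_left₀ hq0.le hua _) ?_ (by positivity) (by positivity)
        exact mul_le_mul_of_nonneg_left h4 (by positivity)

theorem card_codes_mul_le (E : Finset α) {k : ℕ} (hk : 1 ≤ k) {u : ℝ} (hu : 0 < u)
    (hu1 : u ≤ 1) : ((codes E k).card : ℝ) * (u ^ 2 / 2) ^ (E.card / k) ≤
      (1 + u) ^ (3 * E.card) := by
  refine le_trans ?_ (sum_cw_le E k hu.le)
  rw [← nsmul_eq_mul]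
  exact card_nsmul_le_sum _ _ _ fun c hc => cw_ge hu hu1 hk hc

/-- **Theorem A (counting)**: there are at most `exp ((2 log k + 4) / k * |E|)` codes. -/
theorem card_codes_le (E : Finset α) {k : ℕ} (hk : 1 ≤ k) :
    ((codes E k).card : ℝ) ≤ Real.exp ((2 * Real.log k + 4) / k * E.card) := by
  have hk0 : (0 : ℝ) < k := by exact_mod_cast (show 0 < k by omega)
  have hk1 : (1 : ℝ) ≤ k := by exact_mod_cast hk
  have h1 := card_codes_mul_le E hk (u := 1 / (k : ℝ)) (by positivity)
    (by rw [div_le_one hk0]; exact hk1)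
  set m := E.card / k with hm
  have hm1 : (m : ℝ) ≤ E.card / k := Nat.cast_div_le
  have hq : ((1 / (k : ℝ)) ^ 2 / 2) ^ m = Real.exp (-(m * (2 * Real.log k + Real.log 2))) := by
    rw [Real.exp_neg, mul_comm, Real.exp_mul, Real.rpow_natCast, Real.exp_add,
      mul_comm 2 (Real.log (k : ℝ)), Real.exp_mul, Real.exp_log hk0, Real.exp_log two_pos]
    rw [← inv_pow]
    congr 1
    rw [show (2 : ℝ) = ((2 : ℕ) : ℝ) by norm_num, Real.rpow_natCast]
    field_simp
  have h2 : (1 + 1 / (k : ℝ)) ^ (3 * E.card) ≤ Real.exp (3 * E.card / k) := by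
    have h3 : 1 + 1 / (k : ℝ) ≤ Real.exp (1 / k) := by
      have := Real.add_one_le_exp (1 / (k : ℝ))
      linarith
    calc (1 + 1 / (k : ℝ)) ^ (3 * E.card) ≤ Real.exp (1 / k) ^ (3 * E.card) :=
          pow_le_pow_left₀ (by positivity) h3 _
      _ = Real.exp (3 * E.card / k) := by
          rw [← Real.exp_nat_mul]
          congr 1
          push_cast
          ring
  rw [hq] at h1
  have h3 : ((codes E k).card : ℝ) ≤
      Real.exp (3 * E.card / k) * Real.exp (m * (2 * Real.log k + Real.log 2)) := by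
    have h4 := mul_le_mul_of_nonneg_right (h1.trans h2)
      (Real.exp_pos (m * (2 * Real.log k + Real.log 2))).le
    rwa [mul_assoc, ← Real.exp_add, neg_add_cancel, Real.exp_zero, mul_one] at h4
  refine h3.trans ?_
  rw [← Real.exp_add, Real.exp_le_exp]
  have hlog : 0 ≤ Real.log k := Real.log_nonneg hk1
  have hlog2 : Real.log 2 ≤ 1 := by
    have := Real.log_two_lt_d9
    linarith
  have hlog20 : 0 ≤ Real.log 2 := Real.log_nonneg (by norm_num)
  have h5 : (m : ℝ) * (2 * Real.log k + Real.log 2) ≤ E.card / k * (2 * Real.log k + 1) := by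
    refine mul_le_mul hm1 (by linarith) (by linarith) (by positivity)
  calc 3 * (E.card : ℝ) / k + m * (2 * Real.log k + Real.log 2)
      ≤ 3 * (E.card : ℝ) / k + E.card / k * (2 * Real.log k + 1) := by linarith
    _ = (2 * Real.log k + 4) / k * E.card := by ring

end Crest.Agent.R305.Code860
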