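import Crest.Agent.R305.Kd_447

/-!
R305 / S0468: THEOREM B of doc 1793 (flow lemma; helper752/744/306), typed by helper447.
-/

set_option autoImplicit false
set_option linter.unusedSectionVars false

namespace Crest.Agent.R305.Kd447

open Finset

namespace RankFn

variable {α : Type*} [DecidableEq α] [Fintype α] (M : RankFn α)

/-- the bad set of a double chain up to time `T` -/
def badSet (X E : ℕ → Finset α) (T : ℕ) : Finset α :=
  (range (T + 1)).biUnion (fun i => E i \ X i)

theorem mem_badSet {X E : ℕ → Finset α} {T : ℕ} {x : α} :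
    x ∈ badSet X E T ↔ ∃ i ≤ T, x ∈ E i ∧ x ∉ X i := by
  simp [badSet]

theorem badSet_zero (X E : ℕ → Finset α) : badSet X E 0 = E 0 \ X 0 := by
  ext x; simp [mem_badSet]

theorem badSet_subset {X E : ℕ → Finset α} (hE : Monotone E) (T : ℕ) : badSet X E T ⊆ E T := by
  intro x hx
  obtain ⟨i, hi, h1, -⟩ := mem_badSet.1 hx
  exact hE hi h1

theorem badSet_succ {X E : ℕ → Finset α} (hX : Monotone X) (T : ℕ) :
    badSet X E (T + 1) = badSet X E T ∪ (E (T + 1) \ (X (T + 1) ∪ E T)) := by
  ext x
  simp only [mem_union, mem_badSet, mem_sdiff, not_or]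
  constructor
  · rintro ⟨i, hi, h1, h2⟩
    rcases Nat.lt_or_ge T i with h | h
    · have hiT : i = T + 1 := by omega
      subst hiT
      by_cases hxT : x ∈ E T
      · exact Or.inl ⟨T, le_refl _, hxT, fun h' => h2 (hX (Nat.le_succ T) h')⟩
      · exact Or.inr ⟨h1, h2, hxT⟩
    · exact Or.inl ⟨i, h, h1, h2⟩
  · rintro (⟨i, hi, h1, h2⟩ | ⟨h1, h2, -⟩)
    · exact ⟨i, by omega, h1, h2⟩
    · exact ⟨T + 1, le_refl _, h1, h2⟩

/-- FLOW LEMMA, abstract form. `X i ⊆ E i` increasing, `X i` is `k`-sparse for `Z`, the increments of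
`E` are `m`-dense for `W`. -/
theorem flow_abs {k m : ℕ} {Z W : Finset α} {X E : ℕ → Finset α}
    (hX : Monotone X) (hE : Monotone E) (hXE : ∀ i, X i ⊆ E i)
    (hs : ∀ i, M.Sparse k Z (X i))
    (h0 : m * M.rr (X 0) (E 0) ≤ ((W ∩ E 0) \ X 0).card)
    (hd : ∀ i, m * M.rr (E i ∪ X (i + 1)) (E (i + 1)) ≤
      ((W ∩ E (i + 1)) \ (E i ∪ X (i + 1))).card) (T : ℕ) :
    m * (k * M.rr (X T) (E T)) + m * (Z ∩ badSet X E T).card ≤
      m * ((Z ∩ E T) \ X T).card + k * (W ∩ badSet X E T).card := by
  induction T with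
  | zero =>
    rw [badSet_zero]
    have e1 : Z ∩ (E 0 \ X 0) = (Z ∩ E 0) \ X 0 := by
      ext x; simp only [mem_inter, mem_sdiff]; tauto
    have e2 : W ∩ (E 0 \ X 0) = (W ∩ E 0) \ X 0 := by
      ext x; simp only [mem_inter, mem_sdiff]; tauto
    rw [e1, e2]
    have := Nat.mul_le_mul_left k h0
    have h3 : m * (k * M.rr (X 0) (E 0)) = k * (m * M.rr (X 0) (E 0)) := by ring
    omega
  | succ T ih =>
    set N := E (T + 1) \ (X (T + 1) ∪ E T) with hN
    have hTT := Nat.le_succ T
    -- submodularity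
    have s1 := M.submod (E T) (X (T + 1))
    have hXsub : X T ⊆ E T ∩ X (T + 1) := subset_inter (hXE T) (hX hTT)
    have r1 := M.r_add_rr_of_subset hXsub
    have r2 := M.r_add_rr_of_subset (hXE T)
    have r3 := M.r_add_rr_of_subset (subset_union_right (s₁ := E T) (s₂ := X (T + 1)))
    -- rr (X (T+1)) (E T ∪ X (T+1)) + rr (X T) (E T ∩ X (T+1)) ≤ rr (X T) (E T)
    have s2 : M.rr (X (T + 1)) (E T ∪ X (T + 1)) + M.rr (X T) (E T ∩ X (T + 1)) ≤
        M.rr (X T) (E T) := by omega
    -- sparse at X T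
    have s3 : ((Z ∩ (E T ∩ X (T + 1))) \ X T).card ≤ k * M.rr (X T) (E T ∩ X (T + 1)) :=
      ((hs T).le inter_subset_left).trans
        (Nat.mul_le_mul_left k (M.rr_mono _ inter_subset_right))
    -- chain through U = E T ∪ X (T+1)
    have hU : E T ∪ X (T + 1) ⊆ E (T + 1) := union_subset (hE hTT) (hXE _)
    have s4 := M.rr_trans (subset_union_right (s₁ := E T) (s₂ := X (T + 1))) hU
    -- cardinalities
    have c1 : ((Z ∩ (E T ∩ X (T + 1))) \ X T).card + ((Z ∩ E T) \ X (T + 1)).card =
        ((Z ∩ E T) \ X T).card := by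
      rw [← card_union_of_disjoint]
      · congr 1
        ext x
        simp only [mem_union, mem_sdiff, mem_inter]
        have := @hX _ _ hTT x
        tauto
      · rw [disjoint_left]
        intro x hx hx'
        simp only [mem_sdiff, mem_inter] at hx hx'
        exact hx'.2 hx.1.2.2
    have c2 : ((Z ∩ E (T + 1)) \ X (T + 1)).card =
        ((Z ∩ E T) \ X (T + 1)).card + (Z ∩ N).card := by
      rw [← card_union_of_disjoint]
      · congr 1
        ext x
        simp only [hN, mem_union, mem_sdiff, mem_inter, not_or]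
        have := @hE _ _ hTT x
        tauto
      · rw [disjoint_left]
        intro x hx hx'
        simp only [hN, mem_sdiff, mem_inter, mem_union, not_or] at hx hx'
        exact hx'.2.2.2 hx.1.2
    have c3 : (W ∩ E (T + 1)) \ (E T ∪ X (T + 1)) = W ∩ N := by
      ext x; simp only [hN, mem_union, mem_sdiff, mem_inter, not_or]; tauto
    have hdis : Disjoint (badSet X E T) N := by
      rw [disjoint_left]
      intro x hx hx'
      have := badSet_subset hE T hx
      simp only [hN, mem_sdiff, mem_union, not_or] at hx'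
      exact hx'.2.2 this
    have c4 : (Z ∩ badSet X E (T + 1)).card = (Z ∩ badSet X E T).card + (Z ∩ N).card := by
      rw [badSet_succ hX, inter_union_distrib_left, card_union_of_disjoint]
      exact hdis.mono inter_subset_right inter_subset_right
    have c5 : (W ∩ badSet X E (T + 1)).card = (W ∩ badSet X E T).card + (W ∩ N).card := by
      rw [badSet_succ hX, inter_union_distrib_left, card_union_of_disjoint]
      exact hdis.mono inter_subset_right inter_subset_right
    have hd' := hd T
    rw [c3] at hd'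
    rw [c4, c5, c2, s4]
    -- now arithmetic
    set a := M.rr (X (T + 1)) (E T ∪ X (T + 1))
    set b := M.rr (E T ∪ X (T + 1)) (E (T + 1))
    set c := M.rr (X T) (E T)
    set d := M.rr (X T) (E T ∩ X (T + 1))
    have k1 : k * a + k * d ≤ k * c := by rw [← Nat.mul_add]; exact Nat.mul_le_mul_left k s2
    have k2 : m * (k * a) + m * (k * d) ≤ m * (k * c) := by
      rw [← Nat.mul_add]; exact Nat.mul_le_mul_left m k1
    have k3 := Nat.mul_le_mul_left m s3
    have k4 : k * (m * b) ≤ k * (W ∩ N).card := Nat.mul_le_mul_left k hd'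
    have k5 : m * ((Z ∩ (E T ∩ X (T + 1))) \ X T).card + m * ((Z ∩ E T) \ X (T + 1)).card =
        m * ((Z ∩ E T) \ X T).card := by rw [← Nat.mul_add, c1]
    have k6 : m * (k * (a + b)) = m * (k * a) + k * (m * b) := by ring
    rw [k6, Nat.mul_add m, Nat.mul_add m, Nat.mul_add k]
    omega

/-- THEOREM B (flow lemma) for `k`-dense closures: `m |Z ∩ B| ≤ k |W ∩ B|`. -/
theorem flow {k m : ℕ} (Z W : Finset α) {f : ℕ → Finset α} (hf : Monotone f) (T : ℕ) :
    m * (Z ∩ badSet (fun i => M.kc k Z (f i)) (fun i => M.kc m W (M.kc k Z (f i))) T).card ≤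
      k * (W ∩ badSet (fun i => M.kc k Z (f i)) (fun i => M.kc m W (M.kc k Z (f i))) T).card := by
  set X : ℕ → Finset α := fun i => M.kc k Z (f i) with hXdef
  set E : ℕ → Finset α := fun i => M.kc m W (X i) with hEdef
  have hX : Monotone X := fun i j h => M.kc_mono (Subset.refl _) (hf h)
  have hE : Monotone E := fun i j h => M.kc_mono (Subset.refl _) (hX h)
  have hXE : ∀ i, X i ⊆ E i := fun i => M.subset_kc m W (X i)
  have hs : ∀ i, M.Sparse k Z (X i) := fun i => M.kc_sparse k Z (f i)
  have h0 : m * M.rr (X 0) (E 0) ≤ ((W ∩ E 0) \ X 0).card :=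
    M.kc_dense_flat (Subset.refl _) (hXE 0) (M.kc_flat k Z (f 0))
  have hd : ∀ i, m * M.rr (E i ∪ X (i + 1)) (E (i + 1)) ≤
      ((W ∩ E (i + 1)) \ (E i ∪ X (i + 1))).card := by
    intro i
    have hU : E i ∪ X (i + 1) ⊆ E (i + 1) := union_subset (hE (Nat.le_succ i)) (hXE _)
    have hcl : M.cl (E i ∪ X (i + 1)) ⊆ E (i + 1) := (M.kc_flat _ _ _).cl_subset hU
    have h := M.kc_dense_flat (k := m) (Z := W) (F := X (i + 1)) (G := M.cl (E i ∪ X (i + 1)))
      (subset_union_right.trans (M.subset_cl _)) hcl (M.flat_cl _)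
    rw [M.rr_cl_left] at h
    exact h.trans (card_le_card (sdiff_subset_sdiff (Subset.refl _) (M.subset_cl _)))
  have hmain := M.flow_abs (k := k) (m := m) (Z := Z) (W := W) hX hE hXE hs h0 hd T
  have hle : ((Z ∩ E T) \ X T).card ≤ k * M.rr (X T) (E T) :=
    ((hs T).le inter_subset_left).trans (Nat.mul_le_mul_left k (M.rr_mono _ inter_subset_right))
  have := Nat.mul_le_mul_left m hle
  omega

/-- if the bad set meets anything then it has at least `m` elements of `W` -/
theorem flow_card {k m : ℕ} (Z W : Finset α) (f : ℕ → Finset α) (T : ℕ) :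
    badSet (fun i => M.kc k Z (f i)) (fun i => M.kc m W (M.kc k Z (f i))) T = ∅ ∨
    m ≤ (W ∩ badSet (fun i => M.kc k Z (f i)) (fun i => M.kc m W (M.kc k Z (f i))) T).card := by
  set X : ℕ → Finset α := fun i => M.kc k Z (f i) with hXdef
  set E : ℕ → Finset α := fun i => M.kc m W (X i) with hEdef
  rcases (badSet X E T).eq_empty_or_nonempty with h | ⟨x, hx⟩
  · exact Or.inl h
  · right
    obtain ⟨i, hi, h1, h2⟩ := mem_badSet.1 hx
    have hXE : X i ⊆ E i := M.subset_kc m W (X i)
    have hr : 1 ≤ M.rr (X i) (E i) := by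
      by_contra hn
      have := (M.kc_flat k Z (f i)).eq_of_rr (G := E i) hXE (by simp only [hXdef] at hn ⊢; omega)
      apply h2
      show x ∈ M.kc k Z (f i)
      rw [this]; exact h1
    have hdn : m * M.rr (X i) (E i) ≤ ((W ∩ E i) \ X i).card :=
      M.kc_dense_flat (Subset.refl _) hXE (M.kc_flat k Z (f i))
    have hsub : (W ∩ E i) \ X i ⊆ W ∩ badSet X E T := by
      intro y hy
      simp only [mem_sdiff, mem_inter] at hy
      exact mem_inter.2 ⟨hy.1.1, mem_badSet.2 ⟨i, hi, hy.1.2, hy.2⟩⟩
    calc m = m * 1 := (mul_one m).symm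
      _ ≤ m * M.rr (X i) (E i) := Nat.mul_le_mul_left m hr
      _ ≤ _ := hdn
      _ ≤ _ := card_le_card hsub

/-- bad set of a chain given as a decreasing sequence -/
theorem badSet_reverse (X E : ℕ → Finset α) (T : ℕ) :
    badSet (fun i => X (T - i)) (fun i => E (T - i)) T = badSet X E T := by
  ext x
  simp only [mem_badSet]
  constructor
  · rintro ⟨i, hi, h1, h2⟩; exact ⟨T - i, by omega, h1, h2⟩
  · rintro ⟨i, hi, h1, h2⟩
    refine ⟨T - i, by omega, ?_, ?_⟩
    · rwa [Nat.sub_sub_self hi]
    · rwa [Nat.sub_sub_self hi]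

/-- THEOREM B for a decreasing chain `f 0 ⊇ f 1 ⊇ …` -/
theorem flow_anti {k m : ℕ} (Z W : Finset α) {f : ℕ → Finset α} (hf : Antitone f) (T : ℕ) :
    m * (Z ∩ badSet (fun i => M.kc k Z (f i)) (fun i => M.kc m W (M.kc k Z (f i))) T).card ≤
      k * (W ∩ badSet (fun i => M.kc k Z (f i)) (fun i => M.kc m W (M.kc k Z (f i))) T).card := by
  have hf' : Monotone (fun i => f (T - i)) := fun i j h => hf (Nat.sub_le_sub_left h T)
  have h := M.flow (k := k) (m := m) Z W hf' T
  have e := badSet_reverse (fun i => M.kc k Z (f i)) (fun i => M.kc m W (M.kc k Z (f i))) T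
  rw [e] at h
  exact h

/-- bad set of a chain indexed by a list of flats -/
theorem flow_list {k m : ℕ} (Z W : Finset α) (L : List (Finset α))
    (hL : L.Pairwise (fun a b => a ⊆ b)) :
    let B : Finset α := L.toFinset.biUnion
      (fun F => M.kc m W (M.kc k Z F) \ M.kc k Z F)
    m * (Z ∩ B).card ≤ k * (W ∩ B).card := by
  intro B
  rcases Nat.eq_zero_or_pos L.length with h0 | hpos
  · have hL0 : L = [] := List.length_eq_zero_iff.1 h0
    have : B = ∅ := by simp [B, hL0]
    rw [this]; simp
  · -- extend by the last element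
    let f : ℕ → Finset α := fun i => L.getD (min i (L.length - 1)) ∅
    have hlt : ∀ i, min i (L.length - 1) < L.length := fun i => by omega
    have hfv : ∀ i, f i = L[min i (L.length - 1)]'(hlt i) := fun i => by
      simp only [f]
      exact List.getD_eq_getElem _ _ (hlt i)
    have hf : Monotone f := by
      intro i j h
      rw [hfv, hfv]
      have hle : min i (L.length - 1) ≤ min j (L.length - 1) := by omega
      rcases Nat.lt_or_ge (min i (L.length - 1)) (min j (L.length - 1)) with h1 | h1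
      · exact (List.pairwise_iff_getElem.1 hL) _ _ (hlt i) (hlt j) h1
      · have h2 : min i (L.length - 1) = min j (L.length - 1) := by omega
        simp [h2]
    have hB : B = badSet (fun i => M.kc k Z (f i)) (fun i => M.kc m W (M.kc k Z (f i)))
        (L.length - 1) := by
      ext x
      simp only [B, mem_biUnion, List.mem_toFinset, mem_sdiff, mem_badSet]
      constructor
      · rintro ⟨F, hF, h1, h2⟩
        obtain ⟨i, hi, rfl⟩ := List.mem_iff_getElem.1 hF
        have hmin : min i (L.length - 1) = i := by omega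
        have hfi : f i = L[i] := by rw [hfv]; simp [hmin]
        exact ⟨i, by omega, by rwa [hfi], by rwa [hfi]⟩
      · rintro ⟨i, hi, h1, h2⟩
        rw [hfv] at h1 h2
        exact ⟨_, List.getElem_mem (hlt i), h1, h2⟩
    rw [hB]
    exact M.flow (k := k) (m := m) Z W hf _

end RankFn

end Crest.Agent.R305.Kd447
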