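import Mathlib

/-!
R305 / S0468: base layer (helper447).  Finite matroid rank function, closure, relative rank,
`k`-dense closure `kc k Z F`.
-/

set_option autoImplicit false
set_option linter.unusedSectionVars false
set_option linter.deprecated false

namespace Crest.Agent.R305.Kd447

open Finset

/-- a finite matroid, given by its rank function -/
structure RankFn (α : Type*) [DecidableEq α] where
  r : Finset α → ℕ
  r_empty : r ∅ = 0
  mono' : ∀ A B : Finset α, A ⊆ B → r A ≤ r B
  unit : ∀ (a : α) (A : Finset α), r (insert a A) ≤ r A + 1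
  submod : ∀ A B : Finset α, r (A ∪ B) + r (A ∩ B) ≤ r A + r B

namespace RankFn

variable {α : Type*} [DecidableEq α] (M : RankFn α)

theorem mono {A B : Finset α} (h : A ⊆ B) : M.r A ≤ M.r B := M.mono' A B h

theorem r_union_le_card (A B : Finset α) : M.r (A ∪ B) ≤ M.r A + B.card := by
  induction B using Finset.induction_on with
  | empty => simp
  | insert b B hb ih =>
    have h1 : A ∪ insert b B = insert b (A ∪ B) := by
      ext x; simp only [mem_union, mem_insert]; tauto
    rw [h1, card_insert_of_notMem hb]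
    have := M.unit b (A ∪ B)
    omega

theorem r_le_card (A : Finset α) : M.r A ≤ A.card := by
  have := M.r_union_le_card ∅ A
  simpa [M.r_empty] using this

/-- rank of `A` over `F` -/
def rr (F A : Finset α) : ℕ := M.r (F ∪ A) - M.r F

theorem r_add_rr (F A : Finset α) : M.r F + M.rr F A = M.r (F ∪ A) := by
  have := M.mono (subset_union_left (s₁ := F) (s₂ := A))
  unfold rr; omega

theorem r_add_rr_of_subset {F A : Finset α} (h : F ⊆ A) : M.r F + M.rr F A = M.r A := by
  rw [M.r_add_rr, union_eq_right.2 h]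

@[simp] theorem rr_empty (F : Finset α) : M.rr F ∅ = 0 := by simp [rr]

@[simp] theorem rr_self (F : Finset α) : M.rr F F = 0 := by simp [rr]

theorem rr_empty_left (A : Finset α) : M.rr ∅ A = M.r A := by simp [rr, M.r_empty]

theorem rr_mono (F : Finset α) {A B : Finset α} (h : A ⊆ B) : M.rr F A ≤ M.rr F B := by
  have h1 := M.r_add_rr F A
  have h2 := M.r_add_rr F B
  have h3 : M.r (F ∪ A) ≤ M.r (F ∪ B) := M.mono (union_subset_union_right h)
  omega

theorem rr_anti {F G : Finset α} (h : F ⊆ G) (A : Finset α) : M.rr G A ≤ M.rr F A := by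
  have h1 := M.r_add_rr F A
  have h2 := M.r_add_rr G A
  have h3 := M.submod G (F ∪ A)
  have h4 : G ∪ (F ∪ A) = G ∪ A := by
    ext x; simp only [mem_union]; have := @h x; tauto
  have h5 : M.r F ≤ M.r (G ∩ (F ∪ A)) := M.mono (by
    intro x hx; simp only [mem_inter, mem_union]; exact ⟨h hx, Or.inl hx⟩)
  rw [h4] at h3
  omega

theorem rr_le_card (F A : Finset α) : M.rr F A ≤ A.card := by
  have h1 := M.r_add_rr F A
  have := M.r_union_le_card F A
  omega

/-- chain rule -/
theorem rr_union (F A B : Finset α) : M.rr F (A ∪ B) = M.rr F A + M.rr (F ∪ A) B := by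
  have h1 := M.r_add_rr F (A ∪ B)
  have h2 := M.r_add_rr F A
  have h3 := M.r_add_rr (F ∪ A) B
  rw [← union_assoc] at h1
  omega

theorem rr_union_le (F A B : Finset α) : M.rr F (A ∪ B) ≤ M.rr F A + M.rr F B := by
  rw [M.rr_union]
  have := M.rr_anti (subset_union_left (s₁ := F) (s₂ := A)) B
  omega

theorem rr_submod (F A B : Finset α) :
    M.rr F (A ∪ B) + M.rr F (A ∩ B) ≤ M.rr F A + M.rr F B := by
  have h1 := M.r_add_rr F (A ∪ B)
  have h2 := M.r_add_rr F A
  have h3 := M.r_add_rr F B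
  have h4 := M.r_add_rr F (A ∩ B)
  have h5 := M.submod (F ∪ A) (F ∪ B)
  have h6 : (F ∪ A) ∪ (F ∪ B) = F ∪ (A ∪ B) := by ext x; simp only [mem_union]; tauto
  have h7 : (F ∪ A) ∩ (F ∪ B) = F ∪ (A ∩ B) := by ext x; simp only [mem_union, mem_inter]; tauto
  rw [h6, h7] at h5
  omega

/-- triangle: for `F ⊆ G ⊆ H` -/
theorem rr_trans {F G H : Finset α} (h1 : F ⊆ G) (h2 : G ⊆ H) :
    M.rr F H = M.rr F G + M.rr G H := by
  have h3 := M.r_add_rr_of_subset h1
  have h4 := M.r_add_rr_of_subset h2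
  have h5 := M.r_add_rr_of_subset (h1.trans h2)
  omega

theorem rr_sdiff (F A : Finset α) : M.rr F (A \ F) = M.rr F A := by
  unfold rr; rw [union_sdiff_self_eq_union]

theorem rr_congr_left {F G A : Finset α} (h : M.r F = M.r G) (h' : M.r (F ∪ A) = M.r (G ∪ A)) :
    M.rr F A = M.rr G A := by
  unfold rr; rw [h, h']

theorem rr_biUnion_le {ι : Type*} (s : Finset ι) (F : Finset α) (A : ι → Finset α)
    [DecidableEq ι] : M.rr F (s.biUnion A) ≤ ∑ i ∈ s, M.rr F (A i) := by
  induction s using Finset.induction_on with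
  | empty => simp
  | insert i s hi ih =>
    rw [biUnion_insert, sum_insert hi]
    exact (M.rr_union_le _ _ _).trans (by omega)

section Closure

variable [Fintype α]

/-- closure -/
def cl (A : Finset α) : Finset α := univ.filter (fun x => M.r (insert x A) = M.r A)

theorem mem_cl {A : Finset α} {x : α} : x ∈ M.cl A ↔ M.r (insert x A) = M.r A := by
  simp [cl]

theorem notMem_cl {A : Finset α} {x : α} : x ∉ M.cl A ↔ M.r (insert x A) = M.r A + 1 := by
  rw [M.mem_cl]
  have h1 := M.unit x A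
  have h2 := M.mono (subset_insert x A)
  omega

theorem subset_cl (A : Finset α) : A ⊆ M.cl A := by
  intro x hx
  rw [M.mem_cl, insert_eq_of_mem hx]

theorem r_union_of_subset_cl {A B : Finset α} (h : B ⊆ M.cl A) : M.r (A ∪ B) = M.r A := by
  induction B using Finset.induction_on with
  | empty => simp
  | insert b B hb ih =>
    have hB : B ⊆ M.cl A := (subset_insert b B).trans h
    have hbA : b ∈ M.cl A := h (mem_insert_self b B)
    have ih' := ih hB
    have h1 := M.submod (A ∪ B) (insert b A)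
    have h2 : (A ∪ B) ∪ insert b A = A ∪ insert b B := by
      ext x; simp only [mem_union, mem_insert]; tauto
    have h3 : M.r A ≤ M.r ((A ∪ B) ∩ insert b A) := M.mono (by
      intro x hx; simp only [mem_inter, mem_union, mem_insert]; tauto)
    rw [h2] at h1
    rw [M.mem_cl] at hbA
    have h4 : M.r A ≤ M.r (A ∪ insert b B) := M.mono subset_union_left
    omega

theorem cl_mono {A B : Finset α} (h : A ⊆ B) : M.cl A ⊆ M.cl B := by
  intro x hx
  rw [M.mem_cl] at hx ⊢
  have h1 := M.submod B (insert x A)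
  have h2 : B ∪ insert x A = insert x B := by
    ext y; simp only [mem_union, mem_insert]; have := @h y; tauto
  have h3 : M.r A ≤ M.r (B ∩ insert x A) := M.mono (by
    intro y hy; simp only [mem_inter, mem_insert]; exact ⟨h hy, Or.inr hy⟩)
  have h4 := M.mono (subset_insert x B)
  rw [h2] at h1
  omega

@[simp] theorem r_cl (A : Finset α) : M.r (M.cl A) = M.r A := by
  have h := M.r_union_of_subset_cl (Subset.refl (M.cl A))
  rwa [union_eq_right.2 (M.subset_cl A)] at h

@[simp] theorem cl_cl (A : Finset α) : M.cl (M.cl A) = M.cl A := by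
  apply Subset.antisymm _ (M.subset_cl _)
  intro x hx
  rw [M.mem_cl, M.r_cl] at hx
  rw [M.mem_cl]
  have h1 : M.r (insert x A) ≤ M.r (insert x (M.cl A)) :=
    M.mono (insert_subset_insert x (M.subset_cl A))
  have h2 := M.mono (subset_insert x A)
  omega

theorem cl_subset_iff {A B : Finset α} : M.cl A ⊆ M.cl B ↔ A ⊆ M.cl B := by
  constructor
  · exact fun h => (M.subset_cl A).trans h
  · intro h
    have := M.cl_mono h
    rwa [M.cl_cl] at this

/-- `B ⊇ A` is in the closure of `A` iff the ranks are equal -/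
theorem subset_cl_of_r_le {A B : Finset α} (h : A ⊆ B) (hr : M.r B ≤ M.r A) : B ⊆ M.cl A := by
  intro x hx
  rw [M.mem_cl]
  have h1 : M.r (insert x A) ≤ M.r B := M.mono (insert_subset hx h)
  have h2 := M.mono (subset_insert x A)
  omega

theorem subset_cl_iff_rr {A B : Finset α} : B ⊆ M.cl A ↔ M.rr A B = 0 := by
  have h := M.r_add_rr A B
  constructor
  · intro hB
    have := M.r_union_of_subset_cl hB
    omega
  · intro h0
    exact subset_union_right.trans (M.subset_cl_of_r_le subset_union_left (by omega))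

theorem r_union_cl_left (A B : Finset α) : M.r (M.cl A ∪ B) = M.r (A ∪ B) := by
  apply le_antisymm
  · have h : M.cl A ∪ B ⊆ M.cl (A ∪ B) :=
      union_subset (M.cl_mono subset_union_left) (subset_union_right.trans (M.subset_cl _))
    calc M.r (M.cl A ∪ B) ≤ M.r (M.cl (A ∪ B)) := M.mono h
      _ = _ := M.r_cl _
  · exact M.mono (union_subset_union_left (M.subset_cl A))

@[simp] theorem rr_cl_left (A B : Finset α) : M.rr (M.cl A) B = M.rr A B := by
  unfold rr; rw [M.r_union_cl_left, M.r_cl]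

theorem r_union_cl_right (A B : Finset α) : M.r (A ∪ M.cl B) = M.r (A ∪ B) := by
  rw [union_comm, M.r_union_cl_left, union_comm]

/-- `rr F A` only depends on `cl (F ∪ A)` -/
theorem rr_eq_of_cl {F A B : Finset α} (h : M.cl (F ∪ A) = M.cl (F ∪ B)) :
    M.rr F A = M.rr F B := by
  have h1 := M.r_add_rr F A
  have h2 := M.r_add_rr F B
  have h3 : M.r (F ∪ A) = M.r (F ∪ B) := by rw [← M.r_cl (F ∪ A), h, M.r_cl]
  omega

@[simp] theorem rr_cl_right (F A : Finset α) : M.rr F (M.cl A) = M.rr F A := by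
  unfold rr; rw [M.r_union_cl_right]

theorem rr_cl_union (F A : Finset α) : M.rr F (M.cl (F ∪ A)) = M.rr F A := by
  rw [M.rr_cl_right]; unfold rr
  rw [← union_assoc, union_self]

/-- exchange property -/
theorem mem_cl_insert_swap {A : Finset α} {x y : α} (hx : x ∈ M.cl (insert y A))
    (hx' : x ∉ M.cl A) : y ∈ M.cl (insert x A) := by
  rw [M.notMem_cl] at hx'
  rw [M.mem_cl] at hx ⊢
  have h1 := M.unit y A
  have h2 : insert x (insert y A) = insert y (insert x A) := Finset.insert_comm x y A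
  rw [h2] at hx
  have h3 := M.mono (subset_insert y (insert x A))
  omega

theorem rr_singleton_of_notMem {A : Finset α} {x : α} (h : x ∉ M.cl A) : M.rr A {x} = 1 := by
  have h1 := M.r_add_rr A {x}
  rw [union_singleton, (M.notMem_cl).1 h] at h1
  omega

/-- flats -/
def Flat (F : Finset α) : Prop := M.cl F = F

theorem flat_cl (A : Finset α) : M.Flat (M.cl A) := M.cl_cl A

theorem Flat.cl_eq {M : RankFn α} {F : Finset α} (h : M.Flat F) : M.cl F = F := h

theorem Flat.cl_subset {M : RankFn α} {F A : Finset α} (h : M.Flat F) (hA : A ⊆ F) :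
    M.cl A ⊆ F := by
  rw [← h.cl_eq]; exact M.cl_mono hA

theorem flat_univ : M.Flat univ := Subset.antisymm (subset_univ _) (M.subset_cl _)

theorem Flat.inter {M : RankFn α} {F G : Finset α} (hF : M.Flat F) (hG : M.Flat G) :
    M.Flat (F ∩ G) := by
  apply Subset.antisymm _ (M.subset_cl _)
  exact subset_inter (hF.cl_subset inter_subset_left) (hG.cl_subset inter_subset_right)

theorem Flat.r_lt {M : RankFn α} {F G : Finset α} (hF : M.Flat F) (h : F ⊂ G) :
    M.r F < M.r G := by
  by_contra hn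
  have := M.subset_cl_of_r_le h.1 (by omega)
  rw [hF.cl_eq] at this
  exact h.2 this

theorem Flat.eq_of_rr {M : RankFn α} {F G : Finset α} (hF : M.Flat F) (h : F ⊆ G)
    (h0 : M.rr F G = 0) : F = G := by
  apply Subset.antisymm h
  have := (M.subset_cl_iff_rr).2 h0
  rwa [hF.cl_eq] at this

/-! ### sparse flats and the dense closure -/

/-- `G` is `k`-sparse for `Z`: every non-empty `A ⊆ Z \ G` has `|A| < k r(A | G)` -/
def Sparse (k : ℕ) (Z G : Finset α) : Prop :=
  ∀ A ⊆ Z \ G, A.Nonempty → A.card < k * M.rr G A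

theorem Sparse.le {M : RankFn α} {k : ℕ} {Z G : Finset α} (h : M.Sparse k Z G)
    {A : Finset α} (hA : A ⊆ Z) : (A \ G).card ≤ k * M.rr G A := by
  rw [← M.rr_sdiff]
  rcases (A \ G).eq_empty_or_nonempty with h0 | h0
  · rw [h0]; simp
  · exact (h _ (sdiff_subset_sdiff hA (Subset.refl _)) h0).le

theorem sparse_univ (k : ℕ) (Z : Finset α) : M.Sparse k Z univ := by
  intro A hA hne
  obtain ⟨x, hx⟩ := hne
  have := hA hx
  simp at this

theorem Sparse.mono_Z {M : RankFn α} {k : ℕ} {Z Z' G : Finset α} (h : M.Sparse k Z' G)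
    (hZ : Z ⊆ Z') : M.Sparse k Z G :=
  fun A hA hne => h A (hA.trans (sdiff_subset_sdiff hZ (Subset.refl _))) hne

theorem Sparse.mono_k {M : RankFn α} {k k' : ℕ} {Z G : Finset α} (h : M.Sparse k Z G)
    (hk : k ≤ k') : M.Sparse k' Z G :=
  fun A hA hne => (h A hA hne).trans_le (Nat.mul_le_mul_right _ hk)

theorem Sparse.inter {M : RankFn α} {k : ℕ} {Z F G : Finset α} (hF : M.Sparse k Z F)
    (hG : M.Sparse k Z G) : M.Sparse k Z (F ∩ G) := by
  intro A hA hne
  -- A1 = A \ F , A2 = A ∩ F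
  have hAZ : A ⊆ Z := hA.trans sdiff_subset
  have hsplit : (A ∩ F) ∪ (A \ F) = A := by
    rw [union_comm]; exact sdiff_union_inter A F
  have hcard : (A \ F).card + (A ∩ F).card = A.card := card_sdiff_add_card_inter A F
  have hch := M.rr_union (F ∩ G) (A ∩ F) (A \ F)
  rw [hsplit] at hch
  have h1 : M.rr F (A \ F) ≤ M.rr ((F ∩ G) ∪ (A ∩ F)) (A \ F) :=
    M.rr_anti (union_subset inter_subset_left inter_subset_right) _
  have h2 : M.rr G (A ∩ F) ≤ M.rr (F ∩ G) (A ∩ F) := M.rr_anti inter_subset_right _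
  have h3 : (A ∩ F) ⊆ Z \ G := by
    intro x hx
    rw [mem_inter] at hx
    have h := hA hx.1
    rw [mem_sdiff, mem_inter] at h
    rw [mem_sdiff]
    exact ⟨h.1, fun hg => h.2 ⟨hx.2, hg⟩⟩
  have h4 : (A \ F) ⊆ Z \ F := sdiff_subset_sdiff hAZ (Subset.refl _)
  have hk : k * M.rr (F ∩ G) A = k * M.rr (F ∩ G) (A ∩ F) +
      k * M.rr ((F ∩ G) ∪ (A ∩ F)) (A \ F) := by rw [hch, Nat.mul_add]
  have h1k := Nat.mul_le_mul_left k h1
  have h2k := Nat.mul_le_mul_left k h2
  rcases (A ∩ F).eq_empty_or_nonempty with e2 | n2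
  · have : (A \ F).Nonempty := by
      rw [e2, empty_union] at hsplit; rwa [hsplit]
    have h5 := hF _ h4 this
    rw [e2, card_empty] at hcard
    omega
  · have h5 := hG _ h3 n2
    rcases (A \ F).eq_empty_or_nonempty with e1 | n1
    · rw [e1, card_empty] at hcard
      omega
    · have h6 := hF _ h4 n1
      omega

open Classical in
/-- the `k`-dense closure: the least `k`-sparse flat containing `F` -/
noncomputable def kc (k : ℕ) (Z F : Finset α) : Finset α :=
  univ.filter (fun x => ∀ G : Finset α, F ⊆ G → M.Flat G → M.Sparse k Z G → x ∈ G)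

theorem mem_kc {k : ℕ} {Z F : Finset α} {x : α} :
    x ∈ M.kc k Z F ↔ ∀ G : Finset α, F ⊆ G → M.Flat G → M.Sparse k Z G → x ∈ G := by
  unfold kc; simp

/-- LEAST -/
theorem kc_subset {k : ℕ} {Z F G : Finset α} (h : F ⊆ G) (hG : M.Flat G)
    (hs : M.Sparse k Z G) : M.kc k Z F ⊆ G := fun _ hx => (M.mem_kc.1 hx) G h hG hs

theorem subset_kc (k : ℕ) (Z F : Finset α) : F ⊆ M.kc k Z F :=
  fun _ hx => M.mem_kc.2 fun _ hG _ _ => hG hx

theorem kc_flat_sparse (k : ℕ) (Z F : Finset α) :
    M.Flat (M.kc k Z F) ∧ M.Sparse k Z (M.kc k Z F) := by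
  classical
  -- choose a good flat of least cardinality
  let S : Finset (Finset α) := univ.filter (fun G => F ⊆ G ∧ M.Flat G ∧ M.Sparse k Z G)
  have hS : S.Nonempty := ⟨univ, by
    simp only [S, mem_filter, mem_univ, true_and]
    exact ⟨subset_univ _, M.flat_univ, M.sparse_univ k Z⟩⟩
  obtain ⟨G, hG, hmin⟩ := S.exists_min_image card hS
  simp only [S, mem_filter, mem_univ, true_and] at hG hmin
  have : M.kc k Z F = G := by
    apply Subset.antisymm (M.kc_subset hG.1 hG.2.1 hG.2.2)
    intro x hx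
    rw [M.mem_kc]
    intro G' h1 h2 h3
    have h4 := hmin (G ∩ G') ⟨subset_inter hG.1 h1, hG.2.1.inter h2, hG.2.2.inter h3⟩
    have h5 : G ∩ G' = G := eq_of_subset_of_card_le inter_subset_left h4
    rw [← h5] at hx
    exact (mem_inter.1 hx).2
  rw [this]
  exact hG.2

theorem kc_flat (k : ℕ) (Z F : Finset α) : M.Flat (M.kc k Z F) := (M.kc_flat_sparse k Z F).1

/-- SPARSE -/
theorem kc_sparse (k : ℕ) (Z F : Finset α) : M.Sparse k Z (M.kc k Z F) :=
  (M.kc_flat_sparse k Z F).2

theorem cl_subset_kc (k : ℕ) (Z F : Finset α) : M.cl F ⊆ M.kc k Z F :=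
  (M.kc_flat k Z F).cl_subset (M.subset_kc k Z F)

theorem kc_mono {k : ℕ} {Z Z' F F' : Finset α} (hZ : Z ⊆ Z') (hF : F ⊆ F') :
    M.kc k Z F ⊆ M.kc k Z' F' :=
  M.kc_subset (hF.trans (M.subset_kc k Z' F')) (M.kc_flat _ _ _)
    ((M.kc_sparse k Z' F').mono_Z hZ)

theorem kc_anti_k {k k' : ℕ} (hk : k ≤ k') (Z F : Finset α) : M.kc k' Z F ⊆ M.kc k Z F :=
  M.kc_subset (M.subset_kc k Z F) (M.kc_flat _ _ _) ((M.kc_sparse k Z F).mono_k hk)

/-- absorbing parts of the closure -/
theorem kc_eq_of_subset {k : ℕ} {Z F G : Finset α} (h1 : F ⊆ G) (h2 : G ⊆ M.kc k Z F) :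
    M.kc k Z G = M.kc k Z F :=
  Subset.antisymm (M.kc_subset h2 (M.kc_flat _ _ _) (M.kc_sparse _ _ _))
    (M.kc_mono (Subset.refl _) h1)

@[simp] theorem kc_kc (k : ℕ) (Z F : Finset α) : M.kc k Z (M.kc k Z F) = M.kc k Z F :=
  M.kc_eq_of_subset (M.subset_kc k Z F) (Subset.refl _)

@[simp] theorem kc_cl (k : ℕ) (Z F : Finset α) : M.kc k Z (M.cl F) = M.kc k Z F :=
  M.kc_eq_of_subset (M.subset_cl F) (M.cl_subset_kc k Z F)

/-- DENSE: for `F ⊆ G ⊆ X = kc k Z F`, `G` a flat, `k r(X | G) ≤ |Z ∩ X \ G|`. -/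
theorem kc_dense_flat {k : ℕ} {Z F G : Finset α} (h1 : F ⊆ G) (h2 : G ⊆ M.kc k Z F)
    (hG : M.Flat G) :
    k * M.rr G (M.kc k Z F) ≤ ((Z ∩ M.kc k Z F) \ G).card := by
  classical
  set X := M.kc k Z F with hX
  have hXf : M.Flat X := M.kc_flat k Z F
  have hXs : M.Sparse k Z X := M.kc_sparse k Z F
  let n : ℤ := (Fintype.card α : ℤ) + 1
  let φ : Finset α → ℤ := fun H => (k : ℤ) * M.r H - (Z ∩ H).card
  let Φ : Finset α → ℤ := fun H => φ H * n - H.card
  let S : Finset (Finset α) := univ.filter (fun H => G ⊆ H ∧ H ⊆ X ∧ M.Flat H)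
  have hS : S.Nonempty := ⟨G, by simp [S, h2, hG]⟩
  obtain ⟨H, hH, hmin⟩ := S.exists_min_image Φ hS
  simp only [S, mem_filter, mem_univ, true_and] at hH hmin
  obtain ⟨hGH, hHX, hHf⟩ := hH
  have hn : 0 < n := by positivity
  have hcard : ∀ A : Finset α, (A.card : ℤ) < n := fun A => by
    have : A.card ≤ Fintype.card α := card_le_univ A
    simp only [n]; omega
  -- H is sparse
  have hHs : M.Sparse k Z H := by
    intro A hA hne
    have hAZ : A ⊆ Z := hA.trans sdiff_subset
    have hsplit : (A ∩ X) ∪ (A \ X) = A := by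
      rw [union_comm]; exact sdiff_union_inter A X
    have hc : (A \ X).card + (A ∩ X).card = A.card := card_sdiff_add_card_inter A X
    have hch := M.rr_union H (A ∩ X) (A \ X)
    rw [hsplit] at hch
    have e1 : M.rr X (A \ X) ≤ M.rr (H ∪ (A ∩ X)) (A \ X) :=
      M.rr_anti (union_subset hHX inter_subset_right) _
    have hk : k * M.rr H A = k * M.rr H (A ∩ X) + k * M.rr (H ∪ (A ∩ X)) (A \ X) := by
      rw [hch, Nat.mul_add]
    have e1k := Nat.mul_le_mul_left k e1
    have e2 : (A \ X).card ≤ k * M.rr X (A \ X) := by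
      have := hXs.le (A := A \ X) (sdiff_subset.trans hAZ)
      rwa [Finset.sdiff_idem] at this
    -- the inner part
    have e3 : (A ∩ X).Nonempty → (A ∩ X).card < k * M.rr H (A ∩ X) := by
      intro hne1
      set H' := M.cl (H ∪ (A ∩ X)) with hH'
      have hHH' : H ⊆ H' := subset_union_left.trans (M.subset_cl _)
      have hH'X : H' ⊆ X := hXf.cl_subset (union_subset hHX inter_subset_right)
      have hmin' := hmin H' ⟨hGH.trans hHH', hH'X, M.flat_cl _⟩
      have hdisj : A ∩ X ⊆ (Z ∩ H') \ H := by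
        intro x hx
        have hxA := (mem_inter.1 hx).1
        rw [mem_sdiff, mem_inter]
        refine ⟨⟨hAZ hxA, M.subset_cl _ (mem_union_right _ hx)⟩, ?_⟩
        exact (mem_sdiff.1 (hA hxA)).2
      have hlt : H.card < H'.card := by
        apply card_lt_card
        refine ⟨hHH', fun h => ?_⟩
        obtain ⟨x, hx⟩ := hne1
        have h3 := hdisj hx
        rw [mem_sdiff, mem_inter] at h3
        exact h3.2 (h h3.1.2)
      have hcc : ((Z ∩ H') \ H).card + (Z ∩ H).card = (Z ∩ H').card := by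
        have h5 : (Z ∩ H') \ H = (Z ∩ H') \ (Z ∩ H) := by
          ext x; simp only [mem_sdiff, mem_inter]; tauto
        rw [h5]
        exact card_sdiff_add_card_eq_card
          (inter_subset_inter (Subset.refl _) hHH')
      have hle := card_le_card hdisj
      have hr : M.r H + M.rr H (A ∩ X) = M.r H' := by rw [M.r_add_rr, hH', M.r_cl]
      simp only [Φ, φ] at hmin'
      -- (φ H') * n - |H'| ≥ φ H * n - |H|
      have hint : (k : ℤ) * M.r H - (Z ∩ H).card < (k : ℤ) * M.r H' - (Z ∩ H').card := by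
        by_contra hcon
        push Not at hcon
        have := mul_le_mul_of_nonneg_right hcon hn.le
        have h6 : (H.card : ℤ) < H'.card := by exact_mod_cast hlt
        linarith
      have hr' : (k : ℤ) * M.r H' = (k : ℤ) * M.r H + (k : ℤ) * M.rr H (A ∩ X) := by
        rw [← hr]; push_cast; ring
      have hcc' : (((Z ∩ H') \ H).card : ℤ) + (Z ∩ H).card = (Z ∩ H').card := by
        exact_mod_cast hcc
      have hle' : ((A ∩ X).card : ℤ) ≤ ((Z ∩ H') \ H).card := by exact_mod_cast hle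
      have : ((A ∩ X).card : ℤ) < (k : ℤ) * M.rr H (A ∩ X) := by linarith
      exact_mod_cast this
    rcases (A ∩ X).eq_empty_or_nonempty with e4 | n4
    · have hAX : A \ X = A := by rw [e4, empty_union] at hsplit; exact hsplit
      have h7 : A ⊆ Z \ X := by
        rw [← hAX]; exact sdiff_subset_sdiff hAZ (Subset.refl _)
      have h8 := hXs A h7 hne
      rw [hAX] at e1k hk
      omega
    · have := e3 n4
      omega
  have hXH : X ⊆ H := M.kc_subset (h1.trans hGH) hHf hHs
  have hHeq : H = X := Subset.antisymm hHX hXH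
  have hfin := hmin G ⟨Subset.refl _, h2, hG⟩
  rw [hHeq] at hfin
  simp only [Φ, φ] at hfin
  have hint : (k : ℤ) * M.r X - (Z ∩ X).card ≤ (k : ℤ) * M.r G - (Z ∩ G).card := by
    by_contra hcon
    push Not at hcon
    have h6 : (k : ℤ) * M.r G - (Z ∩ G).card + 1 ≤ (k : ℤ) * M.r X - (Z ∩ X).card := hcon
    have := mul_le_mul_of_nonneg_right h6 hn.le
    have h7 := hcard X
    have h8 : (0 : ℤ) ≤ G.card := by positivity
    nlinarith
  have hcc : ((Z ∩ X) \ G).card + (Z ∩ G).card = (Z ∩ X).card := by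
    have h5 : (Z ∩ X) \ G = (Z ∩ X) \ (Z ∩ G) := by
      ext x; simp only [mem_sdiff, mem_inter]; tauto
    rw [h5]
    exact card_sdiff_add_card_eq_card (inter_subset_inter (Subset.refl _) h2)
  have hr := M.r_add_rr_of_subset h2
  have hr' : (k : ℤ) * M.r X = (k : ℤ) * M.r G + (k : ℤ) * M.rr G X := by
    rw [← hr]; push_cast; ring
  have hcc' : (((Z ∩ X) \ G).card : ℤ) + (Z ∩ G).card = (Z ∩ X).card := by exact_mod_cast hcc
  have : (k : ℤ) * M.rr G X ≤ ((Z ∩ X) \ G).card := by linarith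
  exact_mod_cast this

/-- DENSE, general form: `V ⊆ X = kc k Z F`, `U = cl (F ∪ V)`. -/
theorem kc_dense {k : ℕ} {Z F V : Finset α} (hV : V ⊆ M.kc k Z F) :
    k * M.rr (M.cl (F ∪ V)) (M.kc k Z F) ≤ ((Z ∩ M.kc k Z F) \ M.cl (F ∪ V)).card :=
  M.kc_dense_flat (subset_union_left.trans (M.subset_cl _))
    ((M.kc_flat k Z F).cl_subset (union_subset (M.subset_kc k Z F) hV)) (M.flat_cl _)

/-- the closure is spanned by `F` and the elements of `Z` inside it -/
theorem kc_eq_cl {k : ℕ} (hk : 0 < k) (Z F : Finset α) :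
    M.kc k Z F = M.cl (F ∪ (Z ∩ M.kc k Z F)) := by
  apply Subset.antisymm
  · have h := M.kc_dense (k := k) (Z := Z) (F := F) (V := Z ∩ M.kc k Z F) inter_subset_right
    have h0 : ((Z ∩ M.kc k Z F) \ M.cl (F ∪ (Z ∩ M.kc k Z F))) = ∅ := by
      rw [sdiff_eq_empty_iff_subset]
      exact subset_union_right.trans (M.subset_cl _)
    rw [h0, card_empty] at h
    have h1 : M.rr (M.cl (F ∪ (Z ∩ M.kc k Z F))) (M.kc k Z F) = 0 := by
      rcases Nat.eq_zero_or_pos (M.rr (M.cl (F ∪ (Z ∩ M.kc k Z F))) (M.kc k Z F)) with h2 | h2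
      · exact h2
      · have := Nat.mul_pos hk h2; omega
    have h2 := (M.subset_cl_iff_rr).2 h1
    rwa [M.cl_cl] at h2
  · exact (M.kc_flat k Z F).cl_subset (union_subset (M.subset_kc k Z F) inter_subset_right)

theorem kc_empty_Z {k : ℕ} (F : Finset α) : M.kc k ∅ F = M.cl F := by
  apply Subset.antisymm _ (M.cl_subset_kc k ∅ F)
  apply M.kc_subset (M.subset_cl F) (M.flat_cl F)
  intro A hA hne
  rw [empty_sdiff] at hA
  exact absurd (subset_empty.1 hA) (nonempty_iff_ne_empty.1 hne)

end Closure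

end RankFn

/-! ### the rank function of a Mathlib matroid -/

section OfMatroid

variable {α : Type*} [DecidableEq α]

theorem eRk_coe_ne_top (M : Matroid α) (A : Finset α) : M.eRk (A : Set α) ≠ ⊤ := by
  have h := M.eRk_le_encard (A : Set α)
  rw [Set.encard_coe_eq_coe_finsetCard] at h
  exact ne_top_of_le_ne_top (ENat.coe_ne_top _) h

/-- rank function of a matroid -/
noncomputable def ofMatroid (M : Matroid α) : RankFn α where
  r A := (M.eRk (A : Set α)).toNat
  r_empty := by simp
  mono' A B h := ENat.toNat_le_toNat (M.eRk_mono (by exact_mod_cast h)) (eRk_coe_ne_top M B)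
  unit a A := by
    have h := M.eRk_insert_le_add_one a (A : Set α)
    rw [← Finset.coe_insert] at h
    have h1 := ENat.coe_toNat (eRk_coe_ne_top M (insert a A))
    have h2 := ENat.coe_toNat (eRk_coe_ne_top M A)
    rw [← h1, ← h2] at h
    exact_mod_cast h
  submod A B := by
    have h := M.eRk_inter_add_eRk_union_le (A : Set α) (B : Set α)
    rw [← Finset.coe_inter, ← Finset.coe_union] at h
    have h1 := ENat.coe_toNat (eRk_coe_ne_top M (A ∩ B))
    have h2 := ENat.coe_toNat (eRk_coe_ne_top M (A ∪ B))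
    have h3 := ENat.coe_toNat (eRk_coe_ne_top M A)
    have h4 := ENat.coe_toNat (eRk_coe_ne_top M B)
    rw [← h1, ← h2, ← h3, ← h4] at h
    have h' : (M.eRk ((A ∩ B : Finset α) : Set α)).toNat +
        (M.eRk ((A ∪ B : Finset α) : Set α)).toNat ≤
        (M.eRk (A : Set α)).toNat + (M.eRk (B : Set α)).toNat := by exact_mod_cast h
    omega

theorem coe_ofMatroid_r (M : Matroid α) (A : Finset α) :
    (((ofMatroid M).r A : ℕ) : ℕ∞) = M.eRk (A : Set α) :=
  ENat.coe_toNat (eRk_coe_ne_top M A)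

theorem indep_iff_r (M : Matroid α) (A : Finset α) :
    M.Indep (A : Set α) ↔ (ofMatroid M).r A = A.card := by
  rw [Matroid.indep_iff_eRk_eq_encard_of_finite A.finite_toSet, ← coe_ofMatroid_r,
    Set.encard_coe_eq_coe_finsetCard]
  exact_mod_cast Iff.rfl

end OfMatroid

end Crest.Agent.R305.Kd447
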