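import Crest.Agent.R305.Un_228
import Crest.Agent.R305.Kd_447
import Crest.Agent.R305.Flow_447

/-!
# R305, block L2 (helper228): the one-class problem, assembly

`E` class, `O ⊆ E` the part to be served, `g Z` the pilot used for the `K`-dense closure
(`Z ∩ O ⊆ g Z ⊆ Z ∩ E`), `f` an increasing chain, `X Z i = kc K (g Z) (f i)`.

* `harm_le` : pointwise bound of the harmed elements
* `harm_exp_le` : expectation over the thin sample
* `ocp_of` : the expected number of harmed elements, given codes and the flow inequality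
* `ocp_code` : **L2** of helper137, given codes of the chains (`CodeP`)
-/

set_option autoImplicit false
set_option linter.unusedSectionVars false

namespace Crest.Agent.R305.Ocp228

open Finset Crest.Agent.R305.Dep310 Crest.Agent.R305.Un228 Crest.Agent.R305.Kd447

variable {α : Type*} [Fintype α] [DecidableEq α] (R : RankFn α)

/-- the `m`-dense closure in `O` of the chain element `i` -/
noncomputable def EE (m : ℕ) (O : Finset α) (X : ℕ → Finset α) (i : ℕ) : Finset α :=
  R.kc m O (X i)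

/-- the dense parts of the rows -/
noncomputable def BB (m T : ℕ) (O : Finset α) (X : ℕ → Finset α) : Finset α :=
  (range (T + 1)).biUnion fun i => EE R m O X i \ X i

/-- the sparse part of the row `i` -/
noncomputable def GG (m : ℕ) (O : Finset α) (X : ℕ → Finset α) (i : ℕ) : Finset α :=
  (O ∩ X (i + 1)) \ EE R m O X i

open Classical in
/-- the harmed elements of the online set `H` -/
noncomputable def harm (O : Finset α) (X : ℕ → Finset α) (H : Finset α) : Finset α :=
  (H ∩ O).filter fun h => ∃ i, h ∈ X (i + 1) ∧ h ∉ X i ∧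
    h ∈ R.cl (X i ∪ ((H ∩ O ∩ X (i + 1)).erase h))

variable {R}

theorem subset_EE (m : ℕ) (O : Finset α) (X : ℕ → Finset α) (i : ℕ) : X i ⊆ EE R m O X i :=
  R.subset_kc m O (X i)

theorem harm_subset {m T : ℕ} {O : Finset α} {X : ℕ → Finset α}
    (hT : ∀ i, T ≤ i → X (i + 1) = X i) (H : Finset α) :
    harm R O X H ⊆ (H ∩ (O ∩ BB R m T O X)) ∪
      (range (T + 1)).biUnion fun i => (H ∩ GG R m O X i).filter fun h =>
        h ∈ R.cl (EE R m O X i ∪ ((H ∩ GG R m O X i).erase h)) := by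
  classical
  intro h hh
  simp only [harm, mem_filter, mem_inter] at hh
  obtain ⟨⟨hH, hO⟩, i, hi1, hi2, hcl⟩ := hh
  have hiT : i < T + 1 := by
    by_contra hc
    have := hT i (by omega)
    rw [this] at hi1
    exact hi2 hi1
  simp only [mem_union, mem_inter, mem_biUnion, mem_filter, mem_range]
  by_cases hE : h ∈ EE R m O X i
  · left
    refine ⟨hH, hO, ?_⟩
    simp only [BB, mem_biUnion, mem_range, mem_sdiff]
    exact ⟨i, hiT, hE, hi2⟩
  · right
    refine ⟨i, hiT, ⟨hH, ?_⟩, ?_⟩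
    · simp only [GG, mem_sdiff, mem_inter]
      exact ⟨⟨hO, hi1⟩, hE⟩
    · have hsub : X i ∪ ((H ∩ O ∩ X (i + 1)).erase h) ⊆
          EE R m O X i ∪ ((H ∩ GG R m O X i).erase h) := by
        intro a ha
        simp only [mem_union, mem_erase, mem_inter] at ha ⊢
        rcases ha with ha | ⟨ha1, ⟨ha2, ha3⟩, ha4⟩
        · exact Or.inl (subset_EE m O X i ha)
        · by_cases haE : a ∈ EE R m O X i
          · exact Or.inl haE
          · refine Or.inr ⟨ha1, ha2, ?_⟩
            simp only [GG, mem_sdiff, mem_inter]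
            exact ⟨⟨ha3, ha4⟩, haE⟩
      exact R.cl_mono hsub hcl

theorem sparse_GG (m : ℕ) (O : Finset α) (X : ℕ → Finset α) (i : ℕ) (Z A : Finset α) :
    (((GG R m O X i \ Z) ∩ R.cl (EE R m O X i ∪ A)).card : ℝ) ≤ (m : ℝ) * A.card := by
  set S := (GG R m O X i \ Z) ∩ R.cl (EE R m O X i ∪ A) with hS
  have hSO : S ⊆ O := by
    intro a ha
    simp only [hS, GG, mem_inter, mem_sdiff] at ha
    exact ha.1.1.1.1
  have hSE : S \ EE R m O X i = S := by
    refine sdiff_eq_self_of_disjoint ?_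
    rw [Finset.disjoint_left]
    intro a ha hE
    simp only [hS, GG, mem_inter, mem_sdiff] at ha
    exact ha.1.1.2 hE
  have h1 := (R.kc_sparse m O (X i)).le hSO
  have h1' : (S \ EE R m O X i).card ≤ m * R.rr (EE R m O X i) S := h1
  rw [hSE] at h1'
  have h2 : R.rr (EE R m O X i) S ≤ R.rr (EE R m O X i) A := by
    rw [← R.rr_cl_union (EE R m O X i) A]
    exact R.rr_mono _ inter_subset_right
  have h3 := R.rr_le_card (EE R m O X i) A
  have h4 : S.card ≤ m * A.card := h1'.trans (Nat.mul_le_mul_left _ (h2.trans h3))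
  exact_mod_cast h4

theorem sum_GG_le (m T : ℕ) (O : Finset α) {X : ℕ → Finset α} (hX : Monotone X) :
    ∑ i ∈ range (T + 1), (GG R m O X i).card ≤ O.card := by
  have hd : ∀ i ∈ range (T + 1), ∀ j ∈ range (T + 1), i ≠ j →
      Disjoint (GG R m O X i) (GG R m O X j) := by
    have key : ∀ i j, i < j → Disjoint (GG R m O X i) (GG R m O X j) := by
      intro i j hij
      rw [Finset.disjoint_left]
      intro a hi hj
      simp only [GG, mem_inter, mem_sdiff] at hi hj
      exact hj.2 (subset_EE m O X j (hX (Nat.succ_le_of_lt hij) hi.1.2))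
    intro i _ j _ hij
    rcases lt_or_gt_of_ne hij with h | h
    · exact key i j h
    · exact (key j i h).symm
  rw [← card_biUnion hd]
  refine card_le_card ?_
  intro a ha
  simp only [mem_biUnion, GG, mem_sdiff, mem_inter] at ha
  obtain ⟨_, _, h, _⟩ := ha
  exact h.1

open Classical in
theorem harm_exp_le {m T : ℕ} {O : Finset α} {X : ℕ → Finset α} (hX : Monotone X)
    (hT : ∀ i, T ≤ i → X (i + 1) = X i) {p : ℝ} (hp0 : 0 ≤ p) (hp1 : p ≤ 1) (Z : Finset α) :
    ∑ B, w (fun _ => p) B * ((harm R O X (B \ Z)).card : ℝ) ≤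
      p * (((O ∩ BB R m T O X).card : ℝ) + m * p * O.card) := by
  have h0 : ∀ _a : α, 0 ≤ p := fun _ => hp0
  have h1 : ∀ _a : α, p ≤ 1 := fun _ => hp1
  have e1 : ∀ B : Finset α, ((harm R O X (B \ Z)).card : ℝ) ≤
      ((B ∩ ((O ∩ BB R m T O X) \ Z)).card : ℝ) +
      ∑ i ∈ range (T + 1), ((((B ∩ (GG R m O X i \ Z)).filter fun h =>
        h ∈ R.cl (EE R m O X i ∪ ((B ∩ (GG R m O X i \ Z)).erase h))).card : ℕ) : ℝ) := by
    intro B
    have h2 := card_le_card (harm_subset (R := R) (m := m) (T := T) (O := O) hT (B \ Z))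
    have h3 := (h2.trans (card_union_le _ _)).trans
      (Nat.add_le_add_left card_biUnion_le _)
    have h4 : ∀ G : Finset α, (B \ Z) ∩ G = B ∩ (G \ Z) := by
      intro G; ext a; simp only [mem_inter, mem_sdiff]; tauto
    simp only [h4] at h3
    exact_mod_cast h3
  have e2 : ∑ B, w (fun _ : α => p) B * ((B ∩ ((O ∩ BB R m T O X) \ Z)).card : ℝ) ≤
      p * (O ∩ BB R m T O X).card := by
    rw [Un228.sum_card_inter, Finset.sum_const, nsmul_eq_mul, mul_comm]
    refine mul_le_mul_of_nonneg_left ?_ hp0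
    exact_mod_cast card_le_card sdiff_subset
  have e3 : ∀ i, ∑ B, w (fun _ : α => p) B * ((((B ∩ (GG R m O X i \ Z)).filter fun h =>
        h ∈ R.cl (EE R m O X i ∪ ((B ∩ (GG R m O X i \ Z)).erase h))).card : ℕ) : ℝ) ≤
      m * p ^ 2 * (GG R m O X i).card := by
    intro i
    have h5 := thin h0 h1 (d := p) (m := (m : ℝ)) hp0 (by positivity) (GG R m O X i \ Z)
      (fun _ _ => le_rfl) (fun A => R.cl (EE R m O X i ∪ A))
      (fun {A B} h => R.cl_mono (union_subset_union_right h))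
      (fun A _ => sparse_GG m O X i Z A)
    refine h5.trans ?_
    refine mul_le_mul_of_nonneg_left ?_ (by positivity)
    exact_mod_cast card_le_card sdiff_subset
  calc ∑ B, w (fun _ => p) B * ((harm R O X (B \ Z)).card : ℝ)
      ≤ ∑ B, w (fun _ => p) B * (((B ∩ ((O ∩ BB R m T O X) \ Z)).card : ℝ) +
      ∑ i ∈ range (T + 1), ((((B ∩ (GG R m O X i \ Z)).filter fun h =>
        h ∈ R.cl (EE R m O X i ∪ ((B ∩ (GG R m O X i \ Z)).erase h))).card : ℕ) : ℝ)) :=
        sum_split h0 h1 _ _ e1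
    _ = ∑ B, w (fun _ => p) B * ((B ∩ ((O ∩ BB R m T O X) \ Z)).card : ℝ) +
      ∑ i ∈ range (T + 1), ∑ B, w (fun _ => p) B *
        ((((B ∩ (GG R m O X i \ Z)).filter fun h =>
        h ∈ R.cl (EE R m O X i ∪ ((B ∩ (GG R m O X i \ Z)).erase h))).card : ℕ) : ℝ) := by
        simp only [mul_add, Finset.sum_add_distrib, Finset.mul_sum]
        rw [Finset.sum_comm (s := univ) (t := range (T + 1))]
    _ ≤ p * (O ∩ BB R m T O X).card + ∑ i ∈ range (T + 1), m * p ^ 2 * (GG R m O X i).card :=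
        add_le_add e2 (Finset.sum_le_sum fun i _ => e3 i)
    _ ≤ _ := by
        rw [← Finset.mul_sum]
        have h6 : (∑ i ∈ range (T + 1), ((GG R m O X i).card : ℝ)) ≤ O.card := by
          exact_mod_cast sum_GG_le m T O hX
        have h7 : (0 : ℝ) ≤ m * p ^ 2 := by positivity
        nlinarith [mul_le_mul_of_nonneg_left h6 h7]

/-- the dense part is empty or has at least `m` elements of `O` -/
theorem card_BB {m T : ℕ} {O : Finset α} {X : ℕ → Finset α} (hfl : ∀ i, R.Flat (X i)) :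
    O ∩ BB R m T O X = ∅ ∨ m ≤ (O ∩ BB R m T O X).card := by
  by_cases h : ∃ i ∈ range (T + 1), (EE R m O X i \ X i).Nonempty
  · obtain ⟨i, hi, hne⟩ := h
    right
    have h1 := R.kc_dense_flat (k := m) (Z := O) (F := X i) (G := X i) Subset.rfl
      (R.subset_kc m O (X i)) (hfl i)
    have h2 : 1 ≤ R.rr (X i) (R.kc m O (X i)) := by
      by_contra hc
      have h3 : R.rr (X i) (R.kc m O (X i)) = 0 := by omega
      rw [← R.subset_cl_iff_rr, (hfl i).cl_eq] at h3
      obtain ⟨a, ha⟩ := hne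
      rw [mem_sdiff] at ha
      exact ha.2 (h3 ha.1)
    have h4 : (O ∩ R.kc m O (X i)) \ X i ⊆ O ∩ BB R m T O X := by
      intro a ha
      simp only [mem_sdiff, mem_inter] at ha
      simp only [BB, mem_inter, mem_biUnion, mem_sdiff]
      exact ⟨ha.1.1, i, hi, ha.1.2, ha.2⟩
    have h5 := card_le_card h4
    have h6 : m ≤ m * R.rr (X i) (R.kc m O (X i)) := Nat.le_mul_of_pos_right _ h2
    omega
  · left
    push Not at h
    ext a
    simp only [BB, mem_inter, mem_biUnion, notMem_empty, iff_false, not_and, not_exists]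
    intro _ i hi ha
    have := h i hi
    rw [this] at ha
    exact absurd ha (notMem_empty a)

/-- the harmed fraction caused by the dense part -/
noncomputable def eta (K : ℕ) (x : ℝ) : ℝ := 16 * epsk K / x + Real.exp (-(K / 8 : ℝ))

open Classical in
/-- **L2 given codes and the flow inequality.** -/
theorem ocp_of {K m T : ℕ} (hK : 1 ≤ K) {x p : ℝ} (hx0 : 0 < x) (hx1 : x ≤ 1) (hp0 : 0 ≤ p)
    (hp1 : p ≤ 1) (hm : 2 * (K : ℝ) ≤ x * m) {E O : Finset α} (hO : O ⊆ E)
    {g : Finset α → Finset α} (hg2 : ∀ Z, Z ∩ O ⊆ g Z) {f : ℕ → Finset α}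
    (hf : Monotone f) (hT : ∀ i, T ≤ i → f (i + 1) = f i)
    (cod : Finset α → Cd α) (dec : Cd α → ℕ → Finset α) (hcod : ∀ Z, IsCode K E (cod Z))
    (hdec : ∀ Z i, i ≤ T → dec (cod Z) i = R.kc K (g Z) (f i))
    (hflow : ∀ Z, m * (g Z ∩ BB R m T O fun i => R.kc K (g Z) (f i)).card ≤
      K * (O ∩ BB R m T O fun i => R.kc K (g Z) (f i)).card) :
    ∑ Z, ∑ B, w (fun _ => x) Z * w (fun _ => p) B *
      ((harm R O (fun i => R.kc K (g Z) (f i)) (B \ Z)).card : ℝ) ≤
      p * (eta K x * E.card + m * p * O.card) := by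
  have h0 : ∀ _a : α, 0 ≤ x := fun _ => hx0.le
  have h1 : ∀ _a : α, x ≤ 1 := fun _ => hx1
  have hm0 : (0 : ℝ) < m := by
    have : (0 : ℝ) < 2 * K := by positivity
    nlinarith
  set X : Finset α → ℕ → Finset α := fun Z i => R.kc K (g Z) (f i) with hX
  have hXm : ∀ Z, Monotone (X Z) := fun Z i j hij => R.kc_mono Subset.rfl (hf hij)
  have hXT : ∀ Z i, T ≤ i → X Z (i + 1) = X Z i := fun Z i hi => by
    simp only [hX, hT i hi]
  have hfl : ∀ Z i, R.Flat (X Z i) := fun Z i => R.kc_flat _ _ _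
  set Y : Cd α → Finset α := fun c => O ∩ BB R m T O (dec c) with hY
  have hYe : ∀ Z, Y (cod Z) = O ∩ BB R m T O (X Z) := by
    intro Z
    simp only [hY]
    congr 1
    unfold BB EE
    refine Finset.biUnion_congr rfl fun i hi => ?_
    rw [mem_range] at hi
    rw [hdec Z i (by omega)]
  have e1 : ∀ Z, ∑ B, w (fun _ => p) B * ((harm R O (X Z) (B \ Z)).card : ℝ) ≤
      p * (((Y (cod Z)).card : ℝ) + m * p * O.card) := by
    intro Z
    rw [hYe Z]
    exact harm_exp_le (hXm Z) (hXT Z) hp0 hp1 Z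
  have e2 := EY_le h0 h1 hK (W := E) hx0 (fun _ _ => le_rfl) Y
    (fun c => inter_subset_left.trans hO) cod hcod ?_ ?_
  · calc ∑ Z, ∑ B, w (fun _ => x) Z * w (fun _ => p) B * ((harm R O (X Z) (B \ Z)).card : ℝ)
        = ∑ Z, w (fun _ => x) Z * ∑ B, w (fun _ => p) B *
          ((harm R O (X Z) (B \ Z)).card : ℝ) := by
          refine Finset.sum_congr rfl fun Z _ => ?_
          rw [Finset.mul_sum]
          exact Finset.sum_congr rfl fun B _ => by ring
      _ ≤ ∑ Z, w (fun _ => x) Z * (p * (((Y (cod Z)).card : ℝ) + m * p * O.card)) :=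
          sum_split h0 h1 _ _ e1
      _ = p * (∑ Z, w (fun _ => x) Z * ((Y (cod Z)).card : ℝ) + m * p * O.card) := by
          have : ∀ Z, w (fun _ : α => x) Z * (p * (((Y (cod Z)).card : ℝ) + m * p * O.card)) =
              p * (w (fun _ => x) Z * ((Y (cod Z)).card : ℝ)) +
              w (fun _ => x) Z * (p * (m * p * O.card)) := fun Z => by ring
          simp only [this]
          rw [Finset.sum_add_distrib, ← Finset.mul_sum, ← Finset.sum_mul, sum_w]
          ring
      _ ≤ _ := by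
          refine mul_le_mul_of_nonneg_left ?_ hp0
          have : eta K x = 16 * epsk K / x + Real.exp (-(K / 8 : ℝ)) := rfl
          rw [this]
          linarith
  · intro Z
    rw [hYe Z]
    have h3 : (Z ∩ (O ∩ BB R m T O (X Z))).card ≤ (g Z ∩ BB R m T O (X Z)).card := by
      refine card_le_card fun a ha => ?_
      simp only [mem_inter] at ha ⊢
      exact ⟨hg2 Z (mem_inter.2 ⟨ha.1, ha.2.1⟩), ha.2.2⟩
    have h4 : (m : ℝ) * (g Z ∩ BB R m T O (X Z)).card ≤ K * (O ∩ BB R m T O (X Z)).card := by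
      exact_mod_cast hflow Z
    have h3' : ((Z ∩ (O ∩ BB R m T O (X Z))).card : ℝ) ≤ (g Z ∩ BB R m T O (X Z)).card := by
      exact_mod_cast h3
    have h5 : (0 : ℝ) ≤ (O ∩ BB R m T O (X Z)).card := by positivity
    have h6 : (m : ℝ) * (Z ∩ (O ∩ BB R m T O (X Z))).card ≤
        m * (x / 2 * (O ∩ BB R m T O (X Z)).card) := by
      calc (m : ℝ) * (Z ∩ (O ∩ BB R m T O (X Z))).card
          ≤ m * (g Z ∩ BB R m T O (X Z)).card := mul_le_mul_of_nonneg_left h3' hm0.le
        _ ≤ K * (O ∩ BB R m T O (X Z)).card := h4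
        _ ≤ _ := by nlinarith [mul_le_mul_of_nonneg_right hm h5]
    exact le_of_mul_le_mul_left h6 hm0
  · intro Z
    rw [hYe Z]
    rcases card_BB (m := m) (T := T) (O := O) (hfl Z) with h | h
    · exact Or.inl h
    · right
      have h7 : (m : ℝ) ≤ (O ∩ BB R m T O (X Z)).card := by exact_mod_cast h
      nlinarith [mul_le_mul_of_nonneg_left h7 hx0.le]

/-- a monotone chain of finite sets is eventually constant -/
theorem exists_const {f : ℕ → Finset α} (hf : Monotone f) : ∃ T, ∀ i, T ≤ i → f (i + 1) = f i := by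
  obtain ⟨T, hT⟩ := WellFoundedGT.monotone_chain_condition (⟨f, hf⟩ : ℕ →o Finset α)
  refine ⟨T, fun i hi => ?_⟩
  have h1 := hT i hi
  have h2 := hT (i + 1) (by omega)
  simp only [OrderHom.coe_mk] at h1 h2
  rw [← h2, ← h1]

/-- codes of the chains `i ↦ kc K V (f i)`, `i ≤ T`, for all `V ⊆ E` -/
def CodeP (R : RankFn α) (K : ℕ) (E : Finset α) (f : ℕ → Finset α) (T : ℕ) : Prop :=
  ∃ (cod : Finset α → Cd α) (dec : Cd α → ℕ → Finset α), ∀ V, V ⊆ E →
    IsCode K E (cod V) ∧ ∀ i, i ≤ T → dec (cod V) i = R.kc K V (f i)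

open Classical in
/-- **L2 given the codes** -/
theorem ocp_code {K m : ℕ} (hK : 1 ≤ K) {x p : ℝ} (hx0 : 0 < x) (hx1 : x ≤ 1) (hp0 : 0 ≤ p)
    (hp1 : p ≤ 1) (hm : 2 * (K : ℝ) ≤ x * m) {E O : Finset α} (hO : O ⊆ E)
    {g : Finset α → Finset α} (hg1 : ∀ Z, g Z ⊆ Z ∩ E) (hg2 : ∀ Z, Z ∩ O ⊆ g Z)
    {f : ℕ → Finset α} (hf : Monotone f) (hcode : ∀ T, CodeP R K E f T) :
    ∑ Z, ∑ B, w (fun _ => x) Z * w (fun _ => p) B *
      (((((B \ Z) ∩ O).filter fun h => ∃ i, h ∈ R.kc K (g Z) (f (i + 1)) ∧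
        h ∉ R.kc K (g Z) (f i) ∧ h ∈ R.cl (R.kc K (g Z) (f i) ∪
          (((B \ Z) ∩ O ∩ R.kc K (g Z) (f (i + 1))).erase h))).card : ℕ) : ℝ) ≤
      p * (eta K x * E.card + m * p * O.card) := by
  obtain ⟨T, hT⟩ := exists_const hf
  obtain ⟨cod, dec, h⟩ := hcode T
  have hgE : ∀ Z, g Z ⊆ E := fun Z => (hg1 Z).trans inter_subset_right
  exact ocp_of (R := R) hK hx0 hx1 hp0 hp1 hm hO hg2 hf hT (fun Z => cod (g Z)) dec
    (fun Z => (h (g Z) (hgE Z)).1) (fun Z i hi => (h (g Z) (hgE Z)).2 i hi)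
    (fun Z => R.flow (g Z) O hf T)

end Crest.Agent.R305.Ocp228
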