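import Crest.Agent.R305.CodeD_860
import Crest.Agent.R305.Ocp_228

/-!
# R305: the code hypothesis of `Ocp_228`, hence the unconditional `ocp`
-/

set_option autoImplicit false

namespace Crest.Agent.R305.Code860

open Finset Crest.Agent.R305.Kd447 Crest.Agent.R305.Un228 Crest.Agent.R305.Ocp228
open Crest.Agent.R305.Dep310

variable {α : Type*} [DecidableEq α] [Fintype α]

/-- the code hypothesis of `Ocp228.ocp_code` -/
theorem codeP (R : RankFn α) {K : ℕ} (hK : 1 ≤ K) (E : Finset α) {f : ℕ → Finset α}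
    (hf : Monotone f) (T : ℕ) : CodeP R K E f T := by
  classical
  have h : ∀ V : Finset α, ∃ c : Code α,
      c.1 ⊆ V ∧ c.2.1 ⊆ V ∧ (∀ x, c.2.2 x ≠ 0 → x ∈ V) ∧ ∑ x, c.2.2 x = c.2.1.card ∧
      K * (c.1.card + c.2.1.card) ≤ V.card ∧ ∀ i ≤ T, dec R f c i = R.kc K V (f i) :=
    fun V => exists_code hK (kchain_kc R K V hf) T
  choose c hc using h
  refine ⟨fun V => ((c V).1, (c V).2.1, univ.filter (fun x => (c V).2.2 x ≠ 0), (c V).2.2),
    fun d => dec R f (d.1, d.2.1, d.2.2.2), ?_⟩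
  intro V hV
  obtain ⟨h1, h2, h3, h4, h5, h6⟩ := hc V
  refine ⟨⟨h1.trans hV, h2.trans hV, ?_, h5.trans (card_le_card hV), ?_, ?_, ?_⟩, fun i hi => h6 i hi⟩
  · intro x hx
    simp only [mem_filter, mem_univ, true_and] at hx
    exact hV (h3 x hx)
  · intro x hx
    simp only [mem_filter, mem_univ, true_and] at hx
    exact Nat.one_le_iff_ne_zero.2 hx
  · intro x hx
    simpa using hx
  · refine le_of_eq ?_
    rw [← h4]
    exact sum_filter_ne_zero univ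

open Classical in
/-- **L2 (OCP), unconditional.** -/
theorem ocp (R : RankFn α) {K m : ℕ} (hK : 1 ≤ K) {x p : ℝ} (hx0 : 0 < x) (hx1 : x ≤ 1)
    (hp0 : 0 ≤ p) (hp1 : p ≤ 1) (hm : 2 * (K : ℝ) ≤ x * m) {E O : Finset α} (hO : O ⊆ E)
    {g : Finset α → Finset α} (hg1 : ∀ Z, g Z ⊆ Z ∩ E) (hg2 : ∀ Z, Z ∩ O ⊆ g Z)
    {f : ℕ → Finset α} (hf : Monotone f) :
    ∑ Z, ∑ B, w (fun _ => x) Z * w (fun _ => p) B *
      (((((B \ Z) ∩ O).filter fun h => ∃ i, h ∈ R.kc K (g Z) (f (i + 1)) ∧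
        h ∉ R.kc K (g Z) (f i) ∧ h ∈ R.cl (R.kc K (g Z) (f i) ∪
          (((B \ Z) ∩ O ∩ R.kc K (g Z) (f (i + 1))).erase h))).card : ℕ) : ℝ) ≤
      p * (eta K x * E.card + m * p * O.card) :=
  ocp_code (R := R) hK hx0 hx1 hp0 hp1 hm hO hg1 hg2 hf (codeP R hK E hf)

end Crest.Agent.R305.Code860
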