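import Crest.Agent.R305.Code_667
import Crest.Agent.R305.Ocp_228

/-!
R305 / S0468 (helper667): the codes for `Ocp_228` and the unconditional L2 (`ocp`).
-/

set_option autoImplicit false

namespace Crest.Agent.R305.CodeP667

open Finset Crest.Agent.R305.Dep310 Crest.Agent.R305.Un228 Crest.Agent.R305.Kd447
open Crest.Agent.R305.Ocp228

variable {α : Type*} [Fintype α] [DecidableEq α] (R : RankFn α)

/-- the codes asked by `Ocp228.ocp_code` -/
theorem codeP {K : ℕ} (hK : 1 ≤ K) (E : Finset α) {f : ℕ → Finset α} (hf : Monotone f)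
    (T : ℕ) : CodeP R K E f T := by
  classical
  obtain ⟨D, hD⟩ := Code667.exists_code R (k := K) hK f hf
  have h1 : ∀ V : Finset α, ∃ c : Cd α, V ⊆ E →
      (IsCode K E c ∧ ∀ i, i ≤ T → D c i = R.kc K V (f i)) := by
    intro V
    by_cases hV : V ⊆ E
    · obtain ⟨c, h2, h3⟩ := hD E V hV
      exact ⟨c, fun _ => ⟨h2, fun i _ => h3 i⟩⟩
    · exact ⟨(∅, ∅, ∅, fun _ => 0), fun h => absurd h hV⟩
  choose cod hcod using h1
  exact ⟨cod, D, hcod⟩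

open Classical in
/-- **L2 of helper137**, unconditional -/
theorem ocp {K m : ℕ} (hK : 1 ≤ K) {x p : ℝ} (hx0 : 0 < x) (hx1 : x ≤ 1) (hp0 : 0 ≤ p)
    (hp1 : p ≤ 1) (hm : 2 * (K : ℝ) ≤ x * m) {E O : Finset α} (hO : O ⊆ E)
    {g : Finset α → Finset α} (hg1 : ∀ Z, g Z ⊆ Z ∩ E) (hg2 : ∀ Z, Z ∩ O ⊆ g Z)
    {f : ℕ → Finset α} (hf : Monotone f) :
    ∑ Z, ∑ B, w (fun _ => x) Z * w (fun _ => p) B *
      (((((B \ Z) ∩ O).filter fun h => ∃ i, h ∈ R.kc K (g Z) (f (i + 1)) ∧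
        h ∉ R.kc K (g Z) (f i) ∧ h ∈ R.cl (R.kc K (g Z) (f i) ∪
          (((B \ Z) ∩ O ∩ R.kc K (g Z) (f (i + 1))).erase h))).card : ℕ) : ℝ) ≤
      p * (eta K x * E.card + m * p * O.card) :=
  ocp_code (R := R) hK hx0 hx1 hp0 hp1 hm hO (g := g) hg1 hg2 hf (fun T => codeP R hK E hf T)

end Crest.Agent.R305.CodeP667
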