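import Crest.Agent.R305.Harm_310
import Crest.Agent.R305.CodeD_860

/-!
# R305: the codes of `CodeD_860` as `CodeP` of `Ocp_228`; P2 without hypotheses
-/

set_option autoImplicit false

namespace Crest.Agent.R305.Harm310

open Finset Dep310 Kd447 Fcl310 Fcr310 TopDef137 Phi655 Ocp228

variable {α : Type*} [Fintype α] [DecidableEq α]

/-- **codes exist** -/
theorem codeP (R : RankFn α) {K : ℕ} (hK : 1 ≤ K) (E : Finset α) {f : ℕ → Finset α}
    (hf : Monotone f) (T : ℕ) : CodeP R K E f T := by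
  classical
  have h : ∀ V : Finset α, ∃ c : Code860.Code α, V ⊆ E →
      c ∈ Code860.codes E K ∧ ∀ i ≤ T, Code860.dec R f c i = R.kc K V (f i) := by
    intro V
    by_cases hV : V ⊆ E
    · obtain ⟨c, h1, -, -, -, -, h2⟩ := Code860.exists_code_kc R hK hV hf T
      exact ⟨c, fun _ => ⟨h1, h2⟩⟩
    · exact ⟨(∅, ∅, fun _ => 0), fun h => absurd h hV⟩
  choose c hc using h
  refine ⟨fun V => ((c V).1, (c V).2.1, univ.filter (fun a => (c V).2.2 a ≠ 0), (c V).2.2),
    fun d i => Code860.dec R f (d.1, d.2.1, d.2.2.2) i, fun V hV => ⟨?_, ?_⟩⟩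
  · obtain ⟨h1, -⟩ := hc V hV
    unfold Code860.codes at h1
    rw [mem_filter, mem_product, mem_product, mem_powerset, mem_powerset,
      Fintype.mem_piFinset] at h1
    obtain ⟨⟨h2, h3, h4⟩, h5, h6⟩ := h1
    refine ⟨h2, h3, ?_, h5, ?_, ?_, ?_⟩
    · intro a ha
      rw [mem_filter] at ha
      by_contra hE
      have := h4 a
      rw [if_neg hE, mem_singleton] at this
      exact ha.2 this
    · intro a ha
      rw [mem_filter] at ha
      exact Nat.one_le_iff_ne_zero.2 ha.2
    · intro a ha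
      by_contra h
      exact ha (mem_filter.2 ⟨mem_univ _, h⟩)
    · rw [← h6]
      exact Finset.sum_le_sum_of_subset (filter_subset _ _)
  · intro i hi
    exact (hc V hV).2 i hi

/-- **P2**, unconditional -/
theorem harm_expect_all (I : Inst α) {k m : ℕ} (hk : 2 ≤ k) {x p : ℝ} (hx0 : 0 < x) (hx1 : x ≤ 1)
    (hp0 : 0 ≤ p) (hp1 : p ≤ 1) (hm : 2 * (k : ℝ) ≤ x * m) (T : Finset α) (n i : ℕ) :
    ∑ Z, w (fun _ => x) Z * ∑ A, ∑ B, w (fun _ => p) A * w (fun _ => p) B *
      ((harmed I k T Z A B i n).card : ℝ) ≤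
      p * (eta k x * (En I T n).card + m * p * (On I T n).card) :=
  harm_expect I hk hx0 hx1 hp0 hp1 hm T n i
    (fun _ hf T' => codeP I.M (by omega) (En I T n) hf T')

end Crest.Agent.R305.Harm310
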