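import Crest.Agent.R305.Dep_310

/-!
# R305, block U (helper228): the probability of the union bound over codes

All on helper310's weight `w p A = ∏ a, if a ∈ A then p a else 1 - p a`.

* `chernoff`, `chernoff_half`, `chernoff_quarter` : lower tails of `|A ∩ B|`
* `union_bound` : union over a finite family of weighted codes
* `Cd`, `IsCode`, `codes`, `om`, `sum_om_le`, `om_ge` : the codes `(C₀, C, K, n)`
* `tail_le`, `EY_le` : `E |Y (cod A)| ≤ (16 ε_k / x + exp (-k/8)) |W|`, `ε_k = (2 ln k + 4) / k`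
* `thin` : a thin sample of a sparse set
-/

set_option autoImplicit false
set_option linter.unusedSectionVars false

namespace Crest.Agent.R305.Un228

open Finset Crest.Agent.R305.Dep310

variable {α : Type*} [Fintype α] [DecidableEq α]

/-! ### product functionals -/

theorem sum_w_prod (p f g : α → ℝ) :
    ∑ A, w p A * ∏ a, (if a ∈ A then f a else g a) = ∏ a, (p a * f a + (1 - p a) * g a) := by
  have h := Finset.prod_add (fun a => p a * f a) (fun a => (1 - p a) * g a)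
    (Finset.univ : Finset α)
  rw [h, Finset.powerset_univ]
  refine Finset.sum_congr rfl fun A _ => ?_
  unfold w
  rw [← Finset.prod_mul_distrib]
  have : ∀ a, (if a ∈ A then p a else 1 - p a) * (if a ∈ A then f a else g a) =
      if a ∈ A then p a * f a else (1 - p a) * g a := by
    intro a; split <;> rfl
  simp only [this]
  rw [Finset.prod_ite]
  congr 1
  · congr 1
    ext a; simp
  · congr 1
    ext a; simp

/-- Laplace transform of `|A ∩ B|` -/
theorem sum_exp (p : α → ℝ) (B : Finset α) (s : ℝ) :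
    ∑ A, w p A * Real.exp (-(s * (A ∩ B).card)) =
      ∏ a ∈ B, (p a * Real.exp (-s) + (1 - p a)) := by
  have h := sum_w_prod p (fun a => if a ∈ B then Real.exp (-s) else 1) (fun _ => 1)
  have h1 : ∀ A : Finset α, ∏ a, (if a ∈ A then (if a ∈ B then Real.exp (-s) else 1) else 1) =
      Real.exp (-(s * (A ∩ B).card)) := by
    intro A
    have h2 : ∀ a, (if a ∈ A then (if a ∈ B then Real.exp (-s) else 1) else 1) =
        if a ∈ A ∩ B then Real.exp (-s) else 1 := by
      intro a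
      by_cases ha : a ∈ A <;> by_cases hb : a ∈ B <;> simp [ha, hb]
    simp only [h2]
    rw [Finset.prod_ite_mem, Finset.univ_inter, Finset.prod_const, ← Real.exp_nat_mul]
    congr 1
    ring
  simp only [h1] at h
  rw [h]
  have h3 : ∀ a, p a * (if a ∈ B then Real.exp (-s) else 1) + (1 - p a) * 1 =
      if a ∈ B then p a * Real.exp (-s) + (1 - p a) else 1 := by
    intro a; split <;> ring
  simp only [h3]
  rw [Finset.prod_ite_mem, Finset.univ_inter]

open Classical in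
theorem chernoff {p : α → ℝ} (h0 : ∀ a, 0 ≤ p a) (h1 : ∀ a, p a ≤ 1) (B : Finset α) {x c s : ℝ}
    (hx : ∀ a ∈ B, x ≤ p a) (hs : 0 ≤ s) :
    ∑ A, w p A * (if ((A ∩ B).card : ℝ) ≤ c * B.card then (1 : ℝ) else 0) ≤
      Real.exp (B.card * (s * c - x * (1 - Real.exp (-s)))) := by
  have hes : Real.exp (-s) ≤ 1 := Real.exp_le_one_iff.2 (by linarith)
  have hpos : 0 < Real.exp (-s) := Real.exp_pos _
  have e1 : ∑ A, w p A * (if ((A ∩ B).card : ℝ) ≤ c * B.card then (1 : ℝ) else 0) ≤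
      Real.exp (s * c * B.card) * ∑ A, w p A * Real.exp (-(s * (A ∩ B).card)) := by
    rw [Finset.mul_sum]
    refine Finset.sum_le_sum fun A _ => ?_
    have hw := w_nonneg h0 h1 A
    have : (if ((A ∩ B).card : ℝ) ≤ c * B.card then (1 : ℝ) else 0) ≤
        Real.exp (s * c * B.card) * Real.exp (-(s * (A ∩ B).card)) := by
      rw [← Real.exp_add]
      split
      · rename_i h
        rw [Real.one_le_exp_iff]
        nlinarith [mul_le_mul_of_nonneg_left h hs]
      · exact (Real.exp_pos _).le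
    nlinarith [mul_le_mul_of_nonneg_left this hw]
  refine e1.trans ?_
  rw [sum_exp]
  have e2 : ∏ a ∈ B, (p a * Real.exp (-s) + (1 - p a)) ≤
      ∏ _a ∈ B, Real.exp (-(x * (1 - Real.exp (-s)))) := by
    refine Finset.prod_le_prod (fun a _ => ?_) fun a ha => ?_
    · have := h0 a; have := h1 a
      nlinarith [mul_nonneg (h0 a) hpos.le]
    · have h2 := Real.add_one_le_exp (-(x * (1 - Real.exp (-s))))
      nlinarith [hx a ha]
  refine (mul_le_mul_of_nonneg_left e2 (Real.exp_pos _).le).trans (le_of_eq ?_)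
  rw [Finset.prod_const, ← Real.exp_nat_mul, ← Real.exp_add]
  congr 1
  ring

theorem log_two_le : Real.log 2 ≤ 0.6932 := by
  have := Real.log_two_lt_d9
  linarith

open Classical in
theorem chernoff_half {p : α → ℝ} (h0 : ∀ a, 0 ≤ p a) (h1 : ∀ a, p a ≤ 1) (B : Finset α) {x : ℝ}
    (hx0 : 0 ≤ x) (hx : ∀ a ∈ B, x ≤ p a) :
    ∑ A, w p A * (if ((A ∩ B).card : ℝ) ≤ x / 2 * B.card then (1 : ℝ) else 0) ≤
      Real.exp (-(x * B.card / 8)) := by
  refine (chernoff h0 h1 B hx (Real.log_nonneg (by norm_num : (1 : ℝ) ≤ 2))).trans ?_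
  rw [Real.exp_neg, Real.exp_log (by norm_num), Real.exp_le_exp]
  have h2 := log_two_le
  have h3 : (0 : ℝ) ≤ B.card * x := by positivity
  nlinarith [mul_le_mul_of_nonneg_left h2 h3]

open Classical in
theorem chernoff_quarter {p : α → ℝ} (h0 : ∀ a, 0 ≤ p a) (h1 : ∀ a, p a ≤ 1) (B : Finset α)
    {x : ℝ} (hx0 : 0 ≤ x) (hx : ∀ a ∈ B, x ≤ p a) :
    ∑ A, w p A * (if ((A ∩ B).card : ℝ) ≤ x / 4 * B.card then (1 : ℝ) else 0) ≤
      Real.exp (-(2 / 5 * x * B.card)) := by
  refine (chernoff h0 h1 B hx (Real.log_nonneg (by norm_num : (1 : ℝ) ≤ 4))).trans ?_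
  have h4 : Real.log 4 = 2 * Real.log 2 := by
    rw [show (4 : ℝ) = 2 ^ 2 by norm_num, Real.log_pow]; norm_num
  rw [Real.exp_neg, Real.exp_log (by norm_num), Real.exp_le_exp, h4]
  have h2 := log_two_le
  have h3 : (0 : ℝ) ≤ B.card * x := by positivity
  nlinarith [mul_le_mul_of_nonneg_left h2 h3]

/-! ### the union bound -/

open Classical in
/-- union over a finite family `codes` of codes with weights `om`, `1 ≤ L * om (cod A)`,
`∑ om ≤ S`; `Y c` is the bad set of the code `c`. -/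
theorem union_bound {p : α → ℝ} (h0 : ∀ a, 0 ≤ p a) (h1 : ∀ a, p a ≤ 1) {γ : Type*}
    (codes : Finset γ) (om : γ → ℝ) (hom : ∀ c ∈ codes, 0 ≤ om c) {S L : ℝ}
    (hS : ∑ c ∈ codes, om c ≤ S) (hL0 : 0 ≤ L) (cod : Finset α → γ)
    (hcod : ∀ A, cod A ∈ codes) (hL : ∀ A, 1 ≤ L * om (cod A)) (Y : γ → Finset α) {x y : ℝ}
    (hx0 : 0 ≤ x) (hx : ∀ c ∈ codes, ∀ a ∈ Y c, x ≤ p a)
    (hY : ∀ A, ((A ∩ Y (cod A)).card : ℝ) ≤ x / 2 * (Y (cod A)).card) :
    ∑ A, w p A * (if y ≤ ((Y (cod A)).card : ℝ) then (1 : ℝ) else 0) ≤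
      S * L * Real.exp (-(x * y / 8)) := by
  have e1 : ∀ A, w p A * (if y ≤ ((Y (cod A)).card : ℝ) then (1 : ℝ) else 0) ≤
      ∑ c ∈ codes, L * om c * (w p A * (if y ≤ ((Y c).card : ℝ) ∧
        ((A ∩ Y c).card : ℝ) ≤ x / 2 * (Y c).card then (1 : ℝ) else 0)) := by
    intro A
    have hw := w_nonneg h0 h1 A
    have hle : L * om (cod A) * (w p A * (if y ≤ ((Y (cod A)).card : ℝ) ∧
        ((A ∩ Y (cod A)).card : ℝ) ≤ x / 2 * (Y (cod A)).card then (1 : ℝ) else 0)) ≤
        ∑ c ∈ codes, L * om c * (w p A * (if y ≤ ((Y c).card : ℝ) ∧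
        ((A ∩ Y c).card : ℝ) ≤ x / 2 * (Y c).card then (1 : ℝ) else 0)) := by
      refine Finset.single_le_sum (f := fun c => L * om c * (w p A * (if y ≤ ((Y c).card : ℝ) ∧
        ((A ∩ Y c).card : ℝ) ≤ x / 2 * (Y c).card then (1 : ℝ) else 0))) (fun c hc => ?_) (hcod A)
      refine mul_nonneg (mul_nonneg hL0 (hom c hc)) (mul_nonneg hw ?_)
      split <;> norm_num
    refine le_trans ?_ hle
    by_cases hy : y ≤ ((Y (cod A)).card : ℝ)
    · rw [if_pos hy, if_pos ⟨hy, hY A⟩]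
      nlinarith [hL A]
    · rw [if_neg hy, if_neg (fun h => hy h.1)]
      simp
  refine (Finset.sum_le_sum fun A _ => e1 A).trans ?_
  rw [Finset.sum_comm]
  have e2 : ∀ c ∈ codes, ∑ A, L * om c * (w p A * (if y ≤ ((Y c).card : ℝ) ∧
        ((A ∩ Y c).card : ℝ) ≤ x / 2 * (Y c).card then (1 : ℝ) else 0)) ≤
      om c * (L * Real.exp (-(x * y / 8))) := by
    intro c hc
    rw [← Finset.mul_sum]
    have hLo : 0 ≤ L * om c := mul_nonneg hL0 (hom c hc)
    have e3 : ∑ A, w p A * (if y ≤ ((Y c).card : ℝ) ∧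
        ((A ∩ Y c).card : ℝ) ≤ x / 2 * (Y c).card then (1 : ℝ) else 0) ≤
        Real.exp (-(x * y / 8)) := by
      by_cases hy : y ≤ ((Y c).card : ℝ)
      · have e4 := chernoff_half h0 h1 (Y c) hx0 (hx c hc)
        simp only [hy, true_and]
        refine e4.trans (Real.exp_le_exp.2 ?_)
        nlinarith
      · simp only [hy, false_and, if_false, mul_zero, Finset.sum_const_zero]
        exact (Real.exp_pos _).le
    calc _ ≤ L * om c * Real.exp (-(x * y / 8)) := mul_le_mul_of_nonneg_left e3 hLo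
      _ = _ := by ring
  refine (Finset.sum_le_sum e2).trans ?_
  rw [← Finset.sum_mul, mul_assoc]
  exact mul_le_mul_of_nonneg_right hS (mul_nonneg hL0 (Real.exp_pos _).le)

/-! ### the codes -/

/-- codes `(C₀, C, K, n)` -/
abbrev Cd (α : Type*) := Finset α × Finset α × Finset α × (α → ℕ)

/-- a code of a chain with sample inside `W` -/
structure IsCode (k : ℕ) (W : Finset α) (c : Cd α) : Prop where
  s0 : c.1 ⊆ W
  s1 : c.2.1 ⊆ W
  s2 : c.2.2.1 ⊆ W
  small : k * (c.1.card + c.2.1.card) ≤ W.card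
  one : ∀ a ∈ c.2.2.1, 1 ≤ c.2.2.2 a
  zero : ∀ a, a ∉ c.2.2.1 → c.2.2.2 a = 0
  sum : ∑ a ∈ c.2.2.1, c.2.2.2 a ≤ c.2.1.card

/-- the finite set of label functions with support `K` and values in `[1, N]` -/
def labs (N : ℕ) (K : Finset α) : Finset (α → ℕ) :=
  Fintype.piFinset fun a => if a ∈ K then Finset.Icc 1 N else {0}

/-- the finite set of codes -/
def codes (W : Finset α) : Finset (Cd α) :=
  (W.powerset ×ˢ W.powerset ×ˢ (W.powerset.sigma fun K => labs W.card K).image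
    (fun s => ((s.1, s.2) : Finset α × (α → ℕ))))

/-- weight of a code -/
noncomputable def om (τ : ℝ) (c : Cd α) : ℝ :=
  τ ^ c.1.card * (τ ^ c.2.1.card * (τ ^ c.2.2.1.card * ∏ a ∈ c.2.2.1, (1 / 2 : ℝ) ^ c.2.2.2 a))

theorem mem_codes {k : ℕ} (hk : 1 ≤ k) {W : Finset α} {c : Cd α} (h : IsCode k W c) :
    c ∈ codes W := by
  obtain ⟨C0, C, K, n⟩ := c
  simp only [codes, mem_product, mem_powerset, mem_image, mem_sigma, Prod.mk.injEq]
  refine ⟨h.s0, h.s1, ⟨⟨K, n⟩, ⟨h.s2, ?_⟩, rfl, rfl⟩⟩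
  simp only [labs, Fintype.mem_piFinset]
  intro a
  by_cases ha : a ∈ K
  · simp only [ha, if_true, mem_Icc]
    refine ⟨h.one a ha, ?_⟩
    have h1 : n a ≤ ∑ a ∈ K, n a := Finset.single_le_sum (f := n) (fun _ _ => Nat.zero_le _) ha
    have h2 := h.sum
    have h3 := h.small
    simp only at h2 h3
    have h4 : C0.card + C.card ≤ k * (C0.card + C.card) := Nat.le_mul_of_pos_left _ (by omega)
    omega
  · simp only [ha, if_false, mem_singleton]
    exact h.zero a ha

theorem sum_half_le (N : ℕ) : ∑ j ∈ Finset.Icc 1 N, (1 / 2 : ℝ) ^ j ≤ 1 := by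
  have : ∑ j ∈ Finset.Icc 1 N, (1 / 2 : ℝ) ^ j = 1 - (1 / 2) ^ N := by
    induction N with
    | zero => simp
    | succ n ih =>
      rw [Finset.sum_Icc_succ_top (by omega), ih]
      ring
  rw [this]
  have : (0 : ℝ) ≤ (1 / 2) ^ N := by positivity
  linarith

theorem sum_labs_le (N : ℕ) (K : Finset α) :
    ∑ n ∈ labs N K, ∏ a ∈ K, (1 / 2 : ℝ) ^ n a ≤ 1 := by
  have h1 : ∀ n : α → ℕ, ∏ a ∈ K, (1 / 2 : ℝ) ^ n a =
      ∏ a, (if a ∈ K then (1 / 2 : ℝ) ^ n a else 1) := by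
    intro n
    rw [Finset.prod_ite_mem, Finset.univ_inter]
  simp only [h1, labs]
  rw [← Finset.prod_univ_sum (fun a => if a ∈ K then Finset.Icc 1 N else {0})
    (fun a j => if a ∈ K then (1 / 2 : ℝ) ^ j else 1)]
  refine Finset.prod_le_one (fun a _ => ?_) fun a _ => ?_
  · refine Finset.sum_nonneg fun j _ => ?_
    split <;> positivity
  · by_cases ha : a ∈ K
    · simp only [ha, if_true]
      exact sum_half_le N
    · simp [ha]

theorem sum_pow_card (τ : ℝ) (W : Finset α) :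
    ∑ C ∈ W.powerset, τ ^ C.card = (1 + τ) ^ W.card := by
  have h := Finset.sum_pow_mul_eq_add_pow τ 1 W
  simp only [one_pow, mul_one] at h
  rw [h, add_comm]

theorem om_nonneg {τ : ℝ} (hτ : 0 ≤ τ) (c : Cd α) : 0 ≤ om τ c := by
  unfold om; positivity

theorem sum_om_le {τ : ℝ} (hτ : 0 ≤ τ) (W : Finset α) :
    ∑ c ∈ codes W, om τ c ≤ Real.exp (3 * τ * W.card) := by
  have e1 : ∑ c ∈ codes W, om τ c ≤
      ((1 + τ) ^ W.card * ((1 + τ) ^ W.card * (1 + τ) ^ W.card)) := by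
    unfold codes om
    rw [Finset.sum_product]
    simp only [← Finset.mul_sum]
    rw [← Finset.sum_mul, sum_pow_card]
    refine mul_le_mul_of_nonneg_left ?_ (by positivity)
    rw [Finset.sum_product]
    simp only [← Finset.mul_sum]
    rw [← Finset.sum_mul, sum_pow_card]
    refine mul_le_mul_of_nonneg_left ?_ (by positivity)
    rw [Finset.sum_image]
    · rw [Finset.sum_sigma]
      simp only [← Finset.mul_sum]
      rw [← sum_pow_card]
      refine Finset.sum_le_sum fun K _ => ?_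
      have := sum_labs_le (α := α) W.card K
      have h2 : (0 : ℝ) ≤ τ ^ K.card := by positivity
      nlinarith [mul_le_mul_of_nonneg_left this h2]
    · rintro ⟨K, n⟩ _ ⟨K', n'⟩ _ h
      simp only [Prod.mk.injEq] at h
      obtain ⟨rfl, rfl⟩ := h
      rfl
  refine e1.trans ?_
  have h1 : (1 + τ) ^ W.card ≤ Real.exp (τ * W.card) := by
    have h2 : 1 + τ ≤ Real.exp τ := by linarith [Real.add_one_le_exp τ]
    calc (1 + τ) ^ W.card ≤ Real.exp τ ^ W.card := pow_le_pow_left₀ (by linarith) h2 _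
      _ = Real.exp (τ * W.card) := by rw [← Real.exp_nat_mul, mul_comm]
  have h3 : (0 : ℝ) ≤ (1 + τ) ^ W.card := by positivity
  calc (1 + τ) ^ W.card * ((1 + τ) ^ W.card * (1 + τ) ^ W.card)
      ≤ Real.exp (τ * W.card) * (Real.exp (τ * W.card) * Real.exp (τ * W.card)) := by gcongr
    _ = _ := by
      rw [← Real.exp_add, ← Real.exp_add]
      congr 1; ring

/-- lower bound for the weight of a code, `τ = 1 / k` -/
theorem om_ge {k : ℕ} (hk : 1 ≤ k) {W : Finset α} {c : Cd α} (h : IsCode k W c) :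
    1 ≤ Real.exp ((2 * Real.log k + 1) / k * W.card) * om (1 / k : ℝ) c := by
  have hk0 : (0 : ℝ) < k := by exact_mod_cast hk
  have hk1 : (1 : ℝ) ≤ k := by exact_mod_cast hk
  have hlog : 0 ≤ Real.log k := Real.log_nonneg hk1
  have hτ : (1 / k : ℝ) = Real.exp (-Real.log k) := by
    rw [Real.exp_neg, Real.exp_log hk0]; simp
  have h2 : (1 / 2 : ℝ) = Real.exp (-Real.log 2) := by
    rw [Real.exp_neg, Real.exp_log (by norm_num)]; simp
  have e1 : om (1 / k : ℝ) c = Real.exp (-(Real.log k * (c.1.card + c.2.1.card + c.2.2.1.card) +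
      Real.log 2 * ∑ a ∈ c.2.2.1, (c.2.2.2 a : ℝ))) := by
    unfold om
    rw [Finset.prod_pow_eq_pow_sum, hτ, h2, ← Real.exp_nat_mul, ← Real.exp_nat_mul,
      ← Real.exp_nat_mul, ← Real.exp_nat_mul, ← Real.exp_add, ← Real.exp_add, ← Real.exp_add]
    congr 1
    push_cast
    ring
  rw [e1, ← Real.exp_add, Real.one_le_exp_iff]
  have hK : c.2.2.1.card ≤ ∑ a ∈ c.2.2.1, c.2.2.2 a := by
    rw [Finset.card_eq_sum_ones]
    exact Finset.sum_le_sum fun a ha => h.one a ha
  have hs := h.sum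
  have hsm := h.small
  have hsR : (∑ a ∈ c.2.2.1, (c.2.2.2 a : ℝ)) ≤ c.2.1.card := by exact_mod_cast hs
  have hKR : (c.2.2.1.card : ℝ) ≤ c.2.1.card := by exact_mod_cast hK.trans hs
  have hsmR : (k : ℝ) * (c.1.card + c.2.1.card) ≤ W.card := by exact_mod_cast hsm
  have hN : (c.1.card : ℝ) + c.2.1.card ≤ W.card / k := by
    rw [le_div_iff₀ hk0]; linarith
  have hc0 : (0 : ℝ) ≤ c.1.card := by positivity
  have hl2 := log_two_le
  have hl20 : 0 ≤ Real.log 2 := Real.log_nonneg (by norm_num)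
  have e2 : (2 * Real.log k + 1) / k * (W.card : ℝ) = (2 * Real.log k + 1) * (W.card / k) := by
    ring
  rw [e2]
  have e3 : Real.log k * ((c.1.card : ℝ) + c.2.1.card + c.2.2.1.card) ≤
      2 * Real.log k * (W.card / k) := by
    have : (c.1.card : ℝ) + c.2.1.card + c.2.2.1.card ≤ 2 * (W.card / k) := by linarith
    nlinarith [mul_le_mul_of_nonneg_left this hlog]
  have e4 : Real.log 2 * ∑ a ∈ c.2.2.1, (c.2.2.2 a : ℝ) ≤ W.card / k := by
    have h5 : (0 : ℝ) ≤ c.2.1.card := by positivity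
    calc Real.log 2 * ∑ a ∈ c.2.2.1, (c.2.2.2 a : ℝ) ≤ Real.log 2 * c.2.1.card :=
          mul_le_mul_of_nonneg_left hsR hl20
      _ ≤ 1 * c.2.1.card := mul_le_mul_of_nonneg_right (by linarith) h5
      _ ≤ _ := by linarith
  nlinarith

/-- the entropy of the codes -/
noncomputable def epsk (k : ℕ) : ℝ := (2 * Real.log k + 4) / k

open Classical in
/-- **tail of the bad set** -/
theorem tail_le {p : α → ℝ} (h0 : ∀ a, 0 ≤ p a) (h1 : ∀ a, p a ≤ 1) {k : ℕ} (hk : 1 ≤ k)
    {W : Finset α} {x : ℝ} (hx0 : 0 ≤ x) (hx : ∀ a ∈ W, x ≤ p a) (Y : Cd α → Finset α)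
    (hYW : ∀ c, Y c ⊆ W) (cod : Finset α → Cd α) (hcod : ∀ A, IsCode k W (cod A))
    (hY : ∀ A, ((A ∩ Y (cod A)).card : ℝ) ≤ x / 2 * (Y (cod A)).card) (y : ℝ) :
    ∑ A, w p A * (if y ≤ ((Y (cod A)).card : ℝ) then (1 : ℝ) else 0) ≤
      Real.exp (epsk k * W.card - x * y / 8) := by
  have hk0 : (0 : ℝ) < k := by exact_mod_cast hk
  have h := union_bound h0 h1 (codes W) (om (1 / k : ℝ))
    (fun c _ => om_nonneg (by positivity) c) (sum_om_le (τ := (1 / k : ℝ)) (by positivity) W)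
    (Real.exp_pos ((2 * Real.log k + 1) / k * W.card)).le cod
    (fun A => mem_codes hk (hcod A)) (fun A => om_ge hk (hcod A)) Y hx0
    (fun c _ a ha => hx a (hYW c ha)) hY (y := y)
  refine h.trans (le_of_eq ?_)
  rw [← Real.exp_add, ← Real.exp_add]
  congr 1
  unfold epsk
  field_simp
  ring

theorem sum_split {p : α → ℝ} (h0 : ∀ a, 0 ≤ p a) (h1 : ∀ a, p a ≤ 1) (f g : Finset α → ℝ)
    (h : ∀ A, f A ≤ g A) : ∑ A, w p A * f A ≤ ∑ A, w p A * g A :=
  Finset.sum_le_sum fun A _ => mul_le_mul_of_nonneg_left (h A) (w_nonneg h0 h1 A)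

open Classical in
/-- **expectation of the bad set** (Theorem C of 1793) -/
theorem EY_le {p : α → ℝ} (h0 : ∀ a, 0 ≤ p a) (h1 : ∀ a, p a ≤ 1) {k : ℕ} (hk : 1 ≤ k)
    {W : Finset α} {x : ℝ} (hx0 : 0 < x) (hx : ∀ a ∈ W, x ≤ p a) (Y : Cd α → Finset α)
    (hYW : ∀ c, Y c ⊆ W) (cod : Finset α → Cd α) (hcod : ∀ A, IsCode k W (cod A))
    (hY : ∀ A, ((A ∩ Y (cod A)).card : ℝ) ≤ x / 2 * (Y (cod A)).card)
    (hm : ∀ A, Y (cod A) = ∅ ∨ 2 * (k : ℝ) ≤ x * (Y (cod A)).card) :
    ∑ A, w p A * ((Y (cod A)).card : ℝ) ≤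
      (16 * epsk k / x + Real.exp (-(k / 8 : ℝ))) * W.card := by
  have hk0 : (0 : ℝ) < k := by exact_mod_cast hk
  have hk1 : (1 : ℝ) ≤ k := by exact_mod_cast hk
  have hlog : 0 ≤ Real.log k := Real.log_nonneg hk1
  have heps : 0 < epsk k := by unfold epsk; positivity
  set N : ℝ := (W.card : ℝ) with hN
  have hN0 : 0 ≤ N := by positivity
  have hle : ∀ A, ((Y (cod A)).card : ℝ) ≤ N := fun A => by
    rw [hN]; exact_mod_cast Finset.card_le_card (hYW _)
  have key : ∀ y : ℝ, 0 ≤ y → ∑ A, w p A * ((Y (cod A)).card : ℝ) ≤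
      y + N * ∑ A, w p A * (if y ≤ ((Y (cod A)).card : ℝ) then (1 : ℝ) else 0) := by
    intro y hy
    have h2 : ∑ A, w p A * ((Y (cod A)).card : ℝ) ≤
        ∑ A, w p A * (y + N * (if y ≤ ((Y (cod A)).card : ℝ) then (1 : ℝ) else 0)) := by
      refine sum_split h0 h1 _ _ fun A => ?_
      split
      · have := hle A; linarith
      · rename_i h
        push Not at h
        linarith
    refine h2.trans (le_of_eq ?_)
    simp only [mul_add, Finset.sum_add_distrib]
    rw [← Finset.sum_mul, sum_w, one_mul, Finset.mul_sum]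
    congr 1
    exact Finset.sum_congr rfl fun A _ => by ring
  by_cases hNk : N * (8 * epsk k) ≤ k
  · -- few elements
    have h3 : ∑ A, w p A * ((Y (cod A)).card : ℝ) ≤
        N * ∑ A, w p A * (if 2 * (k : ℝ) / x ≤ ((Y (cod A)).card : ℝ) then (1 : ℝ) else 0) := by
      rw [Finset.mul_sum]
      have : ∀ A, N * (w p A * (if 2 * (k : ℝ) / x ≤ ((Y (cod A)).card : ℝ) then (1 : ℝ) else 0)) =
          w p A * (N * (if 2 * (k : ℝ) / x ≤ ((Y (cod A)).card : ℝ) then (1 : ℝ) else 0)) :=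
        fun A => by ring
      simp only [this]
      refine sum_split h0 h1 _ _ fun A => ?_
      rcases hm A with h | h
      · rw [h]
        simp only [Finset.card_empty, Nat.cast_zero]
        split <;> simp [hN0]
      · rw [if_pos (by rw [div_le_iff₀ hx0]; linarith)]
        have := hle A; linarith
    refine h3.trans ?_
    have h4 := tail_le h0 h1 hk hx0.le hx Y hYW cod hcod hY (2 * (k : ℝ) / x)
    have h5 : epsk k * N - x * (2 * (k : ℝ) / x) / 8 ≤ -(k / 8 : ℝ) := by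
      have : x * (2 * (k : ℝ) / x) = 2 * k := by field_simp
      rw [this]
      linarith
    have h6 : (0 : ℝ) ≤ 16 * epsk k / x := by positivity
    have h7 := h4.trans (Real.exp_le_exp.2 h5)
    nlinarith [mul_le_mul_of_nonneg_left h7 hN0, mul_nonneg h6 hN0]
  · push Not at hNk
    have h3 := key (16 * epsk k / x * N) (by positivity)
    have h4 := tail_le h0 h1 hk hx0.le hx Y hYW cod hcod hY (16 * epsk k / x * N)
    have h5 : epsk k * N - x * (16 * epsk k / x * N) / 8 ≤ -(k / 8 : ℝ) := by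
      have : x * (16 * epsk k / x * N) = 16 * epsk k * N := by field_simp
      rw [this]
      linarith
    have h7 := h4.trans (Real.exp_le_exp.2 h5)
    nlinarith [mul_le_mul_of_nonneg_left h7 hN0]

/-! ### thin samples of sparse sets -/

open Classical in
theorem sum_card_inter (p : α → ℝ) (G : Finset α) :
    ∑ A, w p A * ((A ∩ G).card : ℝ) = ∑ a ∈ G, p a := by
  have h1 : ∀ A : Finset α, ((A ∩ G).card : ℝ) = ∑ a ∈ G, (if a ∈ A then (1 : ℝ) else 0) := by
    intro A
    rw [Finset.sum_boole, Finset.filter_mem_eq_inter, Finset.inter_comm]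
  simp only [h1, Finset.mul_sum]
  rw [Finset.sum_comm]
  refine Finset.sum_congr rfl fun a _ => ?_
  have := sum_mem_mul p a (fun _ => 1) (fun _ _ _ => rfl)
  simpa [sum_w] using this

open Classical in
/-- in a set `G` which is `m`-sparse for `cl`, a thin sample harms few of its elements -/
theorem thin {p : α → ℝ} (h0 : ∀ a, 0 ≤ p a) (h1 : ∀ a, p a ≤ 1) {d m : ℝ} (hd0 : 0 ≤ d)
    (hm0 : 0 ≤ m) (G : Finset α) (hd : ∀ a ∈ G, p a ≤ d) (cl : Finset α → Finset α)
    (mono : ∀ {A B : Finset α}, A ⊆ B → cl A ⊆ cl B)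
    (hs : ∀ A, A ⊆ G → ((G ∩ cl A).card : ℝ) ≤ m * A.card) :
    ∑ A, w p A * ((((A ∩ G).filter fun h => h ∈ cl ((A ∩ G).erase h)).card : ℕ) : ℝ) ≤
      m * d ^ 2 * G.card := by
  have e1 : ∀ A : Finset α, ((((A ∩ G).filter fun h => h ∈ cl ((A ∩ G).erase h)).card : ℕ) : ℝ) =
      ∑ h ∈ G, ((if h ∈ A then (1 : ℝ) else 0) *
        (if h ∈ cl ((A ∩ G).erase h) then (1 : ℝ) else 0)) := by
    intro A
    have : ((A ∩ G).filter fun h => h ∈ cl ((A ∩ G).erase h)) =
        G.filter fun h => h ∈ A ∧ h ∈ cl ((A ∩ G).erase h) := by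
      ext a; simp only [mem_filter, mem_inter]; tauto
    rw [this, ← Finset.sum_boole]
    refine Finset.sum_congr rfl fun a _ => ?_
    by_cases ha : a ∈ A <;> by_cases hb : a ∈ cl ((A ∩ G).erase a) <;> simp [ha, hb]
  simp only [e1, Finset.mul_sum]
  rw [Finset.sum_comm]
  have e2 : ∀ h ∈ G, ∑ A, w p A * ((if h ∈ A then (1 : ℝ) else 0) *
        (if h ∈ cl ((A ∩ G).erase h) then (1 : ℝ) else 0)) ≤
      d * ∑ A, w p A * (if h ∈ cl (A ∩ G) then (1 : ℝ) else 0) := by
    intro h hh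
    have hf := sum_mem_mul p h (fun A => if h ∈ cl ((A ∩ G).erase h) then (1 : ℝ) else 0) ?_
    · rw [hf]
      have h2 : ∑ A, w p A * (if h ∈ cl ((A ∩ G).erase h) then (1 : ℝ) else 0) ≤
          ∑ A, w p A * (if h ∈ cl (A ∩ G) then (1 : ℝ) else 0) := by
        refine sum_split h0 h1 _ _ fun A => ?_
        by_cases h3 : h ∈ cl ((A ∩ G).erase h)
        · rw [if_pos h3, if_pos (mono (Finset.erase_subset _ _) h3)]
        · rw [if_neg h3]
          split <;> norm_num
      have h4 : 0 ≤ ∑ A, w p A * (if h ∈ cl (A ∩ G) then (1 : ℝ) else 0) := by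
        refine Finset.sum_nonneg fun A _ => mul_nonneg (w_nonneg h0 h1 A) ?_
        split <;> norm_num
      exact mul_le_mul (hd h hh) h2 (Finset.sum_nonneg fun A _ =>
        mul_nonneg (w_nonneg h0 h1 A) (by split <;> norm_num)) hd0
    · intro A A' hAA
      have : (A ∩ G).erase h = (A' ∩ G).erase h := by
        ext a
        simp only [mem_erase, mem_inter]
        constructor
        · rintro ⟨h1, h2, h3⟩; exact ⟨h1, (hAA a h1).1 h2, h3⟩
        · rintro ⟨h1, h2, h3⟩; exact ⟨h1, (hAA a h1).2 h2, h3⟩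
      simp only [this]
  refine (Finset.sum_le_sum e2).trans ?_
  rw [← Finset.mul_sum, Finset.sum_comm]
  have e3 : ∑ A, ∑ h ∈ G, w p A * (if h ∈ cl (A ∩ G) then (1 : ℝ) else 0) ≤
      ∑ A, w p A * (m * ((A ∩ G).card : ℝ)) := by
    refine Finset.sum_le_sum fun A _ => ?_
    rw [← Finset.mul_sum]
    refine mul_le_mul_of_nonneg_left ?_ (w_nonneg h0 h1 A)
    rw [Finset.sum_boole, Finset.filter_mem_eq_inter]
    exact hs _ Finset.inter_subset_right
  have e4 : ∑ A, w p A * (m * ((A ∩ G).card : ℝ)) ≤ m * (d * G.card) := by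
    have : ∀ A : Finset α, w p A * (m * ((A ∩ G).card : ℝ)) = m * (w p A * ((A ∩ G).card : ℝ)) :=
      fun A => by ring
    simp only [this]
    rw [← Finset.mul_sum, sum_card_inter]
    refine mul_le_mul_of_nonneg_left ?_ hm0
    calc ∑ a ∈ G, p a ≤ ∑ _a ∈ G, d := Finset.sum_le_sum hd
      _ = d * G.card := by rw [Finset.sum_const, nsmul_eq_mul, mul_comm]
  calc _ ≤ d * (m * (d * G.card)) := mul_le_mul_of_nonneg_left (e3.trans e4) hd0
    _ = _ := by ring

end Crest.Agent.R305.Un228
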