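import Crest.Agent.R305.Kd_447
import Crest.Agent.R305.Un_228

/-!
R305 / S0468 (helper667): THEOREM A (COUNTING) of doc 1793.  The chain of `k`-dense closures
`X i = kc k Z (f i)` of an increasing chain `f` is decoded from a small code `(C₀, C, K, n)`.
-/

set_option autoImplicit false
set_option linter.unusedSectionVars false
set_option linter.deprecated false

namespace Crest.Agent.R305.Code667

open Finset Crest.Agent.R305.Kd447

variable {α : Type*} [DecidableEq α] [Fintype α] (M : RankFn α)

/-- the fundamental circuit of `x` over `S` with respect to `C` -/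
def gc (C S : Finset α) (x : α) : Finset α := C.filter (fun c => x ∉ M.cl (S ∪ C.erase c))

theorem mem_gc {C S : Finset α} {x c : α} :
    c ∈ gc M C S x ↔ c ∈ C ∧ x ∉ M.cl (S ∪ C.erase c) := by simp [gc]

theorem gc_sub (C S : Finset α) (x : α) : gc M C S x ⊆ C := filter_subset _ _

theorem gc_least {C S V : Finset α} {x : α} (hV : V ⊆ C) (hx : x ∈ M.cl (S ∪ V)) :
    gc M C S x ⊆ V := by
  intro c hc
  rw [mem_gc] at hc
  by_contra hcV
  refine hc.2 (M.cl_mono (union_subset_union_right ?_) hx)
  intro v hv
  exact mem_erase.2 ⟨fun h => hcV (h ▸ hv), hV hv⟩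

theorem gc_anti {C S S' : Finset α} (h : S ⊆ S') (x : α) : gc M C S' x ⊆ gc M C S x := by
  intro c hc
  rw [mem_gc] at hc ⊢
  exact ⟨hc.1, fun h1 => hc.2 (M.cl_mono (union_subset_union_left h) h1)⟩

/-- closures over `S` of subsets of `C` meet as they should -/
def Md (S C : Finset α) : Prop :=
  ∀ A ⊆ C, ∀ B ⊆ C, M.cl (S ∪ A) ∩ M.cl (S ∪ B) ⊆ M.cl (S ∪ (A ∩ B))

variable {M}

theorem Md.add {S C : Finset α} (h : Md M S C) {V : Finset α} (hV : V ⊆ C) :
    Md M (S ∪ V) C := by
  intro A hA B hB x hx
  have h1 := h (V ∪ A) (union_subset hV hA) (V ∪ B) (union_subset hV hB)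
  rw [← union_inter_distrib_left, ← union_assoc, ← union_assoc, ← union_assoc] at h1
  exact h1 hx

theorem Md.mem_gc_cl {S C : Finset α} (h : Md M S C) {x : α} (hx : x ∈ M.cl (S ∪ C)) :
    x ∈ M.cl (S ∪ gc M C S x) := by
  have key : ∀ D : Finset α, D ⊆ C \ gc M C S x → x ∈ M.cl (S ∪ (C \ D)) := by
    intro D
    induction D using Finset.induction_on with
    | empty => intro _; simpa using hx
    | insert d D hd ih =>
      intro hD
      have h1 := ih ((subset_insert d D).trans hD)
      have h2 := hD (mem_insert_self d D)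
      rw [mem_sdiff, mem_gc] at h2
      have h3 : x ∈ M.cl (S ∪ C.erase d) := by
        by_contra h4; exact h2.2 ⟨h2.1, h4⟩
      have h4 := h (C.erase d) (erase_subset _ _) (C \ D) sdiff_subset (mem_inter.2 ⟨h3, h1⟩)
      have h5 : C.erase d ∩ (C \ D) = C \ insert d D := by
        ext y; simp only [mem_inter, mem_erase, mem_sdiff, mem_insert]; tauto
      rwa [h5] at h4
  have h6 := key _ (Subset.refl _)
  rwa [Finset.sdiff_sdiff_eq_self (gc_sub M C S x)] at h6

variable (M)

/-- `D` is independent over `S` -/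
def IO (S D : Finset α) : Prop := M.r S + D.card ≤ M.r (S ∪ D)

variable {M}

theorem IO.mono_right {S D A : Finset α} (h : IO M S D) (hA : A ⊆ D) : IO M S A := by
  unfold IO at *
  have h1 := M.r_union_le_card (S ∪ A) (D \ A)
  have h2 : S ∪ A ∪ D \ A = S ∪ D := by
    ext y; simp only [mem_union, mem_sdiff]; have := @hA y; tauto
  rw [h2] at h1
  have h3 := card_sdiff_add_card_eq_card hA
  omega

theorem IO.anti_left {S S' D : Finset α} (h : IO M S' D) (hS : S ⊆ S') : IO M S D := by
  unfold IO at *
  have h1 := M.rr_anti hS D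
  have h2 := M.r_add_rr S D
  have h3 := M.r_add_rr S' D
  omega

theorem IO.eq {S D : Finset α} (h : IO M S D) : M.r (S ∪ D) = M.r S + D.card :=
  le_antisymm (M.r_union_le_card S D) h

theorem IO.notMem {S D : Finset α} (h : IO M S D) {c : α} (hc : c ∈ D) :
    c ∉ M.cl (S ∪ D.erase c) := by
  intro hcl
  rw [M.mem_cl] at hcl
  have h1 : insert c (S ∪ D.erase c) = S ∪ D := by
    ext y; simp only [mem_insert, mem_union, mem_erase]
    by_cases hy : y = c
    · subst hy; simp [hc]
    · simp [hy]
  rw [h1] at hcl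
  have h2 := M.r_union_le_card S (D.erase c)
  rw [card_erase_of_mem hc] at h2
  have h3 := card_pos.2 ⟨c, hc⟩
  unfold IO at h
  omega

theorem IO.disj {S D : Finset α} (h : IO M S D) {c : α} (hc : c ∈ D) : c ∉ M.cl S :=
  fun h1 => h.notMem hc (M.cl_mono subset_union_left h1)

theorem IO.md {S D : Finset α} (h : IO M S D) : Md M S D := by
  intro A hA B hB x hx
  rw [mem_inter, M.mem_cl, M.mem_cl] at hx
  have hA' := (h.mono_right hA).eq
  have hB' := (h.mono_right hB).eq
  have hU := (h.mono_right (union_subset hA hB)).eq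
  have hI := (h.mono_right (inter_subset_left.trans hA : A ∩ B ⊆ D)).eq
  have h1 := M.submod (insert x (S ∪ A)) (insert x (S ∪ B))
  have h2 : M.r (S ∪ (A ∪ B)) ≤ M.r (insert x (S ∪ A) ∪ insert x (S ∪ B)) := M.mono (by
    intro y hy; simp only [mem_union, mem_insert] at hy ⊢; tauto)
  have h3 : M.r (insert x (S ∪ (A ∩ B))) ≤ M.r (insert x (S ∪ A) ∩ insert x (S ∪ B)) :=
    M.mono (by
      intro y hy; simp only [mem_union, mem_insert, mem_inter] at hy ⊢; tauto)
  have h4 := card_union_add_card_inter A B
  have h5 := M.mono (subset_insert x (S ∪ (A ∩ B)))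
  rw [M.mem_cl]
  omega

theorem Md.addCl {S D E : Finset α} (h : Md M S D) (hE : E ⊆ M.cl S) : Md M S (D ∪ E) := by
  have key : ∀ A ⊆ D ∪ E, M.cl (S ∪ A) ⊆ M.cl (S ∪ (A ∩ D)) := by
    intro A hA
    rw [M.cl_subset_iff]
    intro y hy
    rcases mem_union.1 hy with h1 | h1
    · exact M.subset_cl _ (mem_union_left _ h1)
    · rcases mem_union.1 (hA h1) with h2 | h2
      · exact M.subset_cl _ (mem_union_right _ (mem_inter.2 ⟨h1, h2⟩))
      · exact M.cl_mono subset_union_left (hE h2)
  intro A hA B hB x hx
  rw [mem_inter] at hx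
  have h1 := h (A ∩ D) inter_subset_right (B ∩ D) inter_subset_right
    (mem_inter.2 ⟨key A hA hx.1, key B hB hx.2⟩)
  exact M.cl_mono (union_subset_union_right (by
    intro y hy; simp only [mem_inter] at hy ⊢; tauto)) h1

variable (M)

/-- a basis of `S` over `Y` -/
theorem exists_basis (Y S : Finset α) : ∃ B ⊆ S, IO M Y B ∧ S ⊆ M.cl (Y ∪ B) := by
  induction S using Finset.induction_on with
  | empty => exact ⟨∅, by simp, by simp [IO], by simp⟩
  | insert s S hs ih =>
    obtain ⟨B, hBS, hB, hcl⟩ := ih
    by_cases h : s ∈ M.cl (Y ∪ B)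
    · refine ⟨B, hBS.trans (subset_insert _ _), hB, ?_⟩
      exact insert_subset h hcl
    · refine ⟨insert s B, insert_subset_insert _ hBS, ?_, ?_⟩
      · have h1 := M.notMem_cl.1 h
        unfold IO at *
        have h2 : Y ∪ insert s B = insert s (Y ∪ B) := by
          ext y; simp only [mem_union, mem_insert]; tauto
        rw [h2, h1, card_insert_of_notMem (fun hsB => hs (hBS hsB))]
        omega
      · apply insert_subset
        · exact M.subset_cl _ (mem_union_right _ (mem_insert_self _ _))
        · exact hcl.trans (M.cl_mono (union_subset_union_right (subset_insert _ _)))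

/-- stability of `V` over `Y` -/
def Stb (C : Finset α) (n : α → ℕ) (Y V : Finset α) : Prop :=
  ∀ x ∈ M.cl (Y ∪ C), (gc M C (Y ∪ V) x).card ≤ n x → x ∈ M.cl (Y ∪ V)

open Classical in
/-- the decoder for one step -/
noncomputable def stp (C : Finset α) (n : α → ℕ) (Y : Finset α) : Finset α :=
  C.filter (fun c => ∀ V ⊆ C, Stb M C n Y V → c ∈ V)

/-- the decoder -/
noncomputable def dec (C0 C : Finset α) (n : α → ℕ) (f : ℕ → Finset α) : ℕ → Finset α
  | 0 => M.cl (f 0 ∪ C0)
  | i + 1 => M.cl ((dec C0 C n f i ∪ f (i + 1)) ∪ stp M C n (dec C0 C n f i ∪ f (i + 1)))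

variable {M}

/-- one step: the connectors -/
theorem step_exists {k : ℕ} {Z Xp Y X C B : Finset α}
    (hXps : M.Sparse k Z Xp) (hXpY : Xp ⊆ Y) (hX : X = M.kc k Z Y) (hBX : B ⊆ X)
    (hBC : B ⊆ C) (hB : IO M Y B) (hXB : X ⊆ M.cl (Y ∪ B))
    (hm1 : Md M Xp C) (hm2 : Md M Y C)
    (hm3 : ∀ c ∈ C, c ∉ B → c ∈ Xp ∨ c ∉ M.cl (X ∪ C.erase c)) :
    ∀ (m : ℕ) (V : Finset α), V ⊆ B → (B \ V).card = m →
      ∃ n : α → ℕ, (∀ x, n x ≠ 0 → x ∈ (Z ∩ X) \ M.cl (Y ∪ V)) ∧ ∑ x, n x ≤ m ∧
        (∀ V' ⊆ C, V ⊆ V' → Stb M C n Y V' → B ⊆ V') ∧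
        (∀ x, n x ≠ 0 → x ∈ M.cl (Xp ∪ C) → n x < (gc M C Xp x).card) := by
  have hYX : Y ⊆ X := hX ▸ M.subset_kc k Z Y
  have hXf : M.Flat X := hX ▸ M.kc_flat k Z Y
  have hXpX : Xp ⊆ X := hXpY.trans hYX
  intro m
  induction m using Nat.strong_induction_on with
  | _ m ih =>
    intro V hV hm
    rcases Nat.eq_zero_or_pos m with h0 | hpos
    · subst h0
      refine ⟨fun _ => 0, by simp, by simp, ?_, by simp⟩
      intro V' _ hVV' _
      rw [card_eq_zero, sdiff_eq_empty_iff_subset] at hm
      exact hm.trans hVV'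
    · -- the claim
      have hrV : M.rr (M.cl (Y ∪ V)) X = (B \ V).card := by
        rw [M.rr_cl_left]
        have h1 : M.r (Y ∪ V) = M.r Y + V.card := (hB.mono_right hV).eq
        have h2 : M.r (Y ∪ B) = M.r Y + B.card := hB.eq
        have h3 := M.r_add_rr_of_subset (F := Y ∪ V) (A := X) (union_subset hYX (hV.trans hBX))
        have h4 : M.r X ≤ M.r (Y ∪ B) := by
          have := M.mono hXB
          rwa [M.r_cl] at this
        have h4' : M.r (Y ∪ B) ≤ M.r X := M.mono (union_subset hYX hBX)
        have h5 := card_sdiff_add_card_eq_card hV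
        omega
      have hclaim : ∃ x, x ∈ (Z ∩ X) \ M.cl (Y ∪ V) ∧ x ∉ M.cl (Xp ∪ (B \ V)) := by
        by_contra hcon
        push Not at hcon
        have hVX : V ⊆ M.kc k Z Y := hX ▸ hV.trans hBX
        have hd := M.kc_dense (k := k) (Z := Z) (F := Y) (V := V) hVX
        rw [← hX, hrV, hm] at hd
        set A := (Z ∩ X) \ M.cl (Y ∪ V) with hA
        have hAZ : A ⊆ Z \ Xp := by
          intro x hx
          rw [hA, mem_sdiff, mem_inter] at hx
          rw [mem_sdiff]
          exact ⟨hx.1.1, fun h => hx.2 (M.subset_cl _ (mem_union_left _ (hXpY h)))⟩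
        have hrA : M.rr Xp A ≤ m := by
          have h1 : A ⊆ M.cl (Xp ∪ (B \ V)) := fun x hx => hcon x hx
          calc M.rr Xp A ≤ M.rr Xp (M.cl (Xp ∪ (B \ V))) := M.rr_mono _ h1
            _ = M.rr Xp (B \ V) := M.rr_cl_union _ _
            _ ≤ (B \ V).card := M.rr_le_card _ _
            _ = m := hm
        rcases A.eq_empty_or_nonempty with h0 | hne
        · rw [h0, card_empty] at hd
          have hk0 : k = 0 := by
            rcases Nat.mul_eq_zero.1 (Nat.le_zero.1 hd) with h | h
            · exact h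
            · omega
          -- with `k = 0` nothing is sparse except when `Z ⊆ Xp`
          have hZX : Z ⊆ Xp := by
            intro z hz
            by_contra hzX
            have := hXps {z} (by
              intro y hy; rw [mem_singleton] at hy; subst hy
              exact mem_sdiff.2 ⟨hz, hzX⟩) (singleton_nonempty z)
            rw [hk0, card_singleton] at this
            omega
          have hXcl : X ⊆ M.cl Y := by
            rw [hX]
            apply M.kc_subset (M.subset_cl Y) (M.flat_cl Y)
            intro D hD hDne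
            obtain ⟨d, hd'⟩ := hDne
            have h2 := hD hd'
            rw [mem_sdiff] at h2
            exact absurd (M.subset_cl _ (hXpY (hZX h2.1))) h2.2
          have h5 : B = ∅ := by
            rw [eq_empty_iff_forall_notMem]
            intro b hb
            exact hB.disj hb (hXcl (hBX hb))
          rw [h5] at hm
          simp at hm
          omega
        · have h2 := hXps A hAZ hne
          have h3 := Nat.mul_le_mul_left k hrA
          omega
      obtain ⟨x, hx, hx'⟩ := hclaim
      rw [mem_sdiff, mem_inter] at hx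
      obtain ⟨⟨hxZ, hxX⟩, hxV⟩ := hx
      have hmdV : Md M (Y ∪ V) C := hm2.add (hV.trans hBC)
      set g := gc M C (Y ∪ V) x with hg
      have hxYB : x ∈ M.cl (Y ∪ B) := hXB hxX
      have hgB : g ⊆ B := gc_least M hBC (M.cl_mono (by
        intro y hy; simp only [mem_union] at hy ⊢; tauto) hxYB)
      have hxYVC : x ∈ M.cl (Y ∪ V ∪ C) := M.cl_mono (by
        intro y hy; simp only [mem_union] at hy ⊢
        rcases hy with h | h
        · exact Or.inl (Or.inl h)
        · exact Or.inr (hBC h)) hxYB
      have hxg : x ∈ M.cl (Y ∪ V ∪ g) := hmdV.mem_gc_cl hxYVC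
      have hgne : g.Nonempty := by
        rw [nonempty_iff_ne_empty]
        intro h
        rw [h, union_empty] at hxg
        exact hxV hxg
      have hgV : ∀ v ∈ V, v ∉ g := by
        intro v hv hvg
        rw [hg, mem_gc] at hvg
        apply hvg.2
        have : Y ∪ V ∪ C ⊆ Y ∪ V ∪ C.erase v := by
          intro y hy
          simp only [mem_union, mem_erase] at hy ⊢
          by_cases hyv : y = v
          · subst hyv; exact Or.inl (Or.inr hv)
          · rcases hy with h | h
            · exact Or.inl h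
            · exact Or.inr ⟨hyv, h⟩
        exact M.cl_mono this hxYVC
      have hcard : (B \ (V ∪ g)).card + g.card = m := by
        rw [← hm]
        have h1 : B \ (V ∪ g) = (B \ V) \ g := by
          ext y; simp only [mem_sdiff, mem_union]; tauto
        have h2 : g ⊆ B \ V := by
          intro y hy
          rw [mem_sdiff]
          exact ⟨hgB hy, fun h => hgV y h hy⟩
        rw [h1]
        exact card_sdiff_add_card_eq_card h2
      have hgpos := card_pos.2 hgne
      obtain ⟨n1, hs1, hsum1, ha1, hb1⟩ :=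
        ih (B \ (V ∪ g)).card (by omega) (V ∪ g) (union_subset hV hgB) rfl
      have hn1x : n1 x = 0 := by
        by_contra h
        have := (mem_sdiff.1 (hs1 x h)).2
        rw [← union_assoc] at this
        exact this hxg
      refine ⟨Function.update n1 x g.card, ?_, ?_, ?_, ?_⟩
      · intro y hy
        by_cases hyx : y = x
        · subst hyx
          rw [mem_sdiff, mem_inter]
          exact ⟨⟨hxZ, hxX⟩, hxV⟩
        · rw [Function.update_of_ne hyx] at hy
          have h1 := hs1 y hy
          rw [mem_sdiff] at h1 ⊢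
          exact ⟨h1.1, fun h => h1.2 (M.cl_mono (by
            intro z hz; simp only [mem_union] at hz ⊢; tauto) h)⟩
      · have h1 : ∑ y, Function.update n1 x g.card y = ∑ y, n1 y + g.card := by
          rw [← Finset.add_sum_erase univ _ (mem_univ x),
            ← Finset.add_sum_erase univ n1 (mem_univ x), Function.update_self, hn1x]
          have h2 : ∑ y ∈ univ.erase x, Function.update n1 x g.card y =
              ∑ y ∈ univ.erase x, n1 y := by
            apply sum_congr rfl
            intro y hy
            rw [Function.update_of_ne (ne_of_mem_erase hy)]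
          rw [h2]; ring
        rw [h1]
        omega
      · intro V' hV'C hVV' hst
        have h1 : x ∈ M.cl (Y ∪ V') := by
          apply hst x
          · exact M.cl_mono (union_subset_union_right hBC) hxYB
          · rw [Function.update_self]
            exact card_le_card (gc_anti M (union_subset_union_right hVV') x)
        have h2 : g ⊆ V' := gc_least M hV'C (M.cl_mono (by
          intro z hz; simp only [mem_union] at hz ⊢; tauto) h1)
        apply ha1 V' hV'C (union_subset hVV' h2)
        intro y hy hyc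
        by_cases hyx : y = x
        · subst hyx; exact h1
        · apply hst y hy
          rwa [Function.update_of_ne hyx]
      · intro y hy hyC
        by_cases hyx : y = x
        · subst hyx
          rw [Function.update_self]
          have h1 : g ⊆ gc M C Xp y :=
            gc_anti M (hXpY.trans subset_union_left) y
          have h2 : gc M C Xp y ⊆ B := by
            intro c hc
            rw [mem_gc] at hc
            by_contra hcB
            rcases hm3 c hc.1 hcB with h3 | h3
            · apply hc.2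
              have : Xp ∪ C ⊆ Xp ∪ C.erase c := by
                intro z hz
                simp only [mem_union, mem_erase] at hz ⊢
                by_cases hzc : z = c
                · subst hzc; exact Or.inl h3
                · rcases hz with h | h
                  · exact Or.inl h
                  · exact Or.inr ⟨hzc, h⟩
              exact M.cl_mono this hyC
            · apply h3
              have h4 : y ∈ M.cl (insert c (Xp ∪ C.erase c)) := by
                apply M.cl_mono _ hyC
                intro z hz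
                simp only [mem_union, mem_erase, mem_insert] at hz ⊢
                by_cases hzc : z = c
                · exact Or.inl hzc
                · tauto
              have h5 := M.mem_cl_insert_swap h4 hc.2
              apply M.cl_mono _ h5
              intro z hz
              simp only [mem_union, mem_erase, mem_insert] at hz ⊢
              rcases hz with h | h | h
              · subst h; exact Or.inl hxX
              · exact Or.inl (hXpX h)
              · exact Or.inr h
          have h3 : ∃ v ∈ V, v ∈ gc M C Xp y := by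
            by_contra hcon
            push Not at hcon
            apply hx'
            have h4 := hm1.mem_gc_cl hyC
            apply M.cl_mono (union_subset_union_right _) h4
            intro z hz
            rw [mem_sdiff]
            exact ⟨h2 hz, fun h => hcon z h hz⟩
          obtain ⟨v, hv, hvg⟩ := h3
          apply card_lt_card
          refine ⟨h1, fun h => hgV v hv (h hvg)⟩
        · rw [Function.update_of_ne hyx] at hy ⊢
          exact hb1 y hy hyC

theorem IO.union {S D E : Finset α} (h1 : IO M S D) (h2 : IO M (S ∪ D) E) :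
    IO M S (D ∪ E) := by
  unfold IO at *
  rw [union_assoc] at h2
  have := card_union_le D E
  omega

theorem Stb.mono_n {C : Finset α} {n n' : α → ℕ} {Y V : Finset α} (h : Stb M C n Y V)
    (hn : ∀ x, n' x ≤ n x) : Stb M C n' Y V := fun x hx hc => h x hx (hc.trans (hn x))

variable (M)

/-- THEOREM A, one chain, up to time `T` -/
theorem chain_code {k : ℕ} (hk : 0 < k) (Z : Finset α) (f : ℕ → Finset α) (hf : Monotone f)
    (T : ℕ) : ∃ (C0 C : Finset α) (n : α → ℕ), C0 ⊆ Z ∧ C ⊆ Z ∧ (∀ x, n x ≠ 0 → x ∈ Z) ∧
      ∑ x, n x ≤ C.card ∧ k * (C0.card + C.card) ≤ Z.card ∧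
      ∀ i ≤ T, dec M C0 C n f i = M.kc k Z (f i) := by
  classical
  let X : ℕ → Finset α := fun i => M.kc k Z (f i)
  let Y : ℕ → Finset α := fun i => Nat.casesOn i (f 0) (fun j => X j ∪ f (j + 1))
  have hY0 : Y 0 = f 0 := rfl
  have hYs : ∀ i, Y (i + 1) = X i ∪ f (i + 1) := fun i => rfl
  have hXmono : Monotone X := fun i j hij => M.kc_mono (Subset.refl _) (hf hij)
  have hfX : ∀ i, f i ⊆ X i := fun i => M.subset_kc _ _ _
  have hYX : ∀ i, Y i ⊆ X i := by
    intro i
    cases i with
    | zero => exact hfX 0
    | succ i => exact union_subset (hXmono (Nat.le_succ i)) (hfX _)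
  have hfY : ∀ i, f i ⊆ Y i := by
    intro i
    cases i with
    | zero => exact Subset.refl _
    | succ i => exact subset_union_right
  have hXY : ∀ i, X i = M.kc k Z (Y i) := fun i =>
    (M.kc_eq_of_subset (hfY i) (hYX i)).symm
  have hXlt : ∀ i j, i < j → X i ⊆ Y j := by
    intro i j hij
    cases j with
    | zero => omega
    | succ j => exact (hXmono (by omega : i ≤ j)).trans subset_union_left
  have hXf : ∀ i, M.Flat (X i) := fun i => M.kc_flat _ _ _
  choose B hBZ hBI hBcl using fun i => exists_basis M (Y i) (Z ∩ X i)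
  have hBX : ∀ i, B i ⊆ X i := fun i => (hBZ i).trans inter_subset_right
  have hXB : ∀ i, X i ⊆ M.cl (Y i ∪ B i) := by
    intro i
    have h1 := M.kc_eq_cl hk Z (Y i)
    rw [← hXY i] at h1
    rw [h1, M.cl_subset_iff]
    exact union_subset (subset_union_left.trans (M.subset_cl _)) (hBcl i)
  have hBd : ∀ i, ∀ b ∈ B i, b ∉ M.cl (Y i) := fun i b hb => (hBI i).disj hb
  let Cge : ℕ → Finset α := fun i => (Ico i (T + 1)).biUnion B
  have hCge : ∀ i x, x ∈ Cge i ↔ ∃ j, i ≤ j ∧ j ≤ T ∧ x ∈ B j := by
    intro i x
    simp only [Cge, mem_biUnion, mem_Ico]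
    constructor
    · rintro ⟨j, h1, h2⟩; exact ⟨j, h1.1, by omega, h2⟩
    · rintro ⟨j, h1, h2, h3⟩; exact ⟨j, ⟨h1, by omega⟩, h3⟩
  have hind : ∀ d i, i + d = T + 1 → IO M (Y i) (Cge i) := by
    intro d
    induction d with
    | zero =>
      intro i hi
      have : Cge i = ∅ := by
        rw [eq_empty_iff_forall_notMem]
        intro x hx
        obtain ⟨j, h1, h2, _⟩ := (hCge i x).1 hx
        omega
      rw [this]; simp [IO]
    | succ d ih =>
      intro i hi
      have h1 : Cge i = B i ∪ Cge (i + 1) := by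
        ext x
        rw [mem_union, hCge, hCge]
        constructor
        · rintro ⟨j, h1, h2, h3⟩
          rcases Nat.eq_or_lt_of_le h1 with h4 | h4
          · subst h4; exact Or.inl h3
          · exact Or.inr ⟨j, h4, h2, h3⟩
        · rintro (h | ⟨j, h1, h2, h3⟩)
          · exact ⟨i, le_refl _, by omega, h⟩
          · exact ⟨j, by omega, h2, h3⟩
      rw [h1]
      apply (hBI i).union
      apply (ih (i + 1) (by omega)).anti_left
      exact (union_subset (hYX i) (hBX i)).trans (hXlt i (i + 1) (Nat.lt_succ_self i))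
  set C := Cge 1 with hC
  have hCgeC : ∀ i, 1 ≤ i → Cge i ⊆ C := by
    intro i hi x hx
    obtain ⟨j, h1, h2, h3⟩ := (hCge i x).1 hx
    exact (hCge 1 x).2 ⟨j, by omega, h2, h3⟩
  have hBC : ∀ i, i + 1 ≤ T → B (i + 1) ⊆ C := fun i hi x hx =>
    (hCge 1 x).2 ⟨i + 1, by omega, hi, hx⟩
  -- modularity
  have hmd : ∀ i S, i + 1 ≤ T → IO M S (Cge (i + 1)) → X i ⊆ S → Md M S C := by
    intro i S hi hS hXS
    have h1 : C = Cge (i + 1) ∪ (C \ Cge (i + 1)) := by
      rw [union_sdiff_self_eq_union, union_eq_right.2 (hCgeC _ (by omega))]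
    rw [h1]
    apply hS.md.addCl
    intro c hc
    rw [mem_sdiff] at hc
    obtain ⟨j, h2, h3, h4⟩ := (hCge 1 c).1 hc.1
    have h5 : j ≤ i := by
      by_contra h
      exact hc.2 ((hCge (i + 1) c).2 ⟨j, by omega, h3, h4⟩)
    exact M.subset_cl _ (hXS (hXmono h5 (hBX j h4)))
  have hmY : ∀ i, i + 1 ≤ T → Md M (Y (i + 1)) C := fun i hi =>
    hmd i _ hi (hind (T - i) (i + 1) (by omega)) (hXlt i (i + 1) (Nat.lt_succ_self i))
  have hmX : ∀ i, i + 1 ≤ T → Md M (X i) C := fun i hi =>
    hmd i _ hi ((hind (T - i) (i + 1) (by omega)).anti_left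
      (hXlt i (i + 1) (Nat.lt_succ_self i))) (Subset.refl _)
  -- the steps
  have hstep : ∀ i, ∃ n : α → ℕ, i + 1 ≤ T →
      ((∀ x, n x ≠ 0 → x ∈ (Z ∩ X (i + 1)) \ M.cl (Y (i + 1))) ∧
        ∑ x, n x ≤ (B (i + 1)).card ∧
        (∀ V' ⊆ C, Stb M C n (Y (i + 1)) V' → B (i + 1) ⊆ V') ∧
        (∀ x, n x ≠ 0 → x ∈ M.cl (X i ∪ C) → n x < (gc M C (X i) x).card)) := by
    intro i
    by_cases hi : i + 1 ≤ T
    · have hm3 : ∀ c ∈ C, c ∉ B (i + 1) → c ∈ X i ∨ c ∉ M.cl (X (i + 1) ∪ C.erase c) := by
        intro c hc hcB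
        obtain ⟨j, h1, h2, h3⟩ := (hCge 1 c).1 hc
        rcases Nat.lt_trichotomy j (i + 1) with h | h | h
        · exact Or.inl (hXmono (by omega : j ≤ i) (hBX j h3))
        · subst h; exact absurd h3 hcB
        · right
          have h4 : IO M (X (i + 1)) (Cge (i + 2)) :=
            (hind (T - (i + 1)) (i + 2) (by omega)).anti_left (hXlt (i + 1) (i + 2) (by omega))
          have h5 : c ∈ Cge (i + 2) := (hCge _ c).2 ⟨j, by omega, h2, h3⟩
          have h6 := h4.notMem h5
          intro h7
          apply h6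
          have h8 : X (i + 1) ∪ C.erase c ⊆ X (i + 1) ∪ (Cge (i + 2)).erase c := by
            intro y hy
            rw [mem_union, mem_erase] at hy ⊢
            rcases hy with h | ⟨hyc, hyC⟩
            · exact Or.inl h
            · obtain ⟨l, g1, g2, g3⟩ := (hCge 1 y).1 hyC
              rcases Nat.lt_or_ge l (i + 2) with hl | hl
              · exact Or.inl (hXmono (by omega : l ≤ i + 1) (hBX l g3))
              · exact Or.inr ⟨hyc, (hCge _ y).2 ⟨l, hl, g2, g3⟩⟩
          exact M.cl_mono h8 h7
      obtain ⟨n, h1, h2, h3, h4⟩ := step_exists (M := M) (k := k) (Z := Z) (Xp := X i)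
        (Y := Y (i + 1)) (X := X (i + 1)) (C := C) (B := B (i + 1))
        (M.kc_sparse _ _ _) (hXlt i (i + 1) (Nat.lt_succ_self i)) (hXY (i + 1))
        (hBX (i + 1)) (hBC i hi) (hBI (i + 1)) (hXB (i + 1)) (hmX i hi) (hmY i hi) hm3
        (B (i + 1) \ ∅).card ∅ (empty_subset _) rfl
      rw [union_empty] at h1
      rw [sdiff_empty] at h2
      exact ⟨n, fun _ => ⟨h1, h2, fun V' hV' hs => h3 V' hV' (empty_subset _) hs, h4⟩⟩
    · exact ⟨fun _ => 0, fun h => absurd h hi⟩
  choose nn hnn using hstep
  let n : α → ℕ := fun x => ∑ i ∈ range T, nn i x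
  have hsupp : ∀ i < T, ∀ x, nn i x ≠ 0 → x ∈ (Z ∩ X (i + 1)) \ M.cl (Y (i + 1)) :=
    fun i hi x hx => (hnn i hi).1 x hx
  have hn_eq : ∀ j < T, ∀ x, nn j x ≠ 0 → n x = nn j x := by
    intro j hj x hx
    apply sum_eq_single_of_mem j (mem_range.2 hj)
    intro i hi hij
    rw [mem_range] at hi
    by_contra h
    have h1 := hsupp i hi x h
    have h2 := hsupp j hj x hx
    rw [mem_sdiff, mem_inter] at h1 h2
    rcases Nat.lt_or_gt_of_ne hij with h3 | h3
    · exact h2.2 (M.subset_cl _ (hXlt (i + 1) (j + 1) (by omega) h1.1.2))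
    · exact h1.2 (M.subset_cl _ (hXlt (j + 1) (i + 1) (by omega) h2.1.2))
  have hn_le : ∀ j < T, ∀ x, nn j x ≤ n x := fun j hj x =>
    single_le_sum (f := fun i => nn i x) (fun _ _ => Nat.zero_le _) (mem_range.2 hj)
  -- cardinalities
  have hdisj : ∀ i ∈ Ico 1 (T + 1), ∀ j ∈ Ico 1 (T + 1), i ≠ j → Disjoint (B i) (B j) := by
    intro i _ j _ hij
    rw [disjoint_left]
    intro x hx hx'
    rcases Nat.lt_or_gt_of_ne hij with h3 | h3
    · exact hBd j x hx' (M.subset_cl _ (hXlt i j h3 (hBX i hx)))
    · exact hBd i x hx (M.subset_cl _ (hXlt j i h3 (hBX j hx')))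
  have hCcard : C.card = ∑ i ∈ range T, (B (i + 1)).card := by
    rw [hC]
    simp only [Cge]
    rw [card_biUnion hdisj, sum_Ico_eq_sum_range]
    apply sum_congr rfl
    intro i _
    rw [Nat.add_comm 1 i]
  have hkB : ∀ i, k * (B i).card ≤ ((Z ∩ X i) \ M.cl (Y i)).card := by
    intro i
    have h1 := M.kc_dense (k := k) (Z := Z) (F := Y i) (V := ∅) (empty_subset _)
    rw [← hXY i, union_empty, M.rr_cl_left] at h1
    have h2 := M.r_add_rr_of_subset (hYX i)
    have h3 : M.r (X i) ≤ M.r (Y i ∪ B i) := by
      have := M.mono (hXB i)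
      rwa [M.r_cl] at this
    have h4 : M.r (Y i ∪ B i) ≤ M.r (X i) := M.mono (union_subset (hYX i) (hBX i))
    have h5 := (hBI i).eq
    have h6 : M.rr (Y i) (X i) = (B i).card := by omega
    rwa [h6] at h1
  have hsum : ∀ m, k * ∑ i ∈ range (m + 1), (B i).card ≤ (Z ∩ X m).card := by
    intro m
    induction m with
    | zero =>
      rw [sum_range_one]
      exact (hkB 0).trans (card_le_card sdiff_subset)
    | succ m ih =>
      rw [sum_range_succ, Nat.mul_add]
      have h1 := hkB (m + 1)
      have h2 : (Z ∩ X m).card + ((Z ∩ X (m + 1)) \ M.cl (Y (m + 1))).card ≤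
          (Z ∩ X (m + 1)).card := by
        rw [← card_union_of_disjoint]
        · apply card_le_card
          apply union_subset
          · exact inter_subset_inter (Subset.refl _) (hXmono (Nat.le_succ m))
          · exact sdiff_subset
        · rw [disjoint_left]
          intro x hx hx'
          rw [mem_inter] at hx
          rw [mem_sdiff] at hx'
          exact hx'.2 (M.subset_cl _ (hXlt m (m + 1) (Nat.lt_succ_self m) hx.2))
      omega
  refine ⟨B 0, C, n, (hBZ 0).trans inter_subset_left, ?_, ?_, ?_, ?_, ?_⟩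
  · intro x hx
    obtain ⟨j, _, _, h3⟩ := (hCge 1 x).1 hx
    exact (mem_inter.1 (hBZ j h3)).1
  · intro x hx
    obtain ⟨i, hi, hne⟩ := exists_ne_zero_of_sum_ne_zero hx
    have := hsupp i (mem_range.1 hi) x hne
    rw [mem_sdiff, mem_inter] at this
    exact this.1.1
  · calc ∑ x, n x = ∑ i ∈ range T, ∑ x, nn i x := sum_comm
      _ ≤ ∑ i ∈ range T, (B (i + 1)).card := by
        apply sum_le_sum
        intro i hi
        exact (hnn i (mem_range.1 hi)).2.1
      _ = C.card := hCcard.symm
  · have h1 := hsum T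
    rw [sum_range_succ'] at h1
    rw [hCcard, Nat.add_comm]
    exact h1.trans (card_le_card inter_subset_left)
  · intro i
    induction i with
    | zero =>
      intro _
      change M.cl (f 0 ∪ B 0) = X 0
      apply Subset.antisymm
      · exact (hXf 0).cl_subset (union_subset (hfX 0) (hBX 0))
      · exact hXB 0
    | succ i ih =>
      intro hi
      have ih' := ih (by omega)
      change M.cl ((dec M (B 0) C n f i ∪ f (i + 1)) ∪
        stp M C n (dec M (B 0) C n f i ∪ f (i + 1))) = X (i + 1)
      rw [ih']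
      have e1 : M.kc k Z (f i) ∪ f (i + 1) = Y (i + 1) := rfl
      rw [e1]
      have hstp : stp M C n (Y (i + 1)) = B (i + 1) := by
        apply Subset.antisymm
        · intro c hc
          unfold stp at hc
          rw [mem_filter] at hc
          apply hc.2 (B (i + 1)) (hBC i hi)
          intro x hx hxc
          by_contra hxn
          have hxX : x ∉ X (i + 1) := fun h => hxn (hXB (i + 1) h)
          have hmd' : Md M (Y (i + 1) ∪ B (i + 1)) C := (hmY i hi).add (hBC i hi)
          have hxx : x ∈ M.cl (Y (i + 1) ∪ B (i + 1) ∪ C) := M.cl_mono (by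
            intro y hy; simp only [mem_union] at hy ⊢; tauto) hx
          rcases Nat.eq_zero_or_pos (n x) with h0 | hpos
          · rw [h0, Nat.le_zero, card_eq_zero] at hxc
            have h1 := hmd'.mem_gc_cl hxx
            rw [hxc, union_empty] at h1
            exact hxn h1
          · obtain ⟨j, hj, hne⟩ := exists_ne_zero_of_sum_ne_zero hpos.ne'
            rw [mem_range] at hj
            have h1 := hsupp j hj x hne
            rw [mem_sdiff, mem_inter] at h1
            have h2 : i + 1 ≤ j := by
              by_contra h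
              exact hxX (hXmono (by omega : j + 1 ≤ i + 1) h1.1.2)
            have h3 : Y (i + 1) ∪ B (i + 1) ⊆ X j :=
              (union_subset (hYX _) (hBX _)).trans (hXmono h2)
            have h4 := (hnn j hj).2.2.2 x hne (M.cl_mono (union_subset_union_left
              (subset_union_left.trans h3)) hx)
            rw [hn_eq j hj x hne] at hxc
            have h5 := card_le_card (gc_anti M (C := C) h3 x)
            omega
        · intro c hc
          unfold stp
          rw [mem_filter]
          refine ⟨hBC i hi hc, fun V hV hs => ?_⟩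
          exact (hnn i hi).2.2.1 V hV (hs.mono_n (fun x => hn_le i hi x)) hc
      rw [hstp]
      apply Subset.antisymm
      · exact (hXf (i + 1)).cl_subset (union_subset (hYX (i + 1)) (hBX (i + 1)))
      · exact hXB (i + 1)

/-- the decoder on the codes of `Un_228` -/
noncomputable def decode (f : ℕ → Finset α) (T : ℕ) (c : Un228.Cd α) (i : ℕ) : Finset α :=
  dec M c.1 c.2.1 c.2.2.2 f (min i T)

/-- THEOREM A (COUNTING) of doc 1793 -/
theorem exists_code {k : ℕ} (hk : 0 < k) (f : ℕ → Finset α) (hf : Monotone f) :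
    ∃ D : Un228.Cd α → ℕ → Finset α, ∀ W Z : Finset α, Z ⊆ W →
      ∃ c : Un228.Cd α, Un228.IsCode k W c ∧ ∀ i, D c i = M.kc k Z (f i) := by
  classical
  obtain ⟨T, hT⟩ : ∃ T, ∀ i, T ≤ i → f T = f i :=
    WellFoundedGT.monotone_chain_condition ⟨f, hf⟩
  refine ⟨decode M f T, fun W Z hZW => ?_⟩
  obtain ⟨C0, C, n, h1, h2, h3, h4, h5, h6⟩ := chain_code M hk Z f hf T
  refine ⟨(C0, C, univ.filter (fun x => n x ≠ 0), n), ⟨?_, ?_, ?_, ?_, ?_, ?_, ?_⟩, ?_⟩
  · exact h1.trans hZW
  · exact h2.trans hZW
  · intro x hx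
    exact hZW (h3 x (mem_filter.1 hx).2)
  · exact h5.trans (card_le_card hZW)
  · intro a ha
    exact Nat.one_le_iff_ne_zero.2 (mem_filter.1 ha).2
  · intro a ha
    by_contra h
    exact ha (mem_filter.2 ⟨mem_univ _, h⟩)
  · calc ∑ a ∈ univ.filter (fun x => n x ≠ 0), n a ≤ ∑ a, n a :=
        sum_le_sum_of_subset (subset_univ _)
      _ ≤ C.card := h4
  · intro i
    change dec M C0 C n f (min i T) = _
    rw [h6 _ (Nat.min_le_right i T)]
    rcases Nat.le_total i T with h | h
    · rw [Nat.min_eq_left h]
    · rw [Nat.min_eq_right h, hT i h]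

end Crest.Agent.R305.Code667
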