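import Crest.Agent.R305.Fcr_310

/-!
# R305 top assembly: common definitions (helper137)

`M : RankFn α`, `pos : α → ℕ` (injective; heavy = small), `cls : α → ℕ` (class, heavy = large),
`Vd` the valid elements. Raw samples `T Z A B : Finset α`.
-/

set_option autoImplicit false

namespace Crest.Agent.R305.TopDef137

open Finset Dep310 Kd447 Fcl310 Fcr310

variable {α : Type*} [Fintype α] [DecidableEq α]

/-- the heavier elements of `S` -/
def below (pos : α → ℕ) (S : Finset α) (e : α) : Finset α := S.filter fun f => pos f < pos e

/-- the greedy basis of `S` -/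
def grd (M : RankFn α) (pos : α → ℕ) (S : Finset α) : Finset α :=
  S.filter fun e => e ∉ M.cl (below pos S e)

/-- the data of one class vector -/
structure Inst (α : Type*) [Fintype α] [DecidableEq α] where
  M : RankFn α
  pos : α → ℕ
  inj : Function.Injective pos
  cls : α → ℕ
  Vd : Finset α
  anti : ∀ a ∈ Vd, ∀ b ∈ Vd, pos a < pos b → cls b ≤ cls a

variable (I : Inst α)

/-- candidates: valid, not in `T`, not spanned by the heavier elements of `T` -/
def cand (T : Finset α) : Finset α :=
  I.Vd.filter fun e => e ∉ T ∧ e ∉ I.M.cl (below I.pos (T ∩ I.Vd) e)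

/-- candidates of the class `n` -/
def En (T : Finset α) (n : ℕ) : Finset α := (cand I T).filter fun e => I.cls e = n

/-- the sample of the class `n` used by the dense closure -/
def Zs (T Z : Finset α) (n : ℕ) : Finset α := grd I.M I.pos (Z ∩ En I T n)

/-- the class operator -/
noncomputable def dat (k : ℕ) (T Z : Finset α) : Data α := rankData I.M I.cls k (Zs I T Z)

/-- the sampled elements of the classes -/
def As (T Z A : Finset α) : Finset α := A ∩ (cand I T \ Z)

/-- the online elements of the classes -/
def Hs (T Z A B : Finset α) : Finset α := (B ∩ (cand I T \ Z)) \ A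

/-- the greedy optimum -/
def opt : Finset α := grd I.M I.pos I.Vd

/-- the greedy optimum of the class `n` off `T` -/
def On (T : Finset α) (n : ℕ) : Finset α := (opt I \ T).filter fun e => I.cls e = n

/-- row `t` -/
noncomputable def Row (k : ℕ) (T Z A : Finset α) (t : ℕ) : Finset α :=
  Dt (dat I k T Z) (As I T Z A) t

/-- the contraction of row `t` for the class `n`: `c_n (g_t)` -/
noncomputable def Kt (k : ℕ) (T Z A B : Finset α) (t n : ℕ) : Finset α :=
  I.M.kc k (Zs I T Z n) (gl (dat I k T Z) (As I T Z A) (Hs I T Z A B) t n)

/-- online optimal elements of the class `n` in row `t` -/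
noncomputable def Nt (k : ℕ) (T Z A B : Finset α) (t n : ℕ) : Finset α :=
  Hs I T Z A B ∩ On I T n ∩ Row I k T Z A t

open Classical in
/-- good served elements of the class `n`, residue `i` -/
noncomputable def good (k : ℕ) (T Z A B : Finset α) (i n : ℕ) : Finset α :=
  (Hs I T Z A B ∩ On I T n).filter fun h =>
    ∃ t, t % 3 = i ∧ h ∈ Row I k T Z A t ∧ h ∉ Kt I k T Z A B t n

open Classical in
/-- harmed elements of the class `n`, residue `i` -/
noncomputable def harmed (k : ℕ) (T Z A B : Finset α) (i n : ℕ) : Finset α :=
  (good I k T Z A B i n).filter fun h =>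
    ∃ t, t % 3 = i ∧ h ∈ Row I k T Z A t ∧
      h ∈ I.M.cl (Kt I k T Z A B t n ∪ (Nt I k T Z A B t n).erase h)

/-- samples and online elements heavier than the class `n` -/
def bad (T Z A B : Finset α) (n : ℕ) : Finset α :=
  (cand I T ∩ (Z ∪ A ∪ B)).filter fun e => n < I.cls e

end Crest.Agent.R305.TopDef137
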