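import Crest.Agent.R305.Coin_404
import Crest.Agent.R305.TopDef_137

/-!
# R305: the lemmas of `Coin_404` in the names of `TopDef_137` (valid set `Vd`)
-/

set_option autoImplicit false

namespace Crest.Agent.R305.Coin2404

open Finset Dep310 Kd447 Coin404 TopDef137

variable {α : Type*} [Fintype α] [DecidableEq α]

omit [Fintype α] [DecidableEq α] in
theorem below_eq (pos : α → ℕ) (S : Finset α) (e : α) :
    TopDef137.below pos S e = Coin404.below pos S e := rfl

theorem grd_eq (M : RankFn α) (pos : α → ℕ) (S : Finset α) :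
    TopDef137.grd M pos S = Coin404.grd M pos S := rfl

/-! ### Abel summation on a subset -/

theorem abel_on {pos : α → ℕ} (hpos : Function.Injective pos) (V : Finset α) (v : α → ℝ)
    (hv0 : ∀ x ∈ V, 0 ≤ v x) (hv : ∀ x ∈ V, ∀ y ∈ V, pos x < pos y → v y ≤ v x)
    (A B : Finset α) (hA : A ⊆ V) (hB : B ⊆ V)
    (h : ∀ P : Finset α, (∀ x ∈ P, ∀ y, pos y < pos x → y ∈ P) → (A ∩ P).card ≤ (B ∩ P).card) :
    ∑ x ∈ A, v x ≤ ∑ x ∈ B, v x := by
  classical
  -- `v` extended by the least value of the earlier elements of `V`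
  have hne : ∀ x : α, (insert (∑ y ∈ V, v y) ((V.filter fun y => pos y ≤ pos x).image v)).Nonempty :=
    fun x => ⟨_, mem_insert_self _ _⟩
  let u : α → ℝ := fun x =>
    (insert (∑ y ∈ V, v y) ((V.filter fun y => pos y ≤ pos x).image v)).min' (hne x)
  have hle : ∀ y ∈ V, v y ≤ ∑ y ∈ V, v y := fun y hy =>
    Finset.single_le_sum hv0 hy
  have hu : ∀ x ∈ V, u x = v x := by
    intro x hx
    refine le_antisymm (Finset.min'_le _ _ ?_) ((Finset.le_min'_iff _ _).2 ?_)
    · exact mem_insert_of_mem (mem_image_of_mem _ (mem_filter.2 ⟨hx, le_rfl⟩))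
    · intro z hz
      rcases mem_insert.1 hz with rfl | hz
      · exact hle x hx
      · obtain ⟨y, hy, rfl⟩ := mem_image.1 hz
        rw [mem_filter] at hy
        rcases hy.2.lt_or_eq with hlt | heq
        · exact hv y hy.1 x hx hlt
        · rw [hpos heq]
  have hu0 : ∀ x, 0 ≤ u x := by
    intro x
    refine (Finset.le_min'_iff _ _).2 ?_
    intro z hz
    rcases mem_insert.1 hz with rfl | hz
    · exact Finset.sum_nonneg hv0
    · obtain ⟨y, hy, rfl⟩ := mem_image.1 hz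
      exact hv0 y (mem_filter.1 hy).1
  have huv : ∀ x y, pos x < pos y → u y ≤ u x := by
    intro x y hxy
    refine Finset.min'_subset _ ?_
    refine Finset.insert_subset_insert _ (Finset.image_subset_image ?_)
    intro z hz
    rw [mem_filter] at hz ⊢
    exact ⟨hz.1, hz.2.trans hxy.le⟩
  have := Coin404.abel hpos u hu0 huv A B h
  rwa [Finset.sum_congr rfl fun x hx => hu x (hA hx),
    Finset.sum_congr rfl fun x hx => hu x (hB hx)] at this

/-! ### the instance -/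

variable (I : Inst α)

theorem opt_subset : opt I ⊆ I.Vd := Coin404.grd_subset _

theorem cand_subset (T : Finset α) : cand I T ⊆ I.Vd := Finset.filter_subset _ _

theorem mem_cand {T : Finset α} {e : α} :
    e ∈ cand I T ↔ e ∈ I.Vd ∧ e ∉ T ∧
      e ∉ I.M.cl (TopDef137.below I.pos (T ∩ I.Vd) e) := by
  simp [cand]

/-- the optimal elements off the sample are candidates -/
theorem opt_sdiff_subset (T : Finset α) : opt I \ T ⊆ cand I T := by
  intro e he
  rw [mem_sdiff] at he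
  have h1 : e ∈ I.Vd ∧ e ∉ I.M.cl (Coin404.below I.pos I.Vd e) := Coin404.mem_grd.1 he.1
  rw [mem_cand]
  refine ⟨h1.1, he.2, fun h => h1.2 (I.M.cl_mono ?_ h)⟩
  intro x hx
  rw [below_eq, Coin404.mem_below] at hx
  exact Coin404.mem_below.2 ⟨(mem_inter.1 hx.1).2, hx.2⟩

theorem On_subset (T : Finset α) (n : ℕ) : On I T n ⊆ En I T n :=
  Finset.filter_subset_filter _ (opt_sdiff_subset I T)

/-- greedy optimality: independent valid sets -/
theorem indep_le_opt (v : α → ℝ) (hv0 : ∀ x ∈ I.Vd, 0 ≤ v x)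
    (hv : ∀ x ∈ I.Vd, ∀ y ∈ I.Vd, I.pos x < I.pos y → v y ≤ v x)
    (J : Finset α) (hJV : J ⊆ I.Vd) (hJ : I.M.r J = J.card) :
    ∑ e ∈ J, v e ≤ ∑ e ∈ opt I, v e := by
  refine abel_on I.inj I.Vd v hv0 hv _ _ hJV (opt_subset I) fun P hP => ?_
  have h0 : (opt I ∩ P).card = I.M.r (I.Vd ∩ P) :=
    Coin404.card_grd_inter I.inj I.Vd P fun x hx y _ => hP x hx y
  rw [h0]
  have h1 := I.M.r_union_le_card (J ∩ P) (J \ P)
  have h2 : J ∩ P ∪ J \ P = J := by
    ext x; simp only [mem_union, mem_inter, mem_sdiff]; tauto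
  have h3 := Finset.card_inter_add_card_sdiff J P
  rw [h2, hJ] at h1
  have h4 : I.M.r (J ∩ P) ≤ I.M.r (I.Vd ∩ P) := I.M.mono (inter_subset_inter_right hJV)
  omega

/-- the greedy basis of the valid sample is worth at most the optimum -/
theorem grd_le_opt (v : α → ℝ) (hv0 : ∀ x ∈ I.Vd, 0 ≤ v x)
    (hv : ∀ x ∈ I.Vd, ∀ y ∈ I.Vd, I.pos x < I.pos y → v y ≤ v x) (T : Finset α) :
    ∑ e ∈ TopDef137.grd I.M I.pos (T ∩ I.Vd), v e ≤ ∑ e ∈ opt I, v e := by
  refine indep_le_opt I v hv0 hv _ ?_ (Coin404.r_grd I.inj _)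
  exact (Coin404.grd_subset _).trans inter_subset_right

/-- the predictable condition of the candidates -/
def Cv (e : α) (X : Finset α) : Prop := e ∉ I.M.cl (X ∩ I.Vd)

omit [Fintype α] in
theorem below_inter (pos : α → ℕ) (T V : Finset α) (e : α) :
    Coin404.below pos (T ∩ V) e = Coin404.below pos T e ∩ V := by
  ext x
  simp only [Coin404.mem_below, mem_inter]
  tauto

theorem sum_cand (f : α → ℝ) (U T : Finset α) :
    ∑ e ∈ cand I T ∩ U, f e = Coin404.outVal I.pos (Cv I) f (U ∩ I.Vd) T := by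
  classical
  rw [Coin404.outVal_eq]
  refine Finset.sum_congr ?_ fun _ _ => rfl
  ext e
  rw [mem_filter, mem_inter, mem_inter, mem_cand, below_eq, below_inter]
  unfold Cv
  tauto

theorem sum_grd (f : α → ℝ) (U T : Finset α) :
    ∑ e ∈ TopDef137.grd I.M I.pos (T ∩ I.Vd) ∩ U, f e =
      Coin404.inVal I.pos (Cv I) f (U ∩ I.Vd) T := by
  classical
  rw [Coin404.inVal_eq]
  refine Finset.sum_congr ?_ fun _ _ => rfl
  ext e
  rw [mem_filter, mem_inter, mem_inter, grd_eq, Coin404.mem_grd, below_inter, mem_inter]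
  unfold Cv
  tauto

/-- **(L3a)**: candidates against the greedy basis of the sample -/
theorem cand_swap (τ : ℝ) (hτ : τ ≠ 0) (f : α → ℝ) (U : Finset α) :
    ∑ T, w (fun _ => τ) T * ∑ e ∈ cand I T ∩ U, f e = ((1 - τ) / τ) *
      ∑ T, w (fun _ => τ) T * ∑ e ∈ TopDef137.grd I.M I.pos (T ∩ I.Vd) ∩ U, f e := by
  simp only [sum_cand, sum_grd]
  exact Coin404.coin_swap I.pos τ hτ _ f _

/-- **(L3c)**: the expected value of the candidates -/
theorem cand_le_opt (τ : ℝ) (hτ0 : 0 < τ) (hτ1 : τ ≤ 1) (v : α → ℝ) (hv0 : ∀ x ∈ I.Vd, 0 ≤ v x)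
    (hv : ∀ x ∈ I.Vd, ∀ y ∈ I.Vd, I.pos x < I.pos y → v y ≤ v x) :
    ∑ T, w (fun _ => τ) T * ∑ e ∈ cand I T, v e ≤ ((1 - τ) / τ) * ∑ e ∈ opt I, v e := by
  have h := cand_swap I τ hτ0.ne' v univ
  simp only [inter_univ] at h
  rw [h]
  refine mul_le_mul_of_nonneg_left ?_ (div_nonneg (by linarith) hτ0.le)
  calc ∑ T, w (fun _ => τ) T * ∑ e ∈ TopDef137.grd I.M I.pos (T ∩ I.Vd), v e
      ≤ ∑ T, w (fun _ => τ) T * ∑ e ∈ opt I, v e := by
        refine Finset.sum_le_sum fun T _ =>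
          mul_le_mul_of_nonneg_left (grd_le_opt I v hv0 hv T) ?_
        exact w_nonneg (fun _ => hτ0.le) (fun _ => hτ1) T
    _ = ∑ e ∈ opt I, v e := by rw [← Finset.sum_mul, sum_w, one_mul]

/-- **(L3d)**: the expected value of the optimal elements off the sample -/
theorem opt_sdiff (τ : ℝ) (v : α → ℝ) :
    ∑ T, w (fun _ => τ) T * ∑ e ∈ opt I \ T, v e = (1 - τ) * ∑ e ∈ opt I, v e :=
  Coin404.sum_sdiff τ v (opt I)

omit [Fintype α] [DecidableEq α] in
/-- sum over the classes -/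
theorem sum_class (cls : α → ℕ) (u : ℕ → ℝ) (N : Finset ℕ) (S : Finset α)
    (hN : ∀ e ∈ S, cls e ∈ N) :
    ∑ n ∈ N, u n * ((S.filter fun e => cls e = n).card : ℝ) = ∑ e ∈ S, u (cls e) := by
  rw [← Finset.sum_fiberwise_of_maps_to hN]
  refine Finset.sum_congr rfl fun n _ => ?_
  rw [Finset.sum_congr rfl (g := fun _ => u n) fun e he => by rw [(mem_filter.1 he).2]]
  rw [Finset.sum_const, nsmul_eq_mul, mul_comm]

/-- **(c)**: class sum of the optimal elements off the sample -/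
theorem On_sum (τ : ℝ) (u : ℕ → ℝ) (N : Finset ℕ) (hN : ∀ e ∈ I.Vd, I.cls e ∈ N) :
    ∑ T, w (fun _ => τ) T * ∑ n ∈ N, u n * ((On I T n).card : ℝ) =
      (1 - τ) * ∑ e ∈ opt I, u (I.cls e) := by
  rw [← opt_sdiff I τ fun e => u (I.cls e)]
  refine Finset.sum_congr rfl fun T _ => ?_
  congr 1
  exact sum_class I.cls u N _ fun e he => hN e (opt_subset I (mem_sdiff.1 he).1)

theorem En_sum (u : ℕ → ℝ) (N : Finset ℕ) (hN : ∀ e ∈ I.Vd, I.cls e ∈ N) (T : Finset α) :
    ∑ n ∈ N, u n * ((En I T n).card : ℝ) = ∑ e ∈ cand I T, u (I.cls e) :=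
  sum_class I.cls u N _ fun e he => hN e (cand_subset I T he)

/-- geometric sum -/
theorem geom_lt (Λ : ℝ) (hΛ : 1 < Λ) (N : ℕ) (m : ℕ) :
    ∑ n ∈ (range N).filter (· < m), Λ ^ n ≤ Λ ^ m / (Λ - 1) := by
  have h0 : (0 : ℝ) < Λ := by linarith
  calc ∑ n ∈ (range N).filter (· < m), Λ ^ n ≤ ∑ n ∈ range m, Λ ^ n := by
        refine Finset.sum_le_sum_of_subset_of_nonneg ?_ fun n _ _ => (pow_pos h0 n).le
        intro n hn
        simp only [mem_filter, mem_range] at hn ⊢
        exact hn.2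
    _ = (Λ ^ m - 1) / (Λ - 1) := geom_sum_eq hΛ.ne' m
    _ ≤ Λ ^ m / (Λ - 1) := by
        refine div_le_div_of_nonneg_right ?_ (by linarith)
        linarith

omit [Fintype α] [DecidableEq α] in
/-- the heavier classes of a set, with geometric weights -/
theorem heavier_sum (Λ : ℝ) (hΛ : 1 < Λ) (N : ℕ) (cls : α → ℕ) (S : Finset α) :
    ∑ n ∈ range N, Λ ^ n * ((S.filter fun e => n < cls e).card : ℝ) ≤
      (∑ e ∈ S, Λ ^ cls e) / (Λ - 1) := by
  have h1 : ∀ n : ℕ, Λ ^ n * ((S.filter fun e => n < cls e).card : ℝ) =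
      ∑ e ∈ S, if n < cls e then Λ ^ n else 0 := by
    intro n
    rw [Finset.card_filter]
    push_cast
    rw [Finset.mul_sum]
    refine Finset.sum_congr rfl fun e _ => ?_
    split_ifs <;> simp
  simp only [h1]
  rw [Finset.sum_comm, Finset.sum_div]
  refine Finset.sum_le_sum fun e _ => ?_
  rw [← Finset.sum_filter]
  exact geom_lt Λ hΛ N (cls e)

end Crest.Agent.R305.Coin2404
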