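import Crest.Agent.R305.Dep_310
import Crest.Agent.R305.Kd_447

/-!
# R305: coins (noise and size of the classes, expectations only)

`T` is a random set with the product weight `w p` of `Dep_310`; `pos : α → ℕ` is injective
(small = heavy). A condition `C e (below pos T e)` is *predictable*. One-element swap `e ∈ T ↔ e ∉ T`,
counting of the exposed elements of `T` in a prefix, Abel summation, geometric sums over classes.
-/

set_option autoImplicit false

namespace Crest.Agent.R305.Coin404

open Finset Crest.Agent.R305.Dep310 Crest.Agent.R305.Kd447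

/-! ### one-element swap -/

section swap

variable {α : Type*} [Fintype α] [DecidableEq α]

/-- toggle the element `e` -/
def tog (e : α) (T : Finset α) : Finset α := if e ∈ T then T.erase e else insert e T

omit [Fintype α] in
theorem mem_tog {e a : α} {T : Finset α} : a ∈ tog e T ↔ (a = e ∧ e ∉ T) ∨ (a ≠ e ∧ a ∈ T) := by
  unfold tog
  by_cases h : e ∈ T
  · simp only [h, if_true, mem_erase, not_true_eq_false, and_false, false_or]
  · simp only [h, if_false, mem_insert, not_false_eq_true, and_true]
    by_cases hae : a = e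
    · simp [hae]
    · simp [hae]

omit [Fintype α] in
theorem tog_tog (e : α) (T : Finset α) : tog e (tog e T) = T := by
  ext a
  simp only [mem_tog]
  by_cases hae : a = e
  · subst hae; simp
  · simp [hae]

/-- the weight without the factor of `e` -/
noncomputable def w' (p : α → ℝ) (e : α) (T : Finset α) : ℝ :=
  ∏ a ∈ univ.erase e, if a ∈ T then p a else 1 - p a

theorem w_eq (p : α → ℝ) (e : α) (T : Finset α) :
    w p T = (if e ∈ T then p e else 1 - p e) * w' p e T := by
  unfold w w'
  rw [Finset.mul_prod_erase univ (fun a => if a ∈ T then p a else 1 - p a) (mem_univ e)]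

theorem w'_tog (p : α → ℝ) (e : α) (T : Finset α) : w' p e (tog e T) = w' p e T := by
  unfold w'
  refine Finset.prod_congr rfl fun a ha => ?_
  have hae : a ≠ e := (mem_erase.1 ha).1
  simp [mem_tog, hae]

/-- sum over all sets, toggled at `e` -/
theorem sum_tog (e : α) (F : Finset α → ℝ) : ∑ T, F (tog e T) = ∑ T, F T := by
  have hinv : Function.Involutive (tog e) := tog_tog e
  exact Fintype.sum_equiv hinv.toPerm _ _ fun T => rfl

variable (p : α → ℝ) (e : α) (G : Finset α → ℝ) (hG : ∀ T, G (tog e T) = G T)
include hG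

theorem sum_aux : ∑ T, w' p e T * (if e ∈ T then G T else 0) =
    ∑ T, w' p e T * (if e ∈ T then 0 else G T) := by
  rw [← sum_tog e]
  refine Finset.sum_congr rfl fun T _ => ?_
  rw [w'_tog, hG]
  have : (e ∈ tog e T) ↔ e ∉ T := by simp [mem_tog]
  by_cases h : e ∈ T
  · simp [this, h]
  · simp [this, h]

theorem sum_aux2 : ∑ T, w' p e T * (if e ∈ T then G T else 0) = ∑ T, w p T * G T := by
  have h1 : ∀ T, w p T * G T = p e * (w' p e T * (if e ∈ T then G T else 0)) +
      (1 - p e) * (w' p e T * (if e ∈ T then 0 else G T)) := by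
    intro T
    rw [w_eq p e T]
    split_ifs <;> ring
  simp only [h1, Finset.sum_add_distrib, ← Finset.mul_sum]
  rw [← sum_aux p e G hG]
  ring

/-- the coin of `e` is independent of everything which does not depend on `e` -/
theorem sum_mem : ∑ T, w p T * (if e ∈ T then G T else 0) = p e * ∑ T, w p T * G T := by
  rw [← sum_aux2 p e G hG, Finset.mul_sum]
  refine Finset.sum_congr rfl fun T _ => ?_
  rw [w_eq p e T]
  split_ifs <;> ring

theorem sum_not_mem :
    ∑ T, w p T * (if e ∈ T then 0 else G T) = (1 - p e) * ∑ T, w p T * G T := by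
  rw [← sum_aux2 p e G hG, sum_aux p e G hG, Finset.mul_sum]
  refine Finset.sum_congr rfl fun T _ => ?_
  rw [w_eq p e T]
  split_ifs <;> ring

/-- **swap** `e ∉ T ↔ e ∈ T` -/
theorem swap_one : p e * ∑ T, w p T * (if e ∈ T then 0 else G T) =
    (1 - p e) * ∑ T, w p T * (if e ∈ T then G T else 0) := by
  rw [sum_mem p e G hG, sum_not_mem p e G hG]
  ring

end swap

/-! ### predictable families -/

section pred

variable {α : Type*} [DecidableEq α]

/-- the elements of `T` heavier than `e` -/
def below (pos : α → ℕ) (T : Finset α) (e : α) : Finset α := T.filter fun a => pos a < pos e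

omit [DecidableEq α] in
theorem mem_below {pos : α → ℕ} {T : Finset α} {e a : α} :
    a ∈ below pos T e ↔ a ∈ T ∧ pos a < pos e := by
  simp [below]

theorem below_tog (pos : α → ℕ) (e : α) (T : Finset α) :
    below pos (tog e T) e = below pos T e := by
  ext a
  simp only [mem_below, mem_tog]
  constructor
  · rintro ⟨h | h, hlt⟩
    · exact absurd hlt (by simp [h.1])
    · exact ⟨h.2, hlt⟩
  · rintro ⟨h, hlt⟩
    exact ⟨Or.inr ⟨fun hae => by simp [hae] at hlt, h⟩, hlt⟩

open Classical in
/-- total value of the elements of `U \ T` with the predictable condition `C` -/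
noncomputable def outVal (pos : α → ℕ) (C : α → Finset α → Prop) (f : α → ℝ) (U T : Finset α) :
    ℝ :=
  ∑ e ∈ U, if e ∉ T ∧ C e (below pos T e) then f e else 0

open Classical in
/-- total value of the elements of `U ∩ T` with the predictable condition `C` -/
noncomputable def inVal (pos : α → ℕ) (C : α → Finset α → Prop) (f : α → ℝ) (U T : Finset α) :
    ℝ :=
  ∑ e ∈ U, if e ∈ T ∧ C e (below pos T e) then f e else 0

open Classical in
theorem inVal_eq (pos : α → ℕ) (C : α → Finset α → Prop) (f : α → ℝ) (U T : Finset α) :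
    inVal pos C f U T = ∑ e ∈ U.filter (fun e => e ∈ T ∧ C e (below pos T e)), f e := by
  unfold inVal
  rw [Finset.sum_filter]

open Classical in
theorem outVal_eq (pos : α → ℕ) (C : α → Finset α → Prop) (f : α → ℝ) (U T : Finset α) :
    outVal pos C f U T = ∑ e ∈ U.filter (fun e => e ∉ T ∧ C e (below pos T e)), f e := by
  unfold outVal
  rw [Finset.sum_filter]

variable [Fintype α] (pos : α → ℕ)

/-- **predictable coins** with a constant rate `τ` -/
theorem coin_swap (τ : ℝ) (hτ : τ ≠ 0) (C : α → Finset α → Prop) (f : α → ℝ) (U : Finset α) :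
    ∑ T, w (fun _ => τ) T * outVal pos C f U T =
      ((1 - τ) / τ) * ∑ T, w (fun _ => τ) T * inVal pos C f U T := by
  classical
  unfold outVal inVal
  simp only [Finset.mul_sum]
  rw [Finset.sum_comm, Finset.sum_comm (s := univ (α := Finset α))]
  refine Finset.sum_congr rfl fun e _ => ?_
  have h := swap_one (fun _ : α => τ) e (fun T => if C e (below pos T e) then f e else 0)
    (fun T => by simp only [below_tog])
  have h1 : ∀ T : Finset α, w (fun _ => τ) T * (if e ∉ T ∧ C e (below pos T e) then f e else 0)
      = w (fun _ => τ) T *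
        (if e ∈ T then 0 else (if C e (below pos T e) then f e else 0)) := by
    intro T
    by_cases he : e ∈ T <;> simp [he]
  have h2 : ∀ T : Finset α, (1 - τ) / τ *
      (w (fun _ => τ) T * (if e ∈ T ∧ C e (below pos T e) then f e else 0))
      = ((1 - τ) / τ) * (w (fun _ => τ) T *
        (if e ∈ T then (if C e (below pos T e) then f e else 0) else 0)) := by
    intro T
    by_cases he : e ∈ T <;> simp [he]
  simp only [h1, h2]
  rw [← Finset.mul_sum]
  field_simp
  linarith [h]

open Classical in
/-- predictable coins with element rates: the value in `T` is the rate times the predicted value -/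
theorem coin_in (p : α → ℝ) (C : α → Finset α → Prop) (f : α → ℝ) (U : Finset α) :
    ∑ T, w p T * inVal pos C f U T =
      ∑ T, w p T * (∑ e ∈ U, if C e (below pos T e) then p e * f e else 0) := by
  unfold inVal
  simp only [Finset.mul_sum]
  rw [Finset.sum_comm, Finset.sum_comm (s := univ (α := Finset α))]
  refine Finset.sum_congr rfl fun e _ => ?_
  have h := sum_mem p e (fun T => if C e (below pos T e) then f e else 0)
    (fun T => by simp only [below_tog])
  have h1 : ∀ T : Finset α, w p T * (if e ∈ T ∧ C e (below pos T e) then f e else 0)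
      = w p T *
        (if e ∈ T then (if C e (below pos T e) then f e else 0) else 0) := by
    intro T
    by_cases he : e ∈ T <;> simp [he]
  simp only [h1]
  rw [h, Finset.mul_sum]
  refine Finset.sum_congr rfl fun T _ => ?_
  split_ifs <;> ring

open Classical in
/-- predictable coins with element rates, outside `T` -/
theorem coin_out (p : α → ℝ) (C : α → Finset α → Prop) (f : α → ℝ) (U : Finset α) :
    ∑ T, w p T * outVal pos C f U T = ∑ T, w p T *
      (∑ e ∈ U, if C e (below pos T e) then (1 - p e) * f e else 0) := by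
  unfold outVal
  simp only [Finset.mul_sum]
  rw [Finset.sum_comm, Finset.sum_comm (s := univ (α := Finset α))]
  refine Finset.sum_congr rfl fun e _ => ?_
  have h := sum_not_mem p e (fun T => if C e (below pos T e) then f e else 0)
    (fun T => by simp only [below_tog])
  have h1 : ∀ T : Finset α, w p T * (if e ∉ T ∧ C e (below pos T e) then f e else 0)
      = w p T *
        (if e ∈ T then 0 else (if C e (below pos T e) then f e else 0)) := by
    intro T
    by_cases he : e ∈ T <;> simp [he]
  simp only [h1]
  rw [h, Finset.mul_sum]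
  refine Finset.sum_congr rfl fun T _ => ?_
  split_ifs <;> ring

end pred

/-! ### Abel summation -/

section abel

variable {α : Type*} [DecidableEq α] {pos : α → ℕ} (hpos : Function.Injective pos)
include hpos

theorem abel_aux (v : α → ℝ) (hv : ∀ x y, pos x < pos y → v y ≤ v x) (A B s : Finset α)
    (h : ∀ P ⊆ s, (∀ x ∈ P, ∀ y ∈ s, pos y < pos x → y ∈ P) → (A ∩ P).card ≤ (B ∩ P).card)
    (c : ℝ) (hc : ∀ x ∈ s, c ≤ v x) :
    c * ((B ∩ s).card - (A ∩ s).card : ℝ) ≤ ∑ x ∈ B ∩ s, v x - ∑ x ∈ A ∩ s, v x := by
  induction s using Finset.induction_on_max_value (f := pos) generalizing c with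
  | empty => simp
  | insert a s has ha' ih =>
    have ha : ∀ x ∈ s, pos x < pos a := fun x hx =>
      lt_of_le_of_ne (ha' x hx) fun h => has (hpos h ▸ hx)
    have h' : ∀ P ⊆ s, (∀ x ∈ P, ∀ y ∈ s, pos y < pos x → y ∈ P) →
        (A ∩ P).card ≤ (B ∩ P).card := by
      intro P hPs hP
      refine h P (hPs.trans (Finset.subset_insert _ _)) ?_
      intro x hx y hy hyx
      rcases Finset.mem_insert.1 hy with rfl | hy
      · exact absurd hyx (not_lt.2 (ha x (hPs hx)).le)
      · exact hP x hx y hy hyx
    have ih1 := ih h' (v a) fun x hx => hv x a (ha x hx)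
    have hcard : (A ∩ insert a s).card ≤ (B ∩ insert a s).card :=
      h _ subset_rfl fun x _ y hy _ => hy
    have hcard' : (0 : ℝ) ≤ ((B ∩ insert a s).card - (A ∩ insert a s).card : ℝ) := by
      have : ((A ∩ insert a s).card : ℝ) ≤ ((B ∩ insert a s).card : ℝ) := by exact_mod_cast hcard
      linarith
    have key : ∀ D : Finset α, ∑ x ∈ D ∩ insert a s, v x =
        ∑ x ∈ D ∩ s, v x + (if a ∈ D then v a else 0) ∧
        ((D ∩ insert a s).card : ℝ) = ((D ∩ s).card : ℝ) + (if a ∈ D then 1 else 0) := by
      intro D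
      have hn : a ∉ D ∩ s := fun h => has (mem_inter.1 h).2
      by_cases haD : a ∈ D
      · rw [Finset.inter_insert_of_mem haD, Finset.sum_insert hn, Finset.card_insert_of_notMem hn]
        simp only [haD, if_true]
        push_cast
        exact ⟨by ring, by ring⟩
      · rw [Finset.inter_insert_of_notMem haD]
        simp [haD]
    rw [(key A).1, (key B).1]
    have hstep : v a * ((B ∩ insert a s).card - (A ∩ insert a s).card : ℝ) ≤
        (∑ x ∈ B ∩ s, v x + (if a ∈ B then v a else 0)) -
          (∑ x ∈ A ∩ s, v x + (if a ∈ A then v a else 0)) := by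
      rw [(key A).2, (key B).2]
      split_ifs <;> linarith
    have hca : c ≤ v a := hc a (mem_insert_self _ _)
    nlinarith [mul_le_mul_of_nonneg_right hca hcard']

/-- **Abel summation**: if every prefix contains at most as many elements of `A` as of `B`, then the
value of `A` is at most the value of `B` -/
theorem abel [Fintype α] (v : α → ℝ) (hv0 : ∀ x, 0 ≤ v x)
    (hv : ∀ x y, pos x < pos y → v y ≤ v x) (A B : Finset α)
    (h : ∀ P : Finset α, (∀ x ∈ P, ∀ y, pos y < pos x → y ∈ P) → (A ∩ P).card ≤ (B ∩ P).card) :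
    ∑ x ∈ A, v x ≤ ∑ x ∈ B, v x := by
  have := abel_aux hpos v hv A B univ
    (fun P _ hP => h P fun x hx y hy => hP x hx y (mem_univ y) hy) 0 fun x _ => hv0 x
  simp only [zero_mul, inter_univ] at this
  linarith

end abel

/-! ### the greedy basis -/

section greedy

variable {α : Type*} [DecidableEq α] [Fintype α] (R : RankFn α) (pos : α → ℕ)

/-- the greedy basis of `S` -/
def grd (S : Finset α) : Finset α := S.filter fun e => e ∉ R.cl (below pos S e)

/-- the fresh elements of the sample `T` -/
def fresh (T : Finset α) : Finset α := univ.filter fun e => e ∉ T ∧ e ∉ R.cl (below pos T e)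

variable {R pos}

theorem mem_grd {S : Finset α} {e : α} : e ∈ grd R pos S ↔ e ∈ S ∧ e ∉ R.cl (below pos S e) := by
  simp [grd]

theorem mem_fresh {T : Finset α} {e : α} :
    e ∈ fresh R pos T ↔ e ∉ T ∧ e ∉ R.cl (below pos T e) := by
  simp [fresh]

theorem grd_subset (S : Finset α) : grd R pos S ⊆ S := Finset.filter_subset _ _

variable (hpos : Function.Injective pos)
include hpos

/-- the size of the greedy basis is the rank -/
theorem card_grd (S : Finset α) : (grd R pos S).card = R.r S := by
  unfold grd
  induction S using Finset.induction_on_max_value (f := pos) with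
  | empty => simp [R.r_empty]
  | insert a s has ha' ih =>
    have ha : ∀ x ∈ s, pos x < pos a := fun x hx =>
      lt_of_le_of_ne (ha' x hx) fun h => has (hpos h ▸ hx)
    have h1 : below pos (insert a s) a = s := by
      ext x
      simp only [mem_below, mem_insert]
      constructor
      · rintro ⟨h | h, hlt⟩
        · exact absurd hlt (by simp [h])
        · exact h
      · intro h
        exact ⟨Or.inr h, ha x h⟩
    have h2 : ∀ e ∈ s, below pos (insert a s) e = below pos s e := by
      intro e he
      ext x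
      simp only [mem_below, mem_insert]
      constructor
      · rintro ⟨h | h, hlt⟩
        · exact absurd (h ▸ hlt) (not_lt.2 (ha e he).le)
        · exact ⟨h, hlt⟩
      · rintro ⟨h, hlt⟩
        exact ⟨Or.inr h, hlt⟩
    have h3 : (s.filter fun e => e ∉ R.cl (below pos (insert a s) e)) =
        s.filter fun e => e ∉ R.cl (below pos s e) := by
      refine Finset.filter_congr fun e he => ?_
      rw [h2 e he]
    rw [Finset.filter_insert, h1, h3]
    by_cases hC : a ∈ R.cl s
    · rw [if_neg (not_not.2 hC), R.mem_cl.1 hC, ih]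
    · rw [if_pos hC, R.notMem_cl.1 hC, Finset.card_insert_of_notMem, ih]
      intro h
      exact has (mem_filter.1 h).1

/-- the greedy basis is independent -/
theorem r_grd (S : Finset α) : R.r (grd R pos S) = (grd R pos S).card := by
  refine le_antisymm (R.r_le_card _) ?_
  rw [card_grd hpos S]
  unfold grd
  induction S using Finset.induction_on_max_value (f := pos) with
  | empty => simp [R.r_empty]
  | insert a s has ha' ih =>
    have ha : ∀ x ∈ s, pos x < pos a := fun x hx =>
      lt_of_le_of_ne (ha' x hx) fun h => has (hpos h ▸ hx)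
    have h1 : below pos (insert a s) a = s := by
      ext x
      simp only [mem_below, mem_insert]
      constructor
      · rintro ⟨h | h, hlt⟩
        · exact absurd hlt (by simp [h])
        · exact h
      · intro h
        exact ⟨Or.inr h, ha x h⟩
    have h2 : ∀ e ∈ s, below pos (insert a s) e = below pos s e := by
      intro e he
      ext x
      simp only [mem_below, mem_insert]
      constructor
      · rintro ⟨h | h, hlt⟩
        · exact absurd (h ▸ hlt) (not_lt.2 (ha e he).le)
        · exact ⟨h, hlt⟩
      · rintro ⟨h, hlt⟩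
        exact ⟨Or.inr h, hlt⟩
    have h3 : (s.filter fun e => e ∉ R.cl (below pos (insert a s) e)) =
        s.filter fun e => e ∉ R.cl (below pos s e) := by
      refine Finset.filter_congr fun e he => ?_
      rw [h2 e he]
    rw [Finset.filter_insert, h1, h3]
    set G := s.filter fun e => e ∉ R.cl (below pos s e) with hG
    have hGs : G ⊆ s := Finset.filter_subset _ _
    by_cases hC : a ∈ R.cl s
    · rw [if_neg (not_not.2 hC), R.mem_cl.1 hC]
      exact ih
    · rw [if_pos hC, R.notMem_cl.1 hC]
      have hCG : a ∉ R.cl G := fun h => hC (R.cl_mono hGs h)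
      rw [R.notMem_cl.1 hCG]
      omega

/-- the greedy basis spans -/
theorem subset_cl_grd (S : Finset α) : S ⊆ R.cl (grd R pos S) := by
  refine R.subset_cl_of_r_le (grd_subset S) ?_
  rw [r_grd hpos, card_grd hpos]

omit hpos in
/-- the greedy basis in a prefix -/
theorem grd_inter (S P : Finset α) (hP : ∀ x ∈ P, ∀ y ∈ S, pos y < pos x → y ∈ P) :
    grd R pos S ∩ P = grd R pos (S ∩ P) := by
  have key : ∀ e ∈ P, below pos (S ∩ P) e = below pos S e := by
    intro e he
    ext x
    simp only [mem_below, mem_inter]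
    constructor
    · rintro ⟨⟨h, -⟩, h2⟩; exact ⟨h, h2⟩
    · rintro ⟨h, h2⟩; exact ⟨⟨h, hP e he x h h2⟩, h2⟩
  ext e
  simp only [mem_inter, mem_grd]
  constructor
  · rintro ⟨⟨h1, h2⟩, h3⟩
    rw [key e h3]
    exact ⟨⟨h1, h3⟩, h2⟩
  · rintro ⟨⟨h1, h3⟩, h2⟩
    rw [key e h3] at h2
    exact ⟨⟨h1, h2⟩, h3⟩

/-- **(L3b)** the number of greedy elements in a prefix is the rank of the prefix -/
theorem card_grd_inter (S P : Finset α) (hP : ∀ x ∈ P, ∀ y ∈ S, pos y < pos x → y ∈ P) :
    (grd R pos S ∩ P).card = R.r (S ∩ P) := by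
  rw [grd_inter S P hP, card_grd hpos]

/-- (L3b) with a threshold -/
theorem card_grd_lt (S : Finset α) (m : ℕ) :
    ((grd R pos S).filter (pos · < m)).card = R.r (S.filter (pos · < m)) := by
  have h := card_grd_inter (R := R) hpos S (univ.filter (pos · < m)) (by
    intro x hx y _ hyx
    simp only [mem_filter, mem_univ, true_and] at hx ⊢
    omega)
  have h1 : ∀ D : Finset α, D ∩ univ.filter (pos · < m) = D.filter (pos · < m) := by
    intro D; ext x; simp
  rwa [h1, h1] at h

/-- **the greedy basis of `T` is worth at most the greedy basis of the ground set** -/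
theorem grd_le_opt (v : α → ℝ) (hv0 : ∀ x, 0 ≤ v x) (hv : ∀ x y, pos x < pos y → v y ≤ v x)
    (T : Finset α) : ∑ e ∈ grd R pos T, v e ≤ ∑ e ∈ grd R pos univ, v e := by
  refine abel hpos v hv0 hv _ _ fun P hP => ?_
  rw [card_grd_inter hpos T P fun x hx y _ => hP x hx y,
    card_grd_inter hpos univ P fun x hx y _ => hP x hx y]
  exact R.mono (inter_subset_inter_right (subset_univ _))

/-- **greedy optimality** -/
theorem indep_le_opt (v : α → ℝ) (hv0 : ∀ x, 0 ≤ v x) (hv : ∀ x y, pos x < pos y → v y ≤ v x)
    (I : Finset α) (hI : R.r I = I.card) : ∑ e ∈ I, v e ≤ ∑ e ∈ grd R pos univ, v e := by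
  refine abel hpos v hv0 hv _ _ fun P hP => ?_
  rw [card_grd_inter hpos univ P fun x hx y _ => hP x hx y]
  have h1 := R.r_union_le_card (I ∩ P) (I \ P)
  have h2 : I ∩ P ∪ I \ P = I := by
    ext x; simp only [mem_union, mem_inter, mem_sdiff]; tauto
  have h3 := Finset.card_inter_add_card_sdiff I P
  rw [h2, hI] at h1
  have h4 : R.r (I ∩ P) ≤ R.r (univ ∩ P) := R.mono (inter_subset_inter_right (subset_univ _))
  omega

end greedy

/-! ### expectations -/

section value

variable {α : Type*} [Fintype α] [DecidableEq α] {R : RankFn α} {pos : α → ℕ}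

theorem sum_grd_inter (f : α → ℝ) (U T : Finset α) :
    ∑ e ∈ grd R pos T ∩ U, f e = inVal pos (fun e X => e ∉ R.cl X) f U T := by
  classical
  rw [inVal_eq]
  refine Finset.sum_congr ?_ fun _ _ => rfl
  ext e
  simp only [mem_inter, mem_grd, mem_filter]
  tauto

theorem sum_fresh_inter (f : α → ℝ) (U T : Finset α) :
    ∑ e ∈ fresh R pos T ∩ U, f e = outVal pos (fun e X => e ∉ R.cl X) f U T := by
  classical
  rw [outVal_eq]
  refine Finset.sum_congr ?_ fun _ _ => rfl
  ext e
  simp only [mem_inter, mem_fresh, mem_filter]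
  tauto

/-- **(L3a)** fresh elements of `U` against the greedy elements of `T` in `U` -/
theorem fresh_swap (τ : ℝ) (hτ : τ ≠ 0) (f : α → ℝ) (U : Finset α) :
    ∑ T, w (fun _ => τ) T * ∑ e ∈ fresh R pos T ∩ U, f e =
      ((1 - τ) / τ) * ∑ T, w (fun _ => τ) T * ∑ e ∈ grd R pos T ∩ U, f e := by
  simp only [sum_grd_inter, sum_fresh_inter]
  exact coin_swap pos τ hτ _ f U

variable (hpos : Function.Injective pos)
include hpos

/-- **(L3c)** the expected value of the fresh elements -/
theorem fresh_le_opt (τ : ℝ) (hτ0 : 0 < τ) (hτ1 : τ ≤ 1) (v : α → ℝ) (hv0 : ∀ x, 0 ≤ v x)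
    (hv : ∀ x y, pos x < pos y → v y ≤ v x) :
    ∑ T, w (fun _ => τ) T * ∑ e ∈ fresh R pos T, v e ≤
      ((1 - τ) / τ) * ∑ e ∈ grd R pos univ, v e := by
  have h := fresh_swap (R := R) (pos := pos) τ hτ0.ne' v univ
  simp only [inter_univ] at h
  rw [h]
  refine mul_le_mul_of_nonneg_left ?_ (div_nonneg (by linarith) hτ0.le)
  calc ∑ T, w (fun _ => τ) T * ∑ e ∈ grd R pos T, v e
      ≤ ∑ T, w (fun _ => τ) T * ∑ e ∈ grd R pos univ, v e := by
        refine Finset.sum_le_sum fun T _ =>
          mul_le_mul_of_nonneg_left (grd_le_opt hpos v hv0 hv T) ?_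
        exact w_nonneg (fun _ => hτ0.le) (fun _ => hτ1) T
    _ = ∑ e ∈ grd R pos univ, v e := by rw [← Finset.sum_mul, sum_w, one_mul]

/-- the expected number of fresh elements in a prefix -/
theorem fresh_prefix (τ : ℝ) (hτ0 : 0 < τ) (P : Finset α)
    (hP : ∀ x ∈ P, ∀ y, pos y < pos x → y ∈ P) :
    ∑ T, w (fun _ => τ) T * ((fresh R pos T ∩ P).card : ℝ) =
      ((1 - τ) / τ) * ∑ T, w (fun _ => τ) T * (R.r (T ∩ P) : ℝ) := by
  have h := fresh_swap (R := R) (pos := pos) τ hτ0.ne' (fun _ => 1) P
  simp only [Finset.sum_const, nsmul_eq_mul, mul_one] at h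
  rw [h]
  congr 1
  refine Finset.sum_congr rfl fun T _ => ?_
  rw [card_grd_inter hpos T P fun x hx y _ => hP x hx y]

omit hpos in
/-- **(L3d)** the expected value of a fixed set outside the sample -/
theorem sum_sdiff (τ : ℝ) (v : α → ℝ) (O : Finset α) :
    ∑ T, w (fun _ => τ) T * ∑ e ∈ O \ T, v e = (1 - τ) * ∑ e ∈ O, v e := by
  classical
  have h := coin_out (fun _ => 0) (fun _ : α => τ) (fun _ _ => True) v O
  have h1 : ∀ T : Finset α, ∑ e ∈ O \ T, v e = outVal (fun _ => 0) (fun _ _ => True) v O T := by
    intro T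
    rw [outVal_eq]
    refine Finset.sum_congr ?_ fun _ _ => rfl
    ext e
    simp
  simp only [h1, h, if_true]
  rw [← Finset.sum_mul, sum_w, one_mul, Finset.mul_sum]

omit [Fintype α] hpos in
/-- geometric sum over the classes: heavier classes -/
theorem geom_heavier (Λ : ℝ) (hΛ : 1 < Λ) (S : Finset ℤ) (m : ℤ) :
    ∑ n ∈ S.filter (· < m), Λ ^ n ≤ Λ ^ m / (Λ - 1) := by
  have h0 : (0 : ℝ) < Λ := by linarith
  have key : ∀ (j : ℕ), ∑ n ∈ Finset.Ico (m - j) m, Λ ^ n = (Λ ^ m - Λ ^ (m - j)) / (Λ - 1) := by
    intro j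
    induction j with
    | zero => simp
    | succ j ih =>
      have h1 : Finset.Ico (m - ((j + 1 : ℕ) : ℤ)) m =
          insert (m - ((j + 1 : ℕ) : ℤ)) (Finset.Ico (m - (j : ℤ)) m) := by
        ext x
        simp only [Finset.mem_Ico, Finset.mem_insert]
        push_cast
        omega
      rw [h1, Finset.sum_insert (by simp only [Finset.mem_Ico]; push_cast; omega), ih]
      have h2 : Λ ^ (m - (j : ℤ)) = Λ ^ (m - ((j + 1 : ℕ) : ℤ)) * Λ := by
        rw [← zpow_add_one₀ h0.ne']
        congr 1
        push_cast
        ring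
      rw [h2]
      have h3 : Λ - 1 ≠ 0 := by linarith
      field_simp
      ring
  obtain ⟨j, hj⟩ : ∃ j : ℕ, ∀ n ∈ S, n < m → m - j ≤ n := by
    refine ⟨S.sup fun n => (m - n).toNat, fun n hn hnm => ?_⟩
    have : (m - n).toNat ≤ S.sup fun n => (m - n).toNat :=
      Finset.le_sup (f := fun n => (m - n).toNat) hn
    omega
  calc ∑ n ∈ S.filter (· < m), Λ ^ n ≤ ∑ n ∈ Finset.Ico (m - j) m, Λ ^ n := by
        refine Finset.sum_le_sum_of_subset_of_nonneg ?_ fun n _ _ => (zpow_pos h0 n).le
        intro n hn
        simp only [mem_filter] at hn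
        simp only [Finset.mem_Ico]
        exact ⟨hj n hn.1 hn.2, hn.2⟩
    _ = (Λ ^ m - Λ ^ (m - j)) / (Λ - 1) := key j
    _ ≤ Λ ^ m / (Λ - 1) := by
        refine div_le_div_of_nonneg_right ?_ (by linarith)
        have := zpow_pos h0 (m - j)
        linarith

end value

end Crest.Agent.R305.Coin404
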