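import Mathlib

/-!
# R305: first-fit depth chains (Theorem 1 of helper744, doc 1673), constant `1/2`

`K : Finset α → Finset α` is monotone, local (`z ∈ K S` depends only on the part of `S` of smaller
rank) and absorbing. For a random sample `A` let `S₀ = univ`, `S_{t+1} = S_t ∩ K (A ∩ S_t)`. With
an independent sample `B` of the same law, every `y ∉ K ∅` satisfies with probability at least `1/2`:
at the exit time `t` (`y ∈ S_t`, `y ∉ K (A ∩ S_t)`), `y ∉ K ((A ∩ S_{t+1}) ∪ (B ∩ (S_t \ S_{t+1})))`.
-/

set_option autoImplicit false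

namespace Crest.Agent.R305.Dep310

open Finset

variable {α : Type*} [Fintype α] [DecidableEq α]

/-! ### product weights -/

/-- weight of the sample `A`, every element `a` has rate `p a` -/
noncomputable def w (p : α → ℝ) (A : Finset α) : ℝ := ∏ a, if a ∈ A then p a else 1 - p a

theorem w_nonneg {p : α → ℝ} (h0 : ∀ a, 0 ≤ p a) (h1 : ∀ a, p a ≤ 1) (A : Finset α) :
    0 ≤ w p A := by
  refine Finset.prod_nonneg fun a _ => ?_
  split
  · exact h0 a
  · linarith [h1 a]

theorem sum_w (p : α → ℝ) : ∑ A : Finset α, w p A = 1 := by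
  have h := Finset.prod_add p (fun a => 1 - p a) (Finset.univ : Finset α)
  have h2 : ∀ A : Finset α, w p A = (∏ a ∈ A, p a) * ∏ a ∈ univ \ A, (1 - p a) := by
    intro A
    unfold w
    rw [Finset.prod_ite]
    congr 1
    · congr 1
      ext a; simp
    · congr 1
      ext a; simp
  simp only [add_sub_cancel, Finset.prod_const_one, Finset.powerset_univ] at h
  rw [h]
  exact Finset.sum_congr rfl fun A _ => h2 A

/-- exchange the parts of `A`, `B` inside `W` -/
def s1 (W A B : Finset α) : Finset α := (A \ W) ∪ (B ∩ W)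

omit [Fintype α] in
theorem mem_s1 {W A B : Finset α} {a : α} :
    a ∈ s1 W A B ↔ (a ∉ W ∧ a ∈ A) ∨ (a ∈ W ∧ a ∈ B) := by
  simp only [s1, mem_union, mem_sdiff, mem_inter]
  tauto

omit [Fintype α] in
theorem s1_s1 (W A B : Finset α) : s1 W (s1 W A B) (s1 W B A) = A := by
  ext a
  simp only [mem_s1]
  tauto

theorem w_s1 (p : α → ℝ) (W A B : Finset α) : w p (s1 W A B) * w p (s1 W B A) = w p A * w p B := by
  unfold w
  rw [← Finset.prod_mul_distrib, ← Finset.prod_mul_distrib]
  refine Finset.prod_congr rfl fun a _ => ?_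
  simp only [mem_s1]
  by_cases hW : a ∈ W
  · simp only [hW, not_true_eq_false, false_and, true_and, false_or]
    rw [mul_comm]
  · simp only [hW, not_false_eq_true, false_and, true_and, or_false]

/-- **resampling**: exchange on a set which is not changed by the exchange -/
theorem sum_swap (p : α → ℝ) (W : Finset α → Finset α → Finset α)
    (hW : ∀ A B, W (s1 (W A B) A B) (s1 (W A B) B A) = W A B) (F : Finset α → Finset α → ℝ) :
    ∑ A, ∑ B, w p A * w p B * F (s1 (W A B) A B) (s1 (W A B) B A) =
      ∑ A, ∑ B, w p A * w p B * F A B := by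
  rw [← Fintype.sum_prod_type', ← Fintype.sum_prod_type']
  have hinv : Function.Involutive (fun x : Finset α × Finset α =>
      (s1 (W x.1 x.2) x.1 x.2, s1 (W x.1 x.2) x.2 x.1)) := by
    rintro ⟨A, B⟩
    simp only [hW]
    rw [s1_s1, s1_s1]
  refine Fintype.sum_equiv hinv.toPerm _ _ ?_
  rintro ⟨A, B⟩
  simp only [Function.Involutive.coe_toPerm]
  rw [w_s1]

theorem sum_sum_const (p : α → ℝ) (F : Finset α → ℝ) :
    ∑ A, ∑ B, w p A * w p B * F A = ∑ A, w p A * F A := by
  refine Finset.sum_congr rfl fun A _ => ?_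
  have : ∀ B, w p A * w p B * F A = w p B * (w p A * F A) := fun B => by ring
  simp only [this]
  rw [← Finset.sum_mul, sum_w, one_mul]

/-! ### operators -/

/-- a monotone, local, absorbing operator -/
structure Op (α : Type*) [DecidableEq α] (rk : α → ℕ) where
  K : Finset α → Finset α
  mono : ∀ {S T : Finset α}, S ⊆ T → K S ⊆ K T
  loc : ∀ {S : Finset α} {z : α}, z ∈ K S → z ∈ K (S.filter fun a => rk a < rk z)
  abs : ∀ {S T : Finset α}, T ⊆ K S → K (S ∪ T) ⊆ K S

variable {rk : α → ℕ}

namespace Op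

variable (O : Op α rk)

omit [Fintype α] in
theorem loc_iff {S : Finset α} {z : α} : z ∈ O.K S ↔ z ∈ O.K (S.filter fun a => rk a < rk z) :=
  ⟨O.loc, fun h => O.mono (Finset.filter_subset _ _) h⟩

omit [Fintype α] in
theorem abs_eq {S T : Finset α} (h : T ⊆ O.K S) : O.K (S ∪ T) = O.K S :=
  Finset.Subset.antisymm (O.abs h) (O.mono Finset.subset_union_left)

omit [Fintype α] in
/-- the elements inside `K S` can be dropped -/
theorem K_sdiff (S : Finset α) : O.K (S \ O.K S) = O.K S := by
  refine Finset.Subset.antisymm (O.mono Finset.sdiff_subset) ?_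
  intro z
  induction hr : rk z using Nat.strong_induction_on generalizing z with
  | _ r ih =>
    intro hz
    have h1 := O.loc hz
    have h2 : (S.filter fun a => rk a < rk z) ⊆
        (S \ O.K S) ∪ (S.filter fun a => rk a < rk z ∧ a ∈ O.K S) := by
      intro a ha
      rw [mem_filter] at ha
      simp only [mem_union, mem_sdiff, mem_filter]
      by_cases h : a ∈ O.K S
      · exact Or.inr ⟨ha.1, ha.2, h⟩
      · exact Or.inl ⟨ha.1, h⟩
    have h3 : (S.filter fun a => rk a < rk z ∧ a ∈ O.K S) ⊆ O.K (S \ O.K S) := by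
      intro a ha
      rw [mem_filter] at ha
      exact ih (rk a) (hr ▸ ha.2.1) rfl ha.2.2
    exact O.abs h3 (O.mono h2 h1)

omit [Fintype α] in
/-- changing the sample inside `K S` does not change `K S` -/
theorem K_s1 (A B : Finset α) : O.K (s1 (O.K A) A B) = O.K A := by
  have h1 : s1 (O.K A) A B = (A \ O.K A) ∪ (B ∩ O.K A) := rfl
  have h2 : B ∩ O.K A ⊆ O.K (A \ O.K A) := by
    rw [O.K_sdiff]
    exact Finset.inter_subset_right
  rw [h1, O.abs_eq h2, O.K_sdiff]

/-- the restriction of an operator to the sample points of `S` -/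
def res (S : Finset α) : Op α rk where
  K A := O.K (A ∩ S)
  mono h := O.mono (Finset.inter_subset_inter_right h)
  loc {A z} h := by
    have h1 := O.loc h
    refine O.mono ?_ h1
    intro a ha
    simp only [mem_filter, mem_inter] at ha ⊢
    tauto
  abs {A T} h := by
    have h1 : (A ∪ T) ∩ S ⊆ (A ∩ S) ∪ T := by
      intro a ha
      simp only [mem_inter, mem_union] at ha ⊢
      tauto
    exact (O.mono h1).trans (O.abs h)

end Op

/-! ### one step -/

section step

variable (p : α → ℝ) (O : Op α rk) (y : α)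

open Classical in
/-- probability that `y` is not in `K` of the sample -/
noncomputable def psi : ℝ := ∑ A, w p A * (if y ∉ O.K A then 1 else 0)

open Classical in
/-- the same with the sample inside `V` -/
noncomputable def psi' (V : Finset α) : ℝ := ∑ A, w p A * (if y ∉ O.K (A ∩ V) then 1 else 0)

/-- **freshness**: given `K A`, the part of `A` inside `K A` is a fresh sample -/
theorem fresh (F : Finset α → Finset α → ℝ) :
    ∑ A, w p A * F (O.K A) (A ∩ O.K A) = ∑ A, ∑ B, w p A * w p B * F (O.K A) (B ∩ O.K A) := by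
  rw [← sum_sum_const p (fun A => F (O.K A) (A ∩ O.K A)),
    ← sum_swap p (fun A _ => O.K A) (fun A B => O.K_s1 A B)
      (fun A _ => F (O.K A) (A ∩ O.K A))]
  refine Finset.sum_congr rfl fun A _ => Finset.sum_congr rfl fun B _ => ?_
  rw [O.K_s1]
  congr 2
  ext a
  simp only [mem_inter, mem_s1]
  tauto

open Classical in
/-- the two events are independent -/
theorem indep :
    ∑ A, ∑ B, w p A * w p B * ((if y ∉ O.K A then 1 else 0) *
      (if y ∉ O.K ((A ∩ O.K A) ∪ (B \ O.K A)) then 1 else 0)) = psi p O y ^ 2 := by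
  have h := sum_swap p (fun A _ => O.K A) (fun A B => O.K_s1 A B)
    (fun A B => (if y ∉ O.K A then (1 : ℝ) else 0) * (if y ∉ O.K B then 1 else 0))
  have h2 : ∑ A, ∑ B, w p A * w p B *
      ((if y ∉ O.K A then (1 : ℝ) else 0) * (if y ∉ O.K B then 1 else 0)) = psi p O y ^ 2 := by
    rw [psi, sq, Finset.sum_mul_sum]
    exact Finset.sum_congr rfl fun A _ => Finset.sum_congr rfl fun B _ => by ring
  rw [← h2, ← h]
  refine Finset.sum_congr rfl fun A _ => Finset.sum_congr rfl fun B _ => ?_
  rw [O.K_s1]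
  have h3 : s1 (O.K A) B A = (A ∩ O.K A) ∪ (B \ O.K A) := by
    rw [s1, Finset.union_comm]
  rw [h3]

omit [Fintype α] in
/-- after the exit the fresh sample never reaches `y` -/
theorem not_mem_of_exit {A : Finset α} (h : y ∉ O.K A) (B : Finset α) :
    y ∉ O.K (B ∩ O.K A) := by
  intro hy
  apply h
  have h1 : B ∩ O.K A ⊆ A ∪ (B ∩ O.K A) := Finset.subset_union_right
  exact O.abs Finset.inter_subset_right (O.mono h1 hy)

theorem psi'_of_exit {A : Finset α} (h : y ∉ O.K A) : psi' p O y (O.K A) = 1 := by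
  unfold psi'
  refine Eq.trans (Finset.sum_congr rfl fun B _ => ?_) (sum_w p)
  rw [if_pos (not_mem_of_exit O y h B), mul_one]

variable {p} (h0 : ∀ a, 0 ≤ p a) (h1 : ∀ a, p a ≤ 1)

/-- the part of `B` which is in `K A` or of rank at least `j` -/
def rest (A B : Finset α) (j : ℕ) : Finset α := B.filter fun a => a ∈ O.K A ∨ j ≤ rk a

open Classical in
/-- `P_B (y ∉ K (rest A B j))` -/
noncomputable def g (p : α → ℝ) (A : Finset α) (j : ℕ) : ℝ :=
  ∑ B, w p B * (if y ∉ O.K (rest O A B j) then 1 else 0)

theorem g_zero (A : Finset α) : g O y p A 0 = psi p O y := by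
  unfold g psi
  refine Finset.sum_congr rfl fun B _ => ?_
  have : rest O A B 0 = B := by
    ext a
    simp [rest]
  rw [this]

theorem g_top (A : Finset α) {N : ℕ} (hN : ∀ a, rk a < N) : g O y p A N = psi' p O y (O.K A) := by
  unfold g psi'
  refine Finset.sum_congr rfl fun B _ => ?_
  have : rest O A B N = B ∩ O.K A := by
    ext a
    have := hN a
    simp only [rest, mem_filter, mem_inter]
    constructor
    · rintro ⟨h, h' | h'⟩
      · exact ⟨h, h'⟩
      · omega
    · rintro ⟨h, h'⟩
      exact ⟨h, Or.inl h'⟩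
  rw [this]

include h0 h1 in
theorem g_mono (A : Finset α) (j : ℕ) : g O y p A j ≤ g O y p A (j + 1) := by
  unfold g
  refine Finset.sum_le_sum fun B _ => mul_le_mul_of_nonneg_left ?_ (w_nonneg h0 h1 B)
  have h2 : O.K (rest O A B (j + 1)) ⊆ O.K (rest O A B j) := by
    refine O.mono fun a ha => ?_
    simp only [rest, mem_filter] at ha ⊢
    rcases ha with ⟨h, h' | h'⟩
    · exact ⟨h, Or.inl h'⟩
    · exact ⟨h, Or.inr (by omega)⟩
  split
  · rw [if_pos (fun h => by exact absurd (h2 h) ‹_›)]
  · split <;> norm_num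

include h0 h1 in
theorem g_nonneg (A : Finset α) (j : ℕ) : 0 ≤ g O y p A j := by
  unfold g
  refine Finset.sum_nonneg fun B _ => mul_nonneg (w_nonneg h0 h1 B) ?_
  split <;> norm_num

omit [Fintype α] in
theorem mem_K_congr {A A' : Finset α} {j : ℕ} (h : ∀ a, rk a < j → (a ∈ A ↔ a ∈ A')) {z : α}
    (hz : rk z ≤ j) : z ∈ O.K A ↔ z ∈ O.K A' := by
  rw [O.loc_iff (S := A), O.loc_iff (S := A')]
  have : (A.filter fun a => rk a < rk z) = A'.filter fun a => rk a < rk z := by
    ext a
    simp only [mem_filter]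
    constructor
    · rintro ⟨h1, h2⟩; exact ⟨(h a (by omega)).1 h1, h2⟩
    · rintro ⟨h1, h2⟩; exact ⟨(h a (by omega)).2 h1, h2⟩
  rw [this]

/-- `g A j` and `g A (j + 1)` depend only on the part of `A` of rank `< j` -/
theorem g_congr {A A' : Finset α} {j i : ℕ} (h : ∀ a, rk a < j → (a ∈ A ↔ a ∈ A'))
    (hi : i ≤ j + 1) : g O y p A i = g O y p A' i := by
  unfold g
  refine Finset.sum_congr rfl fun B _ => ?_
  have : rest O A B i = rest O A' B i := by
    ext a
    simp only [rest, mem_filter]
    by_cases ha : rk a < i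
    · rw [mem_K_congr O h (z := a) (by omega)]
    · have h2 : i ≤ rk a := by omega
      simp only [h2, or_true]
  rw [this]

open Classical in
include h0 h1 in
/-- the main inequality at the cut `j` -/
theorem cut_le (j : ℕ) :
    ∑ A, w p A * ((if y ∉ O.K A then 1 else 0) * (g O y p A (j + 1) - g O y p A j)) ≤
      ∑ A, w p A * (g O y p A j * (g O y p A (j + 1) - g O y p A j)) := by
  set W : Finset α := univ.filter fun a => j ≤ rk a with hW
  have hag : ∀ A B a, rk a < j → (a ∈ s1 W A B ↔ a ∈ A) := by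
    intro A B a ha
    have : a ∉ W := by
      rw [hW, mem_filter]
      rintro ⟨-, h⟩
      omega
    rw [mem_s1]
    tauto
  have h2 := sum_swap p (fun _ _ => W) (fun _ _ => rfl)
    (fun A _ => (if y ∉ O.K A then (1 : ℝ) else 0) * (g O y p A (j + 1) - g O y p A j))
  rw [← sum_sum_const p (fun A => (if y ∉ O.K A then (1 : ℝ) else 0) *
    (g O y p A (j + 1) - g O y p A j)), ← h2]
  refine Finset.sum_le_sum fun A _ => ?_
  have h3 : ∀ B, g O y p (s1 W A B) (j + 1) = g O y p A (j + 1) := fun B =>
    g_congr O y (hag A B) le_rfl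
  have h4 : ∀ B, g O y p (s1 W A B) j = g O y p A j := fun B =>
    g_congr O y (hag A B) (Nat.le_succ j)
  have hD : 0 ≤ g O y p A (j + 1) - g O y p A j := by
    have := g_mono O y h0 h1 A j
    linarith
  have h5 : w p A * (g O y p A j * (g O y p A (j + 1) - g O y p A j)) =
      ∑ B, w p A * w p B * ((if y ∉ O.K (rest O A B j) then 1 else 0) *
        (g O y p A (j + 1) - g O y p A j)) := by
    have hg : g O y p A j = ∑ B, w p B * (if y ∉ O.K (rest O A B j) then (1 : ℝ) else 0) := rfl
    generalize g O y p A (j + 1) - g O y p A j = D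
    rw [hg, Finset.sum_mul, Finset.mul_sum]
    exact Finset.sum_congr rfl fun B _ => by ring
  rw [h5]
  refine Finset.sum_le_sum fun B _ => ?_
  rw [h3, h4]
  refine mul_le_mul_of_nonneg_left (mul_le_mul_of_nonneg_right ?_ hD)
    (mul_nonneg (w_nonneg h0 h1 A) (w_nonneg h0 h1 B))
  have h6 : O.K (rest O A B j) ⊆ O.K (s1 W A B) := by
    have h7 : rest O A B j ⊆ s1 W A B ∪ univ.filter fun a => a ∈ O.K A ∧ rk a < j := by
      intro a ha
      simp only [rest, mem_filter] at ha
      simp only [mem_union, mem_s1, mem_filter, hW, mem_univ, true_and]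
      by_cases hj : j ≤ rk a
      · exact Or.inl (Or.inr ⟨hj, ha.1⟩)
      · rcases ha.2 with h | h
        · exact Or.inr ⟨h, by omega⟩
        · exact absurd h hj
    have h8 : (univ.filter fun a => a ∈ O.K A ∧ rk a < j) ⊆ O.K (s1 W A B) := by
      intro a ha
      rw [mem_filter] at ha
      exact (mem_K_congr O (hag A B) (z := a) (by omega)).2 ha.2.1
    exact (O.mono h7).trans (O.abs h8)
  by_cases hy : y ∈ O.K (s1 W A B)
  · rw [if_neg (not_not.2 hy)]
    split <;> norm_num
  · rw [if_pos hy, if_pos (fun h => hy (h6 h))]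

open Classical in
include h0 h1 in
/-- **second moment**: `E ψ'² ≥ 2ψ - ψ²` -/
theorem second_moment :
    2 * psi p O y - psi p O y ^ 2 ≤ ∑ A, w p A * psi' p O y (O.K A) ^ 2 := by
  obtain ⟨N, hN⟩ : ∃ N, ∀ a : α, rk a < N := by
    refine ⟨(univ.sup rk) + 1, fun a => ?_⟩
    have := Finset.le_sup (f := rk) (mem_univ a)
    omega
  have h2 : ∑ j ∈ range N, ∑ A, w p A * ((if y ∉ O.K A then 1 else 0) *
      (g O y p A (j + 1) - g O y p A j)) ≤
      ∑ j ∈ range N, ∑ A, w p A * (g O y p A j * (g O y p A (j + 1) - g O y p A j)) :=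
    Finset.sum_le_sum fun j _ => cut_le O y h0 h1 j
  have h3 : ∑ j ∈ range N, ∑ A, w p A * ((if y ∉ O.K A then 1 else 0) *
      (g O y p A (j + 1) - g O y p A j)) = psi p O y * (1 - psi p O y) := by
    rw [Finset.sum_comm]
    have h4 : ∀ A, ∑ j ∈ range N, w p A * ((if y ∉ O.K A then 1 else 0) *
        (g O y p A (j + 1) - g O y p A j)) =
        w p A * (if y ∉ O.K A then 1 else 0) * (1 - psi p O y) := by
      intro A
      have h5 : ∀ j, w p A * ((if y ∉ O.K A then 1 else 0) *
        (g O y p A (j + 1) - g O y p A j)) = w p A * (if y ∉ O.K A then 1 else 0) *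
        (g O y p A (j + 1) - g O y p A j) := fun j => by ring
      simp only [h5]
      rw [← Finset.mul_sum, Finset.sum_range_sub, g_zero, g_top O y A hN]
      by_cases hy : y ∈ O.K A
      · rw [if_neg (not_not.2 hy)]; ring
      · rw [psi'_of_exit p O y hy]
    simp only [h4]
    rw [← Finset.sum_mul]
    rfl
  have h6 : ∑ j ∈ range N, ∑ A, w p A * (g O y p A j * (g O y p A (j + 1) - g O y p A j)) ≤
      (∑ A, w p A * psi' p O y (O.K A) ^ 2 - psi p O y ^ 2) / 2 := by
    rw [Finset.sum_comm]
    have h7 : ∀ A, ∑ j ∈ range N, w p A * (g O y p A j * (g O y p A (j + 1) - g O y p A j)) ≤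
        w p A * ((psi' p O y (O.K A) ^ 2 - psi p O y ^ 2) / 2) := by
      intro A
      rw [← Finset.mul_sum]
      refine mul_le_mul_of_nonneg_left ?_ (w_nonneg h0 h1 A)
      have h8 : ∀ j, g O y p A j * (g O y p A (j + 1) - g O y p A j) ≤
          g O y p A (j + 1) ^ 2 / 2 - g O y p A j ^ 2 / 2 := by
        intro j
        nlinarith [sq_nonneg (g O y p A (j + 1) - g O y p A j)]
      refine (Finset.sum_le_sum fun j _ => h8 j).trans ?_
      rw [Finset.sum_range_sub (fun j => g O y p A j ^ 2 / 2), g_zero, g_top O y A hN]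
      linarith
    refine (Finset.sum_le_sum fun A _ => h7 A).trans ?_
    have h9 : ∀ A, w p A * ((psi' p O y (O.K A) ^ 2 - psi p O y ^ 2) / 2) =
        w p A * psi' p O y (O.K A) ^ 2 / 2 - w p A * (psi p O y ^ 2 / 2) := fun A => by ring
    simp only [h9]
    rw [Finset.sum_sub_distrib, ← Finset.sum_mul, sum_w, ← Finset.sum_div]
    linarith
  nlinarith [h2, h3, h6]

end step

/-! ### the chain -/

section chain

variable (O : Op α rk)

/-- one step of the chain: the part of `S` in `K (A ∩ S)` -/
def next (S A : Finset α) : Finset α := S ∩ O.K (A ∩ S)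

/-- the chain `S, next S, next (next S), …` for the sample `A` -/
def chain (A : Finset α) : ℕ → Finset α → Finset α
  | 0, S => S
  | t + 1, S => chain A t (next O S A)

omit [Fintype α] in
theorem chain_zero (A S : Finset α) : chain O A 0 S = S := rfl

omit [Fintype α] in
theorem chain_succ' (A S : Finset α) (t : ℕ) :
    chain O A (t + 1) S = chain O A t (next O S A) := rfl

omit [Fintype α] in
theorem chain_succ (A S : Finset α) (t : ℕ) :
    chain O A (t + 1) S = next O (chain O A t S) A := by
  induction t generalizing S with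
  | zero => rfl
  | succ t ih => rw [chain_succ', ih, ← chain_succ']

omit [Fintype α] in
theorem next_subset (S A : Finset α) : next O S A ⊆ S := Finset.inter_subset_left

omit [Fintype α] in
theorem chain_subset (A S : Finset α) (t : ℕ) : chain O A t S ⊆ S := by
  induction t generalizing S with
  | zero => exact subset_rfl
  | succ t ih => exact (ih _).trans (next_subset O S A)

/-- the exit step `t` of `y` from the chain is good: `y` is in `S_t`, is not in `K (A ∩ S_t)`, and
is not in `K ((A ∩ S_{t+1}) ∪ (B ∩ (S_t \ S_{t+1})))` -/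
def Good (y : α) (A B S : Finset α) (t : ℕ) : Prop :=
  y ∈ chain O A t S ∧ y ∉ O.K (A ∩ chain O A t S) ∧
    y ∉ O.K ((A ∩ chain O A (t + 1) S) ∪ (B ∩ (chain O A t S \ chain O A (t + 1) S)))

omit [Fintype α] in
theorem good_mem {y : α} {A B S : Finset α} {t : ℕ} (h : Good O y A B S t) : y ∈ S :=
  chain_subset O A S t h.1

omit [Fintype α] in
theorem good_succ {y : α} {A B S : Finset α} {t : ℕ} :
    Good O y A B S (t + 1) ↔ Good O y A B (next O S A) t := Iff.rfl

omit [Fintype α] in
theorem good_zero {y : α} {A B S : Finset α} (hy : y ∈ S) :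
    Good O y A B S 0 ↔ y ∉ O.K (A ∩ S) ∧
      y ∉ O.K (((A ∩ O.K (A ∩ S)) ∪ (B \ O.K (A ∩ S))) ∩ S) := by
  have h : (A ∩ chain O A (0 + 1) S) ∪ (B ∩ (chain O A 0 S \ chain O A (0 + 1) S)) =
      ((A ∩ O.K (A ∩ S)) ∪ (B \ O.K (A ∩ S))) ∩ S := by
    rw [chain_succ', chain_zero, chain_zero, next]
    ext a
    simp only [mem_union, mem_inter, mem_sdiff]
    tauto
  unfold Good
  rw [h, chain_zero]
  tauto

omit [Fintype α] in
/-- the chain depends only on the sample inside `S` -/
theorem chain_congr {A A' S : Finset α} (h : A ∩ S = A' ∩ S) (t : ℕ) :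
    chain O A t S = chain O A' t S := by
  induction t generalizing S with
  | zero => rfl
  | succ t ih =>
    rw [chain_succ', chain_succ']
    have h1 : next O S A = next O S A' := by rw [next, next, h]
    rw [← h1]
    refine ih ?_
    ext a
    have h2 : a ∈ A ∩ S ↔ a ∈ A' ∩ S := by rw [h]
    have h3 : a ∈ next O S A → a ∈ S := fun h => next_subset O S A h
    simp only [mem_inter] at h2 ⊢
    constructor
    · rintro ⟨ha, hb⟩; exact ⟨(h2.1 ⟨ha, h3 hb⟩).1, hb⟩
    · rintro ⟨ha, hb⟩; exact ⟨(h2.2 ⟨ha, h3 hb⟩).1, hb⟩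

omit [Fintype α] in
theorem inter_chain_congr {A A' S : Finset α} (h : A ∩ S = A' ∩ S) (t : ℕ) :
    A ∩ chain O A t S = A' ∩ chain O A' t S := by
  rw [← chain_congr O h t]
  ext a
  have h2 : a ∈ A ∩ S ↔ a ∈ A' ∩ S := by rw [h]
  have h3 : a ∈ chain O A t S → a ∈ S := fun h => chain_subset O A S t h
  simp only [mem_inter] at h2 ⊢
  constructor
  · rintro ⟨ha, hb⟩; exact ⟨(h2.1 ⟨ha, h3 hb⟩).1, hb⟩
  · rintro ⟨ha, hb⟩; exact ⟨(h2.2 ⟨ha, h3 hb⟩).1, hb⟩

omit [Fintype α] in
theorem good_congr {y : α} {A A' B S : Finset α} (h : A ∩ S = A' ∩ S) (t : ℕ) :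
    Good O y A B S t ↔ Good O y A' B S t := by
  unfold Good
  rw [inter_chain_congr O h t, inter_chain_congr O h (t + 1), chain_congr O h t,
    chain_congr O h (t + 1)]

omit [Fintype α] in
/-- as long as the chain contains an element outside `K ∅`, it decreases -/
theorem next_ssubset {S : Finset α} {y : α} (hy : y ∈ S) (he : y ∉ O.K ∅) (A : Finset α) :
    next O S A ⊂ S := by
  refine Finset.ssubset_iff_subset_ne.2 ⟨next_subset O S A, fun h => he ?_⟩
  have h1 : S ⊆ O.K (A ∩ S) := by
    intro z hz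
    rw [← h] at hz
    exact (mem_inter.1 hz).2
  have h2 : (A ∩ S) \ O.K (A ∩ S) = ∅ :=
    Finset.sdiff_eq_empty_iff_subset.2 (Finset.inter_subset_right.trans h1)
  have h3 := O.K_sdiff (A ∩ S)
  rw [h2] at h3
  rw [h3]
  exact h1 hy

open Classical in
/-- probability of a good exit within `T` steps -/
noncomputable def v (p : α → ℝ) (y : α) (T : ℕ) (S : Finset α) : ℝ :=
  ∑ A, ∑ B, w p A * w p B * (if ∃ t < T, Good O y A B S t then 1 else 0)

open Classical in
theorem v_succ (p : α → ℝ) (y : α) (T : ℕ) {S : Finset α} (hy : y ∈ S) :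
    v O p y (T + 1) S = psi p (O.res S) y ^ 2 + ∑ A, w p A * v O p y T (next O S A) := by
  have h1 : ∀ A B, (if ∃ t < T + 1, Good O y A B S t then (1 : ℝ) else 0) =
      (if y ∉ (O.res S).K A then 1 else 0) *
        (if y ∉ (O.res S).K ((A ∩ (O.res S).K A) ∪ (B \ (O.res S).K A)) then 1 else 0) +
      (if ∃ t < T, Good O y (A ∩ (O.res S).K A) B (S ∩ (O.res S).K A) t then 1 else 0) := by
    intro A B
    have e1 : (∃ t < T + 1, Good O y A B S t) ↔
        Good O y A B S 0 ∨ ∃ t < T, Good O y A B (next O S A) t := by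
      constructor
      · rintro ⟨t, ht, hg⟩
        rcases t with _ | t
        · exact Or.inl hg
        · exact Or.inr ⟨t, by omega, hg⟩
      · rintro (hg | ⟨t, ht, hg⟩)
        · exact ⟨0, by omega, hg⟩
        · exact ⟨t + 1, by omega, hg⟩
    have e2 : ∀ t, Good O y (A ∩ (O.res S).K A) B (S ∩ (O.res S).K A) t ↔
        Good O y A B (next O S A) t := by
      intro t
      refine good_congr O ?_ t
      ext a
      simp only [Op.res, mem_inter]
      tauto
    simp only [e1, e2, good_zero O hy]
    by_cases ha : y ∈ O.K (A ∩ S)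
    · have e3 : ¬ (y ∉ O.K (A ∩ S)) := not_not.2 ha
      simp only [e3, false_and, false_or, Op.res, if_false, zero_mul, zero_add]
    · have e4 : ¬ ∃ t < T, Good O y A B (next O S A) t := by
        rintro ⟨t, -, hg⟩
        exact ha (mem_inter.1 (good_mem O hg)).2
      simp only [ha, e4, not_false_eq_true, true_and, or_false, Op.res, if_true, one_mul, if_false,
        add_zero]
      congr
  have h2 := indep p (O.res S) y
  have h3 : ∑ A, ∑ B, w p A * w p B *
      (if ∃ t < T, Good O y (A ∩ (O.res S).K A) B (S ∩ (O.res S).K A) t then (1 : ℝ) else 0) =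
      ∑ A, w p A * v O p y T (next O S A) := by
    rw [Finset.sum_comm]
    have h4 : ∀ B, ∑ A, w p A * w p B *
        (if ∃ t < T, Good O y (A ∩ (O.res S).K A) B (S ∩ (O.res S).K A) t then (1 : ℝ) else 0) =
        ∑ A, ∑ A', w p A * w p A' * (w p B *
        (if ∃ t < T, Good O y A' B (next O S A) t then (1 : ℝ) else 0)) := by
      intro B
      have h5 := fresh p (O.res S) (fun V X => w p B *
        (if ∃ t < T, Good O y X B (S ∩ V) t then (1 : ℝ) else 0))
      have h6 : ∀ A, w p A * w p B *
        (if ∃ t < T, Good O y (A ∩ (O.res S).K A) B (S ∩ (O.res S).K A) t then (1 : ℝ) else 0) =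
        w p A * (w p B *
        (if ∃ t < T, Good O y (A ∩ (O.res S).K A) B (S ∩ (O.res S).K A) t then (1 : ℝ) else 0)) :=
        fun A => by ring
      simp only [h6]
      rw [h5]
      refine Finset.sum_congr rfl fun A _ => Finset.sum_congr rfl fun A' _ => ?_
      have e2 : ∀ t, Good O y (A' ∩ (O.res S).K A) B (S ∩ (O.res S).K A) t ↔
          Good O y A' B (next O S A) t := by
        intro t
        refine good_congr O ?_ t
        ext a
        simp only [Op.res, mem_inter]
        tauto
      simp only [e2]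
    simp only [h4]
    rw [Finset.sum_comm]
    refine Finset.sum_congr rfl fun A _ => ?_
    rw [Finset.sum_comm, v, Finset.mul_sum]
    refine Finset.sum_congr rfl fun A' _ => ?_
    rw [Finset.mul_sum]
    exact Finset.sum_congr rfl fun B _ => by ring
  rw [v]
  simp only [h1, mul_add, Finset.sum_add_distrib]
  rw [h2, h3]

open Classical in
theorem psi_res_next (p : α → ℝ) (y : α) (S A : Finset α) :
    psi p (O.res (next O S A)) y = psi' p (O.res S) y ((O.res S).K A) := by
  unfold psi psi'
  refine Finset.sum_congr rfl fun B _ => ?_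
  have : (O.res (next O S A)).K B = (O.res S).K (B ∩ (O.res S).K A) := by
    simp only [Op.res, next]
    congr 1
    ext a
    simp only [mem_inter]
    tauto
  rw [this]

open Classical in
/-- **the potential**: within `#S` steps the exit of `y` is good with probability at least
`(1 + ψ(S)²) / 2` -/
theorem le_v {p : α → ℝ} (h0 : ∀ a, 0 ≤ p a) (h1 : ∀ a, p a ≤ 1) {y : α} (he : y ∉ O.K ∅)
    (T : ℕ) : ∀ S : Finset α, y ∈ S → S.card ≤ T → (1 + psi p (O.res S) y ^ 2) / 2 ≤ v O p y T S := by
  induction T with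
  | zero =>
    intro S hy hS
    have : S = ∅ := Finset.card_eq_zero.1 (by omega)
    simp [this] at hy
  | succ T ih =>
    intro S hy hS
    rw [v_succ O p y T hy]
    set ψ := psi p (O.res S) y with hψ
    have h2 := second_moment (p := p) (O.res S) y h0 h1
    rw [← hψ] at h2
    have h3 : ∀ A, w p A * ((1 + psi' p (O.res S) y ((O.res S).K A) ^ 2) / 2) -
        w p A * (if y ∉ (O.res S).K A then 1 else 0) ≤ w p A * v O p y T (next O S A) := by
      intro A
      rw [← mul_sub]
      refine mul_le_mul_of_nonneg_left ?_ (w_nonneg h0 h1 A)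
      by_cases ha : y ∈ (O.res S).K A
      · have h4 : y ∈ next O S A := mem_inter.2 ⟨hy, ha⟩
        have h5 : (next O S A).card ≤ T := by
          have := Finset.card_lt_card (next_ssubset O hy he A)
          omega
        have h6 := ih _ h4 h5
        rw [psi_res_next] at h6
        rw [if_neg (not_not.2 ha)]
        linarith
      · rw [psi'_of_exit p (O.res S) y ha, if_pos ha]
        have h7 : 0 ≤ v O p y T (next O S A) := by
          unfold v
          refine Finset.sum_nonneg fun A _ => Finset.sum_nonneg fun B _ => ?_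
          refine mul_nonneg (mul_nonneg (w_nonneg h0 h1 A) (w_nonneg h0 h1 B)) ?_
          split <;> norm_num
        linarith
    have h4 := Finset.sum_le_sum fun A (_ : A ∈ (univ : Finset (Finset α))) => h3 A
    rw [Finset.sum_sub_distrib] at h4
    have h5 : ∑ A, w p A * (if y ∉ (O.res S).K A then (1 : ℝ) else 0) = ψ := rfl
    have h6 : ∑ A, w p A * ((1 + psi' p (O.res S) y ((O.res S).K A) ^ 2) / 2) =
        (1 + ∑ A, w p A * psi' p (O.res S) y ((O.res S).K A) ^ 2) / 2 := by
      have h7 : ∀ A, w p A * ((1 + psi' p (O.res S) y ((O.res S).K A) ^ 2) / 2) =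
          (w p A + w p A * psi' p (O.res S) y ((O.res S).K A) ^ 2) / 2 := fun A => by ring
      simp only [h7]
      rw [← Finset.sum_div, Finset.sum_add_distrib, sum_w]
    rw [h5, h6] at h4
    linarith

open Classical in
/-- **Theorem 1** with constant `1/2` -/
theorem half_le {p : α → ℝ} (h0 : ∀ a, 0 ≤ p a) (h1 : ∀ a, p a ≤ 1) {y : α} (he : y ∉ O.K ∅) :
    1 / 2 ≤ ∑ A, ∑ B, w p A * w p B * (if ∃ t, Good O y A B univ t then (1 : ℝ) else 0) := by
  have h2 := le_v O h0 h1 he (Fintype.card α) univ (mem_univ y) (by rw [Finset.card_univ])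
  have h3 : (1 : ℝ) / 2 ≤ v O p y (Fintype.card α) univ := by
    refine le_trans ?_ h2
    have := sq_nonneg (psi p (O.res univ) y)
    linarith
  refine h3.trans ?_
  unfold v
  refine Finset.sum_le_sum fun A _ => Finset.sum_le_sum fun B _ => ?_
  refine mul_le_mul_of_nonneg_left ?_ (mul_nonneg (w_nonneg h0 h1 A) (w_nonneg h0 h1 B))
  split
  · rename_i h
    obtain ⟨t, -, ht⟩ := h
    rw [if_pos ⟨t, ht⟩]
  · split <;> norm_num

omit [Fintype α] in
/-- the good event is antitone in the second sample -/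
theorem Good.anti {y : α} {A B H S : Finset α} {t : ℕ} (h : Good O y A B S t) (hH : H ⊆ B) :
    Good O y A H S t := by
  refine ⟨h.1, h.2.1, fun hy => h.2.2 (O.mono ?_ hy)⟩
  exact Finset.union_subset_union_right (Finset.inter_subset_inter_right hH)

omit [Fintype α] in
/-- membership in the chain depends only on the sample of smaller rank -/
theorem mem_chain_rank {A A' : Finset α} {j : ℕ} (h : ∀ a, rk a < j → (a ∈ A ↔ a ∈ A'))
    (S : Finset α) (t : ℕ) {z : α} (hz : rk z ≤ j) : z ∈ chain O A t S ↔ z ∈ chain O A' t S := by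
  induction t generalizing z with
  | zero => rfl
  | succ t ih =>
    rw [chain_succ, chain_succ, next, next, mem_inter, mem_inter, ih hz]
    refine and_congr_right fun _ => mem_K_congr O (j := j) ?_ hz
    intro a ha
    rw [mem_inter, mem_inter, ih (z := a) ha.le, h a ha]

omit [Fintype α] in
/-- the good event of `y` depends only on the samples of smaller rank -/
theorem good_rank {y : α} {A A' B B' : Finset α}
    (hA : ∀ a, rk a < rk y → (a ∈ A ↔ a ∈ A')) (hB : ∀ a, rk a < rk y → (a ∈ B ↔ a ∈ B'))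
    (S : Finset α) (t : ℕ) : Good O y A B S t ↔ Good O y A' B' S t := by
  have h1 := fun t => fun a (ha : rk a < rk y) => mem_chain_rank O hA S t (z := a) ha.le
  have e1 : y ∈ O.K (A ∩ chain O A t S) ↔ y ∈ O.K (A' ∩ chain O A' t S) := by
    refine mem_K_congr O (j := rk y) ?_ le_rfl
    intro a ha
    rw [mem_inter, mem_inter, h1 t a ha, hA a ha]
  have e2 : y ∈ O.K ((A ∩ chain O A (t + 1) S) ∪ (B ∩ (chain O A t S \ chain O A (t + 1) S))) ↔
      y ∈ O.K ((A' ∩ chain O A' (t + 1) S) ∪
        (B' ∩ (chain O A' t S \ chain O A' (t + 1) S))) := by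
    refine mem_K_congr O (j := rk y) ?_ le_rfl
    intro a ha
    simp only [mem_union, mem_inter, mem_sdiff]
    rw [h1 t a ha, h1 (t + 1) a ha, hA a ha, hB a ha]
  unfold Good
  rw [mem_chain_rank O hA S t le_rfl, e1, e2]

end chain

/-! ### one element is independent of the rest -/

open Classical in
theorem sum_mem (p : α → ℝ) (y : α) : ∑ A, w p A * (if y ∈ A then 1 else 0) = p y := by
  have h := Finset.prod_add p (fun a => if a = y then 0 else 1 - p a) (Finset.univ : Finset α)
  have h2 : ∀ A : Finset α, w p A * (if y ∈ A then 1 else 0) =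
      (∏ a ∈ A, p a) * ∏ a ∈ univ \ A, (if a = y then 0 else 1 - p a) := by
    intro A
    by_cases hy : y ∈ A
    · rw [if_pos hy, mul_one, w, Finset.prod_ite]
      congr 1
      · congr 1
        ext a; simp
      · refine Finset.prod_congr (by ext a; simp) fun a ha => ?_
        rw [if_neg]
        rintro rfl
        simp at ha
        exact ha hy
    · rw [if_neg hy, mul_zero]
      have : ∏ a ∈ univ \ A, (if a = y then 0 else 1 - p a) = 0 :=
        Finset.prod_eq_zero (i := y) (by simp [hy]) (by simp)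
      rw [this, mul_zero]
  rw [Finset.sum_congr rfl fun A _ => h2 A, ← Finset.powerset_univ, ← h]
  have h3 : ∀ a, p a + (if a = y then 0 else 1 - p a) = if a = y then p y else 1 := by
    intro a
    by_cases ha : a = y
    · simp [ha]
    · simp [ha]
  simp only [h3]
  rw [Finset.prod_ite_eq' Finset.univ y (fun _ => p y)]
  simp

open Classical in
/-- `y ∈ A` is independent of everything which does not look at `y` -/
theorem sum_mem_mul (p : α → ℝ) (y : α) (f : Finset α → ℝ)
    (hf : ∀ A A' : Finset α, (∀ a, a ≠ y → (a ∈ A ↔ a ∈ A')) → f A = f A') :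
    ∑ A, w p A * ((if y ∈ A then 1 else 0) * f A) = p y * ∑ A, w p A * f A := by
  have h := sum_swap p (fun _ _ => {y}) (fun _ _ => rfl)
    (fun A _ => (if y ∈ A then (1 : ℝ) else 0) * f A)
  rw [sum_sum_const] at h
  rw [← h, ← sum_mem p y, Finset.sum_mul_sum, Finset.sum_comm]
  refine Finset.sum_congr rfl fun A _ => Finset.sum_congr rfl fun B _ => ?_
  have h1 : f (s1 {y} B A) = f B := by
    refine hf _ _ fun a ha => ?_
    rw [mem_s1, mem_singleton]
    tauto
  have h2 : y ∈ s1 {y} B A ↔ y ∈ A := by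
    rw [mem_s1, mem_singleton]
    tauto
  simp only [h1, h2]
  ring

open Classical in
/-- **Theorem 1, for an element of `B \ A`** -/
theorem half_le_online (O : Op α rk) {p : α → ℝ} (h0 : ∀ a, 0 ≤ p a) (h1 : ∀ a, p a ≤ 1) {y : α}
    (he : y ∉ O.K ∅) :
    p y * (1 - p y) / 2 ≤ ∑ A, ∑ B, w p A * w p B *
      (if y ∉ A ∧ y ∈ B ∧ ∃ t, Good O y A B univ t then (1 : ℝ) else 0) := by
  have hne : ∀ a, rk a < rk y → a ≠ y := by
    rintro a ha rfl
    exact lt_irrefl _ ha
  set F : Finset α → Finset α → ℝ := fun A B => if ∃ t, Good O y A B univ t then 1 else 0 with hF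
  have hFc : ∀ A A' B B', (∀ a, a ≠ y → (a ∈ A ↔ a ∈ A')) → (∀ a, a ≠ y → (a ∈ B ↔ a ∈ B')) →
      F A B = F A' B' := by
    intro A A' B B' h2 h3
    have : (∃ t, Good O y A B univ t) ↔ ∃ t, Good O y A' B' univ t :=
      exists_congr fun t => good_rank O (fun a ha => h2 a (hne a ha))
        (fun a ha => h3 a (hne a ha)) univ t
    simp only [hF, this]
  have e1 : ∀ A, ∑ B, w p A * w p B *
      (if y ∉ A ∧ y ∈ B ∧ ∃ t, Good O y A B univ t then (1 : ℝ) else 0) =
      w p A * ((if y ∉ A then 1 else 0) * (p y * ∑ B, w p B * F A B)) := by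
    intro A
    rw [← sum_mem_mul p y (F A) (fun B B' h => hFc A A B B' (fun _ _ => Iff.rfl) h),
      Finset.mul_sum, Finset.mul_sum]
    refine Finset.sum_congr rfl fun B _ => ?_
    by_cases ha : y ∈ A
    · simp [ha]
    · by_cases hb : y ∈ B
      · simp [ha, hb, hF]
      · simp [ha, hb]
  simp only [e1]
  have e2 : ∀ A, w p A * ((if y ∉ A then 1 else 0) * (p y * ∑ B, w p B * F A B)) =
      w p A * (p y * ∑ B, w p B * F A B) -
        w p A * ((if y ∈ A then 1 else 0) * (p y * ∑ B, w p B * F A B)) := by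
    intro A
    by_cases ha : y ∈ A
    · simp [ha]
    · simp [ha]
  simp only [e2]
  rw [Finset.sum_sub_distrib, sum_mem_mul p y (fun A => p y * ∑ B, w p B * F A B) (by
    intro A A' h
    have : ∀ B, F A B = F A' B := fun B => hFc A A' B B h fun _ _ => Iff.rfl
    simp only [this])]
  have h2 := half_le O h0 h1 he
  have h3 : ∑ A, w p A * (p y * ∑ B, w p B * F A B) = p y * ∑ A, ∑ B, w p A * w p B *
      (if ∃ t, Good O y A B univ t then (1 : ℝ) else 0) := by
    rw [Finset.mul_sum]
    refine Finset.sum_congr rfl fun A _ => ?_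
    rw [Finset.mul_sum, Finset.mul_sum, Finset.mul_sum]
    exact Finset.sum_congr rfl fun B _ => by ring
  rw [h3]
  have h4 : 0 ≤ p y * (1 - p y) := mul_nonneg (h0 y) (by linarith [h1 y])
  nlinarith

end Crest.Agent.R305.Dep310
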