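import Crest.Agent.R305.Dep_310

/-!
# R305: the class operator over an abstract closure (Finset version of `Cls_310`)

Classes `0, 1, 2, …` (light to heavy), `cls a` the class of `a`, `c n` a monotone extensive operator
for every class. `flat n S` is the flat generated by the elements of `S` of class `< n` after
applying `c m` at every class `m < n`; `K S = {z | z ∈ c (cls z) (flat (cls z) S)}`;
`S₀ = univ`, `S_{t+1} = S_t ∩ K (A ∩ S_t)`; `f_t = flat n (A ∩ S_t)`;
`g_t = flat n ((A ∩ S_{t+1}) ∪ (B ∩ (S_t \ S_{t+1})))`.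
-/

set_option autoImplicit false

namespace Crest.Agent.R305.Fcl310

open Finset Dep310

variable {α : Type*} [DecidableEq α]

/-- data: a closure, classes, and a monotone extensive operator for every class -/
structure Data (α : Type*) [DecidableEq α] where
  cl : Finset α → Finset α
  cl_mono : ∀ {A B : Finset α}, A ⊆ B → cl A ⊆ cl B
  cl_ext : ∀ A : Finset α, A ⊆ cl A
  cl_idem : ∀ A : Finset α, cl (cl A) = cl A
  cls : α → ℕ
  c : ℕ → Finset α → Finset α
  c_mono : ∀ (n : ℕ) {F F' : Finset α}, F ⊆ F' → c n F ⊆ c n F'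
  c_ext : ∀ (n : ℕ) (F : Finset α), F ⊆ c n F

variable (D : Data α)

theorem cl_subset {A B : Finset α} (h : A ⊆ D.cl B) : D.cl A ⊆ D.cl B :=
  (D.cl_mono h).trans (D.cl_idem B).subset

/-- the flat generated by the classes `< n` of `S` -/
def flat : ℕ → Finset α → Finset α
  | 0, _ => D.cl ∅
  | n + 1, S => D.cl (D.c n (flat n S) ∪ S.filter fun a => D.cls a = n)

theorem flat_zero (S : Finset α) : flat D 0 S = D.cl ∅ := rfl

theorem flat_succ (n : ℕ) (S : Finset α) :
    flat D (n + 1) S = D.cl (D.c n (flat D n S) ∪ S.filter fun a => D.cls a = n) := rfl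

theorem flat_mono {S T : Finset α} (h : S ⊆ T) (n : ℕ) : flat D n S ⊆ flat D n T := by
  induction n with
  | zero => exact subset_rfl
  | succ n ih =>
    exact D.cl_mono (union_subset_union (D.c_mono n ih) (filter_subset_filter _ h))

/-- the flat of the classes `< n` depends only on the elements of the classes `< n` -/
theorem flat_congr {S T : Finset α} {n : ℕ} (h : ∀ a, D.cls a < n → (a ∈ S ↔ a ∈ T)) :
    flat D n S = flat D n T := by
  induction n with
  | zero => rfl
  | succ n ih =>
    have h1 : flat D n S = flat D n T := ih fun a ha => h a (by omega)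
    have h2 : (S.filter fun a => D.cls a = n) = T.filter fun a => D.cls a = n := by
      ext a
      simp only [mem_filter]
      constructor
      · rintro ⟨ha, hn⟩; exact ⟨(h a (by omega)).1 ha, hn⟩
      · rintro ⟨ha, hn⟩; exact ⟨(h a (by omega)).2 ha, hn⟩
    rw [flat_succ, flat_succ, h1, h2]

theorem flat_cl (n : ℕ) (S : Finset α) : D.cl (flat D n S) = flat D n S := by
  cases n with
  | zero => exact D.cl_idem _
  | succ n => exact D.cl_idem _

theorem c_subset_flat_succ (n : ℕ) (S : Finset α) : D.c n (flat D n S) ⊆ flat D (n + 1) S :=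
  subset_union_left.trans (D.cl_ext _)

theorem flat_subset_succ (n : ℕ) (S : Finset α) : flat D n S ⊆ flat D (n + 1) S :=
  (D.c_ext n _).trans (c_subset_flat_succ D n S)

theorem flat_le {n m : ℕ} (h : n ≤ m) (S : Finset α) : flat D n S ⊆ flat D m S := by
  induction m, h using Nat.le_induction with
  | base => exact subset_rfl
  | succ m _ ih => exact ih.trans (flat_subset_succ D m S)

theorem c_subset_flat {n m : ℕ} (h : n < m) (S : Finset α) : D.c n (flat D n S) ⊆ flat D m S :=
  (c_subset_flat_succ D n S).trans (flat_le D h S)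

/-- an element of `S` of class `< n` is in `flat n S` -/
theorem mem_flat {S : Finset α} {a : α} {n : ℕ} (ha : a ∈ S) (hn : D.cls a < n) :
    a ∈ flat D n S := by
  refine flat_le D (show D.cls a + 1 ≤ n from hn) S ?_
  rw [flat_succ]
  exact D.cl_ext _ (mem_union_right _ (mem_filter.2 ⟨ha, rfl⟩))

/-- if `c` is spanned by generators `Z`, the flat `flat m S` is spanned by `flat n S` and
generators of the classes `≥ n` inside it -/
theorem flat_span {Z : ℕ → Finset α} (hZ : ∀ n F, D.cl F = F → D.c n F ⊆ D.cl (F ∪ (Z n ∩ D.c n F)))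
    {n m : ℕ} (h : n ≤ m) (S : Finset α) :
    flat D m S ⊆ D.cl (flat D n S ∪
      ((((Finset.Ico n m).biUnion Z) ∪ S.filter fun a => n ≤ D.cls a ∧ D.cls a < m) ∩
        flat D m S)) := by
  induction m, h using Nat.le_induction with
  | base =>
    exact (D.cl_ext _).trans (D.cl_mono subset_union_left)
  | succ m hm ih =>
    have h1 : flat D m S ⊆ flat D (m + 1) S := flat_subset_succ D m S
    have h2 : flat D m S ⊆ D.cl (flat D n S ∪
        ((((Finset.Ico n (m + 1)).biUnion Z) ∪
          S.filter fun a => n ≤ D.cls a ∧ D.cls a < m + 1) ∩ flat D (m + 1) S)) := by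
      refine ih.trans (D.cl_mono (union_subset_union_right ?_))
      refine inter_subset_inter (union_subset_union ?_ ?_) h1
      · exact biUnion_subset_biUnion_of_subset_left _ (Ico_subset_Ico_right (Nat.le_succ m))
      · intro a ha
        rw [mem_filter] at ha ⊢
        exact ⟨ha.1, ha.2.1, by omega⟩
    conv_lhs => rw [flat_succ]
    refine cl_subset D (union_subset ?_ ?_)
    · refine (hZ m _ (flat_cl D m S)).trans (cl_subset D (union_subset h2 ?_))
      intro a ha
      rw [mem_inter] at ha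
      refine D.cl_ext _ (mem_union_right _ (mem_inter.2 ⟨mem_union_left _ ?_, ?_⟩))
      · exact mem_biUnion.2 ⟨m, Finset.mem_Ico.2 ⟨hm, by omega⟩, ha.1⟩
      · exact c_subset_flat_succ D m S ha.2
    · intro a ha
      rw [mem_filter] at ha
      refine D.cl_ext _ (mem_union_right _ (mem_inter.2 ⟨mem_union_right _ ?_, ?_⟩))
      · exact mem_filter.2 ⟨ha.1, by omega, by omega⟩
      · exact mem_flat D ha.1 (by omega)

section K

variable [Fintype α]

/-- the elements `z` inside `c (cls z) (flat (cls z) S)` -/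
def K (S : Finset α) : Finset α := univ.filter fun z => z ∈ D.c (D.cls z) (flat D (D.cls z) S)

theorem mem_K {S : Finset α} {z : α} : z ∈ K D S ↔ z ∈ D.c (D.cls z) (flat D (D.cls z) S) := by
  simp [K]

/-- absorbing elements of `K S` -/
theorem flat_abs {S T : Finset α} (h : T ⊆ K D S) (n : ℕ) : flat D n (S ∪ T) = flat D n S := by
  induction n with
  | zero => rfl
  | succ n ih =>
    refine Finset.Subset.antisymm ?_ (flat_mono D subset_union_left _)
    rw [flat_succ, flat_succ, ih]
    refine cl_subset D ?_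
    intro a ha
    rcases mem_union.1 ha with ha | ha
    · exact D.cl_ext _ (mem_union_left _ ha)
    · rw [mem_filter] at ha
      rcases mem_union.1 ha.1 with h1 | h1
      · exact D.cl_ext _ (mem_union_right _ (mem_filter.2 ⟨h1, ha.2⟩))
      · have := (mem_K D).1 (h h1)
        rw [ha.2] at this
        exact D.cl_ext _ (mem_union_left _ this)

/-- `K S` (classes `< n`) is inside `flat n S` -/
theorem mem_flat_of_mem_K {S : Finset α} {a : α} {n : ℕ} (ha : a ∈ K D S) (hn : D.cls a < n) :
    a ∈ flat D n S :=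
  c_subset_flat D hn S ((mem_K D).1 ha)

/-- the class operator -/
def op : Op α D.cls where
  K := K D
  mono {S T} h z hz := by
    rw [mem_K] at hz ⊢
    exact D.c_mono _ (flat_mono D h _) hz
  loc {S z} hz := by
    rw [mem_K] at hz ⊢
    rwa [flat_congr D (T := S) (fun a ha => by simp [ha])]
  abs {S T} h z hz := by
    rw [mem_K] at hz ⊢
    rwa [flat_abs D h] at hz

theorem op_K (S : Finset α) : (op D).K S = K D S := rfl

/-! ### the chain -/

/-- `S_t` -/
def St (A : Finset α) (t : ℕ) : Finset α := chain (op D) A t univ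

/-- `D_t = S_t \ S_{t+1}` -/
def Dt (A : Finset α) (t : ℕ) : Finset α := St D A t \ St D A (t + 1)

/-- `f_t`, the flat of the classes `< n` -/
def fl (A : Finset α) (t n : ℕ) : Finset α := flat D n (A ∩ St D A t)

/-- `g_t`, the flat of the classes `< n` generated by everything row `t` uses -/
def gl (A B : Finset α) (t n : ℕ) : Finset α :=
  flat D n ((A ∩ St D A (t + 1)) ∪ (B ∩ Dt D A t))

theorem St_zero (A : Finset α) : St D A 0 = univ := rfl

theorem St_succ (A : Finset α) (t : ℕ) :
    St D A (t + 1) = St D A t ∩ K D (A ∩ St D A t) := by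
  unfold St
  rw [chain_succ]
  rfl

theorem mem_St_succ {A : Finset α} {t : ℕ} {y : α} :
    y ∈ St D A (t + 1) ↔ y ∈ St D A t ∧ y ∈ D.c (D.cls y) (fl D A t (D.cls y)) := by
  rw [St_succ, mem_inter, mem_K]
  rfl

theorem St_succ_subset (A : Finset α) (t : ℕ) : St D A (t + 1) ⊆ St D A t := by
  rw [St_succ]
  exact inter_subset_left

theorem St_anti (A : Finset α) {s t : ℕ} (h : s ≤ t) : St D A t ⊆ St D A s := by
  induction t, h using Nat.le_induction with
  | base => exact subset_rfl
  | succ m _ ih => exact (St_succ_subset D A m).trans ih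

theorem St_succ_subset_K (A : Finset α) (t : ℕ) : St D A (t + 1) ⊆ K D (A ∩ St D A t) := by
  rw [St_succ]
  exact inter_subset_right

/-- own class: `S_{t+1} ∩ E_n ⊆ c_n (f_t)` -/
theorem mem_c_of_mem_St {A : Finset α} {t : ℕ} {y : α} (h : y ∈ St D A (t + 1)) :
    y ∈ D.c (D.cls y) (fl D A t (D.cls y)) := ((mem_St_succ D).1 h).2

theorem mem_Dt {A : Finset α} {t : ℕ} {y : α} :
    y ∈ Dt D A t ↔ y ∈ St D A t ∧ y ∉ D.c (D.cls y) (fl D A t (D.cls y)) := by
  rw [Dt, mem_sdiff, mem_St_succ]
  tauto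

theorem Dt_disjoint (A : Finset α) {s t : ℕ} (h : s ≠ t) : Disjoint (Dt D A s) (Dt D A t) := by
  have key : ∀ {s t : ℕ}, s < t → Disjoint (Dt D A s) (Dt D A t) := by
    intro s t hst
    rw [Finset.disjoint_left]
    intro a ha hb
    rw [Dt, mem_sdiff] at ha hb
    exact ha.2 (St_anti D A hst hb.1)
  rcases Nat.lt_or_gt_of_ne h with h1 | h1
  · exact key h1
  · exact (key h1).symm

/-- the exit time is unique -/
theorem exit_unique {A : Finset α} {y : α} {s t : ℕ} (hs : y ∈ Dt D A s) (ht : y ∈ Dt D A t) :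
    s = t := by
  by_contra h
  exact (Finset.disjoint_left.1 (Dt_disjoint D A h)) hs ht

/-- every `y ∉ K ∅` exits -/
theorem exit_exists {A : Finset α} {y : α} (he : y ∉ K D ∅) :
    ∃ t < Fintype.card α, y ∈ Dt D A t := by
  have key : ∀ t, (∀ s < t, y ∉ Dt D A s) → y ∈ St D A t ∧ (St D A t).card + t ≤ Fintype.card α := by
    intro t
    induction t with
    | zero =>
      intro _
      rw [St_zero]
      exact ⟨mem_univ _, by simp⟩
    | succ t ih =>
      intro h
      obtain ⟨h1, h2⟩ := ih fun s hs => h s (by omega)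
      have h3 : y ∈ St D A (t + 1) := by
        by_contra h4
        exact h t (by omega) (mem_sdiff.2 ⟨h1, h4⟩)
      refine ⟨h3, ?_⟩
      have h5 : St D A (t + 1) ⊂ St D A t := by
        have := next_ssubset (op D) (S := St D A t) h1 he A
        rw [St_succ]
        exact this
      have := Finset.card_lt_card h5
      omega
  by_contra hne
  push Not at hne
  obtain ⟨h1, h2⟩ := key (Fintype.card α) hne
  have : 0 < (St D A (Fintype.card α)).card := Finset.card_pos.2 ⟨y, h1⟩
  omega

omit [Fintype α] in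
theorem flat_empty (hc : ∀ n, D.c n (D.cl ∅) = D.cl ∅) (n : ℕ) : flat D n ∅ = D.cl ∅ := by
  induction n with
  | zero => rfl
  | succ n ih =>
    rw [flat_succ, ih, hc, filter_empty, union_empty, D.cl_idem]

theorem K_empty (hc : ∀ n, D.c n (D.cl ∅) = D.cl ∅) : K D ∅ = D.cl ∅ := by
  ext a
  rw [mem_K, flat_empty D hc, hc]

/-! ### inclusions -/

theorem fl_anti (A : Finset α) {s t : ℕ} (h : s ≤ t) (n : ℕ) : fl D A t n ⊆ fl D A s n :=
  flat_mono D (inter_subset_inter_left (St_anti D A h)) n

/-- `f_{t+1} ⊆ g_t` -/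
theorem fl_subset_gl (A B : Finset α) (t n : ℕ) : fl D A (t + 1) n ⊆ gl D A B t n :=
  flat_mono D subset_union_left n

/-- everything of `S_{t+1}` is absorbed by `A ∩ S_t` -/
theorem flat_union_St (A : Finset α) (t n : ℕ) :
    flat D n ((A ∩ St D A t) ∪ St D A (t + 1)) = fl D A t n :=
  flat_abs D (St_succ_subset_K D A t) n

theorem flat_subset_fl {X A : Finset α} {t : ℕ} (h : X ⊆ (A ∩ St D A t) ∪ St D A (t + 1)) (n : ℕ) :
    flat D n X ⊆ fl D A t n := by
  rw [← flat_union_St]
  exact flat_mono D h n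

/-- `g_{t+1} ⊆ f_t` -/
theorem gl_subset_fl (A B : Finset α) (t n : ℕ) : gl D A B (t + 1) n ⊆ fl D A t n := by
  refine flat_subset_fl D ?_ n
  refine union_subset ?_ ?_
  · exact (inter_subset_right.trans (St_succ_subset D A (t + 1))).trans subset_union_right
  · exact (inter_subset_right.trans sdiff_subset).trans subset_union_right

/-- elements of `S_{t+1}` of class `< n` are in `f_t` -/
theorem mem_fl_of_St {A : Finset α} {t n : ℕ} {y : α} (h : y ∈ St D A (t + 1))
    (hn : D.cls y < n) : y ∈ fl D A t n :=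
  mem_flat_of_mem_K D (St_succ_subset_K D A t h) hn

/-- sampled elements of `S_t` of class `< n` are in `f_t` -/
theorem mem_fl {A : Finset α} {t n : ℕ} {y : α} (hA : y ∈ A) (h : y ∈ St D A t)
    (hn : D.cls y < n) : y ∈ fl D A t n :=
  mem_flat D (mem_inter.2 ⟨hA, h⟩) hn

/-- elements of `B ∩ D_t` of class `< n` are in `g_t` -/
theorem mem_gl {A B : Finset α} {t n : ℕ} {y : α} (hB : y ∈ B) (h : y ∈ Dt D A t)
    (hn : D.cls y < n) : y ∈ gl D A B t n :=
  mem_flat D (mem_union_right _ (mem_inter.2 ⟨hB, h⟩)) hn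

/-- own sampled elements of `S_{t+2}` are in `c_n (g_t)` -/
theorem mem_c_gl {A B : Finset α} {t : ℕ} {y : α} (h : y ∈ St D A (t + 2)) :
    y ∈ D.c (D.cls y) (gl D A B t (D.cls y)) :=
  D.c_mono _ (fl_subset_gl D A B t _) (mem_c_of_mem_St D h)

theorem fl_le (A : Finset α) (t : ℕ) {n m : ℕ} (h : n ≤ m) : fl D A t n ⊆ fl D A t m :=
  flat_le D h _

theorem gl_le (A B : Finset α) (t : ℕ) {n m : ℕ} (h : n ≤ m) : gl D A B t n ⊆ gl D A B t m :=
  flat_le D h _

theorem c_fl_subset (A : Finset α) (t : ℕ) {n m : ℕ} (h : n < m) :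
    D.c n (fl D A t n) ⊆ fl D A t m :=
  c_subset_flat D h _

theorem fl_succ (A : Finset α) (t n : ℕ) :
    fl D A t (n + 1) = D.cl (D.c n (fl D A t n) ∪ (A ∩ St D A t).filter fun a => D.cls a = n) :=
  rfl

/-- `F_{t+2}` up to and including the own class is inside `c_n (g_t)` (needs closed values of
`c`) -/
theorem fl_succ_subset_c_gl (A B : Finset α) (t n : ℕ)
    (hc : D.cl (D.c n (gl D A B t n)) = D.c n (gl D A B t n)) :
    fl D A (t + 2) (n + 1) ⊆ D.c n (gl D A B t n) := by
  rw [fl_succ, ← hc]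
  refine cl_subset D (union_subset ?_ ?_)
  · refine (D.c_mono n ?_).trans (D.cl_ext _)
    exact (fl_anti D A (Nat.le_succ (t + 1)) n).trans (fl_subset_gl D A B t n)
  · intro a ha
    rw [mem_filter, mem_inter] at ha
    have := mem_c_gl D (B := B) ha.1.2
    rw [ha.2] at this
    exact D.cl_ext _ this

/-! ### Theorem 1 -/

theorem good_iff {A B : Finset α} {y : α} {t : ℕ} :
    Good (op D) y A B univ t ↔
      y ∈ Dt D A t ∧ y ∉ D.c (D.cls y) (gl D A B t (D.cls y)) := by
  rw [mem_Dt]
  unfold Good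
  rw [op_K, mem_K, op_K, mem_K]
  unfold gl Dt fl St
  tauto

/-- the good event of `y`: at its exit `t` it is not in `c_n (g_t)` -/
def GoodAt (A B : Finset α) (y : α) : Prop :=
  ∃ t, y ∈ Dt D A t ∧ y ∉ D.c (D.cls y) (gl D A B t (D.cls y))

open Classical in
/-- **Theorem 1** -/
theorem half_le_good {p : α → ℝ} (h0 : ∀ a, 0 ≤ p a) (h1 : ∀ a, p a ≤ 1) {y : α}
    (he : y ∉ K D ∅) :
    1 / 2 ≤ ∑ A, ∑ B, w p A * w p B * (if GoodAt D A B y then (1 : ℝ) else 0) := by
  have := half_le (op D) h0 h1 (y := y) he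
  simp only [good_iff] at this
  exact this

open Classical in
/-- **Theorem 1** for an element of `B \ A` -/
theorem half_le_good_online {p : α → ℝ} (h0 : ∀ a, 0 ≤ p a) (h1 : ∀ a, p a ≤ 1) {y : α}
    (he : y ∉ K D ∅) :
    p y * (1 - p y) / 2 ≤ ∑ A, ∑ B, w p A * w p B *
      (if y ∉ A ∧ y ∈ B ∧ GoodAt D A B y then (1 : ℝ) else 0) := by
  have := half_le_online (op D) h0 h1 (y := y) he
  simp only [good_iff] at this
  exact this

/-- the good event looks only at the samples of lower classes -/
theorem goodAt_congr {A A' B B' : Finset α} {y : α}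
    (hA : ∀ a, D.cls a < D.cls y → (a ∈ A ↔ a ∈ A'))
    (hB : ∀ a, D.cls a < D.cls y → (a ∈ B ↔ a ∈ B')) : GoodAt D A B y ↔ GoodAt D A' B' y := by
  unfold GoodAt
  exact exists_congr fun t => by
    rw [← good_iff, ← good_iff]
    exact good_rank (op D) hA hB univ t

/-- the good event is antitone in `B` -/
theorem GoodAt.anti {A B H : Finset α} {y : α} (h : GoodAt D A B y) (hH : H ⊆ B) :
    GoodAt D A H y := by
  obtain ⟨t, ht⟩ := h
  exact ⟨t, (good_iff D).1 (((good_iff D).2 ht).anti _ hH)⟩

/-- the chain looks only at the sample of lower classes -/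
theorem mem_St_congr {A A' : Finset α} {j : ℕ} (hA : ∀ a, D.cls a < j → (a ∈ A ↔ a ∈ A')) (t : ℕ)
    {z : α} (hz : D.cls z ≤ j) : z ∈ St D A t ↔ z ∈ St D A' t :=
  mem_chain_rank (op D) hA univ t hz

theorem mem_Dt_congr {A A' : Finset α} {j : ℕ} (hA : ∀ a, D.cls a < j → (a ∈ A ↔ a ∈ A')) (t : ℕ)
    {z : α} (hz : D.cls z ≤ j) : z ∈ Dt D A t ↔ z ∈ Dt D A' t := by
  rw [Dt, Dt, mem_sdiff, mem_sdiff, mem_St_congr D hA t hz, mem_St_congr D hA (t + 1) hz]

theorem fl_congr {A A' : Finset α} {n : ℕ} (hA : ∀ a, D.cls a < n → (a ∈ A ↔ a ∈ A')) (t : ℕ) :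
    fl D A t n = fl D A' t n := by
  refine flat_congr D fun a ha => ?_
  rw [mem_inter, mem_inter, hA a ha, mem_St_congr D hA t ha.le]

theorem gl_congr {A A' B B' : Finset α} {n : ℕ} (hA : ∀ a, D.cls a < n → (a ∈ A ↔ a ∈ A'))
    (hB : ∀ a, D.cls a < n → (a ∈ B ↔ a ∈ B')) (t : ℕ) : gl D A B t n = gl D A' B' t n := by
  refine flat_congr D fun a ha => ?_
  simp only [mem_union, mem_inter, hA a ha, hB a ha, mem_St_congr D hA (t + 1) ha.le,
    mem_Dt_congr D hA t ha.le]

end K

end Crest.Agent.R305.Fcl310
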