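import Crest.Agent.R305.Fcl_310
import Crest.Agent.R305.Kd_447

/-!
# R305: the class operator of `Fcl_310` for the `k`-dense closures of `Kd_447`
-/

set_option autoImplicit false

namespace Crest.Agent.R305.Fcr310

open Finset Dep310 Fcl310 Kd447

variable {α : Type*} [DecidableEq α] [Fintype α]

/-- the instance: closure of the matroid, `c n` = the `k`-dense closure of `Zs n` -/
noncomputable def rankData (M : RankFn α) (cls : α → ℕ) (k : ℕ) (Zs : ℕ → Finset α) : Data α where
  cl := M.cl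
  cl_mono h := M.cl_mono h
  cl_ext A := M.subset_cl A
  cl_idem A := M.cl_cl A
  cls := cls
  c n F := M.kc k (Zs n) F
  c_mono _ _ _ h := M.kc_mono (Subset.refl _) h
  c_ext _ F := M.subset_kc _ _ F

variable (M : RankFn α) (cls : α → ℕ) (k : ℕ) (Zs : ℕ → Finset α)

@[simp] theorem rankData_cl (A : Finset α) : (rankData M cls k Zs).cl A = M.cl A := rfl
@[simp] theorem rankData_cls (a : α) : (rankData M cls k Zs).cls a = cls a := rfl
@[simp] theorem rankData_c (n : ℕ) (F : Finset α) :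
    (rankData M cls k Zs).c n F = M.kc k (Zs n) F := rfl

theorem c_closed (n : ℕ) (F : Finset α) :
    (rankData M cls k Zs).cl ((rankData M cls k Zs).c n F) = (rankData M cls k Zs).c n F :=
  M.kc_flat k (Zs n) F

theorem flat_flat (n : ℕ) (S : Finset α) : M.Flat (flat (rankData M cls k Zs) n S) :=
  flat_cl (rankData M cls k Zs) n S

theorem fl_flat (A : Finset α) (t n : ℕ) : M.Flat (fl (rankData M cls k Zs) A t n) :=
  flat_cl (rankData M cls k Zs) n _

theorem gl_flat (A B : Finset α) (t n : ℕ) : M.Flat (gl (rankData M cls k Zs) A B t n) :=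
  flat_cl (rankData M cls k Zs) n _

omit [Fintype α] in
/-- a subset of an independent set is independent -/
theorem r_eq_card_of_subset {Z A : Finset α} (hZ : M.r Z = Z.card) (h : A ⊆ Z) :
    M.r A = A.card := by
  have h1 := M.r_union_le_card A (Z \ A)
  rw [union_sdiff_of_subset h, hZ] at h1
  have h2 := card_sdiff_add_card_eq_card h
  have h3 := M.r_le_card A
  omega

/-- for an independent `Z` nothing is dense over the loops -/
theorem kc_cl_empty {k : ℕ} (hk : 2 ≤ k) {Z : Finset α} (hZ : M.r Z = Z.card) :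
    M.kc k Z (M.cl ∅) = M.cl ∅ := by
  refine Subset.antisymm (M.kc_subset (Subset.refl _) (M.flat_cl ∅) ?_) (M.subset_kc _ _ _)
  intro A hA hne
  have h1 : M.r A = A.card := r_eq_card_of_subset M hZ (hA.trans sdiff_subset)
  have h2 : M.rr (M.cl ∅) A = A.card := by
    rw [M.rr_cl_left, M.rr_empty_left, h1]
  rw [h2]
  have h3 : 0 < A.card := hne.card_pos
  nlinarith

section

variable {M cls k Zs}

theorem c_cl_empty (hk : 2 ≤ k) (hZ : ∀ n, M.r (Zs n) = (Zs n).card) (n : ℕ) :
    (rankData M cls k Zs).c n ((rankData M cls k Zs).cl ∅) = (rankData M cls k Zs).cl ∅ :=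
  kc_cl_empty M hk (hZ n)

theorem mem_K_empty (hk : 2 ≤ k) (hZ : ∀ n, M.r (Zs n) = (Zs n).card) {y : α} :
    y ∈ K (rankData M cls k Zs) ∅ ↔ y ∈ M.cl ∅ := by
  rw [K_empty _ (c_cl_empty hk hZ)]
  rfl

/-- every non-loop exits -/
theorem exits (hk : 2 ≤ k) (hZ : ∀ n, M.r (Zs n) = (Zs n).card) (A : Finset α) {y : α}
    (hy : y ∉ M.cl ∅) : ∃ t < Fintype.card α, y ∈ Dt (rankData M cls k Zs) A t :=
  exit_exists _ fun h => hy ((mem_K_empty hk hZ).1 h)

open Classical in
/-- **Theorem 1** -/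
theorem half_le_good (hk : 2 ≤ k) (hZ : ∀ n, M.r (Zs n) = (Zs n).card) {p : α → ℝ}
    (h0 : ∀ a, 0 ≤ p a) (h1 : ∀ a, p a ≤ 1) {y : α} (hy : y ∉ M.cl ∅) :
    1 / 2 ≤ ∑ A, ∑ B, w p A * w p B *
      (if GoodAt (rankData M cls k Zs) A B y then (1 : ℝ) else 0) :=
  Fcl310.half_le_good _ h0 h1 fun h => hy ((mem_K_empty hk hZ).1 h)

/-- generators -/
theorem flat_span (hk : 0 < k) {n m : ℕ} (h : n ≤ m) (S : Finset α) :
    flat (rankData M cls k Zs) m S ⊆ M.cl (flat (rankData M cls k Zs) n S ∪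
      ((((Finset.Ico n m).biUnion Zs) ∪ S.filter fun a => n ≤ cls a ∧ cls a < m) ∩
        flat (rankData M cls k Zs) m S)) :=
  Fcl310.flat_span (rankData M cls k Zs) (fun n F _ => (M.kc_eq_cl hk (Zs n) F).subset) h S

/-- the generators of the classes `≥ n`, row form: `gen = (⋃ j ∈ [n, m), Zs j) ∪ A_{[n, m)}` -/
theorem fl_span (hk : 0 < k) {n m : ℕ} (h : n ≤ m) (A : Finset α) (t : ℕ) :
    fl (rankData M cls k Zs) A t m ⊆ M.cl (fl (rankData M cls k Zs) A t n ∪
      ((((Finset.Ico n m).biUnion Zs) ∪ A.filter fun a => n ≤ cls a ∧ cls a < m) ∩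
        fl (rankData M cls k Zs) A t m)) := by
  refine (flat_span hk h _).trans (M.cl_mono (union_subset_union_right ?_))
  refine inter_subset_inter_right (union_subset_union_right ?_)
  exact filter_subset_filter _ inter_subset_left

/-- everything up to the own class at time `t + 2` is inside `c n (g_t)` (rows mod 3) -/
theorem fl_succ_subset (A B : Finset α) (t n : ℕ) :
    fl (rankData M cls k Zs) A (t + 2) (n + 1) ⊆
      M.kc k (Zs n) (gl (rankData M cls k Zs) A B t n) :=
  fl_succ_subset_c_gl _ A B t n (c_closed M cls k Zs n _)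

/-- `S_{t+1}` (classes `< n`) is inside `f_t` -/
theorem mem_fl_of_St {A : Finset α} {t n : ℕ} {y : α}
    (h : y ∈ St (rankData M cls k Zs) A (t + 1)) (hn : cls y < n) :
    y ∈ fl (rankData M cls k Zs) A t n :=
  Fcl310.mem_fl_of_St _ h hn

/-- the own class: `S_{t+1} ∩ E_n ⊆ c n (f_t)` -/
theorem mem_kc_of_St {A : Finset α} {t : ℕ} {y : α}
    (h : y ∈ St (rankData M cls k Zs) A (t + 1)) :
    y ∈ M.kc k (Zs (cls y)) (fl (rankData M cls k Zs) A t (cls y)) :=
  mem_c_of_mem_St _ h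

theorem mem_Dt' {A : Finset α} {t : ℕ} {y : α} :
    y ∈ Dt (rankData M cls k Zs) A t ↔ y ∈ St (rankData M cls k Zs) A t ∧
      y ∉ M.kc k (Zs (cls y)) (fl (rankData M cls k Zs) A t (cls y)) :=
  mem_Dt _

end

end Crest.Agent.R305.Fcr310
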