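import Crest.Agent.R305.Fcr_310

/-!
# R305: the chain of `Fcr_310` looks only at the lower classes of `A`, `B`, `Zs`

`fl`, `gl` at level `n` depend on `A`, `B` of the classes `< n` and on `Zs m`, `m < n`;
`S_t`, `D_t` inside the class `n` depend on `A` of the classes `< n` and on `Zs m`, `m ≤ n`.
-/

set_option autoImplicit false

namespace Crest.Agent.R305.Fcz310

open Finset Dep310 Fcl310 Kd447 Fcr310

variable {α : Type*} [DecidableEq α] [Fintype α]
variable {M : RankFn α} {cls : α → ℕ} {k : ℕ} {Zs Zs' : ℕ → Finset α}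

theorem flat_congr {n : ℕ} (hZ : ∀ m < n, Zs m = Zs' m) {S T : Finset α}
    (h : ∀ a, cls a < n → (a ∈ S ↔ a ∈ T)) :
    flat (rankData M cls k Zs) n S = flat (rankData M cls k Zs') n T := by
  induction n with
  | zero =>
    rw [flat_zero, flat_zero, rankData_cl, rankData_cl]
  | succ n ih =>
    have h1 := ih (fun m hm => hZ m (by omega)) (fun a ha => h a (by omega))
    have h2 : (S.filter fun a => (rankData M cls k Zs).cls a = n) =
        T.filter fun a => (rankData M cls k Zs').cls a = n := by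
      ext a
      rw [mem_filter, mem_filter, rankData_cls, rankData_cls]
      constructor
      · rintro ⟨ha, hn⟩; exact ⟨(h a (by omega)).1 ha, hn⟩
      · rintro ⟨ha, hn⟩; exact ⟨(h a (by omega)).2 ha, hn⟩
    have h3 : (rankData M cls k Zs).c n (flat (rankData M cls k Zs) n S) =
        (rankData M cls k Zs').c n (flat (rankData M cls k Zs') n T) := by
      rw [rankData_c, rankData_c, h1, hZ n (by omega)]
    rw [flat_succ, flat_succ, h2, h3, rankData_cl, rankData_cl]

theorem mem_K_congr {j : ℕ} (hZ : ∀ m ≤ j, Zs m = Zs' m) {S T : Finset α}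
    (h : ∀ a, cls a < j → (a ∈ S ↔ a ∈ T)) {z : α} (hz : cls z ≤ j) :
    z ∈ K (rankData M cls k Zs) S ↔ z ∈ K (rankData M cls k Zs') T := by
  rw [mem_K, mem_K]
  simp only [rankData_c, rankData_cls]
  rw [flat_congr (fun m hm => hZ m (by omega)) (fun a ha => h a (by omega)), hZ _ hz]

theorem mem_St_congr {j : ℕ} (hZ : ∀ m ≤ j, Zs m = Zs' m) {A A' : Finset α}
    (hA : ∀ a, cls a < j → (a ∈ A ↔ a ∈ A')) (t : ℕ) {z : α} (hz : cls z ≤ j) :
    z ∈ St (rankData M cls k Zs) A t ↔ z ∈ St (rankData M cls k Zs') A' t := by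
  induction t generalizing z with
  | zero => simp [St_zero]
  | succ t ih =>
    rw [St_succ, St_succ, mem_inter, mem_inter, ih hz]
    refine and_congr_right fun _ => mem_K_congr hZ ?_ hz
    intro a ha
    rw [mem_inter, mem_inter, ih (z := a) ha.le, hA a ha]

theorem mem_Dt_congr {j : ℕ} (hZ : ∀ m ≤ j, Zs m = Zs' m) {A A' : Finset α}
    (hA : ∀ a, cls a < j → (a ∈ A ↔ a ∈ A')) (t : ℕ) {z : α} (hz : cls z ≤ j) :
    z ∈ Dt (rankData M cls k Zs) A t ↔ z ∈ Dt (rankData M cls k Zs') A' t := by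
  rw [Dt, Dt, mem_sdiff, mem_sdiff, mem_St_congr hZ hA t hz, mem_St_congr hZ hA (t + 1) hz]

theorem fl_congr {n : ℕ} (hZ : ∀ m < n, Zs m = Zs' m) {A A' : Finset α}
    (hA : ∀ a, cls a < n → (a ∈ A ↔ a ∈ A')) (t : ℕ) :
    fl (rankData M cls k Zs) A t n = fl (rankData M cls k Zs') A' t n := by
  unfold fl
  refine flat_congr hZ fun a ha => ?_
  have h1 : a ∈ St (rankData M cls k Zs) A t ↔ a ∈ St (rankData M cls k Zs') A' t :=
    mem_St_congr (j := cls a) (fun m hm => hZ m (by omega)) (fun b hb => hA b (by omega)) t le_rfl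
  rw [mem_inter, mem_inter, hA a ha, h1]

theorem gl_congr {n : ℕ} (hZ : ∀ m < n, Zs m = Zs' m) {A A' B B' : Finset α}
    (hA : ∀ a, cls a < n → (a ∈ A ↔ a ∈ A')) (hB : ∀ a, cls a < n → (a ∈ B ↔ a ∈ B')) (t : ℕ) :
    gl (rankData M cls k Zs) A B t n = gl (rankData M cls k Zs') A' B' t n := by
  unfold gl
  refine flat_congr hZ fun a ha => ?_
  have h1 : ∀ t, a ∈ St (rankData M cls k Zs) A t ↔ a ∈ St (rankData M cls k Zs') A' t := fun t =>
    mem_St_congr (j := cls a) (fun m hm => hZ m (by omega)) (fun b hb => hA b (by omega)) t le_rfl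
  simp only [mem_union, mem_inter, Dt, mem_sdiff, h1, hA a ha, hB a ha]

theorem goodAt_congr {y : α} (hZ : ∀ m ≤ cls y, Zs m = Zs' m) {A A' B B' : Finset α}
    (hA : ∀ a, cls a < cls y → (a ∈ A ↔ a ∈ A')) (hB : ∀ a, cls a < cls y → (a ∈ B ↔ a ∈ B')) :
    GoodAt (rankData M cls k Zs) A B y ↔ GoodAt (rankData M cls k Zs') A' B' y := by
  unfold GoodAt
  refine exists_congr fun t => and_congr (mem_Dt_congr hZ hA t le_rfl) (not_congr ?_)
  simp only [rankData_c, rankData_cls]
  rw [gl_congr (fun m hm => hZ m (by omega)) hA hB t, hZ _ le_rfl]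

end Crest.Agent.R305.Fcz310
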