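import Crest.Agent.R305.Un_228

/-! # R305: numerals of the captain table (k = 2^17, x = 1/2) -/

set_option autoImplicit false

namespace Crest.Agent.R305.Num306

open Crest.Agent.R305

theorem eta_le : 16 * Un228.epsk (2 ^ 17) / (1 / 2 : ℝ) + Real.exp (-(((2 ^ 17 : ℕ) : ℝ) / 8)) ≤ 1 / 100 := by
  have h1 : Real.log ((2 ^ 17 : ℕ) : ℝ) = 17 * Real.log 2 := by
    rw [Nat.cast_pow, Real.log_pow]
    norm_num
  have h2 := Real.log_two_lt_d9
  have h3 : Un228.epsk (2 ^ 17) ≤ (2 * (17 * 0.6931471808) + 4) / 131072 := by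
    unfold Un228.epsk
    rw [h1]
    rw [show ((2 ^ 17 : ℕ) : ℝ) = 131072 by norm_num]
    gcongr
  have h4 : Real.exp (-(((2 ^ 17 : ℕ) : ℝ) / 8)) ≤ 1 / 1000 := by
    have h5 : Real.exp (-(((2 ^ 17 : ℕ) : ℝ) / 8)) ≤ Real.exp (-10) := by
      apply Real.exp_le_exp.2
      norm_num
    refine h5.trans ?_
    rw [Real.exp_neg, one_div]
    apply inv_anti₀ (by norm_num)
    have h6 : (2 : ℝ) ≤ Real.exp 1 := by
      have := Real.add_one_le_exp (1 : ℝ)
      linarith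
    have h7 : Real.exp 10 = Real.exp 1 ^ 10 := by
      rw [← Real.exp_nat_mul]; norm_num
    rw [h7]
    calc (1000 : ℝ) ≤ 2 ^ 10 := by norm_num
      _ ≤ Real.exp 1 ^ 10 := pow_le_pow_left₀ (by norm_num) h6 10
  have h8 : 16 * Un228.epsk (2 ^ 17) / (1 / 2 : ℝ) ≤ 16 * ((2 * (17 * 0.6931471808) + 4) / 131072) / (1 / 2 : ℝ) := by
    gcongr
  norm_num at h8 h4 ⊢
  linarith

end Crest.Agent.R305.Num306
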