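import Crest.Agent.R305.TopE_137
import Crest.Agent.R305.Code_310
import Crest.Agent.R305.Num_306

/-!
# R305 / S0468: the last step (helper306)
-/

set_option autoImplicit false
universe u

namespace Crest.Agent.R305.Fin306

open Finset Crest.OnlineMatroid Dep310 Kd447 Fcl310 Fcr310 TopDef137 Rows755 Red396 Rule764

variable {k : ℕ}

theorem epsk_nonneg : 0 ≤ Un228.epsk (2 ^ 17) := by
  unfold Un228.epsk
  have h1 : 0 ≤ Real.log ((2 ^ 17 : ℕ) : ℝ) := Real.log_natCast_nonneg _
  positivity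

theorem eta_nonneg : 0 ≤ Ocp228.eta (2 ^ 17) (1 / 2) := by
  unfold Ocp228.eta
  have := epsk_nonneg
  positivity

theorem eta_le : Ocp228.eta (2 ^ 17) (1 / 2) ≤ 1 / 100 := by
  have := Num306.eta_le
  unfold Ocp228.eta
  exact this

/-- the harm bound with the constants of the table -/
theorem P2 (I : Inst (Fin k)) (T : Finset (Fin k)) (n i : ℕ) : EZ (1 / 2) ((1 / 2) ^ 25)
      (fun Z A B => ((harmed I (2 ^ 17) T Z A B i n).card : ℝ)) ≤
    (1 / 2) ^ 25 * (Ocp228.eta (2 ^ 17) (1 / 2) * (En I T n).card +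
      2 ^ 19 * (1 / 2) ^ 25 * (On I T n).card) := by
  have h := Harm310.harm_expect_all I (k := 2 ^ 17) (m := 2 ^ 19) (by norm_num) (x := 1 / 2)
    (p := (1 / 2) ^ 25) (by norm_num) (by norm_num) (by norm_num) (by norm_num) (by norm_num) T n i
  have h2 : ((2 ^ 19 : ℕ) : ℝ) = 2 ^ 19 := by norm_num
  rw [h2] at h
  exact h

/-- **S0468** for one matroid -/
theorem core (M : Matroid (Fin k)) : Concl.{u} k M ((2 : ENNReal)⁻¹ ^ 310) :=
  TopE137.core_of_P2 M eta_nonneg eta_le fun I T n i _ => P2 I T n i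

end Crest.Agent.R305.Fin306
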