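import Crest.Agent.R305.Rows_755

/-!
R305 / S0468: last step (helper755): monotonicity of the conclusion in the constant, numerals.
-/

set_option autoImplicit false
universe u

namespace Crest.Agent.R305.Fin755

open Crest.OnlineMatroid Crest.Agent.R305.Kd447 Crest.Agent.R305.Red396 Crest.Agent.R305.Rows755
  MeasureTheory

variable {k : ℕ}

theorem concl_mono {M : Matroid (Fin k)} {c c' : ENNReal} (h : c' ≤ c) (H : Concl.{u} k M c) :
    Concl.{u} k M c' := by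
  obtain ⟨ΩR, i, μR, R, hp, hI, hval⟩ := H
  refine ⟨ΩR, i, μR, R, hp, hI, ?_⟩
  intro Ω _ P _ S V hS hV hpos hind hlaw hfin
  refine le_trans ?_ (hval Ω P S V hS hV hpos hind hlaw hfin)
  gcongr

theorem half_pow_le {n : ℕ} {x : ℝ} (h : (1 / 2 : ℝ) ^ n ≤ x) :
    (2 : ENNReal)⁻¹ ^ n ≤ ENNReal.ofReal x := by
  have h1 : (2 : ENNReal)⁻¹ = ENNReal.ofReal (1 / 2) := by
    rw [one_div, ENNReal.ofReal_inv_of_pos (by norm_num)]
    norm_num
  rw [h1, ← ENNReal.ofReal_pow (by norm_num)]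
  exact ENNReal.ofReal_le_ofReal h

/-- the statement S0468 for one matroid follows from a `ClsRule` with a value guarantee `c`,
`(1/2)^310 ≤ c / Λ` -/
theorem concl_of_value {M : Matroid (Fin k)} (O : ClsRule k M) {Λ : ℕ} (hΛ : 1 < Λ)
    {c : ℝ} (hc : 0 ≤ c) {n : ℕ} (hcΛ : (1 / 2 : ℝ) ^ n ≤ c / Λ)
    (hval : ∀ q : Fin k → Option ℤ, ∀ I : Finset (Fin k), M.Indep (I : Set (Fin k)) →
      (∀ e ∈ I, q e ≠ none) → ∃ lb : O.Ω → ℝ,
        (∀ r A, RowBasis (ofMatroid M) (O.U r) (O.row r q) (O.base r q) A →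
          lb r ≤ ∑ e ∈ A, val Λ (q e)) ∧
        c * ∑ e ∈ I, val Λ (q e) ≤ ∑ r, O.μ r * lb r) :
    Concl.{u} k M ((2 : ENNReal)⁻¹ ^ n) :=
  concl_mono (half_pow_le hcΛ) (concl_of_clsRule O hΛ hc hval)

end Crest.Agent.R305.Fin755
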