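import Crest.Agent.R305.Fresh_618

/-!
# R305, doc 1798 §7: fresh elements and classes, tails and expectations
-/

set_option autoImplicit false
set_option linter.unusedSectionVars false

namespace Crest.Agent.R305.Fresh618

open Finset Dep310

variable {α : Type*} [Fintype α] [DecidableEq α]

variable {r : Finset α → ℕ} {pos : α → ℕ}

/-! ### (7a): the rank of a sample of a prefix -/

theorem w_nn {τ : ℝ} (h0 : 0 ≤ τ) (h1 : τ ≤ 1) (T : Finset α) : 0 ≤ w (fun _ : α => τ) T :=
  w_nonneg (fun _ => h0) (fun _ => h1) T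

theorem rank_moment (h : RF r) (hpos : Function.Injective pos) {τ z : ℝ} (h0 : 0 ≤ τ) (h1 : τ ≤ 1)
    (hz0 : 0 ≤ z) (hz1 : z ≤ 1) (n : ℕ) :
    ∑ T : Finset α, w (fun _ => τ) T * z ^ r (pre pos T n) ≤
      (1 - τ + τ * z) ^ r (pre pos (univ : Finset α) n) := by
  classical
  have hq : 0 ≤ 1 - τ + τ * z := by nlinarith
  induction n with
  | zero =>
    have h2 : ∀ T : Finset α, pre pos T 0 = ∅ := fun T => by ext a; simp [mem_pre]
    simp only [h2, h.empty, pow_zero, mul_one]
    exact (sum_w _).le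
  | succ n ih =>
    by_cases hn : ∃ e, pos e = n
    · obtain ⟨e, rfl⟩ := hn
      rw [sum_split _ e]
      have hlt : ∀ a, pos a < pos e → a ≠ e := by
        rintro a ha rfl
        omega
      have hc1 : ∀ T : Finset α, pre pos (T.erase e) (pos e) = pre pos T (pos e) := fun T =>
        pre_congr fun a ha => by simp [hlt a ha]
      have hc2 : ∀ T : Finset α, pre pos (insert e T) (pos e) = pre pos T (pos e) := fun T =>
        pre_congr fun a ha => by simp [hlt a ha]
      have hsum : ∀ T : Finset α, z ^ r (insert e (pre pos T (pos e))) ≤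
          z ^ r (pre pos T (pos e)) * (if Cand r pos (univ : Finset α) e then z else 1) := by
        intro T
        split
        · next hc =>
          have : Cand r pos T e := hc.anti h (subset_univ T)
          rw [h.unit' this, pow_succ]
        · rw [mul_one]
          exact pow_le_pow_of_le_one hz0 hz1 (h.mono1 _ _)
      have hstep : ∀ T : Finset α, w (fun _ => τ) T *
          ((1 - τ) * z ^ r (pre pos (T.erase e) (pos e + 1)) +
            τ * z ^ r (pre pos (insert e T) (pos e + 1))) ≤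
          (w (fun _ => τ) T * z ^ r (pre pos T (pos e))) *
            (if Cand r pos (univ : Finset α) e then 1 - τ + τ * z else 1) := by
        intro T
        rw [pre_succ_not_mem hpos (notMem_erase e T), pre_succ_mem hpos (mem_insert_self e T),
          hc1, hc2, mul_assoc]
        refine mul_le_mul_of_nonneg_left ?_ (w_nn h0 h1 T)
        have h3 := hsum T
        have h4 : 0 ≤ z ^ r (pre pos T (pos e)) := pow_nonneg hz0 _
        split
        · next hc =>
          rw [if_pos hc] at h3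
          nlinarith
        · next hc =>
          rw [if_neg hc] at h3
          nlinarith
      refine (Finset.sum_le_sum fun T _ => hstep T).trans ?_
      rw [← Finset.sum_mul, pre_succ_mem hpos (mem_univ e)]
      by_cases hc : Cand r pos (univ : Finset α) e
      · rw [if_pos hc, h.unit' hc, pow_succ]
        exact mul_le_mul_of_nonneg_right ih hq
      · rw [if_neg hc, mul_one]
        have : r (insert e (pre pos (univ : Finset α) (pos e))) =
          r (pre pos (univ : Finset α) (pos e)) := not_not.1 hc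
        rw [this]
        exact ih
    · push Not at hn
      simp only [pre_succ_none hn]
      exact ih

/-- **(7a)**: a prefix of rank at least `4 b` -/
theorem rank_tail (h : RF r) (hpos : Function.Injective pos) {n b : ℕ}
    (hb : 4 * b ≤ r (pre pos (univ : Finset α) n)) :
    ∑ T : Finset α, w (fun _ => (1 / 2 : ℝ)) T * (if r (pre pos T n) < b then 1 else 0) ≤
      (16 / 27) ^ b := by
  have h1 := rank_moment h hpos (τ := 1 / 2) (z := 1 / 3) (by norm_num) (by norm_num)
    (by norm_num) (by norm_num) n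
  have h2 : (1 - 1 / 2 + 1 / 2 * (1 / 3) : ℝ) ^ r (pre pos (univ : Finset α) n) ≤
      (2 / 3) ^ (4 * b) := by
    norm_num only
    exact pow_le_pow_of_le_one (by norm_num) (by norm_num) hb
  have h3 : ∀ T : Finset α, w (fun _ => (1 / 2 : ℝ)) T * (if r (pre pos T n) < b then 1 else 0) ≤
      w (fun _ => (1 / 2 : ℝ)) T * (1 / 3) ^ r (pre pos T n) * 3 ^ b := by
    intro T
    rw [mul_assoc]
    refine mul_le_mul_of_nonneg_left ?_ (w_nn (by norm_num) (by norm_num) T)
    split
    · next hlt =>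
      have : ((1 : ℝ) / 3) ^ b ≤ (1 / 3) ^ r (pre pos T n) :=
        pow_le_pow_of_le_one (by norm_num) (by norm_num) hlt.le
      calc (1 : ℝ) = (1 / 3) ^ b * 3 ^ b := by rw [← mul_pow]; norm_num
        _ ≤ _ := mul_le_mul_of_nonneg_right this (by positivity)
    · positivity
  calc _ ≤ ∑ T : Finset α, w (fun _ => (1 / 2 : ℝ)) T * (1 / 3) ^ r (pre pos T n) * 3 ^ b :=
        Finset.sum_le_sum fun T _ => h3 T
    _ = (∑ T : Finset α, w (fun _ => (1 / 2 : ℝ)) T * (1 / 3) ^ r (pre pos T n)) * 3 ^ b := by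
        rw [Finset.sum_mul]
    _ ≤ (2 / 3) ^ (4 * b) * 3 ^ b :=
        mul_le_mul_of_nonneg_right (h1.trans h2) (by positivity)
    _ = _ := by
        rw [pow_mul, ← mul_pow]
        norm_num

/-! ### the fresh elements -/

/-- the fresh elements at the levels `[a, b)` -/
def Fr (r : Finset α → ℕ) (pos : α → ℕ) (T : Finset α) (a b : ℕ) : Finset α :=
  univ.filter fun e => e ∉ T ∧ Cand r pos T e ∧ a ≤ Rh r pos T e ∧ Rh r pos T e < b

theorem mem_Fr {T : Finset α} {a b : ℕ} {e : α} :
    e ∈ Fr r pos T a b ↔ e ∉ T ∧ Cand r pos T e ∧ a ≤ Rh r pos T e ∧ Rh r pos T e < b := by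
  simp [Fr]

theorem exists_top (pos : α → ℕ) : ∃ N, ∀ a, pos a < N :=
  ⟨univ.sup pos + 1, fun a => Nat.lt_succ_of_le (Finset.le_sup (mem_univ a))⟩

theorem prod_ite_const {β : Type*} (s : Finset β) (P : β → Prop) [DecidablePred P] (u : ℝ) :
    (∏ x ∈ s, if P x then u else 1) = u ^ (s.filter P).card := by
  rw [Finset.prod_ite, Finset.prod_const, Finset.prod_const_one, mul_one]

theorem Uu_eq {N : ℕ} (hN : ∀ a, pos a < N) (a b : ℕ) (u : ℝ) (T : Finset α) :
    Uu r pos (fun j => a ≤ j ∧ j < b) u N T = u ^ (Fr r pos T a b).card := by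
  classical
  have h1 : Uu r pos (fun j => a ≤ j ∧ j < b) u N T =
      ∏ e ∈ univ.filter (fun e => pos e < N),
        if e ∉ T ∧ Cand r pos T e ∧ a ≤ Rh r pos T e ∧ Rh r pos T e < b then u else 1 := by
    unfold Uu
    exact Finset.prod_congr rfl fun e _ => @if_congr _ _ _ (_) (_) _ _ _ _ Iff.rfl rfl rfl
  rw [h1, prod_ite_const]
  congr 2
  ext e
  simp [mem_Fr, hN e]

theorem Vv_eq {N : ℕ} (hN : ∀ a, pos a < N) {a b : ℕ} {v : ℝ} {T : Finset α}
    (hb : b ≤ r T) : Vv r pos (fun j => a ≤ j ∧ j < b) v N T = v ^ (b - a) := by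
  have h1 : Vv r pos (fun j => a ≤ j ∧ j < b) v N T =
      ∏ j ∈ range (r T), if a ≤ j ∧ j < b then v else 1 := by
    unfold Vv
    rw [pre_all hN]
    exact Finset.prod_congr rfl fun e _ => @if_congr _ _ _ (_) (_) _ _ _ _ Iff.rfl rfl rfl
  rw [h1, prod_ite_const]
  congr 1
  have : (range (r T)).filter (fun j => a ≤ j ∧ j < b) = Ico a b := by
    ext j
    simp only [mem_filter, mem_range, mem_Ico]
    omega
  rw [this, Nat.card_Ico]

theorem Vv_ge {N : ℕ} {a b : ℕ} {v : ℝ} (hv0 : 0 ≤ v) (hv1 : v ≤ 1) (T : Finset α) :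
    v ^ (b - a) ≤ Vv r pos (fun j => a ≤ j ∧ j < b) v N T := by
  have h1 : Vv r pos (fun j => a ≤ j ∧ j < b) v N T =
      ∏ j ∈ range (r (pre pos T N)), if a ≤ j ∧ j < b then v else 1 := by
    unfold Vv
    exact Finset.prod_congr rfl fun e _ => @if_congr _ _ _ (_) (_) _ _ _ _ Iff.rfl rfl rfl
  rw [h1, prod_ite_const]
  refine pow_le_pow_of_le_one hv0 hv1 ?_
  rw [← Nat.card_Ico]
  refine card_le_card fun j => ?_
  simp only [mem_filter, mem_Ico]
  tauto

theorem Vv_nonneg {N : ℕ} {I : ℕ → Prop} {v : ℝ} (hv0 : 0 ≤ v) (T : Finset α) :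
    0 ≤ Vv r pos I v N T := by
  unfold Vv
  refine Finset.prod_nonneg fun j _ => ?_
  split
  · exact hv0
  · norm_num

/-- **(7c)** upper tail -/
theorem fresh_upper (h : RF r) (hpos : Function.Injective pos) (a b : ℕ) :
    ∑ T : Finset α, w (fun _ => (1 / 2 : ℝ)) T *
        (if 8 * (b - a) ≤ (Fr r pos T a b).card then 1 else 0) ≤ (1 / 8) ^ (b - a) := by
  obtain ⟨N, hN⟩ := exists_top pos
  have hm := moment h hpos (fun j => a ≤ j ∧ j < b) (τ := 1 / 2) (u := 3 / 2) (v := 1 / 2)
    (by norm_num) N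
  have hstep : ∀ T : Finset α, w (fun _ => (1 / 2 : ℝ)) T *
      (if 8 * (b - a) ≤ (Fr r pos T a b).card then 1 else 0) ≤
      w (fun _ => (1 / 2 : ℝ)) T * (Uu r pos (fun j => a ≤ j ∧ j < b) (3 / 2) N T *
        Vv r pos (fun j => a ≤ j ∧ j < b) (1 / 2) N T) * (1 / 8) ^ (b - a) := by
    intro T
    rw [mul_assoc]
    refine mul_le_mul_of_nonneg_left ?_ (w_nn (by norm_num) (by norm_num) T)
    rw [Uu_eq hN]
    have h1 : ((1 : ℝ) / 2) ^ (b - a) ≤ Vv r pos (fun j => a ≤ j ∧ j < b) (1 / 2) N T :=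
      Vv_ge (by norm_num) (by norm_num) T
    have h0 : (0 : ℝ) ≤ Vv r pos (fun j => a ≤ j ∧ j < b) (1 / 2) N T :=
      Vv_nonneg (by norm_num) T
    split
    · next hle =>
      have h2 : ((3 : ℝ) / 2) ^ (8 * (b - a)) ≤ (3 / 2) ^ (Fr r pos T a b).card :=
        pow_le_pow_right₀ (by norm_num) hle
      calc (1 : ℝ) = 16 ^ (b - a) * (1 / 2) ^ (b - a) * (1 / 8) ^ (b - a) := by
            rw [← mul_pow, ← mul_pow]; norm_num
        _ ≤ (3 / 2) ^ (8 * (b - a)) * (1 / 2) ^ (b - a) * (1 / 8) ^ (b - a) := by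
            rw [pow_mul]
            gcongr
            norm_num
        _ ≤ _ := by gcongr
    · positivity
  refine (Finset.sum_le_sum fun T _ => hstep T).trans ?_
  rw [← Finset.sum_mul, hm, one_mul]

/-- **(7d)** lower tail -/
theorem fresh_lower (h : RF r) (hpos : Function.Injective pos) (a b : ℕ) :
    ∑ T : Finset α, w (fun _ => (1 / 2 : ℝ)) T *
        (if b ≤ r T ∧ 4 * (Fr r pos T a b).card ≤ b - a then 1 else 0) ≤ (4 / 5) ^ (b - a) := by
  obtain ⟨N, hN⟩ := exists_top pos
  have hm := moment h hpos (fun j => a ≤ j ∧ j < b) (τ := 1 / 2) (u := 1 / 2) (v := 3 / 2)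
    (by norm_num) N
  have hstep : ∀ T : Finset α, w (fun _ => (1 / 2 : ℝ)) T *
      (if b ≤ r T ∧ 4 * (Fr r pos T a b).card ≤ b - a then 1 else 0) ≤
      w (fun _ => (1 / 2 : ℝ)) T * (Uu r pos (fun j => a ≤ j ∧ j < b) (1 / 2) N T *
        Vv r pos (fun j => a ≤ j ∧ j < b) (3 / 2) N T) * (4 / 5) ^ (b - a) := by
    intro T
    rw [mul_assoc]
    refine mul_le_mul_of_nonneg_left ?_ (w_nn (by norm_num) (by norm_num) T)
    rw [Uu_eq hN]
    have h0 : (0 : ℝ) ≤ Vv r pos (fun j => a ≤ j ∧ j < b) (3 / 2) N T :=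
      Vv_nonneg (by norm_num) T
    split
    · next hle =>
      rw [Vv_eq hN hle.1]
      have h2 : ((5 : ℝ) / 4) ^ (b - a) ≤ (1 / 2) ^ (Fr r pos T a b).card * (3 / 2) ^ (b - a) := by
        refine le_of_pow_le_pow_left₀ (n := 4) (by norm_num) (by positivity) ?_
        rw [mul_pow, ← pow_mul, ← pow_mul, ← pow_mul, mul_comm _ 4]
        rw [mul_comm (Fr r pos T a b).card 4]
        have h5 : ((5 : ℝ) / 4) ^ (4 * (b - a)) ≤ (1 / 2) ^ (b - a) * (3 / 2) ^ (4 * (b - a)) := by
          rw [pow_mul, pow_mul, ← mul_pow]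
          exact pow_le_pow_left₀ (by norm_num) (by norm_num) _
        have h6 : ((1 : ℝ) / 2) ^ (b - a) ≤ (1 / 2) ^ (4 * (Fr r pos T a b).card) :=
          pow_le_pow_of_le_one (by norm_num) (by norm_num) hle.2
        exact h5.trans (mul_le_mul_of_nonneg_right h6 (by positivity))
      calc (1 : ℝ) = (5 / 4) ^ (b - a) * (4 / 5) ^ (b - a) := by rw [← mul_pow]; norm_num
        _ ≤ _ := by gcongr
    · positivity
  refine (Finset.sum_le_sum fun T _ => hstep T).trans ?_
  rw [← Finset.sum_mul, hm, one_mul]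

/-! ### expectations -/

/-- the elements of `T` at distinct levels -/
theorem card_level_le (h : RF r) (hpos : Function.Injective pos) (T : Finset α) (a b : ℕ) :
    (univ.filter fun e => e ∈ T ∧ Cand r pos T e ∧ a ≤ Rh r pos T e ∧ Rh r pos T e < b).card ≤
      b - a := by
  rw [← Nat.card_Ico]
  refine card_le_card_of_injOn (fun e => Rh r pos T e) ?_ ?_
  · intro e he
    simp only [coe_filter, mem_univ, true_and, Set.mem_ofPred_eq] at he
    simp only [coe_Ico, Set.mem_Ico]
    exact he.2.2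
  · intro e he f hf hef
    simp only [coe_filter, mem_univ, true_and, Set.mem_ofPred_eq] at he hf
    simp only at hef
    by_contra hne
    rcases lt_trichotomy (pos e) (pos f) with h1 | h1 | h1
    · have := Rh_lt h hpos he.1 he.2.1 h1
      omega
    · exact hne (hpos h1)
    · have := Rh_lt h hpos hf.1 hf.2.1 h1
      omega

theorem sum_card_filter (P : Finset α → α → Prop) [∀ T, DecidablePred (P T)] (W : Finset α → ℝ) :
    ∑ T : Finset α, W T * ((univ.filter fun e => P T e).card : ℝ) =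
      ∑ e, ∑ T : Finset α, W T * (if P T e then 1 else 0) := by
  rw [Finset.sum_comm]
  refine Finset.sum_congr rfl fun T _ => ?_
  rw [← Finset.mul_sum]
  congr 1
  rw [Finset.sum_boole]

/-- change of the label of one element -/
theorem swap_label {τ : ℝ} (e : α) (G : Finset α → ℝ)
    (hG : ∀ A A' : Finset α, (∀ a, a ≠ e → (a ∈ A ↔ a ∈ A')) → G A = G A') :
    τ * ∑ T : Finset α, w (fun _ => τ) T * ((if e ∉ T then 1 else 0) * G T) =
      (1 - τ) * ∑ T : Finset α, w (fun _ => τ) T * ((if e ∈ T then 1 else 0) * G T) := by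
  classical
  have h1 := sum_mem_mul (fun _ => τ) e G hG
  have h2 : ∀ T : Finset α, w (fun _ => τ) T * ((if e ∉ T then 1 else 0) * G T) =
      w (fun _ => τ) T * G T - w (fun _ => τ) T * ((if e ∈ T then 1 else 0) * G T) := by
    intro T
    by_cases he : e ∈ T <;> simp [he]
  rw [Finset.sum_congr rfl fun T _ => h2 T, Finset.sum_sub_distrib]
  have h3 : ∑ T : Finset α, w (fun _ => τ) T * ((if e ∈ T then (1 : ℝ) else 0) * G T) =
      τ * ∑ T : Finset α, w (fun _ => τ) T * G T := by
    rw [← h1]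
  rw [h3]
  ring

/-- **(7f)** -/
theorem fresh_mean (h : RF r) (hpos : Function.Injective pos) {τ : ℝ} (h0 : 0 < τ) (h1 : τ ≤ 1)
    (a b : ℕ) :
    τ * ∑ T : Finset α, w (fun _ => τ) T * ((Fr r pos T a b).card : ℝ) ≤
      (1 - τ) * (b - a : ℕ) := by
  classical
  unfold Fr
  rw [sum_card_filter, Finset.mul_sum]
  have hswap : ∀ e : α, τ * ∑ T : Finset α, w (fun _ => τ) T *
      (if e ∉ T ∧ Cand r pos T e ∧ a ≤ Rh r pos T e ∧ Rh r pos T e < b then 1 else 0) =
      (1 - τ) * ∑ T : Finset α, w (fun _ => τ) T *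
      (if e ∈ T ∧ Cand r pos T e ∧ a ≤ Rh r pos T e ∧ Rh r pos T e < b then 1 else 0) := by
    intro e
    have := swap_label (τ := τ) e
      (fun T => if Cand r pos T e ∧ a ≤ Rh r pos T e ∧ Rh r pos T e < b then 1 else 0) (by
        intro A A' hA
        have hA' : ∀ x, pos x < pos e → (x ∈ A ↔ x ∈ A') := by
          intro x hx
          exact hA x (by rintro rfl; omega)
        simp only [Cand_congr (r := r) hA', Rh_congr hA'])
    have h3 : ∀ P Q : Prop, ∀ [Decidable P] [Decidable Q],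
        (if P then (1 : ℝ) else 0) * (if Q then 1 else 0) = if P ∧ Q then 1 else 0 := by
      intro P Q _ _
      by_cases hP : P <;> by_cases hQ : Q <;> simp [hP, hQ]
    simpa only [h3] using this
  simp only [hswap]
  rw [← Finset.mul_sum, ← sum_card_filter]
  refine mul_le_mul_of_nonneg_left ?_ (by linarith)
  calc _ ≤ ∑ T : Finset α, w (fun _ => τ) T * ((b - a : ℕ) : ℝ) := by
        refine Finset.sum_le_sum fun T _ => mul_le_mul_of_nonneg_left ?_ (w_nn h0.le h1 T)
        exact_mod_cast card_level_le h hpos T a b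
    _ = _ := by rw [← Finset.sum_mul, sum_w, one_mul]

end Crest.Agent.R305.Fresh618
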