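import Crest.Agent.R305.Dep_310

/-!
# R305, doc 1798 §7: fresh elements and classes (probability part)

`r : Finset α → ℕ` is a rank function (`RF r`), `pos : α → ℕ` an injective position (small = heavy),
`T` a random subset of rate `τ` (weight `Dep310.w (fun _ => τ) T`), `Z` an independent sample.
`pre pos T n = {t ∈ T | pos t < n}`, `Rh r pos T e = r (pre pos T (pos e))`,
`Cand r pos T e` : `e` is not spanned by `pre pos T (pos e)`; `e` is *fresh* if `e ∉ T ∧ Cand e`.

Exact exponential moment: `E u^#{fresh, level ∈ I} v^#{levels ∈ I below r T} = 1` whenever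
`τ v + (1 - τ) u = 1`.
-/

set_option autoImplicit false
set_option linter.unusedSectionVars false

namespace Crest.Agent.R305.Fresh618

open Finset Dep310

variable {α : Type*} [Fintype α] [DecidableEq α]

/-- a rank function on finsets (only what is used here) -/
structure RF (r : Finset α → ℕ) : Prop where
  empty : r ∅ = 0
  mono1 : ∀ e S, r S ≤ r (insert e S)
  unit : ∀ e S, r (insert e S) ≤ r S + 1
  sub : ∀ e {S S' : Finset α}, S ⊆ S' → r (insert e S) = r S → r (insert e S') = r S'

/-- the part of `T` at positions `< n` -/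
def pre (pos : α → ℕ) (T : Finset α) (n : ℕ) : Finset α := T.filter fun t => pos t < n

/-- rank of the part of `T` before `e` -/
def Rh (r : Finset α → ℕ) (pos : α → ℕ) (T : Finset α) (e : α) : ℕ := r (pre pos T (pos e))

/-- `e` is not spanned by the part of `T` before `e` -/
def Cand (r : Finset α → ℕ) (pos : α → ℕ) (T : Finset α) (e : α) : Prop :=
  r (insert e (pre pos T (pos e))) ≠ r (pre pos T (pos e))

instance (r : Finset α → ℕ) (pos : α → ℕ) (T : Finset α) (e : α) : Decidable (Cand r pos T e) := by
  unfold Cand; infer_instance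

section basics

variable {r : Finset α → ℕ} {pos : α → ℕ}

omit [Fintype α] in
theorem RF.mono (h : RF r) {S S' : Finset α} (hS : S ⊆ S') : r S ≤ r S' := by
  have key : ∀ U : Finset α, r S ≤ r (S ∪ U) := by
    intro U
    induction U using Finset.induction_on with
    | empty => simp
    | insert a U ha ih =>
      rw [union_insert]
      exact ih.trans (h.mono1 _ _)
  have := key S'
  rwa [union_eq_right.2 hS] at this

omit [Fintype α] in
theorem RF.unit' (h : RF r) {e : α} {S : Finset α} (hn : r (insert e S) ≠ r S) :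
    r (insert e S) = r S + 1 := by
  have h1 := h.mono1 e S
  have h2 := h.unit e S
  omega

omit [Fintype α] in
theorem mem_pre {T : Finset α} {n : ℕ} {a : α} : a ∈ pre pos T n ↔ a ∈ T ∧ pos a < n := by
  simp [pre]

omit [Fintype α] in
theorem pre_congr {T T' : Finset α} {n : ℕ} (h : ∀ a, pos a < n → (a ∈ T ↔ a ∈ T')) :
    pre pos T n = pre pos T' n := by
  ext a
  simp only [mem_pre]
  constructor
  · rintro ⟨h1, h2⟩; exact ⟨(h a h2).1 h1, h2⟩
  · rintro ⟨h1, h2⟩; exact ⟨(h a h2).2 h1, h2⟩

omit [Fintype α] in
theorem pre_mono {T T' : Finset α} {n m : ℕ} (h : T ⊆ T') (hn : n ≤ m) :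
    pre pos T n ⊆ pre pos T' m := by
  intro a
  simp only [mem_pre]
  rintro ⟨h1, h2⟩
  exact ⟨h h1, by omega⟩

omit [Fintype α] in
theorem pre_all {T : Finset α} {n : ℕ} (h : ∀ a, pos a < n) : pre pos T n = T := by
  ext a
  simp [mem_pre, h a]

omit [Fintype α] in
theorem pre_succ_none {T : Finset α} {n : ℕ} (h : ∀ a, pos a ≠ n) :
    pre pos T (n + 1) = pre pos T n := by
  ext a
  have := h a
  simp only [mem_pre]
  constructor
  · rintro ⟨h1, h2⟩; exact ⟨h1, by omega⟩
  · rintro ⟨h1, h2⟩; exact ⟨h1, by omega⟩

omit [Fintype α] in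
theorem pre_succ_mem (hpos : Function.Injective pos) {T : Finset α} {e : α} (he : e ∈ T) :
    pre pos T (pos e + 1) = insert e (pre pos T (pos e)) := by
  ext a
  simp only [mem_pre, mem_insert]
  constructor
  · rintro ⟨h1, h2⟩
    by_cases hae : a = e
    · exact Or.inl hae
    · have : pos a ≠ pos e := fun h => hae (hpos h)
      exact Or.inr ⟨h1, by omega⟩
  · rintro (rfl | ⟨h1, h2⟩)
    · exact ⟨he, by omega⟩
    · exact ⟨h1, by omega⟩

omit [Fintype α] in
theorem pre_succ_not_mem (hpos : Function.Injective pos) {T : Finset α} {e : α} (he : e ∉ T) :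
    pre pos T (pos e + 1) = pre pos T (pos e) := by
  ext a
  simp only [mem_pre]
  constructor
  · rintro ⟨h1, h2⟩
    have : pos a ≠ pos e := fun h => he (hpos h ▸ h1)
    exact ⟨h1, by omega⟩
  · rintro ⟨h1, h2⟩
    exact ⟨h1, by omega⟩

omit [Fintype α] in
theorem Rh_congr {T T' : Finset α} {e : α} (h : ∀ a, pos a < pos e → (a ∈ T ↔ a ∈ T')) :
    Rh r pos T e = Rh r pos T' e := by
  unfold Rh
  rw [pre_congr h]

omit [Fintype α] in
theorem Cand_congr {T T' : Finset α} {e : α} (h : ∀ a, pos a < pos e → (a ∈ T ↔ a ∈ T')) :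
    Cand r pos T e ↔ Cand r pos T' e := by
  unfold Cand
  rw [pre_congr h]

omit [Fintype α] in
theorem Cand.anti (h : RF r) {T T' : Finset α} (hT : T ⊆ T') {e : α} (hc : Cand r pos T' e) :
    Cand r pos T e := fun h' => hc (h.sub e (pre_mono hT le_rfl) h')

/-- (7b) -/
theorem pos_lt_of_Rh_lt (h : RF r) {T : Finset α} {n b : ℕ} (hb : b ≤ r (pre pos T n)) {e : α}
    (he : Rh r pos T e < b) : pos e < n := by
  by_contra hn
  have : r (pre pos T n) ≤ Rh r pos T e := h.mono (pre_mono subset_rfl (by omega))
  omega

omit [Fintype α] in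
/-- `Rh` is monotone along the order -/
theorem Rh_mono (h : RF r) {T : Finset α} {e f : α} (hef : pos e ≤ pos f) :
    Rh r pos T e ≤ Rh r pos T f := h.mono (pre_mono subset_rfl hef)

omit [Fintype α] in
theorem Rh_lt (h : RF r) (hpos : Function.Injective pos) {T : Finset α} {e f : α}
    (heT : e ∈ T) (he : Cand r pos T e) (hef : pos e < pos f) :
    Rh r pos T e < Rh r pos T f := by
  have h1 : r (pre pos T (pos e + 1)) ≤ Rh r pos T f := h.mono (pre_mono subset_rfl (by omega))
  rw [pre_succ_mem hpos heT] at h1
  have h2 := h.unit' he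
  unfold Rh at *
  omega

end basics

/-! ### splitting off one element -/

section split

variable {p : α → ℝ}

theorem sum_split (p : α → ℝ) (y : α) (f : Finset α → ℝ) :
    ∑ A, w p A * f A =
      ∑ A, w p A * ((1 - p y) * f (A.erase y) + p y * f (insert y A)) := by
  classical
  have h1 := sum_mem_mul p y (fun A => f (insert y A)) (by
    intro A A' h
    have : insert y A = insert y A' := by
      ext a
      by_cases ha : a = y
      · simp [ha]
      · simp [ha, h a ha]
    simp only [this])
  have h2 := sum_mem_mul p y (fun A => f (A.erase y)) (by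
    intro A A' h
    have : A.erase y = A'.erase y := by
      ext a
      by_cases ha : a = y
      · simp [ha]
      · simp [ha, h a ha]
    simp only [this])
  have h3 : ∀ A : Finset α, w p A * f A =
      w p A * ((if y ∈ A then 1 else 0) * f (insert y A)) +
        (w p A * f (A.erase y) - w p A * ((if y ∈ A then 1 else 0) * f (A.erase y))) := by
    intro A
    by_cases hy : y ∈ A
    · simp [hy]
    · simp [hy]
  rw [Finset.sum_congr rfl fun A _ => h3 A, Finset.sum_add_distrib, Finset.sum_sub_distrib, h1, h2]
  rw [Finset.mul_sum, Finset.mul_sum, ← Finset.sum_sub_distrib, ← Finset.sum_add_distrib]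
  refine Finset.sum_congr rfl fun A _ => ?_
  ring

end split

/-! ### the exact exponential moment -/

section moment

variable {r : Finset α → ℕ} {pos : α → ℕ}

open Classical in
/-- product over the fresh elements at positions `< n` with level in `I` -/
noncomputable def Uu (r : Finset α → ℕ) (pos : α → ℕ) (I : ℕ → Prop) (u : ℝ) (n : ℕ)
    (T : Finset α) : ℝ :=
  ∏ e ∈ univ.filter (fun e => pos e < n),
    if e ∉ T ∧ Cand r pos T e ∧ I (Rh r pos T e) then u else 1

open Classical in
/-- product over the levels in `I` below the rank -/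
noncomputable def Vv (r : Finset α → ℕ) (pos : α → ℕ) (I : ℕ → Prop) (v : ℝ) (n : ℕ)
    (T : Finset α) : ℝ :=
  ∏ j ∈ range (r (pre pos T n)), if I j then v else 1

theorem Uu_congr {I : ℕ → Prop} {u : ℝ} {n : ℕ} {T T' : Finset α}
    (h : ∀ a, pos a < n → (a ∈ T ↔ a ∈ T')) : Uu r pos I u n T = Uu r pos I u n T' := by
  classical
  unfold Uu
  refine Finset.prod_congr rfl fun e he => ?_
  have he' : pos e < n := by simpa using he
  have h1 : ∀ a, pos a < pos e → (a ∈ T ↔ a ∈ T') := fun a ha => h a (by omega)
  rw [Rh_congr h1]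
  simp only [h e he', Cand_congr (r := r) h1]

omit [Fintype α] in
theorem Vv_congr {I : ℕ → Prop} {v : ℝ} {n : ℕ} {T T' : Finset α}
    (h : ∀ a, pos a < n → (a ∈ T ↔ a ∈ T')) : Vv r pos I v n T = Vv r pos I v n T' := by
  unfold Vv
  rw [pre_congr h]

open Classical in
theorem Uu_succ (hpos : Function.Injective pos) {I : ℕ → Prop} {u : ℝ} {T : Finset α} {e : α} :
    Uu r pos I u (pos e + 1) T = Uu r pos I u (pos e) T *
      (if e ∉ T ∧ Cand r pos T e ∧ I (Rh r pos T e) then u else 1) := by
  unfold Uu
  have : (univ.filter fun a => pos a < pos e + 1) =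
      insert e (univ.filter fun a => pos a < pos e) := by
    ext a
    simp only [mem_filter, mem_univ, true_and, mem_insert]
    constructor
    · intro h
      by_cases hae : a = e
      · exact Or.inl hae
      · have : pos a ≠ pos e := fun h => hae (hpos h)
        exact Or.inr (by omega)
    · rintro (rfl | h)
      · omega
      · omega
  rw [this, Finset.prod_insert (by simp), mul_comm]

open Classical in
theorem Vv_succ_mem (h : RF r) (hpos : Function.Injective pos) {I : ℕ → Prop} {v : ℝ}
    {T : Finset α} {e : α} (he : e ∈ T) :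
    Vv r pos I v (pos e + 1) T = Vv r pos I v (pos e) T *
      (if Cand r pos T e ∧ I (Rh r pos T e) then v else 1) := by
  unfold Vv
  rw [pre_succ_mem hpos he]
  by_cases hc : Cand r pos T e
  · rw [h.unit' hc, Finset.prod_range_succ]
    simp only [hc, true_and, Rh]
  · have : r (insert e (pre pos T (pos e))) = r (pre pos T (pos e)) := not_not.1 hc
    rw [this]
    simp [hc]

omit [Fintype α] in
theorem Vv_succ_not_mem (hpos : Function.Injective pos) {I : ℕ → Prop} {v : ℝ}
    {T : Finset α} {e : α} (he : e ∉ T) :
    Vv r pos I v (pos e + 1) T = Vv r pos I v (pos e) T := by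
  unfold Vv
  rw [pre_succ_not_mem hpos he]

/-- **exact exponential moment** -/
theorem moment (h : RF r) (hpos : Function.Injective pos) (I : ℕ → Prop) {τ u v : ℝ}
    (huv : τ * v + (1 - τ) * u = 1) (n : ℕ) :
    ∑ T : Finset α, w (fun _ => τ) T * (Uu r pos I u n T * Vv r pos I v n T) = 1 := by
  classical
  induction n with
  | zero =>
    have : ∀ T : Finset α, Uu r pos I u 0 T * Vv r pos I v 0 T = 1 := by
      intro T
      have h1 : pre pos T 0 = ∅ := by ext a; simp [mem_pre]
      simp [Uu, Vv, h1, h.empty]
    simp only [this, mul_one]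
    exact sum_w _
  | succ n ih =>
    by_cases hn : ∃ e, pos e = n
    · obtain ⟨e, rfl⟩ := hn
      rw [sum_split _ e]
      refine Eq.trans (Finset.sum_congr rfl fun T _ => ?_) ih
      congr 1
      have hlt : ∀ a, pos a < pos e → a ≠ e := by
        rintro a ha rfl
        omega
      have h1 : ∀ a, pos a < pos e → (a ∈ T.erase e ↔ a ∈ T) := fun a ha => by
        simp [hlt a ha]
      have h2 : ∀ a, pos a < pos e → (a ∈ insert e T ↔ a ∈ T) := fun a ha => by
        simp [hlt a ha]
      rw [Uu_succ hpos, Uu_succ hpos, Vv_succ_mem h hpos (mem_insert_self e T),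
        Vv_succ_not_mem hpos (notMem_erase e T), Uu_congr h1, Uu_congr h2, Vv_congr h1,
        Vv_congr h2, Rh_congr h1, Rh_congr h2]
      simp only [Cand_congr (r := r) h1, Cand_congr (r := r) h2, notMem_erase, not_false_eq_true,
        true_and, mem_insert_self, not_true_eq_false, false_and, if_false, mul_one]
      by_cases hc : Cand r pos T e ∧ I (Rh r pos T e)
      · rw [if_pos hc, if_pos hc]
        linear_combination (Uu r pos I u (pos e) T * Vv r pos I v (pos e) T) * huv
      · rw [if_neg hc, if_neg hc]
        ring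
    · push Not at hn
      refine Eq.trans (Finset.sum_congr rfl fun T _ => ?_) ih
      congr 1
      unfold Uu Vv
      rw [pre_succ_none hn]
      congr 1
      refine Finset.prod_congr ?_ fun _ _ => rfl
      ext a
      have := hn a
      simp only [mem_filter, mem_univ, true_and]
      omega

end moment

end Crest.Agent.R305.Fresh618
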