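import Crest.Agent.R305.Fcl_310

/-!
# R305: the chain of lower-class flats seen by one class (for the OCP application)

For the residue `ρ` (mod 3) and the top row index `S`: the increasing chain
`g_{ρ+3S} ⊆ f_{ρ+3S-1} ⊆ g_{ρ+3(S-1)} ⊆ … ⊆ g_ρ ⊆ f_{ρ-1}` (`univ` if `ρ = 0`), then `univ`.
-/

set_option autoImplicit false

namespace Crest.Agent.R305.Phi655

open Finset Fcl310

variable {α : Type*} [DecidableEq α] [Fintype α]

/-- the flat above the row `t`: `f_{t-1}`, everything if `t = 0` -/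
def top (D : Data α) (A : Finset α) (t n : ℕ) : Finset α :=
  if t = 0 then univ else fl D A (t - 1) n

/-- the chain -/
def phi (D : Data α) (A B : Finset α) (n ρ S : ℕ) (j : ℕ) : Finset α :=
  if 2 * S + 2 ≤ j then univ
  else if j % 2 = 0 then gl D A B (ρ + 3 * (S - j / 2)) n
  else top D A (ρ + 3 * (S - j / 2)) n

variable (D : Data α) (A B : Finset α) (n ρ S : ℕ)

theorem phi_top {j : ℕ} (h : 2 * S + 2 ≤ j) : phi D A B n ρ S j = univ := by
  rw [phi, if_pos h]

theorem phi_even {s : ℕ} (h : s ≤ S) :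
    phi D A B n ρ S (2 * s) = gl D A B (ρ + 3 * (S - s)) n := by
  rw [phi, if_neg (by omega), if_pos (by omega)]
  congr 3
  omega

theorem phi_odd {s : ℕ} (h : s ≤ S) :
    phi D A B n ρ S (2 * s + 1) = top D A (ρ + 3 * (S - s)) n := by
  rw [phi, if_neg (by omega), if_neg (by omega)]
  congr 3
  omega

/-- `g_t ⊆ f_{t-1}` -/
theorem gl_subset_top (t : ℕ) : gl D A B t n ⊆ top D A t n := by
  unfold top
  split_ifs with h
  · exact subset_univ _
  · obtain ⟨s, rfl⟩ : ∃ s, t = s + 1 := ⟨t - 1, by omega⟩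
    exact gl_subset_fl D A B s n

/-- `f_{t+2} ⊆ g_t` -/
theorem top_subset_gl (t : ℕ) : top D A (t + 3) n ⊆ gl D A B t n := by
  unfold top
  rw [if_neg (by omega)]
  exact (fl_anti D A (show t + 1 ≤ t + 3 - 1 by omega) n).trans (fl_subset_gl D A B t n)

theorem phi_mono : Monotone (phi D A B n ρ S) := by
  refine monotone_nat_of_le_succ fun j => ?_
  show phi D A B n ρ S j ⊆ phi D A B n ρ S (j + 1)
  rcases Nat.lt_or_ge (j + 1) (2 * S + 2) with h | h
  swap
  · rw [phi_top D A B n ρ S h]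
    exact subset_univ _
  rcases Nat.even_or_odd' j with ⟨s, rfl | rfl⟩
  · rw [phi_even D A B n ρ S (by omega), phi_odd D A B n ρ S (by omega)]
    exact gl_subset_top D A B n _
  · rw [phi_odd D A B n ρ S (by omega), show 2 * s + 1 + 1 = 2 * (s + 1) by ring,
      phi_even D A B n ρ S (by omega)]
    have e : ρ + 3 * (S - s) = (ρ + 3 * (S - (s + 1))) + 3 := by omega
    rw [e]
    exact top_subset_gl D A B n _

/-- the own elements of the row `t` are inside `c n (top t)` -/
theorem mem_c_top {t : ℕ} {y : α} (h : y ∈ Dt D A t) : y ∈ D.c (D.cls y) (top D A t (D.cls y)) := by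
  unfold top
  split_ifs with h0
  · exact D.c_ext _ _ (mem_univ y)
  · obtain ⟨s, rfl⟩ : ∃ s, t = s + 1 := ⟨t - 1, by omega⟩
    exact mem_c_of_mem_St D (mem_sdiff.1 h).1

end Crest.Agent.R305.Phi655
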