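import Crest.Agent.R305.TopB_137
import Crest.Agent.R305.Phi_655
import Crest.Agent.R305.Ocp_228
import Crest.Agent.R305.Fcz_310

/-!
# R305 top assembly, P2: the expected number of harmed elements (helper310)

For fixed `T` and class `n`, the chain `phi` of lower-class flats looks at `Z`, `B` outside the
class `n` only; the harmed event of `Ocp_228` looks at `Z`, `B` inside the class `n` only. Resampling
`Z`, `B` inside the class gives `E |harmed| ≤ p (eta |En| + m p |On|)`.
-/

set_option autoImplicit false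

namespace Crest.Agent.R305.Harm310

open Finset Dep310 Kd447 Fcl310 Fcr310 TopDef137 Phi655 Ocp228

variable {α : Type*} [Fintype α] [DecidableEq α]

/-! ### resampling inside a fixed set -/

/-- resampling one sample: `F Z Z'` looks at `Z` outside `E` and at `Z'` inside `E` -/
theorem resample_one (p : α → ℝ) (E : Finset α) (F : Finset α → Finset α → ℝ)
    (h1 : ∀ Z Z1 Z', (∀ a, a ∉ E → (a ∈ Z ↔ a ∈ Z1)) → F Z Z' = F Z1 Z')
    (h2 : ∀ Z Z' Z1', (∀ a, a ∈ E → (a ∈ Z' ↔ a ∈ Z1')) → F Z Z' = F Z Z1') :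
    ∑ Z, w p Z * F Z Z = ∑ Z, ∑ Z', w p Z * w p Z' * F Z Z' := by
  rw [← sum_sum_const p (fun Z => F Z Z),
    ← sum_swap p (fun _ _ => E) (fun _ _ => rfl) (fun Z _ => F Z Z)]
  refine Finset.sum_congr rfl fun Z _ => Finset.sum_congr rfl fun Z' _ => ?_
  congr 1
  rw [h1 (s1 E Z Z') Z (s1 E Z Z') (fun a ha => by rw [mem_s1]; tauto)]
  exact h2 _ _ _ fun a ha => by rw [mem_s1]; tauto

/-- resampling two samples -/
theorem resample_two (p q : α → ℝ) (E : Finset α)
    (F : Finset α → Finset α → Finset α → Finset α → ℝ)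
    (h1 : ∀ Z Z1 B B1 Z' B', (∀ a, a ∉ E → (a ∈ Z ↔ a ∈ Z1)) → (∀ a, a ∉ E → (a ∈ B ↔ a ∈ B1)) →
      F Z B Z' B' = F Z1 B1 Z' B')
    (h2 : ∀ Z B Z' Z1' B' B1', (∀ a, a ∈ E → (a ∈ Z' ↔ a ∈ Z1')) →
      (∀ a, a ∈ E → (a ∈ B' ↔ a ∈ B1')) → F Z B Z' B' = F Z B Z1' B1') :
    ∑ Z, ∑ B, w p Z * w q B * F Z B Z B =
      ∑ Z, ∑ B, w p Z * w q B * ∑ Z', ∑ B', w p Z' * w q B' * F Z B Z' B' := by
  have e1 : ∀ B, ∑ Z, w p Z * F Z B Z B = ∑ Z, ∑ Z', w p Z * w p Z' * F Z B Z' B := by
    intro B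
    refine resample_one p E (fun Z Z' => F Z B Z' B) ?_ ?_
    · intro Z Z1 Z' h
      exact h1 _ _ _ _ _ _ h fun _ _ => Iff.rfl
    · intro Z Z' Z1' h
      exact h2 _ _ _ _ _ _ h fun _ _ => Iff.rfl
  have e2 : ∀ Z Z', ∑ B, w q B * F Z B Z' B = ∑ B, ∑ B', w q B * w q B' * F Z B Z' B' := by
    intro Z Z'
    refine resample_one q E (fun B B' => F Z B Z' B') ?_ ?_
    · intro B B1 B' h
      exact h1 _ _ _ _ _ _ (fun _ _ => Iff.rfl) h
    · intro B B' B1' h
      exact h2 _ _ _ _ _ _ (fun _ _ => Iff.rfl) h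
  calc ∑ Z, ∑ B, w p Z * w q B * F Z B Z B
      = ∑ B, w q B * ∑ Z, w p Z * F Z B Z B := by
        rw [Finset.sum_comm]
        refine Finset.sum_congr rfl fun B _ => ?_
        rw [Finset.mul_sum]
        exact Finset.sum_congr rfl fun Z _ => by ring
    _ = ∑ B, ∑ Z, ∑ Z', w q B * (w p Z * w p Z' * F Z B Z' B) := by
        refine Finset.sum_congr rfl fun B _ => ?_
        rw [e1, Finset.mul_sum]
        exact Finset.sum_congr rfl fun Z _ => by rw [Finset.mul_sum]
    _ = ∑ Z, ∑ Z', w p Z * w p Z' * ∑ B, w q B * F Z B Z' B := by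
        rw [Finset.sum_comm]
        refine Finset.sum_congr rfl fun Z _ => ?_
        rw [Finset.sum_comm]
        refine Finset.sum_congr rfl fun Z' _ => ?_
        rw [Finset.mul_sum]
        exact Finset.sum_congr rfl fun B _ => by ring
    _ = ∑ Z, ∑ Z', ∑ B, ∑ B', w p Z * w p Z' * (w q B * w q B' * F Z B Z' B') := by
        refine Finset.sum_congr rfl fun Z _ => Finset.sum_congr rfl fun Z' _ => ?_
        rw [e2, Finset.mul_sum]
        exact Finset.sum_congr rfl fun B _ => by rw [Finset.mul_sum]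
    _ = ∑ Z, ∑ B, w p Z * w q B * ∑ Z', ∑ B', w p Z' * w q B' * F Z B Z' B' := by
        refine Finset.sum_congr rfl fun Z _ => ?_
        rw [Finset.sum_comm]
        refine Finset.sum_congr rfl fun B _ => ?_
        rw [Finset.mul_sum]
        refine Finset.sum_congr rfl fun Z' _ => ?_
        rw [Finset.mul_sum]
        exact Finset.sum_congr rfl fun B' _ => by ring

/-! ### the event of `Ocp_228` -/

open Classical in
/-- the event of `Ocp_228` -/
noncomputable def ev (R : RankFn α) (K : ℕ) (O : Finset α) (g : Finset α → Finset α)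
    (f : ℕ → Finset α) (Z B : Finset α) : Finset α :=
  ((B \ Z) ∩ O).filter fun h => ∃ i, h ∈ R.kc K (g Z) (f (i + 1)) ∧
    h ∉ R.kc K (g Z) (f i) ∧ h ∈ R.cl (R.kc K (g Z) (f i) ∪
      (((B \ Z) ∩ O ∩ R.kc K (g Z) (f (i + 1))).erase h))

theorem ev_congr (R : RankFn α) (K : ℕ) (O : Finset α) (g : Finset α → Finset α)
    (f : ℕ → Finset α) {Z B Z' B' : Finset α} (hg : g Z = g Z')
    (h : (B \ Z) ∩ O = (B' \ Z') ∩ O) : ev R K O g f Z B = ev R K O g f Z' B' := by
  unfold ev
  rw [hg, h]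

variable (I : Inst α)

theorem mem_En {T : Finset α} {n : ℕ} {a : α} : a ∈ En I T n ↔ a ∈ cand I T ∧ I.cls a = n := by
  unfold En
  rw [mem_filter]

/-- the greedy basis of the sampled class contains the sampled elements of the optimum -/
theorem inter_On_subset (T Z : Finset α) (n : ℕ) :
    Z ∩ On I T n ⊆ grd I.M I.pos (Z ∩ En I T n) := by
  intro z hz
  rw [mem_inter] at hz
  have hE := On_subset_En I T n hz.2
  have ho := ((mem_On I).1 hz.2).1
  unfold opt grd at ho
  rw [mem_filter] at ho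
  unfold grd
  rw [mem_filter]
  refine ⟨mem_inter.2 ⟨hz.1, hE⟩, fun hc => ho.2 (I.M.cl_mono (below_mono _ ?_ _) hc)⟩
  intro a ha
  have := ((mem_En I).1 (mem_inter.1 ha).2).1
  unfold cand at this
  exact (mem_filter.1 this).1

/-- the chain seen by the class `n` -/
noncomputable def ph (k : ℕ) (T Z A B : Finset α) (n i : ℕ) : ℕ → Finset α :=
  phi (dat I k T Z) (As I T Z A) (Hs I T Z A B) n i (Fintype.card α)

theorem ph_mono (k : ℕ) (T Z A B : Finset α) (n i : ℕ) : Monotone (ph I k T Z A B n i) :=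
  phi_mono _ _ _ _ _ _

theorem Zs_congr {T Z Z' : Finset α} {n : ℕ}
    (hZ : ∀ a, a ∉ En I T n → (a ∈ Z ↔ a ∈ Z')) {m : ℕ} (hm : m ≠ n) :
    Zs I T Z m = Zs I T Z' m := by
  unfold Zs
  congr 1
  ext a
  rw [mem_inter, mem_inter]
  refine and_congr_left fun ha => hZ a ?_
  rw [mem_En] at ha ⊢
  rintro ⟨-, h⟩
  exact hm (ha.2.symm.trans h)

/-- the chain looks only at `Z`, `B` outside the class `n` -/
theorem ph_congr {k : ℕ} {T Z Z' A B B' : Finset α} {n : ℕ} (i : ℕ)
    (hZ : ∀ a, a ∉ En I T n → (a ∈ Z ↔ a ∈ Z')) (hB : ∀ a, a ∉ En I T n → (a ∈ B ↔ a ∈ B')) :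
    ph I k T Z A B n i = ph I k T Z' A B' n i := by
  have hlow : ∀ a, I.cls a < n → a ∉ En I T n := by
    intro a ha h
    rw [mem_En] at h
    omega
  have hZs : ∀ m < n, Zs I T Z m = Zs I T Z' m := fun m hm => Zs_congr I hZ (by omega)
  have hA : ∀ a, I.cls a < n → (a ∈ As I T Z A ↔ a ∈ As I T Z' A) := by
    intro a ha
    unfold As
    rw [mem_inter, mem_inter, mem_sdiff, mem_sdiff, hZ a (hlow a ha)]
  have hH : ∀ a, I.cls a < n → (a ∈ Hs I T Z A B ↔ a ∈ Hs I T Z' A B') := by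
    intro a ha
    unfold Hs
    rw [mem_sdiff, mem_sdiff, mem_inter, mem_inter, mem_sdiff, mem_sdiff, hZ a (hlow a ha),
      hB a (hlow a ha)]
  have e1 : ∀ t, gl (dat I k T Z) (As I T Z A) (Hs I T Z A B) t n =
      gl (dat I k T Z') (As I T Z' A) (Hs I T Z' A B') t n := fun t =>
    Fcz310.gl_congr hZs hA hH t
  have e2 : ∀ t, fl (dat I k T Z) (As I T Z A) t n = fl (dat I k T Z') (As I T Z' A) t n :=
    fun t => Fcz310.fl_congr hZs hA t
  funext j
  unfold ph phi top
  simp only [e1, e2]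

open Classical in
/-- **harmed elements are harmed in the sense of `Ocp_228`** -/
theorem harmed_subset_ev {k : ℕ} (hk : 2 ≤ k) (T Z A B : Finset α) (i n : ℕ) :
    harmed I k T Z A B i n ⊆ ev I.M k (On I T n) (fun Z => grd I.M I.pos (Z ∩ En I T n))
      (ph I k T Z A B n i) Z B := by
  intro h hh
  unfold harmed good at hh
  rw [mem_filter, mem_filter, mem_inter] at hh
  obtain ⟨⟨⟨hH, hO⟩, t', ht', hr', hK'⟩, t, ht, hr, hc⟩ := hh
  have htt : t' = t := exit_unique _ hr' hr
  subst htt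
  have hcls : I.cls h = n := ((mem_On I).1 hO).2.2
  have hcand : h ∈ cand I T := On_subset_cand I T n hO
  -- the row index is small
  obtain ⟨s, hs, hsr⟩ := exits (M := I.M) (cls := I.cls) (k := k) (Zs := Zs I T Z) hk
    (fun n => r_Zs I T Z n) (As I T Z A) (notMem_cl_empty_of_cand I hcand)
  have hst : s = t' := exit_unique _ hsr hr
  rw [hst] at hs
  set S := Fintype.card α with hS
  have hS' : t' = i + 3 * (S - (S - (t' - i) / 3)) := by omega
  have hle : S - (t' - i) / 3 ≤ S := Nat.sub_le _ _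
  have e0 : ph I k T Z A B n i (2 * (S - (t' - i) / 3)) =
      gl (dat I k T Z) (As I T Z A) (Hs I T Z A B) t' n := by
    unfold ph
    rw [phi_even _ _ _ _ _ _ hle, ← hS']
  have e1 : ph I k T Z A B n i (2 * (S - (t' - i) / 3) + 1) =
      top (dat I k T Z) (As I T Z A) t' n := by
    unfold ph
    rw [phi_odd _ _ _ _ _ _ hle, ← hS']
  have hX1 : ∀ y ∈ Row I k T Z A t', I.cls y = n →
      y ∈ I.M.kc k (Zs I T Z n) (top (dat I k T Z) (As I T Z A) t' n) := by
    intro y hy hyn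
    have := mem_c_top (dat I k T Z) (As I T Z A) hy
    have e3 : (dat I k T Z).cls y = n := hyn
    rw [e3] at this
    exact this
  have hHB : ∀ y, y ∈ Hs I T Z A B → y ∈ B \ Z := by
    intro y hy
    unfold Hs at hy
    rw [mem_sdiff, mem_inter, mem_sdiff] at hy
    exact mem_sdiff.2 ⟨hy.1.1, hy.1.2.2⟩
  unfold ev
  rw [mem_filter, mem_inter]
  refine ⟨⟨hHB h hH, hO⟩, 2 * (S - (t' - i) / 3), ?_, ?_, ?_⟩
  · rw [e1]
    exact hX1 h hr hcls
  · rw [e0]
    exact hK'
  · rw [e0, e1]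
    refine I.M.cl_mono (union_subset_union_right (erase_subset_erase _ ?_)) hc
    intro y hy
    unfold Nt at hy
    rw [mem_inter, mem_inter] at hy
    rw [mem_inter, mem_inter]
    exact ⟨⟨hHB y hy.1.1, hy.1.2⟩, hX1 y hy.2 ((mem_On I).1 hy.1.2).2.2⟩

/-- **P2**: the expected number of harmed elements -/
theorem harm_expect {k m : ℕ} (hk : 2 ≤ k) {x p : ℝ} (hx0 : 0 < x) (hx1 : x ≤ 1) (hp0 : 0 ≤ p)
    (hp1 : p ≤ 1) (hm : 2 * (k : ℝ) ≤ x * m) (T : Finset α) (n i : ℕ)
    (hcode : ∀ f : ℕ → Finset α, Monotone f → ∀ T', CodeP I.M k (En I T n) f T') :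
    ∑ Z, w (fun _ => x) Z * ∑ A, ∑ B, w (fun _ => p) A * w (fun _ => p) B *
      ((harmed I k T Z A B i n).card : ℝ) ≤
      p * (eta k x * (En I T n).card + m * p * (On I T n).card) := by
  set E := En I T n with hE
  set O := On I T n with hO
  set g : Finset α → Finset α := fun Z => grd I.M I.pos (Z ∩ E) with hg
  set C : ℝ := p * (eta k x * E.card + m * p * O.card) with hC
  have hwx : ∀ Z : Finset α, 0 ≤ w (fun _ => x) Z := w_nonneg (fun _ => hx0.le) (fun _ => hx1)
  have hwp : ∀ Z : Finset α, 0 ≤ w (fun _ => p) Z := w_nonneg (fun _ => hp0) (fun _ => hp1)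
  -- for a fixed chain
  have key : ∀ f : ℕ → Finset α, Monotone f →
      ∑ Z, ∑ B, w (fun _ => x) Z * w (fun _ => p) B * ((ev I.M k O g f Z B).card : ℝ) ≤ C := by
    intro f hf
    exact ocp_code (R := I.M) (by omega) hx0 hx1 hp0 hp1 hm (On_subset_En I T n)
      (g := g) (fun Z => filter_subset _ _) (fun Z => inter_On_subset I T Z n) hf (hcode f hf)
  -- for a fixed sample `A`
  have hA : ∀ A, ∑ Z, ∑ B, w (fun _ => x) Z * w (fun _ => p) B *
      ((harmed I k T Z A B i n).card : ℝ) ≤ C := by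
    intro A
    have h1 : ∑ Z, ∑ B, w (fun _ => x) Z * w (fun _ => p) B *
        ((harmed I k T Z A B i n).card : ℝ) ≤
        ∑ Z, ∑ B, w (fun _ => x) Z * w (fun _ => p) B *
          ((ev I.M k O g (ph I k T Z A B n i) Z B).card : ℝ) := by
      refine Finset.sum_le_sum fun Z _ => Finset.sum_le_sum fun B _ => ?_
      refine mul_le_mul_of_nonneg_left ?_ (mul_nonneg (hwx Z) (hwp B))
      exact_mod_cast Finset.card_le_card (harmed_subset_ev I hk T Z A B i n)
    refine h1.trans ?_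
    have h2 := resample_two (fun _ : α => x) (fun _ : α => p) E
      (fun Z B Z' B' => ((ev I.M k O g (ph I k T Z A B n i) Z' B').card : ℝ)) (by
        intro Z Z1 B B1 Z' B' hZ hB
        rw [ph_congr I i hZ hB]) (by
        intro Z B Z' Z1' B' B1' hZ hB
        rw [ev_congr I.M k O g _ (Z := Z') (Z' := Z1') (B := B') (B' := B1')]
        · simp only [hg]
          congr 1
          ext a
          rw [mem_inter, mem_inter]
          exact and_congr_left fun ha => hZ a ha
        · ext a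
          simp only [mem_inter, mem_sdiff]
          refine and_congr_left fun ha => ?_
          have haE : a ∈ E := On_subset_En I T n ha
          rw [hZ a haE, hB a haE])
    rw [h2]
    have h3 : ∀ Z B, ∑ Z', ∑ B', w (fun _ => x) Z' * w (fun _ => p) B' *
        ((ev I.M k O g (ph I k T Z A B n i) Z' B').card : ℝ) ≤ C := fun Z B =>
      key _ (ph_mono I k T Z A B n i)
    refine (Finset.sum_le_sum fun Z _ => Finset.sum_le_sum fun B _ =>
      mul_le_mul_of_nonneg_left (h3 Z B) (mul_nonneg (hwx Z) (hwp B))).trans ?_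
    have h4 : ∑ Z : Finset α, ∑ B : Finset α, w (fun _ => x) Z * w (fun _ => p) B * C = C := by
      have h5 : ∀ Z : Finset α, ∑ B : Finset α, w (fun _ => x) Z * w (fun _ => p) B * C =
          w (fun _ => x) Z * C := by
        intro Z
        rw [← Finset.sum_mul, ← Finset.mul_sum, sum_w, mul_one]
      simp only [h5]
      rw [← Finset.sum_mul, sum_w, one_mul]
    rw [h4]
  -- sum over `A`
  have h6 : ∑ Z, w (fun _ => x) Z * ∑ A, ∑ B, w (fun _ => p) A * w (fun _ => p) B *
      ((harmed I k T Z A B i n).card : ℝ) =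
      ∑ A, w (fun _ => p) A * ∑ Z, ∑ B, w (fun _ => x) Z * w (fun _ => p) B *
        ((harmed I k T Z A B i n).card : ℝ) := by
    simp only [Finset.mul_sum]
    rw [Finset.sum_comm]
    refine Finset.sum_congr rfl fun A _ => Finset.sum_congr rfl fun Z _ =>
      Finset.sum_congr rfl fun B _ => by ring
  rw [h6]
  refine (Finset.sum_le_sum fun A _ => mul_le_mul_of_nonneg_left (hA A) (hwp A)).trans ?_
  rw [← Finset.sum_mul, sum_w, one_mul]

end Crest.Agent.R305.Harm310
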