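import Crest.Agent.R305.RedFam_396
import Crest.Agent.R305.Kd_447

/-!
R305 / S0468: the greedy / online side (helper755).

`RowBasis` describes every possible accepted set of the rule which serves rows greedily, each row
over its own contracted flat, for every arrival order.  `concl_of_clsRule` turns a rule whose data
depend on the weights only through the class vector `q e = none` (`w e ≤ 0`) or
`q e = some (Int.log Λ (w e))` into the literal conclusion of S0468 (with a general constant).
-/

set_option autoImplicit false
universe u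

namespace Crest.Agent.R305.Rows755

open Crest.OnlineMatroid Crest.Agent.R305.Kd447 Crest.Agent.R305.Red396 MeasureTheory

variable {k : ℕ}

/-- feasible sets of the row rule: every row independent over its base -/
structure RowIndep (R : RankFn (Fin k)) (U : Finset (Fin k)) (row : Fin k → Option ℕ)
    (base : ℕ → Finset (Fin k)) (A : Finset (Fin k)) : Prop where
  sub : A ⊆ U
  row_ne : ∀ a ∈ A, row a ≠ none
  indep : ∀ t, R.rr (base t) (A.filter (fun a => row a = some t)) =
    (A.filter (fun a => row a = some t)).card

/-- possible accepted sets of the row rule: every row is a basis of the online elements of the row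
over its base -/
structure RowBasis (R : RankFn (Fin k)) (U : Finset (Fin k)) (row : Fin k → Option ℕ)
    (base : ℕ → Finset (Fin k)) (A : Finset (Fin k)) : Prop where
  sub : A ⊆ U
  row_ne : ∀ a ∈ A, row a ≠ none
  indep : ∀ t, R.rr (base t) (A.filter (fun a => row a = some t)) =
    (A.filter (fun a => row a = some t)).card
  span : ∀ u ∈ U, ∀ t, row u = some t → u ∈ R.cl (base t ∪ A.filter (fun a => row a = some t))

section Det

variable (R : RankFn (Fin k)) {U : Finset (Fin k)} {row : Fin k → Option ℕ}
    {base : ℕ → Finset (Fin k)}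

theorem rowIndep_empty : RowIndep R U row base ∅ :=
  ⟨by simp, by simp, by simp⟩

/-- rows of a feasible set are jointly independent -/
theorem RowIndep.r_eq_card {R : RankFn (Fin k)} {X : Finset (Fin k)}
    (h : RowIndep R U row base X)
    (chain : ∀ a ∈ U, ∀ b ∈ U, ∀ t t', row a = some t → row b = some t' → t < t' →
      b ∈ R.cl (base t)) : R.r X = X.card := by
  classical
  -- the part of `X` in the rows `≥ t`
  set up : ℕ → Finset (Fin k) := fun t => X.filter (fun a => ∃ s, row a = some s ∧ t ≤ s) with hup
  have key : ∀ n t, (∀ a ∈ X, ∀ s, row a = some s → s < t + n) →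
      R.r (up t) = (up t).card := by
    intro n
    induction n with
    | zero =>
      intro t ht
      have : up t = ∅ := by
        rw [hup]
        simp only [Finset.filter_eq_empty_iff]
        rintro a ha ⟨s, hs, hts⟩
        have := ht a ha s hs
        omega
      rw [this, R.r_empty]; rfl
    | succ n ih =>
      intro t ht
      have ih' := ih (t + 1) (fun a ha s hs => by have := ht a ha s hs; omega)
      set Xt := X.filter (fun a => row a = some t) with hXt
      have hsplit : up t = up (t + 1) ∪ Xt := by
        ext a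
        simp only [hup, hXt, Finset.mem_filter, Finset.mem_union]
        constructor
        · rintro ⟨haX, s, hs, hts⟩
          rcases Nat.eq_or_lt_of_le hts with h1 | h1
          · right; subst h1; exact ⟨haX, hs⟩
          · left; exact ⟨haX, s, hs, h1⟩
        · rintro (⟨haX, s, hs, hts⟩ | ⟨haX, hs⟩)
          · exact ⟨haX, s, hs, by omega⟩
          · exact ⟨haX, t, hs, le_refl _⟩
      have hdisj : Disjoint (up (t + 1)) Xt := by
        rw [Finset.disjoint_left]
        intro a ha1 ha2
        simp only [hup, hXt, Finset.mem_filter] at ha1 ha2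
        obtain ⟨_, s, hs, hts⟩ := ha1
        rw [ha2.2] at hs
        have := Option.some.inj hs
        omega
      rw [hsplit, Finset.card_union_of_disjoint hdisj, ← ih', ← R.r_add_rr]
      congr 1
      rcases Finset.eq_empty_or_nonempty Xt with he | hne
      · rw [he]; simp
      · obtain ⟨a, ha⟩ := hne
        have ha' := Finset.mem_filter.1 ha
        have hsub : up (t + 1) ⊆ R.cl (base t) := by
          intro b hb
          simp only [hup, Finset.mem_filter] at hb
          obtain ⟨hbX, s, hs, hts⟩ := hb
          exact chain a (h.sub ha'.1) b (h.sub hbX) t s ha'.2 hs hts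
        apply le_antisymm (R.rr_le_card _ _)
        rw [← h.indep t]
        have h1 : R.rr (base t ∪ up (t + 1)) Xt = R.rr (base t) Xt := by
          have e1 : R.cl (base t ∪ up (t + 1)) = R.cl (base t) := by
            apply Finset.Subset.antisymm
            · rw [R.cl_subset_iff]
              exact Finset.union_subset (R.subset_cl _) hsub
            · exact R.cl_mono Finset.subset_union_left
          rw [← R.rr_cl_left, e1, R.rr_cl_left]
        rw [← hXt, ← h1]
        exact R.rr_anti Finset.subset_union_right _
  obtain ⟨N, hN⟩ : ∃ N, ∀ a ∈ X, ∀ s, row a = some s → s < N := by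
    refine ⟨(X.sup fun a => (row a).getD 0) + 1, fun a ha s hs => ?_⟩
    have := Finset.le_sup (f := fun a => (row a).getD 0) ha
    simp only [hs, Option.getD_some] at this
    omega
  have h0 := key N 0 (by simpa using hN)
  have : up 0 = X := by
    ext a
    simp only [hup, Finset.mem_filter, Nat.zero_le, and_true, and_iff_left_iff_imp]
    intro ha
    exact Option.ne_none_iff_exists'.1 (h.row_ne a ha)
  rwa [this] at h0

/-- the final sets of the greedy rule are bases of the rows -/
theorem rowBasis_of_isFinal {A : Finset (Fin k)}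
    (hA : IsFinal (U.filter (fun u => row u ≠ none)) (RowIndep R U row base) A) :
    RowBasis R U row base A := by
  classical
  obtain ⟨h, hf⟩ := hA
  refine ⟨h.sub, h.row_ne, h.indep, ?_⟩
  intro u hu t hut
  by_cases huA : u ∈ A
  · apply R.subset_cl
    exact Finset.mem_union_right _ (Finset.mem_filter.2 ⟨huA, hut⟩)
  · obtain ⟨X, hXA, hX, hXu⟩ := hf u (Finset.mem_filter.2 ⟨hu, by rw [hut]; simp⟩) huA
    by_contra hcl
    apply hXu
    refine ⟨Finset.insert_subset hu hX.sub, ?_, ?_⟩
    · intro a ha
      rcases Finset.mem_insert.1 ha with rfl | ha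
      · rw [hut]; simp
      · exact hX.row_ne a ha
    · intro s
      by_cases hst : s = t
      · subst hst
        have huX : u ∉ X := fun h' => huA (hXA h')
        rw [Finset.filter_insert, if_pos hut]
        have hnot : u ∉ X.filter (fun a => row a = some s) := fun h' =>
          huX (Finset.mem_filter.1 h').1
        rw [Finset.card_insert_of_notMem hnot, ← hX.indep s]
        have hcl' : u ∉ R.cl (base s ∪ X.filter (fun a => row a = some s)) := by
          intro h'
          apply hcl
          refine R.cl_mono ?_ h'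
          exact Finset.union_subset_union_right (Finset.filter_subset_filter _ hXA)
        rw [R.notMem_cl] at hcl'
        have e1 : base s ∪ insert u (X.filter (fun a => row a = some s)) =
            insert u (base s ∪ X.filter (fun a => row a = some s)) := by
          rw [Finset.union_insert]
        have e2 := R.r_add_rr (base s) (insert u (X.filter (fun a => row a = some s)))
        have e3 := R.r_add_rr (base s) (X.filter (fun a => row a = some s))
        rw [e1] at e2
        omega
      · rw [Finset.filter_insert, if_neg]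
        · exact hX.indep s
        · rw [hut]; intro h'; exact hst (Option.some.inj h').symm

/-- `RowBasis` in rank form, one row -/
theorem RowBasis.r_add {R : RankFn (Fin k)} {A : Finset (Fin k)} (h : RowBasis R U row base A)
    (t : ℕ) : R.r (base t ∪ A.filter (fun a => row a = some t)) =
      R.r (base t) + (A.filter (fun a => row a = some t)).card := by
  rw [← h.indep t, R.r_add_rr]

theorem RowBasis.row_subset_cl {R : RankFn (Fin k)} {A : Finset (Fin k)}
    (h : RowBasis R U row base A) (t : ℕ) :
    U.filter (fun a => row a = some t) ⊆ R.cl (base t ∪ A.filter (fun a => row a = some t)) := by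
  intro u hu
  rw [Finset.mem_filter] at hu
  exact h.span u hu.1 t hu.2

theorem RowBasis.filter_subset {R : RankFn (Fin k)} {A : Finset (Fin k)}
    (h : RowBasis R U row base A) (t : ℕ) :
    A.filter (fun a => row a = some t) ⊆ U.filter (fun a => row a = some t) :=
  Finset.filter_subset_filter _ h.sub

end Det

/-! ### weights and class vectors -/

/-- class vector of a weight vector -/
noncomputable def qv (Λ : ℕ) (w : Fin k → ℝ) : Fin k → Option ℤ :=
  fun e => if 0 < w e then some (Int.log Λ (w e)) else none

/-- value of a class -/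
noncomputable def val (Λ : ℕ) (o : Option ℤ) : ℝ := o.elim 0 (fun n => (Λ : ℝ) ^ n)

@[simp] theorem val_none (Λ : ℕ) : val Λ none = 0 := rfl

@[simp] theorem val_some (Λ : ℕ) (n : ℤ) : val Λ (some n) = (Λ : ℝ) ^ n := rfl

theorem val_nonneg (Λ : ℕ) (o : Option ℤ) : 0 ≤ val Λ o := by
  cases o with
  | none => simp
  | some n => simp only [val_some]; positivity

theorem val_qv_le {Λ : ℕ} (hΛ : 1 < Λ) {w : Fin k → ℝ} (hw : ∀ e, 0 ≤ w e) (e : Fin k) :
    val Λ (qv Λ w e) ≤ w e := by
  unfold qv
  split_ifs with h
  · exact Int.zpow_log_le_self hΛ h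
  · simpa using hw e

theorem le_mul_val_qv {Λ : ℕ} (hΛ : 1 < Λ) (w : Fin k → ℝ) (e : Fin k) :
    w e ≤ Λ * val Λ (qv Λ w e) := by
  unfold qv
  have h0 : (0 : ℝ) < (Λ : ℝ) := by exact_mod_cast (by omega : 0 < Λ)
  split_ifs with h
  · have := (Int.lt_zpow_succ_log_self hΛ (w e)).le
    rw [zpow_add_one₀ h0.ne'] at this
    simpa [mul_comm] using this
  · simpa using not_lt.1 h

theorem qv_eq_none_iff {Λ : ℕ} {w : Fin k → ℝ} {e : Fin k} : qv Λ w e = none ↔ w e ≤ 0 := by
  unfold qv
  split_ifs with h
  · simp [h]
  · simpa using h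

theorem measurableSet_qv {Λ : ℕ} (hΛ : 1 < Λ) (P : (Fin k → Option ℤ) → Prop) :
    MeasurableSet {w : Fin k → ℝ | P (qv Λ w)} := by
  have : {w : Fin k → ℝ | P (qv Λ w)} =
      ⋃ q : (Fin k → Option ℤ), {w | qv Λ w = q} ∩ {_w | P q} := by
    ext w; simp
  rw [this]
  refine MeasurableSet.iUnion fun q => MeasurableSet.inter ?_ (MeasurableSet.const _)
  have h2 : {w : Fin k → ℝ | qv Λ w = q} = ⋂ e, {w | qv Λ w e = q e} := by
    ext w
    simp only [Set.mem_ofPred_eq, Set.mem_iInter]
    exact funext_iff
  rw [h2]
  refine MeasurableSet.iInter fun e => ?_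
  have hm : Measurable (fun w : Fin k → ℝ => w e) := measurable_pi_apply e
  have hpos : MeasurableSet {w : Fin k → ℝ | 0 < w e} := measurableSet_lt measurable_const hm
  cases hq : q e with
  | none =>
    have : {w : Fin k → ℝ | qv Λ w e = none} = {w | 0 < w e}ᶜ := by
      ext w
      simp only [Set.mem_ofPred_eq, Set.mem_compl_iff, not_lt]
      exact qv_eq_none_iff
    rw [this]
    exact hpos.compl
  | some n =>
    have : {w : Fin k → ℝ | qv Λ w e = some n} =
        {w | 0 < w e} ∩ ({w | (Λ : ℝ) ^ n ≤ w e} ∩ {w | w e < (Λ : ℝ) ^ (n + 1)}) := by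
      ext w
      simp only [Set.mem_ofPred_eq, Set.mem_inter_iff]
      unfold qv
      by_cases h : 0 < w e
      · simp only [h, if_true, Option.some.injEq, true_and]
        rw [Int.zpow_le_iff_le_log hΛ h, Int.lt_zpow_iff_log_lt hΛ h]
        omega
      · simp [h]
    rw [this]
    exact hpos.inter ((measurableSet_le measurable_const hm).inter
      (measurableSet_lt hm measurable_const))

/-! ### the rule -/

/-- the data of a row rule driven by class vectors -/
structure ClsRule (k : ℕ) (M : Matroid (Fin k)) where
  Ω : Type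
  fin : Fintype Ω
  μ : Ω → ℝ
  μ_nonneg : ∀ r, 0 ≤ μ r
  μ_sum : ∑ r, μ r = 1
  /-- sampled elements: their sample weight is used -/
  T : Ω → Finset (Fin k)
  /-- online elements: their value is used -/
  U : Ω → Finset (Fin k)
  disj : ∀ r, ∀ e ∈ U r, e ∉ T r
  row : Ω → (Fin k → Option ℤ) → Fin k → Option ℕ
  base : Ω → (Fin k → Option ℤ) → ℕ → Finset (Fin k)
  row_loc : ∀ r q q' a, (∀ e, e ∈ T r ∨ e = a → q e = q' e) → row r q a = row r q' a
  base_loc : ∀ r q q' t, (∀ e ∈ T r, q e = q' e) → base r q t = base r q' t
  chain : ∀ r q, ∀ a ∈ U r, ∀ b ∈ U r, ∀ t t', row r q a = some t → row r q b = some t' →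
    t < t' → b ∈ (ofMatroid M).cl (base r q t)

attribute [instance] ClsRule.fin

theorem famCore_of_clsRule {M : Matroid (Fin k)} (O : ClsRule k M) {Λ : ℕ} (hΛ : 1 < Λ)
    {c : ℝ} (hc : 0 ≤ c)
    (hval : ∀ q : Fin k → Option ℤ, ∀ I : Finset (Fin k), M.Indep (I : Set (Fin k)) →
      (∀ e ∈ I, q e ≠ none) → ∃ lb : O.Ω → ℝ,
        (∀ r A, RowBasis (ofMatroid M) (O.U r) (O.row r q) (O.base r q) A →
          lb r ≤ ∑ e ∈ A, val Λ (q e)) ∧
        c * ∑ e ∈ I, val Λ (q e) ≤ ∑ r, O.μ r * lb r) :
    FamCore k M (ENNReal.ofReal (c / Λ)) := by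
  classical
  have hΛ0 : (0 : ℝ) < (Λ : ℝ) := by exact_mod_cast (by omega : 0 < Λ)
  -- the family; an element without a row is never accepted
  set F : O.Ω → (Fin k → ℝ) → Finset (Fin k) → Prop := fun r w X =>
    RowIndep (ofMatroid M) (O.U r) (O.row r (qv Λ w)) (O.base r (qv Λ w)) X with hF
  refine ⟨O.Ω, O.fin, fun r => ENNReal.ofReal (O.μ r), O.T, O.U, F, ?_, O.disj, ?_, ?_, ?_, ?_, ?_⟩
  · rw [← ENNReal.ofReal_sum_of_nonneg (fun r _ => O.μ_nonneg r), O.μ_sum, ENNReal.ofReal_one]
  · intro r w X h
    refine ⟨h.sub, ?_⟩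
    rw [indep_iff_r]
    exact h.r_eq_card (O.chain r (qv Λ w))
  · intro r w
    exact rowIndep_empty _
  · intro r w w' X hw h
    have hq : ∀ e, (e ∈ O.T r ∨ e ∈ X) → qv Λ w e = qv Λ w' e := by
      intro e he
      simp only [qv, hw e he]
    have hrow : ∀ a ∈ X, O.row r (qv Λ w) a = O.row r (qv Λ w') a := by
      intro a ha
      refine O.row_loc r _ _ a ?_
      rintro e (he | rfl)
      · exact hq e (Or.inl he)
      · exact hq e (Or.inr ha)
    have hbase : ∀ t, O.base r (qv Λ w) t = O.base r (qv Λ w') t :=
      fun t => O.base_loc r _ _ t fun e he => hq e (Or.inl he)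
    have hfil : ∀ t, X.filter (fun a => O.row r (qv Λ w) a = some t) =
        X.filter (fun a => O.row r (qv Λ w') a = some t) := by
      intro t
      refine Finset.filter_congr fun a ha => ?_
      rw [hrow a ha]
    refine ⟨h.sub, ?_, ?_⟩
    · intro a ha
      rw [← hrow a ha]
      exact h.row_ne a ha
    · intro t
      rw [← hfil t, ← hbase t]
      exact h.indep t
  · intro r X
    exact measurableSet_qv hΛ (fun q =>
      RowIndep (ofMatroid M) (O.U r) (O.row r q) (O.base r q) X)
  · intro w hw
    unfold optWeight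
    rw [ENNReal.mul_iSup]
    refine iSup_le fun I => ?_
    by_cases hI : I ∈ {I : Finset (Fin k) | M.Indep (I : Set (Fin k))}
    swap
    · simp [hI]
    simp only [hI, iSup_pos]
    have hIind : M.Indep (I : Set (Fin k)) := hI
    -- drop the elements of weight zero
    set I' := I.filter (fun e => qv Λ w e ≠ none) with hI'
    have hI'ind : M.Indep (I' : Set (Fin k)) :=
      hIind.subset (by exact_mod_cast Finset.filter_subset _ _)
    obtain ⟨lb, hlb, hsum⟩ := hval (qv Λ w) I' hI'ind (fun e he => (Finset.mem_filter.1 he).2)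
    have hsumI : ∑ e ∈ I, w e ≤ Λ * ∑ e ∈ I', val Λ (qv Λ w e) := by
      rw [Finset.mul_sum, hI', Finset.sum_filter]
      refine Finset.sum_le_sum fun e _ => ?_
      by_cases he : qv Λ w e = none
      · rw [if_neg (not_not.2 he)]
        exact qv_eq_none_iff.1 he
      · rw [if_pos he]
        exact le_mul_val_qv hΛ w e
    calc ENNReal.ofReal (c / Λ) * ENNReal.ofReal (∑ e ∈ I, w e)
        = ENNReal.ofReal (c / Λ * ∑ e ∈ I, w e) := by
          rw [ENNReal.ofReal_mul (by positivity)]
      _ ≤ ENNReal.ofReal (∑ r, O.μ r * max (lb r) 0) := by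
          refine ENNReal.ofReal_le_ofReal ?_
          calc c / Λ * ∑ e ∈ I, w e ≤ c / Λ * (Λ * ∑ e ∈ I', val Λ (qv Λ w e)) := by
                gcongr
            _ = c * ∑ e ∈ I', val Λ (qv Λ w e) := by
                field_simp
            _ ≤ ∑ r, O.μ r * lb r := hsum
            _ ≤ ∑ r, O.μ r * max (lb r) 0 := by
                refine Finset.sum_le_sum fun r _ => ?_
                exact mul_le_mul_of_nonneg_left (le_max_left _ _) (O.μ_nonneg r)
      _ = ∑ r, ENNReal.ofReal (O.μ r) * ENNReal.ofReal (max (lb r) 0) := by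
          rw [ENNReal.ofReal_sum_of_nonneg]
          · refine Finset.sum_congr rfl fun r _ => ?_
            rw [ENNReal.ofReal_mul (O.μ_nonneg r)]
          · intro r _
            exact mul_nonneg (O.μ_nonneg r) (le_max_right _ _)
      _ ≤ ∑ r, ENNReal.ofReal (O.μ r) * ⨅ A : {A : Finset (Fin k) // IsFinal (O.U r) (F r w) A},
            ENNReal.ofReal (∑ e ∈ A.1, w e) := by
          refine Finset.sum_le_sum fun r _ => mul_le_mul_right ?_ _
          refine le_iInf fun A => ?_
          refine ENNReal.ofReal_le_ofReal ?_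
          have hA : RowBasis (ofMatroid M) (O.U r) (O.row r (qv Λ w))
              (O.base r (qv Λ w)) A.1 := by
            refine rowBasis_of_isFinal _ ⟨A.2.1, fun a ha hn => ?_⟩
            exact A.2.2 a (Finset.mem_filter.1 ha).1 hn
          have h1 := hlb r A.1 hA
          have h2 : ∑ e ∈ A.1, val Λ (qv Λ w e) ≤ ∑ e ∈ A.1, w e :=
            Finset.sum_le_sum fun e _ => val_qv_le hΛ hw e
          refine max_le (h1.trans h2) ?_
          exact Finset.sum_nonneg fun e _ => hw e

theorem concl_of_clsRule {M : Matroid (Fin k)} (O : ClsRule k M) {Λ : ℕ} (hΛ : 1 < Λ)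
    {c : ℝ} (hc : 0 ≤ c)
    (hval : ∀ q : Fin k → Option ℤ, ∀ I : Finset (Fin k), M.Indep (I : Set (Fin k)) →
      (∀ e ∈ I, q e ≠ none) → ∃ lb : O.Ω → ℝ,
        (∀ r A, RowBasis (ofMatroid M) (O.U r) (O.row r q) (O.base r q) A →
          lb r ≤ ∑ e ∈ A, val Λ (q e)) ∧
        c * ∑ e ∈ I, val Λ (q e) ≤ ∑ r, O.μ r * lb r) :
    Concl.{u} k M (ENNReal.ofReal (c / Λ)) :=
  concl_of_secCore M _ ENNReal.ofReal_ne_top
    (secCore_of_famCore M _ (famCore_of_clsRule O hΛ hc hval))

end Crest.Agent.R305.Rows755
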