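import Crest.Agent.R305.Row3_655
import Crest.Agent.R305.TopDef_137
import Crest.Agent.R305.Rows_755

/-!
# R305: (P3) of the top assembly, deterministic row accounting in the names of `TopDef_137`
-/

set_option autoImplicit false

namespace Crest.Agent.R305.P3_655

open Finset Dep310 Kd447 Kd447.RankFn Fcl310 Fcr310 TopDef137 Row2_655 Row3_655

variable {α : Type*} [Fintype α] [DecidableEq α] (I : Inst α)

theorem Zs_subset_En (T Z : Finset α) (n : ℕ) : Zs I T Z n ⊆ Z ∩ En I T n := by
  unfold Zs grd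
  exact filter_subset _ _

theorem mem_Zs {T Z : Finset α} {n : ℕ} {a : α} (h : a ∈ Zs I T Z n) :
    a ∈ Z ∧ a ∈ cand I T ∧ I.cls a = n := by
  have := Zs_subset_En I T Z n h
  rw [mem_inter, En, mem_filter] at this
  exact ⟨this.1, this.2.1, this.2.2⟩

/-- heavier online elements and heavier generators are inside `bad` -/
theorem card_heavy_le (T Z A B : Finset α) (n N : ℕ) :
    ((Hs I T Z A B).filter fun a => n < I.cls a).card +
      ((Ico (n + 1) N).biUnion (Zs I T Z) ∪ (As I T Z A).filter fun a => n < I.cls a).card ≤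
      (bad I T Z A B n).card := by
  rw [← card_union_of_disjoint]
  · refine card_le_card ?_
    intro a ha
    rw [mem_union, mem_union, mem_filter, mem_filter, mem_biUnion] at ha
    rw [bad, mem_filter, mem_inter, mem_union, mem_union]
    rcases ha with ⟨h1, h2⟩ | ⟨j, hj, h1⟩ | ⟨h1, h2⟩
    · rw [Hs, mem_sdiff, mem_inter, mem_sdiff] at h1
      exact ⟨⟨h1.1.2.1, Or.inr h1.1.1⟩, h2⟩
    · obtain ⟨h3, h4, h5⟩ := mem_Zs I h1
      rw [mem_Ico] at hj
      exact ⟨⟨h4, Or.inl (Or.inl h3)⟩, by omega⟩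
    · rw [As, mem_inter, mem_sdiff] at h1
      exact ⟨⟨h1.2.1, Or.inl (Or.inr h1.1)⟩, h2⟩
  · rw [disjoint_left]
    intro a ha hb
    rw [mem_filter, Hs, mem_sdiff, mem_inter, mem_sdiff] at ha
    rw [mem_union, mem_biUnion, mem_filter] at hb
    rcases hb with ⟨j, hj, h1⟩ | ⟨h1, h2⟩
    · exact ha.1.1.2.2 (mem_Zs I h1).1
    · rw [As, mem_inter] at h1
      exact ha.1.2 h1.1

/-- **(P3)** deterministic row accounting -/
theorem good_le {k N : ℕ} (hk : 0 < k) (hN : ∀ a, I.cls a < N) (T Z A B Acc : Finset α) (i n : ℕ)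
    (hAcc : Acc ⊆ Hs I T Z A B)
    (hind : ∀ t, t % 3 = i →
      I.M.rr (fl (dat I k T Z) (As I T Z A) (t + 2) N) (Acc ∩ Row I k T Z A t) =
        (Acc ∩ Row I k T Z A t).card)
    (hmax : ∀ t, t % 3 = i → Hs I T Z A B ∩ Row I k T Z A t ⊆
      I.M.cl (fl (dat I k T Z) (As I T Z A) (t + 2) N ∪ (Acc ∩ Row I k T Z A t))) :
    (good I k T Z A B i n).card ≤ (Acc.filter fun a => I.cls a = n).card +
      (harmed I k T Z A B i n).card + (bad I T Z A B n).card := by
  classical
  by_cases hi : i < 3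
  swap
  · -- no row
    have : good I k T Z A B i n = ∅ := by
      rw [good, filter_eq_empty_iff]
      rintro h _ ⟨t, ht, _⟩
      have := Nat.mod_lt t (show 0 < 3 by norm_num)
      omega
    rw [this]
    simp
  by_cases hnN : n < N
  swap
  · have : good I k T Z A B i n = ∅ := by
      rw [good, filter_eq_empty_iff]
      intro h hh
      rw [mem_inter, On, mem_filter] at hh
      have := hN h
      omega
    rw [this]
    simp
  -- horizon
  obtain ⟨S, hS⟩ : ∃ S : ℕ, ∀ h ∈ good I k T Z A B i n, ∀ t, h ∈ Row I k T Z A t → t < 3 * S := by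
    have h1 : ∀ h : α, ∃ s : ℕ, ∀ t, h ∈ Row I k T Z A t → t < s := by
      intro h
      by_cases hex : ∃ t, h ∈ Row I k T Z A t
      · obtain ⟨t, ht⟩ := hex
        refine ⟨t + 1, fun s hs => ?_⟩
        have := exit_unique _ ht hs
        omega
      · exact ⟨0, fun t ht => (hex ⟨t, ht⟩).elim⟩
    choose f hf using h1
    refine ⟨(univ : Finset α).sup f, fun h _ t ht => ?_⟩
    have h2 := hf h t ht
    have h3 : f h ≤ (univ : Finset α).sup f := le_sup (mem_univ h)
    omega
  have key := acc_total I.M (dat I k T Z) (fun X => rfl) (n := n) (m := N) hnN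
    (Zs I T Z) (fun j F _ => (I.M.kc_eq_cl hk (Zs I T Z j) F).subset)
    (fun F => c_closed I.M I.cls k (Zs I T Z) n F)
    (As I T Z A) (Hs I T Z A B) (Hs I T Z A B) Acc (Subset.refl _) hAcc i S
    (fun j _ => hind (i + 3 * j) (by omega)) (fun j _ => hmax (i + 3 * j) (by omega))
  -- the served elements
  have hserved : (good I k T Z A B i n \ harmed I k T Z A B i n).card ≤
      ∑ j ∈ range S, I.M.rr ((dat I k T Z).c n (gl (dat I k T Z) (As I T Z A) (Hs I T Z A B)
        (i + 3 * j) n)) ((Hs I T Z A B ∩ Dt (dat I k T Z) (As I T Z A) (i + 3 * j)).filter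
          fun a => (dat I k T Z).cls a = n) := by
    have h1 : ∀ j ∈ range S, ((Nt I k T Z A B (i + 3 * j) n).filter fun h =>
        h ∉ I.M.cl (Kt I k T Z A B (i + 3 * j) n ∪ (Nt I k T Z A B (i + 3 * j) n).erase h)).card ≤
        I.M.rr ((dat I k T Z).c n (gl (dat I k T Z) (As I T Z A) (Hs I T Z A B)
        (i + 3 * j) n)) ((Hs I T Z A B ∩ Dt (dat I k T Z) (As I T Z A) (i + 3 * j)).filter
          fun a => (dat I k T Z).cls a = n) := by
      intro j _
      refine good_card_le I.M ?_
      intro a ha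
      rw [Nt, mem_inter, mem_inter, On, mem_filter] at ha
      rw [mem_filter, mem_inter]
      exact ⟨⟨ha.1.1, ha.2⟩, ha.1.2.2⟩
    refine le_trans ?_ (sum_le_sum h1)
    refine le_trans (card_le_card ?_) card_biUnion_le
    intro h hh
    rw [mem_sdiff] at hh
    obtain ⟨hg, hh⟩ := hh
    have hg' := hg
    rw [good, mem_filter] at hg'
    obtain ⟨h2, t, ht, hR, hK⟩ := hg'
    have ht3 := hS h hg t hR
    have e : i + 3 * (t / 3) = t := by
      have := Nat.mod_add_div t 3
      omega
    rw [mem_biUnion]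
    refine ⟨t / 3, mem_range.2 (by omega), ?_⟩
    rw [e, mem_filter]
    refine ⟨?_, ?_⟩
    · rw [Nt, mem_inter]
      exact ⟨h2, hR⟩
    · intro hcl
      apply hh
      rw [harmed, mem_filter]
      exact ⟨hg, t, ht, hR, hcl⟩
  have h3 : (good I k T Z A B i n).card ≤ (good I k T Z A B i n \ harmed I k T Z A B i n).card +
      (harmed I k T Z A B i n).card := by
    have := card_le_card_sdiff_add_card (s := good I k T Z A B i n) (t := harmed I k T Z A B i n)
    omega
  have h4 := card_heavy_le I T Z A B n N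
  have h5 : ((Acc.filter fun a => (dat I k T Z).cls a = n).card +
      ((Hs I T Z A B).filter fun a => n < (dat I k T Z).cls a).card +
      ((Ico (n + 1) N).biUnion (Zs I T Z) ∪
        (As I T Z A).filter fun a => n < (dat I k T Z).cls a).card) ≤
      (Acc.filter fun a => I.cls a = n).card + (bad I T Z A B n).card := by
    have : ∀ a, (dat I k T Z).cls a = I.cls a := fun a => rfl
    simp only [this]
    omega
  omega

/-- **(P3)** for the accepted sets of `Rows_755` -/
theorem good_le_rowBasis {K : ℕ} (I : Inst (Fin K)) {k N : ℕ} (hk : 0 < k) (hN : ∀ a, I.cls a < N)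
    (T Z A B Acc : Finset (Fin K)) (i n : ℕ) (row : Fin K → Option ℕ) (base : ℕ → Finset (Fin K))
    (hrow : ∀ a ∈ Hs I T Z A B, ∀ t, row a = some t ↔ t % 3 = i ∧ a ∈ Row I k T Z A t)
    (hbase : ∀ t, t % 3 = i → base t = fl (dat I k T Z) (As I T Z A) (t + 2) N)
    (h : Rows755.RowBasis I.M (Hs I T Z A B) row base Acc) :
    (good I k T Z A B i n).card ≤ (Acc.filter fun a => I.cls a = n).card +
      (harmed I k T Z A B i n).card + (bad I T Z A B n).card := by
  have e : ∀ t, t % 3 = i → Acc.filter (fun a => row a = some t) = Acc ∩ Row I k T Z A t := by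
    intro t ht
    ext a
    rw [mem_filter, mem_inter]
    constructor
    · rintro ⟨h1, h2⟩
      exact ⟨h1, ((hrow a (h.sub h1) t).1 h2).2⟩
    · rintro ⟨h1, h2⟩
      exact ⟨h1, (hrow a (h.sub h1) t).2 ⟨ht, h2⟩⟩
  refine good_le I hk hN T Z A B Acc i n h.sub ?_ ?_
  · intro t ht
    rw [← hbase t ht, ← e t ht]
    exact h.indep t
  · intro t ht a ha
    rw [mem_inter] at ha
    rw [← hbase t ht, ← e t ht]
    exact h.span a ha.1 t ((hrow a ha.1 t).2 ⟨ht, ha.2⟩)

end Crest.Agent.R305.P3_655
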