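import Crest.Agent.R305.Red_396

/-!
R305 / S0468: family core => secretary core (helper396).
-/

set_option autoImplicit false
open Crest.OnlineMatroid MeasureTheory

namespace Crest.Agent.R305.Red396

variable {k : ℕ}

/-- `A` is a possible final accepted set of the greedy rule along the family `F` on `U`. -/
def IsFinal (U : Finset (Fin k)) (F : Finset (Fin k) → Prop) (A : Finset (Fin k)) : Prop :=
  F A ∧ ∀ a ∈ U, a ∉ A → ∃ X, X ⊆ A ∧ F X ∧ ¬ F (insert a X)

/-- `a` is safe: it is accepted whatever the order. -/
def Safe (U : Finset (Fin k)) (F : Finset (Fin k) → Prop) (a : Fin k) : Prop :=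
  a ∈ U ∧ ∀ X, F X → a ∉ X → F (insert a X)

theorem IsFinal.mem_of_safe {U : Finset (Fin k)} {F : Finset (Fin k) → Prop}
    {A : Finset (Fin k)} (hA : IsFinal U F A) {a : Fin k} (ha : Safe U F a) : a ∈ A := by
  by_contra hn
  obtain ⟨X, hX, hF, hF'⟩ := hA.2 a ha.1 hn
  exact hF' (ha.2 X hF (fun h => hn (hX h)))

/-- FAMILY CORE. -/
def FamCore (k : ℕ) (M : Matroid (Fin k)) (c : ENNReal) : Prop :=
  ∃ (Ω : Type) (_ : Fintype Ω) (μ : Ω → ENNReal) (T U : Ω → Finset (Fin k))
    (F : Ω → (Fin k → ℝ) → Finset (Fin k) → Prop),
    (∑ r, μ r = 1) ∧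
    (∀ r, ∀ e ∈ U r, e ∉ T r) ∧
    (∀ r w X, F r w X → X ⊆ U r ∧ M.Indep (X : Set (Fin k))) ∧
    (∀ r w, F r w ∅) ∧
    (∀ r w w' X, (∀ e, e ∈ T r ∨ e ∈ X → w e = w' e) → F r w X → F r w' X) ∧
    (∀ r X, MeasurableSet {w : Fin k → ℝ | F r w X}) ∧
    (∀ w : Fin k → ℝ, (∀ e, 0 ≤ w e) → c * optWeight M w ≤
      ∑ r, μ r * ⨅ A : {A : Finset (Fin k) // IsFinal (U r) (F r w) A},
        ENNReal.ofReal (∑ e ∈ A.1, w e))

open Classical in
/-- one step of the online greedy along a family: state = (accepted set, known weights) -/
noncomputable def step (U : Finset (Fin k)) (F : (Fin k → ℝ) → Finset (Fin k) → Prop)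
    (st : Finset (Fin k) × (Fin k → ℝ)) (p : Fin k × ℝ) : Finset (Fin k) × (Fin k → ℝ) :=
  if p.1 ∈ U then
    (if F (Function.update st.2 p.1 p.2) (insert p.1 st.1) then insert p.1 st.1 else st.1,
      Function.update st.2 p.1 p.2)
  else st

open Classical in
/-- the online rule of a family -/
noncomputable def famRule {Ω : Type} (T U : Ω → Finset (Fin k))
    (F : Ω → (Fin k → ℝ) → Finset (Fin k) → Prop) : SampleRule Ω k where
  decide r s hist e x :=
    let st := hist.foldl (step (U r) (F r)) (∅, glue (T r) s 0)
    decide (e ∈ U r ∧ F r (Function.update st.2 e x) (insert e st.1))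

open Classical in
/-- ideal greedy with fully known weights -/
noncomputable def gstep (U : Finset (Fin k)) (F : Finset (Fin k) → Prop)
    (A : Finset (Fin k)) (e : Fin k) : Finset (Fin k) :=
  if e ∈ U ∧ F (insert e A) then insert e A else A

noncomputable def greedy (U : Finset (Fin k)) (F : Finset (Fin k) → Prop)
    (l : List (Fin k)) : Finset (Fin k) := l.foldl (gstep U F) ∅

section run
variable (T U : Finset (Fin k)) (F : (Fin k → ℝ) → Finset (Fin k) → Prop)

/-- invariants of the real run -/
theorem run_inv (hTU : ∀ e ∈ U, e ∉ T)
    (hloc : ∀ w w' X, (∀ e, e ∈ T ∨ e ∈ X → w e = w' e) → F w X → F w' X)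
    (s v : Fin k → ℝ) (l : List (Fin k)) :
    let st := (l.map (fun e => (e, v e))).foldl (step U F) (∅, glue T s 0)
    st.1 = greedy U (F (glue T s v)) l ∧ (∀ e ∈ st.1, e ∈ U) ∧
      (∀ e, e ∈ T ∨ e ∈ st.1 → st.2 e = glue T s v e) := by
  classical
  induction l using List.reverseRecOn with
  | nil =>
      refine ⟨rfl, by simp, ?_⟩
      intro e he
      rcases he with he | he
      · simp [glue, he]
      · simp at he
  | append_singleton l e ih =>
      simp only [List.map_append, List.map_cons, List.map_nil, List.foldl_append, List.foldl_cons,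
        List.foldl_nil] at ih ⊢
      set st := (l.map (fun e => (e, v e))).foldl (step U F) (∅, glue T s 0) with hst
      obtain ⟨ih1, ih2, ih3⟩ := ih
      have hg : greedy U (F (glue T s v)) (l ++ [e]) =
          gstep U (F (glue T s v)) (greedy U (F (glue T s v)) l) e := by
        simp [greedy, List.foldl_append]
      rw [hg, ← ih1]
      by_cases heU : e ∈ U
      · have heT := hTU e heU
        have hupd : ∀ f, f ∈ T ∨ f ∈ insert e st.1 →
            Function.update st.2 e (v e) f = glue T s v f := by
          intro f hf
          by_cases hfe : f = e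
          · subst hfe; simp [glue, heT]
          · rw [Function.update_of_ne hfe]
            apply ih3
            rcases hf with hf | hf
            · exact Or.inl hf
            · exact Or.inr ((Finset.mem_insert.1 hf).resolve_left hfe)
        have hiff : F (Function.update st.2 e (v e)) (insert e st.1) ↔
            F (glue T s v) (insert e st.1) :=
          ⟨hloc _ _ _ hupd, hloc _ _ _ (fun f hf => (hupd f hf).symm)⟩
        simp only [step, gstep, heU, if_true, true_and, hiff]
        by_cases hF : F (glue T s v) (insert e st.1)
        · simp only [hF, if_true]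
          refine ⟨?_, ?_⟩
          · intro f hf
            rcases Finset.mem_insert.1 hf with rfl | hf
            · exact heU
            · exact ih2 f hf
          · intro f hf; exact hupd f hf
        · simp only [hF, if_false]
          refine ⟨ih2, ?_⟩
          intro f hf
          exact hupd f (hf.imp id (Finset.mem_insert_of_mem))
      · simp only [step, gstep, heU, if_false, false_and]
        exact ⟨trivial, ih2, ih3⟩

end run

section acc
variable {Ω : Type} (T U : Ω → Finset (Fin k)) (F : Ω → (Fin k → ℝ) → Finset (Fin k) → Prop)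

theorem acc_aux (hTU : ∀ r, ∀ e ∈ U r, e ∉ T r)
    (hloc : ∀ r w w' X, (∀ e, e ∈ T r ∨ e ∈ X → w e = w' e) → F r w X → F r w' X)
    (r : Ω) (s v : Fin k → ℝ) (rest : List (Fin k)) : ∀ (l : List (Fin k)),
    greedy (U r) (F r (glue (T r) s v)) l ∪
      sAcceptedAux (famRule T U F) r s v rest (l.map (fun e => (e, v e))) =
    greedy (U r) (F r (glue (T r) s v)) (l ++ rest) := by
  classical
  induction rest with
  | nil => intro l; simp [sAcceptedAux]
  | cons e rest ih =>
      intro l
      have hih := ih (l ++ [e])
      simp only [List.map_append, List.map_cons, List.map_nil, List.append_assoc,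
        List.cons_append, List.nil_append] at hih
      rw [← hih]
      have hcons : sAcceptedAux (famRule T U F) r s v (e :: rest) (l.map (fun e => (e, v e))) =
        (if (famRule T U F).decide r s (l.map (fun e => (e, v e))) e (v e) = true then {e} else ∅) ∪
        sAcceptedAux (famRule T U F) r s v rest (l.map (fun e => (e, v e)) ++ [(e, v e)]) := rfl
      rw [hcons]
      have hinv := run_inv (T r) (U r) (F r) (hTU r) (hloc r) s v l
      simp only at hinv
      obtain ⟨h1, h2, h3⟩ := hinv
      set st := (l.map (fun e => (e, v e))).foldl (step (U r) (F r)) (∅, glue (T r) s 0) with hst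
      have hg : greedy (U r) (F r (glue (T r) s v)) (l ++ [e]) =
          gstep (U r) (F r (glue (T r) s v)) (greedy (U r) (F r (glue (T r) s v)) l) e := by
        simp [greedy, List.foldl_append]
      have hdec : (famRule T U F).decide r s (l.map (fun e => (e, v e))) e (v e) = true ↔
          (e ∈ U r ∧ F r (glue (T r) s v) (insert e st.1)) := by
        simp only [famRule, decide_eq_true_eq, ← hst]
        constructor
        · rintro ⟨heU, hF⟩
          refine ⟨heU, hloc r _ _ _ ?_ hF⟩
          intro f hf
          by_cases hfe : f = e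
          · subst hfe; simp [glue, hTU r f heU]
          · rw [Function.update_of_ne hfe]
            apply h3
            rcases hf with hf | hf
            · exact Or.inl hf
            · exact Or.inr ((Finset.mem_insert.1 hf).resolve_left hfe)
        · rintro ⟨heU, hF⟩
          refine ⟨heU, hloc r _ _ _ ?_ hF⟩
          intro f hf
          symm
          by_cases hfe : f = e
          · subst hfe; simp [glue, hTU r f heU]
          · rw [Function.update_of_ne hfe]
            apply h3
            rcases hf with hf | hf
            · exact Or.inl hf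
            · exact Or.inr ((Finset.mem_insert.1 hf).resolve_left hfe)
      rw [hg, ← h1]
      by_cases hd : e ∈ U r ∧ F r (glue (T r) s v) (insert e st.1)
      · rw [if_pos (hdec.2 hd)]
        simp only [gstep, hd, and_self, if_true]
        ext f
        simp only [Finset.mem_union, Finset.mem_singleton, Finset.mem_insert]
        tauto
      · rw [if_neg (fun h => hd (hdec.1 h))]
        simp only [gstep, hd, if_false]
        simp

theorem acc_eq (hTU : ∀ r, ∀ e ∈ U r, e ∉ T r)
    (hloc : ∀ r w w' X, (∀ e, e ∈ T r ∨ e ∈ X → w e = w' e) → F r w X → F r w' X)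
    (r : Ω) (s v : Fin k → ℝ) (l : List (Fin k)) :
    sAccepted (famRule T U F) r s v l = greedy (U r) (F r (glue (T r) s v)) l := by
  have := acc_aux T U F hTU hloc r s v l []
  simpa [greedy, sAccepted] using this

end acc

theorem greedy_mem (U : Finset (Fin k)) (F : Finset (Fin k) → Prop) (h0 : F ∅)
    (l : List (Fin k)) : F (greedy U F l) := by
  classical
  induction l using List.reverseRecOn with
  | nil => exact h0
  | append_singleton l e ih =>
      simp only [greedy, List.foldl_append, List.foldl_cons, List.foldl_nil] at ih ⊢
      unfold gstep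
      split_ifs with h
      · exact h.2
      · exact ih

theorem greedy_mono (U : Finset (Fin k)) (F : Finset (Fin k) → Prop)
    (l l' : List (Fin k)) : greedy U F l ⊆ greedy U F (l ++ l') := by
  classical
  induction l' using List.reverseRecOn with
  | nil => simp
  | append_singleton l' e ih =>
      refine ih.trans ?_
      rw [← List.append_assoc]
      simp only [greedy, List.foldl_append, List.foldl_cons, List.foldl_nil]
      unfold gstep
      split_ifs with h
      · exact Finset.subset_insert _ _
      · exact subset_rfl

theorem greedy_final (U : Finset (Fin k)) (F : Finset (Fin k) → Prop) (h0 : F ∅)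
    (l : List (Fin k)) (hl : ∀ a ∈ U, a ∈ l) : IsFinal U F (greedy U F l) := by
  classical
  refine ⟨greedy_mem U F h0 l, ?_⟩
  intro a ha hn
  obtain ⟨l₁, l₂, rfl⟩ := List.append_of_mem (hl a ha)
  refine ⟨greedy U F l₁, greedy_mono U F _ _, greedy_mem U F h0 l₁, ?_⟩
  intro hF
  apply hn
  have h1 : greedy U F (l₁ ++ [a]) = insert a (greedy U F l₁) := by
    simp only [greedy, List.foldl_append, List.foldl_cons, List.foldl_nil]
    unfold gstep
    rw [if_pos ⟨ha, hF⟩]
  have h2 := greedy_mono U F (l₁ ++ [a]) l₂
  rw [h1] at h2
  have h3 : l₁ ++ [a] ++ l₂ = l₁ ++ a :: l₂ := by simp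
  rw [h3] at h2
  exact h2 (Finset.mem_insert_self _ _)

theorem measurableSet_greedy (U : Finset (Fin k)) (F : (Fin k → ℝ) → Finset (Fin k) → Prop)
    (hm : ∀ X, MeasurableSet {w : Fin k → ℝ | F w X}) (l : List (Fin k)) :
    ∀ A, MeasurableSet {w : Fin k → ℝ | greedy U (F w) l = A} := by
  classical
  induction l using List.reverseRecOn with
  | nil =>
      intro A
      by_cases h : (∅ : Finset (Fin k)) = A
      · simp [greedy, h]
      · simp [greedy, h]
  | append_singleton l e ih =>
      intro A
      have : {w : Fin k → ℝ | greedy U (F w) (l ++ [e]) = A} =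
          ⋃ B : Finset (Fin k), {w | greedy U (F w) l = B} ∩ {w | gstep U (F w) B e = A} := by
        ext w
        simp [greedy, List.foldl_append]
      rw [this]
      refine MeasurableSet.iUnion fun B => (ih B).inter ?_
      by_cases heU : e ∈ U
      · by_cases h1 : insert e B = A
        · by_cases h2 : B = A
          · have : {w : Fin k → ℝ | gstep U (F w) B e = A} = Set.univ := by
              ext w; simp only [gstep, heU, true_and, Set.mem_ofPred_eq, Set.mem_univ, iff_true]
              split_ifs <;> assumption
            rw [this]; exact MeasurableSet.univ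
          · have : {w : Fin k → ℝ | gstep U (F w) B e = A} = {w | F w (insert e B)} := by
              ext w; simp only [gstep, heU, true_and, Set.mem_ofPred_eq]
              split_ifs with h
              · exact ⟨fun _ => h, fun _ => h1⟩
              · exact ⟨fun h' => absurd h' h2, fun h' => absurd h' h⟩
            rw [this]; exact hm _
        · by_cases h2 : B = A
          · have : {w : Fin k → ℝ | gstep U (F w) B e = A} = {w | F w (insert e B)}ᶜ := by
              ext w; simp only [gstep, heU, true_and, Set.mem_ofPred_eq, Set.mem_compl_iff]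
              split_ifs with h
              · exact ⟨fun h' => absurd h' h1, fun h' => absurd h h'⟩
              · exact ⟨fun _ => h, fun _ => h2⟩
            rw [this]; exact (hm _).compl
          · have : {w : Fin k → ℝ | gstep U (F w) B e = A} = ∅ := by
              ext w; simp only [gstep, heU, true_and, Set.mem_ofPred_eq, Set.mem_empty_iff_false,
                iff_false]
              split_ifs <;> assumption
            rw [this]; exact MeasurableSet.empty
      · by_cases h2 : B = A
        · simp [gstep, heU, h2]
        · simp [gstep, heU, h2]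

theorem secCore_of_famCore (M : Matroid (Fin k)) (c : ENNReal) (h : FamCore k M c) :
    SecCore k M c := by
  classical
  obtain ⟨Ω, hΩ, μ, T, U, F, hμ, hTU, hsub, h0, hloc, hmeas, hval⟩ := h
  have hacc := acc_eq T U F hTU hloc
  refine ⟨Ω, hΩ, μ, famRule T U F, T, hμ, ?_, ?_, ?_, ?_, ?_⟩
  · intro r s v order
    rw [hacc]
    exact (hsub r _ _ (greedy_mem (U r) _ (h0 r _) order)).2
  · intro r s v order e he
    rw [hacc] at he
    exact hTU r e ((hsub r _ _ (greedy_mem (U r) _ (h0 r _) order)).1 he)
  · intro r s v order
    rw [hacc, hacc, glue_self]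
  · intro r order A
    simp_rw [hacc, glue_self]
    exact measurableSet_greedy (U r) (F r) (hmeas r) order A
  · intro w hw
    refine (hval w hw).trans ?_
    refine Finset.sum_le_sum fun r _ => mul_le_mul_right ?_ _
    refine le_iInf fun σ => ?_
    have hfin : IsFinal (U r) (F r w) (greedy (U r) (F r w) (List.ofFn σ)) := by
      refine greedy_final (U r) (F r w) (h0 r w) _ ?_
      intro a _
      rw [List.mem_ofFn]
      exact ⟨σ.symm a, by simp⟩
    rw [hacc, glue_self]
    exact iInf_le (fun A : {A : Finset (Fin k) // IsFinal (U r) (F r w) A} =>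
      ENNReal.ofReal (∑ e ∈ A.1, w e)) ⟨_, hfin⟩

end Crest.Agent.R305.Red396
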