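import Crest.Agent.R305.RedFam_396

/-!
R305 / S0468: ordinal cores (no real numbers) => family core (helper396).
-/

set_option autoImplicit false
universe u
open Crest.OnlineMatroid MeasureTheory

namespace Crest.Agent.R305.Red396

variable {k : ℕ}

/-- strict linear orders; `L x y` means "`x` is heavier than `y`". -/
structure SLin (L : Fin k → Fin k → Prop) : Prop where
  irrefl : ∀ x, ¬ L x x
  trans : ∀ x y z, L x y → L y z → L x z
  total : ∀ x y, x ≠ y → L x y ∨ L y x

/-- the order of a weight vector: heavy first, ties by index -/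
def heavier (w : Fin k → ℝ) (x y : Fin k) : Prop := w y < w x ∨ (w x = w y ∧ x < y)

theorem sLin_heavier (w : Fin k → ℝ) : SLin (heavier w) := by
  constructor
  · rintro x (h | h)
    · exact lt_irrefl _ h
    · exact lt_irrefl _ h.2
  · rintro x y z (h | h) (h' | h')
    · exact Or.inl (h'.trans h)
    · exact Or.inl (h'.1 ▸ h)
    · exact Or.inl (h.1 ▸ h')
    · exact Or.inr ⟨h.1.trans h'.1, h.2.trans h'.2⟩
  · intro x y hxy
    rcases lt_trichotomy (w x) (w y) with h | h | h
    · exact Or.inr (Or.inl h)
    · rcases lt_or_gt_of_ne hxy with h' | h'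
      · exact Or.inl (Or.inr ⟨h, h'⟩)
      · exact Or.inr (Or.inr ⟨h.symm, h'⟩)
    · exact Or.inl (Or.inl h)

/-- the data of an ordinal family rule -/
structure OrdRule (k : ℕ) (M : Matroid (Fin k)) where
  Ω : Type
  fin : Fintype Ω
  μ : Ω → ENNReal
  T : Ω → Finset (Fin k)
  U : Ω → Finset (Fin k)
  F : Ω → (Fin k → Fin k → Prop) → Finset (Fin k) → Prop
  hμ : ∑ r, μ r = 1
  hTU : ∀ r, ∀ e ∈ U r, e ∉ T r
  hsub : ∀ r L X, SLin L → F r L X → X ⊆ U r ∧ M.Indep (X : Set (Fin k))
  h0 : ∀ r L, SLin L → F r L ∅
  hloc : ∀ r L L' X, SLin L → SLin L' →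
      (∀ x y, (x ∈ T r ∨ x ∈ X) → (y ∈ T r ∨ y ∈ X) → (L x y ↔ L' x y)) → F r L X → F r L' X

attribute [instance] OrdRule.fin

/-- safety probability of `a` -/
noncomputable def OrdRule.p {M : Matroid (Fin k)} (O : OrdRule k M) (L : Fin k → Fin k → Prop)
    (a : Fin k) : ENNReal :=
  ∑ r, μ' r where
  μ' (r : O.Ω) : ENNReal := by
    classical exact O.μ r * (if Safe (O.U r) (O.F r L) a then 1 else 0)

open Classical in
theorem OrdRule.p_eq {M : Matroid (Fin k)} (O : OrdRule k M) (L : Fin k → Fin k → Prop)
    (a : Fin k) : O.p L a = ∑ r, O.μ r * (if Safe (O.U r) (O.F r L) a then 1 else 0) := by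
  unfold OrdRule.p OrdRule.p.μ'
  refine Finset.sum_congr rfl fun r _ => ?_
  congr

open Classical in
/-- ORDINAL CORE: prefix guarantee. -/
def OrdCore (k : ℕ) (M : Matroid (Fin k)) (c : ENNReal) : Prop :=
  ∃ O : OrdRule k M, ∀ L, SLin L → ∀ t : Fin k, ∀ I : Finset (Fin k),
    M.Indep (I : Set (Fin k)) → (∀ a ∈ I, a = t ∨ L a t) →
      c * (I.card : ENNReal) ≤ ∑ a ∈ Finset.univ.filter (fun a => a = t ∨ L a t), O.p L a

/-- POINTWISE CORE: every element of the greedy basis is safe with probability `≥ c`. -/
def PtCore (k : ℕ) (M : Matroid (Fin k)) (c : ENNReal) : Prop :=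
  ∃ O : OrdRule k M, ∀ L, SLin L → ∀ a ∈ M.E, a ∉ M.closure {b | L b a} → c ≤ O.p L a

theorem SLin.wf {L : Fin k → Fin k → Prop} (h : SLin L) : WellFounded L := by
  have : IsTrans (Fin k) L := ⟨h.trans⟩
  have : Std.Irrefl L := ⟨h.irrefl⟩
  exact Finite.wellFounded_of_trans_of_irrefl L

theorem ordCore_of_ptCore (M : Matroid (Fin k)) (c : ENNReal) (h : PtCore k M c) :
    OrdCore k M c := by
  classical
  obtain ⟨O, hO⟩ := h
  refine ⟨O, fun L hL t I hI hIt => ?_⟩
  set H : Finset (Fin k) := Finset.univ.filter (fun a => a = t ∨ L a t) with hH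
  set B : Finset (Fin k) := H.filter (fun a => a ∈ M.E ∧ a ∉ M.closure {b | L b a}) with hB
  have hdown : ∀ a ∈ H, ∀ b, L b a → b ∈ H := by
    intro a ha b hb
    simp only [hH, Finset.mem_filter, Finset.mem_univ, true_and] at ha ⊢
    rcases ha with rfl | ha
    · exact Or.inr hb
    · exact Or.inr (hL.trans _ _ _ hb ha)
  have hspan : ∀ a, a ∈ H → a ∈ M.E → a ∈ M.closure (B : Set (Fin k)) := by
    intro a
    refine hL.wf.induction (C := fun a => a ∈ H → a ∈ M.E → a ∈ M.closure (B : Set (Fin k))) a ?_
    intro a ih haH haE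
    by_cases hc : a ∈ M.closure {b | L b a}
    · have h1 : ({b | L b a} ∩ M.E) ⊆ M.closure (B : Set (Fin k)) := by
        rintro b ⟨hb, hbE⟩
        exact ih b hb (hdown a haH b hb) hbE
      have h2 := M.closure_subset_closure_of_subset_closure h1
      rw [M.closure_inter_ground] at h2
      exact h2 hc
    · have : a ∈ B := by
        simp only [hB, Finset.mem_filter]
        exact ⟨haH, haE, hc⟩
      exact M.mem_closure_of_mem' (by exact_mod_cast this) haE
  have hcard : I.card ≤ B.card := by
    have h1 : (I : Set (Fin k)) ⊆ M.closure (B : Set (Fin k)) := by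
      intro a ha
      have haE : a ∈ M.E := hI.subset_ground ha
      refine hspan a ?_ haE
      simp only [hH, Finset.mem_filter, Finset.mem_univ, true_and]
      exact hIt a (by exact_mod_cast ha)
    have h2 : (I : Set (Fin k)).encard ≤ (B : Set (Fin k)).encard := by
      rw [← hI.eRk_eq_encard]
      refine (M.eRk_mono h1).trans ?_
      rw [M.eRk_closure_eq]
      exact M.eRk_le_encard _
    simpa [Set.encard_coe_eq_coe_finsetCard] using h2
  calc c * (I.card : ENNReal) ≤ c * (B.card : ENNReal) := by gcongr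
    _ = ∑ a ∈ B, c := by simp [mul_comm]
    _ ≤ ∑ a ∈ B, O.p L a := by
        refine Finset.sum_le_sum fun a ha => ?_
        simp only [hB, Finset.mem_filter] at ha
        exact hO L hL a ha.2.1 ha.2.2
    _ ≤ ∑ a ∈ H, O.p L a := Finset.sum_le_sum_of_subset (Finset.filter_subset _ _)

/-- layer cake: threshold inequalities imply the weighted inequality -/
theorem layer_cake (c : ENNReal) (hc : c ≠ ⊤) (w : Fin k → ℝ) (I : Finset (Fin k))
    (p : Fin k → ENNReal)
    (h : ∀ t : ℝ, 0 < t → c * ∑ a ∈ I, (if t < w a then 1 else 0) ≤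
      ∑ a, (if t < w a then 1 else 0) * p a) :
    c * ∑ a ∈ I, ENNReal.ofReal (w a) ≤ ∑ a, ENNReal.ofReal (w a) * p a := by
  classical
  have hm : ∀ a, Measurable (fun t : ℝ => if t < w a then (1 : ENNReal) else 0) := by
    intro a
    exact Measurable.ite measurableSet_Iio measurable_const measurable_const
  have key : ∀ a, ENNReal.ofReal (w a) =
      ∫⁻ t in Set.Ioi (0 : ℝ), (if t < w a then (1 : ENNReal) else 0) := by
    intro a
    have h1 : (fun t : ℝ => if t < w a then (1 : ENNReal) else 0) =
        Set.indicator (Set.Iio (w a)) (fun _ => 1) := by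
      funext t
      simp [Set.indicator]
    rw [h1, lintegral_indicator measurableSet_Iio, Measure.restrict_restrict measurableSet_Iio]
    simp only [lintegral_const, Measure.restrict_apply MeasurableSet.univ, Set.univ_inter, one_mul]
    have : Set.Iio (w a) ∩ Set.Ioi (0 : ℝ) = Set.Ioo 0 (w a) := by
      ext t; simp [and_comm]
    rw [this, Real.volume_Ioo, sub_zero]
  have hL : c * ∑ a ∈ I, ENNReal.ofReal (w a) =
      ∫⁻ t in Set.Ioi (0 : ℝ), c * ∑ a ∈ I, (if t < w a then (1 : ENNReal) else 0) := by
    rw [lintegral_const_mul' _ _ hc, lintegral_finsetSum _ (fun a _ => hm a)]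
    simp_rw [key]
  have hR : ∑ a, ENNReal.ofReal (w a) * p a =
      ∫⁻ t in Set.Ioi (0 : ℝ), ∑ a, (if t < w a then (1 : ENNReal) else 0) * p a := by
    rw [lintegral_finsetSum _ (fun a _ => (hm a).mul_const _)]
    refine Finset.sum_congr rfl fun a _ => ?_
    rw [lintegral_mul_const _ (hm a), key]
  rw [hL, hR]
  refine lintegral_mono_ae ?_
  filter_upwards [ae_restrict_mem measurableSet_Ioi] with t ht
  exact h t ht

theorem famCore_of_ordCore (M : Matroid (Fin k)) (c : ENNReal) (hc : c ≠ ⊤)
    (h : OrdCore k M c) : FamCore k M c := by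
  classical
  obtain ⟨O, hO⟩ := h
  refine ⟨O.Ω, O.fin, O.μ, O.T, O.U, fun r w X => O.F r (heavier w) X, O.hμ, O.hTU, ?_, ?_, ?_, ?_,
    ?_⟩
  · intro r w X hF
    exact O.hsub r _ X (sLin_heavier w) hF
  · intro r w
    exact O.h0 r _ (sLin_heavier w)
  · intro r w w' X hw hF
    refine O.hloc r _ _ X (sLin_heavier w) (sLin_heavier w') ?_ hF
    intro x y hx hy
    simp only [heavier, hw x hx, hw y hy]
  · intro r X
    have : {w : Fin k → ℝ | O.F r (heavier w) X} =
        ⋃ L : (Fin k → Fin k → Prop), {w | heavier w = L} ∩ {_w | O.F r L X} := by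
      ext w; simp
    rw [this]
    refine MeasurableSet.iUnion fun L => MeasurableSet.inter ?_ (MeasurableSet.const _)
    have h2 : {w : Fin k → ℝ | heavier w = L} = ⋂ x, ⋂ y, {w | heavier w x y ↔ L x y} := by
      ext w
      simp only [Set.mem_ofPred_eq, Set.mem_iInter]
      constructor
      · rintro rfl x y; exact Iff.rfl
      · intro h; funext x y; exact propext (h x y)
    rw [h2]
    refine MeasurableSet.iInter fun x => MeasurableSet.iInter fun y => ?_
    have h3 : MeasurableSet {w : Fin k → ℝ | heavier w x y} := by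
      have e1 : MeasurableSet {w : Fin k → ℝ | w y < w x} :=
        measurableSet_lt (measurable_pi_apply y) (measurable_pi_apply x)
      have e2 : MeasurableSet {w : Fin k → ℝ | w x = w y ∧ x < y} :=
        (measurableSet_eq_fun (measurable_pi_apply x) (measurable_pi_apply y)).inter
          (MeasurableSet.const _)
      exact e1.union e2
    by_cases hL : L x y
    · simpa [hL] using h3
    · have h4 : {w : Fin k → ℝ | heavier w x y ↔ L x y} = {w | heavier w x y}ᶜ := by
        ext w
        simp only [Set.mem_ofPred_eq, Set.mem_compl_iff]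
        exact ⟨fun h h' => hL (h.1 h'), fun h => ⟨fun h' => absurd h' h, fun h' => absurd h' hL⟩⟩
      rw [h4]
      exact h3.compl
  · intro w hw
    have hS := sLin_heavier w
    -- step 1: final sets contain the safe elements
    have step1 : ∀ r, ∑ a, ENNReal.ofReal (w a) *
          (if Safe (O.U r) (O.F r (heavier w)) a then 1 else 0) ≤
        ⨅ A : {A : Finset (Fin k) // IsFinal (O.U r) (O.F r (heavier w)) A},
        ENNReal.ofReal (∑ e ∈ A.1, w e) := by
      intro r
      refine le_iInf fun A => ?_
      rw [ENNReal.ofReal_sum_of_nonneg (fun e _ => hw e)]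
      have : ∑ a, ENNReal.ofReal (w a) *
          (if Safe (O.U r) (O.F r (heavier w)) a then 1 else 0) =
          ∑ a ∈ Finset.univ.filter (fun a => Safe (O.U r) (O.F r (heavier w)) a),
            ENNReal.ofReal (w a) := by
        rw [Finset.sum_filter]
        refine Finset.sum_congr rfl fun a _ => ?_
        split_ifs <;> simp
      rw [this]
      refine Finset.sum_le_sum_of_subset ?_
      intro a ha
      exact A.2.mem_of_safe (Finset.mem_filter.1 ha).2
    have step2 : ∑ a, ENNReal.ofReal (w a) * O.p (heavier w) a ≤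
        ∑ r, O.μ r * ⨅ A : {A : Finset (Fin k) // IsFinal (O.U r) (O.F r (heavier w)) A},
        ENNReal.ofReal (∑ e ∈ A.1, w e) := by
      calc ∑ a, ENNReal.ofReal (w a) * O.p (heavier w) a
          = ∑ r, O.μ r * ∑ a, ENNReal.ofReal (w a) *
              (if Safe (O.U r) (O.F r (heavier w)) a then 1 else 0) := by
            simp_rw [O.p_eq, Finset.mul_sum]
            rw [Finset.sum_comm]
            refine Finset.sum_congr rfl fun r _ => Finset.sum_congr rfl fun a _ => ?_
            ring
        _ ≤ _ := Finset.sum_le_sum fun r _ => mul_le_mul_right (step1 r) _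
    refine le_trans ?_ step2
    unfold optWeight
    simp_rw [ENNReal.mul_iSup]
    refine iSup₂_le fun I hI => ?_
    rw [ENNReal.ofReal_sum_of_nonneg (fun e _ => hw e)]
    refine layer_cake c hc w I _ ?_
    intro t ht
    by_cases hne : (Finset.univ.filter (fun a => t < w a)).Nonempty
    · -- the lightest element above `t`
      obtain ⟨t0, ht0, hmax⟩ : ∃ t0 ∈ Finset.univ.filter (fun a => t < w a),
          ∀ b ∈ Finset.univ.filter (fun a => t < w a), ¬ heavier w t0 b := by
        have hwf : WellFounded (fun x y => heavier w y x) := by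
          have : IsTrans (Fin k) (fun x y => heavier w y x) :=
            ⟨fun x y z h1 h2 => hS.trans _ _ _ h2 h1⟩
          have : Std.Irrefl (fun x y => heavier w y x) := ⟨fun x h => hS.irrefl x h⟩
          exact Finite.wellFounded_of_trans_of_irrefl _
        obtain ⟨m, hm, hm'⟩ := hwf.has_min (↑(Finset.univ.filter (fun a => t < w a)) : Set (Fin k))
          (by exact_mod_cast hne)
        exact ⟨m, by exact_mod_cast hm, fun b hb => hm' b (by exact_mod_cast hb)⟩
      have hset : ∀ a, (a = t0 ∨ heavier w a t0) ↔ t < w a := by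
        intro a
        have ht0' : t < w t0 := (Finset.mem_filter.1 ht0).2
        constructor
        · rintro (rfl | h | h)
          · exact ht0'
          · exact ht0'.trans h
          · rw [h.1]; exact ht0'
        · intro ha
          by_cases hat : a = t0
          · exact Or.inl hat
          · rcases hS.total a t0 hat with h | h
            · exact Or.inr h
            · exact absurd h (hmax a (Finset.mem_filter.2 ⟨Finset.mem_univ _, ha⟩))
      have h1 := hO (heavier w) hS t0 (I.filter (fun a => t < w a))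
        (hI.subset (by intro a ha; exact_mod_cast (Finset.mem_filter.1 (by exact_mod_cast ha)).1))
        (by intro a ha; exact (hset a).2 (Finset.mem_filter.1 ha).2)
      have h2 : ((I.filter (fun a => t < w a)).card : ENNReal) =
          ∑ a ∈ I, (if t < w a then 1 else 0) := by
        rw [Finset.card_filter]; push_cast; rfl
      rw [h2] at h1
      refine h1.trans (le_of_eq ?_)
      rw [Finset.sum_filter]
      refine Finset.sum_congr rfl fun a _ => ?_
      by_cases ha : t < w a
      · rw [if_pos ((hset a).2 ha), if_pos ha, one_mul]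
      · rw [if_neg (fun h => ha ((hset a).1 h)), if_neg ha, zero_mul]
    · have : ∀ a, ¬ t < w a := by
        intro a ha
        exact hne ⟨a, Finset.mem_filter.2 ⟨Finset.mem_univ _, ha⟩⟩
      simp [this]

/-- FINAL PLUG 1: `PtCore` gives the conclusion of S0468. -/
theorem concl_of_ptCore (M : Matroid (Fin k)) (c : ENNReal) (hc : c ≠ ⊤) (h : PtCore k M c) :
    Concl.{u} k M c :=
  concl_of_secCore M c hc (secCore_of_famCore M c (famCore_of_ordCore M c hc
    (ordCore_of_ptCore M c h)))

theorem concl_of_ordCore (M : Matroid (Fin k)) (c : ENNReal) (hc : c ≠ ⊤) (h : OrdCore k M c) :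
    Concl.{u} k M c :=
  concl_of_secCore M c hc (secCore_of_famCore M c (famCore_of_ordCore M c hc h))

theorem concl_of_famCore (M : Matroid (Fin k)) (c : ENNReal) (hc : c ≠ ⊤) (h : FamCore k M c) :
    Concl.{u} k M c :=
  concl_of_secCore M c hc (secCore_of_famCore M c h)

theorem Concl.mono {M : Matroid (Fin k)} {c c' : ENNReal} (hcc : c' ≤ c)
    (h : Concl.{u} k M c) : Concl.{u} k M c' := by
  obtain ⟨ΩR, mR, μR, R, h1, h2, h3⟩ := h
  refine ⟨ΩR, mR, μR, R, h1, h2, ?_⟩
  intro Ω _ P _ S V hS hV hpos hind hlaw hfin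
  refine le_trans ?_ (h3 Ω P S V hS hV hpos hind hlaw hfin)
  gcongr

end Crest.Agent.R305.Red396
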