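import Mathlib
import Crest.Prelude.Def_OnlineMatroid
import Crest.Prelude.Def_SampleRule

/-!
R305 / S0468: reduction of the literal statement to combinatorial cores (helper396).

* `SecCore k M c`  : order/value dependent secretary rules for every fixed weight vector (AKW).
* `FamCore k M c`  : families `F r w X` that only look at `w` on `T r ∪ X`.
* `OrdCore k M c`  : the same with linear orders instead of weights, guarantee on prefixes.
* `PtCore  k M c`  : pointwise guarantee for the elements of the greedy basis.
-/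

set_option autoImplicit false
universe u
open Crest.OnlineMatroid MeasureTheory

namespace Crest.Agent.R305.Red396

variable {k : ℕ}

/-- the vector `s` on `T`, `v` off `T` -/
noncomputable def glue (T : Finset (Fin k)) (s v : Fin k → ℝ) : Fin k → ℝ :=
  fun e => if e ∈ T then s e else v e

theorem glue_self (T : Finset (Fin k)) (w : Fin k → ℝ) : glue T w w = w := by
  funext e; simp [glue]

/-- SECRETARY CORE: finite seed space with weights `μ`, sampled part `T r`; the rule may only use
the sample values on `T r` and the arriving values off `T r` (`hloc`), never accepts elements of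
`T r`, and for every fixed weight vector beats `c * OPT` against the worst order. -/
def SecCore (k : ℕ) (M : Matroid (Fin k)) (c : ENNReal) : Prop :=
  ∃ (Ω : Type) (_ : Fintype Ω) (μ : Ω → ENNReal) (R : SampleRule Ω k)
    (T : Ω → Finset (Fin k)),
    (∑ r, μ r = 1) ∧
    (∀ r s v order, M.Indep (sAccepted R r s v order : Set (Fin k))) ∧
    (∀ r s v order, ∀ e ∈ sAccepted R r s v order, e ∉ T r) ∧
    (∀ r s v order, sAccepted R r s v order =
      sAccepted R r (glue (T r) s v) (glue (T r) s v) order) ∧
    (∀ r order A, MeasurableSet {w : Fin k → ℝ | sAccepted R r w w order = A}) ∧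
    (∀ w : Fin k → ℝ, (∀ e, 0 ≤ w e) → c * optWeight M w ≤
      ∑ r, μ r * ⨅ σ : Equiv.Perm (Fin k),
        ENNReal.ofReal (∑ e ∈ sAccepted R r w w (List.ofFn σ), w e))

/-- the conclusion of S0468 with a general constant -/
def Concl (k : ℕ) (M : Matroid (Fin k)) (c : ENNReal) : Prop :=
    ∃ (ΩR : Type) (_ : MeasurableSpace ΩR) (μR : MeasureTheory.Measure ΩR) (R : SampleRule ΩR k),
      MeasureTheory.IsProbabilityMeasure μR ∧
      (∀ (r : ΩR) (s v : Fin k → ℝ) (order : List (Fin k)),
        M.Indep (sAccepted R r s v order : Set (Fin k))) ∧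
      ∀ (Ω : Type u) [MeasurableSpace Ω] (P : MeasureTheory.Measure Ω)
        [MeasureTheory.IsProbabilityMeasure P] (S V : Ω → Fin k → ℝ),
        Measurable S → Measurable V → (∀ ω e, 0 ≤ S ω e ∧ 0 ≤ V ω e) →
        ProbabilityTheory.iIndepFun
          (fun (i : Fin k × Bool) (ω : Ω) => if i.2 = true then S ω i.1 else V ω i.1) P →
        (∀ e, P.map (fun ω => S ω e) = P.map (fun ω => V ω e)) →
        ∫⁻ ω, optWeight M (V ω) ∂P ≠ ⊤ →
        c * ∫⁻ ω, optWeight M (V ω) ∂P ≤
          ∫⁻ p, ⨅ σ : Equiv.Perm (Fin k),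
            ENNReal.ofReal (∑ e ∈ sAccepted R p.1 (S p.2) (V p.2) (List.ofFn σ), V p.2 e)
            ∂(μR.prod P)

/-- value of the worst order for a rule, fixed weights -/
noncomputable def gval {Ω : Type} (R : SampleRule Ω k) (r : Ω) (w : Fin k → ℝ) : ENNReal :=
  ⨅ σ : Equiv.Perm (Fin k),
    ENNReal.ofReal (∑ e ∈ sAccepted R r w w (List.ofFn σ), w e)

theorem measurable_gval {Ω : Type} (R : SampleRule Ω k) (r : Ω)
    (hm : ∀ order A, MeasurableSet {w : Fin k → ℝ | sAccepted R r w w order = A}) :
    Measurable (gval R r) := by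
  classical
  unfold gval
  refine Measurable.iInf fun σ => ?_
  have : (fun w : Fin k → ℝ => ENNReal.ofReal (∑ e ∈ sAccepted R r w w (List.ofFn σ), w e)) =
      fun w => ∑ A : Finset (Fin k), Set.indicator {w : Fin k → ℝ | sAccepted R r w w (List.ofFn σ) = A}
        (fun w => ENNReal.ofReal (∑ e ∈ A, w e)) w := by
    funext w
    rw [Finset.sum_eq_single (sAccepted R r w w (List.ofFn σ))]
    · simp [Set.indicator]
    · intro B _ hB
      simp [Set.indicator, Ne.symm hB]
    · intro h; exact absurd (Finset.mem_univ _) h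
  rw [this]
  refine Finset.measurable_sum _ fun A _ => ?_
  refine Measurable.indicator ?_ (hm _ A)
  refine ENNReal.measurable_ofReal.comp ?_
  exact Finset.measurable_sum _ fun e _ => measurable_pi_apply e

theorem law_glue {Ω : Type u} [MeasurableSpace Ω] (P : Measure Ω) [IsProbabilityMeasure P]
    (S V : Ω → Fin k → ℝ) (hS : Measurable S) (hV : Measurable V)
    (hind : ProbabilityTheory.iIndepFun
          (fun (i : Fin k × Bool) (ω : Ω) => if i.2 = true then S ω i.1 else V ω i.1) P)
    (hlaw : ∀ e, P.map (fun ω => S ω e) = P.map (fun ω => V ω e)) (T : Finset (Fin k)) :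
    P.map (fun ω => glue T (S ω) (V ω)) = P.map V := by
  classical
  have key : ∀ T' : Finset (Fin k), P.map (fun ω => glue T' (S ω) (V ω)) =
      Measure.pi (fun e => P.map (fun ω => V ω e)) := by
    intro T'
    let f : Fin k → Fin k × Bool := fun e => (e, decide (e ∈ T'))
    have hf : Function.Injective f := fun a b h => congrArg Prod.fst h
    have h1 := hind.precomp hf
    have hm : ∀ e, Measurable (fun ω => glue T' (S ω) (V ω) e) := by
      intro e
      have h1 : Measurable (fun ω => S ω e) := (measurable_pi_apply e).comp hS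
      have h2 : Measurable (fun ω => V ω e) := (measurable_pi_apply e).comp hV
      by_cases he : e ∈ T'
      · simpa [glue, he] using h1
      · simpa [glue, he] using h2
    have heq : (fun (e : Fin k) (ω : Ω) => if (f e).2 = true then S ω (f e).1 else V ω (f e).1) =
        fun e ω => glue T' (S ω) (V ω) e := by
      funext e ω
      simp [f, glue]
    have h2 : ProbabilityTheory.iIndepFun (fun (e : Fin k) (ω : Ω) => glue T' (S ω) (V ω) e) P := by
      rw [← heq]; exact h1
    rw [ProbabilityTheory.iIndepFun_iff_map_fun_eq_pi_map (fun e => (hm e).aemeasurable)] at h2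
    rw [h2]
    congr 1
    funext e
    by_cases he : e ∈ T'
    · simpa [glue, he] using hlaw e
    · simp [glue, he]
  rw [key T, ← key ∅]
  congr 1

theorem concl_of_secCore (M : Matroid (Fin k)) (c : ENNReal) (hc : c ≠ ⊤)
    (h : SecCore k M c) : Concl.{u} k M c := by
  classical
  obtain ⟨Ω₀, _, μ, R, T, hμ, hI, hT, hloc, hmeas, hval⟩ := h
  let _ : MeasurableSpace Ω₀ := ⊤
  have _ : DiscreteMeasurableSpace Ω₀ := ⟨fun _ => trivial⟩
  let μR : Measure Ω₀ := ∑ r, μ r • Measure.dirac r
  have hint : ∀ f : Ω₀ → ENNReal, ∫⁻ r, f r ∂μR = ∑ r, μ r * f r := by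
    intro f
    simp only [μR]
    rw [lintegral_finsetSum_measure]
    refine Finset.sum_congr rfl fun r _ => ?_
    rw [lintegral_smul_measure, lintegral_dirac]
    rfl
  have hprob : IsProbabilityMeasure μR := by
    constructor
    have := hint (fun _ => 1)
    simpa [hμ] using this
  refine ⟨Ω₀, ⊤, μR, R, hprob, hI, ?_⟩
  intro Ω _ P _ S V hS hV hpos hind hlaw _
  have hW : ∀ r, Measurable (fun ω => glue (T r) (S ω) (V ω)) := by
    intro r
    refine measurable_pi_lambda _ fun e => ?_
    have h1 : Measurable (fun ω => S ω e) := (measurable_pi_apply e).comp hS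
    have h2 : Measurable (fun ω => V ω e) := (measurable_pi_apply e).comp hV
    by_cases he : e ∈ T r
    · simpa [glue, he] using h1
    · simpa [glue, he] using h2
  have hG : ∀ p : Ω₀ × Ω, (⨅ σ : Equiv.Perm (Fin k),
      ENNReal.ofReal (∑ e ∈ sAccepted R p.1 (S p.2) (V p.2) (List.ofFn σ), V p.2 e)) =
      gval R p.1 (glue (T p.1) (S p.2) (V p.2)) := by
    intro p
    unfold gval
    refine iInf_congr fun σ => ?_
    congr 1
    rw [← hloc]
    refine Finset.sum_congr rfl fun e he => ?_
    have := hT _ _ _ _ e he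
    simp [glue, this]
  simp_rw [hG]
  have hmg : ∀ r, Measurable (gval R r) := fun r => measurable_gval R r (hmeas r)
  have hmG : Measurable (fun p : Ω₀ × Ω => gval R p.1 (glue (T p.1) (S p.2) (V p.2))) := by
    refine measurable_from_prod_countable_right fun r => ?_
    exact (hmg r).comp (hW r)
  rw [lintegral_prod _ hmG.aemeasurable, hint]
  have h1 : ∀ r, ∫⁻ ω, gval R r (glue (T r) (S ω) (V ω)) ∂P = ∫⁻ ω, gval R r (V ω) ∂P := by
    intro r
    rw [← lintegral_map (hmg r) (hW r), law_glue P S V hS hV hind hlaw, lintegral_map (hmg r) hV]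
  simp only [h1]
  have h2 : ∑ r, μ r * ∫⁻ ω, gval R r (V ω) ∂P = ∫⁻ ω, ∑ r, μ r * gval R r (V ω) ∂P := by
    rw [lintegral_finsetSum]
    · refine Finset.sum_congr rfl fun r _ => ?_
      rw [← lintegral_const_mul (μ r) (f := fun ω => gval R r (V ω)) ((hmg r).comp hV)]
    · intro r _
      exact ((hmg r).comp hV).const_mul _
  rw [h2, ← lintegral_const_mul' _ _ hc]
  refine lintegral_mono fun ω => ?_
  exact hval (V ω) fun e => (hpos ω e).2

end Crest.Agent.R305.Red396
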