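import Crest.Agent.R305.Kd_447

/-!
# R305: row accounting on `RankFn` (doc 1793 step 6)

`rows_total`: abstract accounting over one residue class of rows, `rows_time`: the same with the
rows indexed by time `ρ + L * i`.
-/

set_option autoImplicit false

namespace Crest.Agent.R305.Row2_655

open Finset Kd447 Kd447.RankFn

variable {α : Type*} [DecidableEq α] (M : RankFn α)

/-- submodularity, marginal form -/
theorem r_marg {X Y : Finset α} (h : X ⊆ Y) (Z : Finset α) :
    M.r (Y ∪ Z) + M.r X ≤ M.r (X ∪ Z) + M.r Y := by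
  have h1 := M.rr_anti h Z
  have h2 := M.r_add_rr X Z
  have h3 := M.r_add_rr Y Z
  omega

theorem r_eq_union {X Y : Finset α} : M.r X ≤ M.r (X ∪ Y) := M.mono subset_union_left

/-- an independent set over `P`: every subset is independent over `P` -/
theorem rr_card_of_subset {P A B : Finset α} (hA : M.rr P A = A.card) (hB : B ⊆ A) :
    M.rr P B = B.card := by
  have h1 := M.rr_union P B (A \ B)
  rw [union_sdiff_of_subset hB] at h1
  have h2 := M.rr_le_card (P ∪ B) (A \ B)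
  have h3 := card_sdiff_add_card_eq_card hB
  have h4 := M.rr_le_card P B
  omega

/-- one row -/
theorem row_one {P P' Q Q' K N Lo Hi Acc gen : Finset α}
    (hQP' : Q' ⊆ P') (hQQ : Q' ⊆ Q)
    (hspan : M.r P ≤ M.r (Q ∪ (gen ∩ P)))
    (hN : N ⊆ Q) (hLo : Lo ⊆ Q)
    (hK : M.r (K ∪ (Q' ∪ Lo)) ≤ M.r K)
    (hAcc : Acc ⊆ N ∪ Lo ∪ Hi)
    (hind : M.rr P' Acc = Acc.card)
    (hmax : M.r (P' ∪ (N ∪ Lo ∪ Hi)) ≤ M.r (P' ∪ Acc)) :
    M.rr K N + M.r P + M.r Q' ≤
      M.r Q + M.r P' + (Acc ∩ N).card + Hi.card + (gen ∩ (P \ P')).card := by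
  have hcnt : Acc.card ≤ (Acc ∩ N).card + (Acc ∩ Lo).card + Hi.card := by
    have h1 : Acc ⊆ (Acc ∩ N) ∪ (Acc ∩ Lo) ∪ Hi := by
      intro a ha
      have := hAcc ha
      simp only [mem_union, mem_inter] at this ⊢
      tauto
    have h2 := card_le_card h1
    have h3 := card_union_le ((Acc ∩ N) ∪ (Acc ∩ Lo)) Hi
    have h4 := card_union_le (Acc ∩ N) (Acc ∩ Lo)
    omega
  have hLoAcc : M.rr P' (Acc ∩ Lo) = (Acc ∩ Lo).card :=
    rr_card_of_subset M hind inter_subset_left
  have hLo1 := M.r_add_rr P' (Acc ∩ Lo)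
  have hAcc1 := M.r_add_rr P' Acc
  have hLo2 : M.r (P' ∪ (Acc ∩ Lo)) ≤ M.r (P' ∪ Lo) :=
    M.mono (union_subset_union_right inter_subset_right)
  have hB : M.r (P' ∪ Lo ∪ N) ≤ M.r (P' ∪ (N ∪ Lo ∪ Hi)) := by
    refine M.mono ?_
    intro a ha
    simp only [mem_union] at ha ⊢
    tauto
  -- submodularity
  have s1 : M.r ((Q' ∪ Lo) ∪ P') + M.r Q' ≤ M.r (Q' ∪ P') + M.r (Q' ∪ Lo) :=
    r_marg M subset_union_left P'
  have e0 : (Q' ∪ Lo) ∪ P' = P' ∪ Lo := by
    ext a
    have := @hQP' a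
    simp only [mem_union]
    tauto
  have e1 : Q' ∪ P' = P' := union_eq_right.2 hQP'
  rw [e0, e1] at s1
  have hBN : (Q' ∪ Lo) ∪ N ⊆ Q := union_subset (union_subset hQQ hLo) hN
  have s2 : M.r (Q ∪ P') + M.r ((Q' ∪ Lo) ∪ N) ≤ M.r (((Q' ∪ Lo) ∪ N) ∪ P') + M.r Q :=
    r_marg M hBN P'
  have e2 : ((Q' ∪ Lo) ∪ N) ∪ P' = P' ∪ Lo ∪ N := by
    ext a
    have := @hQP' a
    simp only [mem_union]
    tauto
  rw [e2] at s2
  have s3 : M.r P ≤ M.r (Q ∪ P') + (gen ∩ (P \ P')).card := by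
    refine hspan.trans ?_
    have h1 : Q ∪ (gen ∩ P) ⊆ (Q ∪ P') ∪ (gen ∩ (P \ P')) := by
      intro a ha
      simp only [mem_union, mem_inter, mem_sdiff] at ha ⊢
      tauto
    exact (M.mono h1).trans (M.r_union_le_card _ _)
  have s4 : M.r ((K ∪ (Q' ∪ Lo)) ∪ N) + M.r (Q' ∪ Lo) ≤
      M.r ((Q' ∪ Lo) ∪ N) + M.r (K ∪ (Q' ∪ Lo)) :=
    r_marg M subset_union_right N
  have s5 : M.r (K ∪ N) ≤ M.r ((K ∪ (Q' ∪ Lo)) ∪ N) :=
    M.mono (union_subset_union_left subset_union_left)
  have s6 := M.r_add_rr K N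
  omega

/-- **row accounting over one residue class of rows** -/
theorem rows_total_r (m : ℕ) (P Q K N Lo Hi Acc : ℕ → Finset α) (gen : Finset α)
    (hQP : ∀ i ≤ m, Q i ⊆ P i) (hPP : ∀ i < m, P (i + 1) ⊆ P i)
    (hQQ : ∀ i < m, Q (i + 1) ⊆ Q i)
    (hspan : ∀ i ≤ m, M.r (P i) ≤ M.r (Q i ∪ (gen ∩ P i)))
    (hN : ∀ i < m, N i ⊆ Q i) (hLo : ∀ i < m, Lo i ⊆ Q i)
    (hK : ∀ i < m, M.r (K i ∪ (Q (i + 1) ∪ Lo i)) ≤ M.r (K i))
    (hAcc : ∀ i < m, Acc i ⊆ N i ∪ Lo i ∪ Hi i)
    (hind : ∀ i < m, M.rr (P (i + 1)) (Acc i) = (Acc i).card)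
    (hmax : ∀ i < m, M.r (P (i + 1) ∪ (N i ∪ Lo i ∪ Hi i)) ≤ M.r (P (i + 1) ∪ Acc i)) :
    ∑ i ∈ range m, M.rr (K i) (N i) ≤
      ∑ i ∈ range m, (Acc i ∩ N i).card + ∑ i ∈ range m, (Hi i).card + gen.card := by
  have hP0 : ∀ i ≤ m, P i ⊆ P 0 := by
    intro i
    induction i with
    | zero => intro _; exact Subset.refl _
    | succ i ih => intro hi; exact (hPP i (by omega)).trans (ih (by omega))
  have key : ∀ j ≤ m, ∑ i ∈ range j, M.rr (K i) (N i) + M.r (P 0) + M.r (Q j) ≤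
      ∑ i ∈ range j, (Acc i ∩ N i).card + ∑ i ∈ range j, (Hi i).card +
        (gen ∩ (P 0 \ P j)).card + M.r (Q 0) + M.r (P j) := by
    intro j
    induction j with
    | zero =>
      intro _
      simp only [range_zero, sum_empty]
      omega
    | succ j ih =>
      intro hj
      have ih := ih (by omega)
      have h1 := row_one M (hQP (j + 1) hj) (hQQ j (by omega)) (hspan j (by omega))
        (hN j (by omega)) (hLo j (by omega)) (hK j (by omega)) (hAcc j (by omega))
        (hind j (by omega)) (hmax j (by omega))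
      have h3 : (gen ∩ (P 0 \ P j)).card + (gen ∩ (P j \ P (j + 1))).card ≤
          (gen ∩ (P 0 \ P (j + 1))).card := by
        rw [← card_union_of_disjoint]
        · refine card_le_card ?_
          intro a ha
          have h4 : a ∈ P (j + 1) → a ∈ P j := fun h => hPP j (by omega) h
          have h5 : a ∈ P j → a ∈ P 0 := fun h => hP0 j (by omega) h
          simp only [mem_union, mem_inter, mem_sdiff] at ha ⊢
          tauto
        · rw [disjoint_left]
          intro a ha hb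
          simp only [mem_inter, mem_sdiff] at ha hb
          exact ha.2.2 hb.2.1
      rw [sum_range_succ, sum_range_succ, sum_range_succ]
      omega
  have hk := key m le_rfl
  have h1 : M.r (P m) ≤ M.r (Q m) + (gen ∩ P m).card :=
    (hspan m le_rfl).trans (M.r_union_le_card _ _)
  have h2 : (gen ∩ (P 0 \ P m)).card + (gen ∩ P m).card ≤ gen.card := by
    rw [← card_union_of_disjoint]
    · refine card_le_card ?_
      intro a ha
      simp only [mem_union, mem_inter, mem_sdiff] at ha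
      tauto
    · rw [disjoint_left]
      intro a ha hb
      simp only [mem_inter, mem_sdiff] at ha hb
      exact ha.2.2 hb.2
  have h3 : M.r (Q 0) ≤ M.r (P 0) := M.mono (hQP 0 (Nat.zero_le _))
  omega

/-- elements of `S` outside the closure of the others: their number is at most the rank -/
theorem card_free_le {F S G : Finset α} (hG : G ⊆ S)
    (h : ∀ x ∈ G, M.r (insert x (F ∪ S.erase x)) = M.r (F ∪ S.erase x) + 1) :
    G.card ≤ M.rr F S := by
  have key : ∀ G' : Finset α, G' ⊆ G → M.r F + G'.card ≤ M.r (F ∪ G') := by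
    intro G'
    induction G' using Finset.induction_on with
    | empty => intro _; simp
    | insert x G' hx ih =>
      intro hG'
      have h1 := ih ((subset_insert _ _).trans hG')
      have hxG : x ∈ G := hG' (mem_insert_self _ _)
      have h2 : F ∪ G' ⊆ F ∪ S.erase x := by
        refine union_subset_union_right ?_
        intro a ha
        exact mem_erase.2 ⟨fun e => hx (e ▸ ha), hG (hG' (mem_insert_of_mem ha))⟩
      have h3 := r_marg M h2 {x}
      have h4 := h x hxG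
      have e1 : (F ∪ S.erase x) ∪ {x} = insert x (F ∪ S.erase x) := by
        rw [union_comm, ← insert_eq]
      have e2 : (F ∪ G') ∪ {x} = F ∪ insert x G' := by
        ext a
        simp only [mem_union, mem_singleton, mem_insert]
        tauto
      rw [e1, e2] at h3
      rw [card_insert_of_notMem hx]
      omega
  have h1 := key G (Subset.refl _)
  have h2 : M.r (F ∪ G) ≤ M.r (F ∪ S) := M.mono (union_subset_union_right hG)
  have h3 := M.r_add_rr F S
  omega

section pred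

variable {β : Type*} [Fintype β]

/-- the flat below the row `t` (everything if `t = 0`) -/
def pred (F : ℕ → Finset β) (t : ℕ) : Finset β := if t = 0 then univ else F (t - 1)

theorem pred_zero (F : ℕ → Finset β) : pred F 0 = univ := by simp [pred]

theorem pred_succ (F : ℕ → Finset β) (t : ℕ) : pred F (t + 1) = F t := by simp [pred]

end pred

variable [Fintype α]

/-- **row accounting over one residue class of rows**, closure form -/
theorem rows_total (m : ℕ) (P Q K N Lo Hi Acc : ℕ → Finset α) (gen : Finset α)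
    (hQP : ∀ i ≤ m, Q i ⊆ P i) (hPP : ∀ i < m, P (i + 1) ⊆ P i)
    (hQQ : ∀ i < m, Q (i + 1) ⊆ Q i)
    (hspan : ∀ i ≤ m, P i ⊆ M.cl (Q i ∪ (gen ∩ P i)))
    (hN : ∀ i < m, N i ⊆ Q i) (hLo : ∀ i < m, Lo i ⊆ Q i)
    (hK : ∀ i < m, Q (i + 1) ∪ Lo i ⊆ M.cl (K i))
    (hAcc : ∀ i < m, Acc i ⊆ N i ∪ Lo i ∪ Hi i)
    (hind : ∀ i < m, M.rr (P (i + 1)) (Acc i) = (Acc i).card)
    (hmax : ∀ i < m, N i ∪ Lo i ∪ Hi i ⊆ M.cl (P (i + 1) ∪ Acc i)) :
    ∑ i ∈ range m, M.rr (K i) (N i) ≤
      ∑ i ∈ range m, (Acc i ∩ N i).card + ∑ i ∈ range m, (Hi i).card + gen.card := by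
  refine rows_total_r M m P Q K N Lo Hi Acc gen hQP hPP hQQ ?_ hN hLo ?_ hAcc hind ?_
  · intro i hi
    have := M.mono (hspan i hi)
    rwa [M.r_cl] at this
  · intro i hi
    exact (M.r_union_of_subset_cl (hK i hi)).le
  · intro i hi
    have h1 : P (i + 1) ∪ (N i ∪ Lo i ∪ Hi i) ⊆ M.cl (P (i + 1) ∪ Acc i) :=
      union_subset (subset_union_left.trans (M.subset_cl _)) (hmax i hi)
    have := M.mono h1
    rwa [M.r_cl] at this

/-- **row accounting, rows indexed by the times `ρ + L * i`**: `F t` the flat of all classes at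
time `t`, `G t` the flat of the classes up to the own one, `K t` the set over which the own class
is served well, `N t`, `Lo t`, `Hi t` the own, lower, heavier online elements of the row `t`,
`Acc t` the accepted elements of the row `t` (a basis of the row over `F (t + L - 1)`) -/
theorem rows_time (L ρ m : ℕ) (hL : 1 ≤ L) (F G K N Lo Hi Acc : ℕ → Finset α) (gen : Finset α)
    (hGF : ∀ t, G t ⊆ F t) (hFF : ∀ t, F (t + 1) ⊆ F t) (hGG : ∀ t, G (t + 1) ⊆ G t)
    (hspan : ∀ t, F t ⊆ M.cl (G t ∪ (gen ∩ F t)))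
    (hN : ∀ t, N (t + 1) ⊆ G t) (hLo : ∀ t, Lo (t + 1) ⊆ G t)
    (hK : ∀ i < m, G (ρ + L * i + L - 1) ∪ Lo (ρ + L * i) ⊆ M.cl (K (ρ + L * i)))
    (hAcc : ∀ i < m, Acc (ρ + L * i) ⊆ N (ρ + L * i) ∪ Lo (ρ + L * i) ∪ Hi (ρ + L * i))
    (hind : ∀ i < m, M.rr (F (ρ + L * i + L - 1)) (Acc (ρ + L * i)) = (Acc (ρ + L * i)).card)
    (hmax : ∀ i < m, N (ρ + L * i) ∪ Lo (ρ + L * i) ∪ Hi (ρ + L * i) ⊆
      M.cl (F (ρ + L * i + L - 1) ∪ Acc (ρ + L * i))) :
    ∑ i ∈ range m, M.rr (K (ρ + L * i)) (N (ρ + L * i)) ≤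
      ∑ i ∈ range m, (Acc (ρ + L * i) ∩ N (ρ + L * i)).card +
        ∑ i ∈ range m, (Hi (ρ + L * i)).card + gen.card := by
  have hFm : ∀ s t, s ≤ t → F t ⊆ F s := by
    intro s t h
    induction h with
    | refl => exact Subset.refl _
    | step _ ih => exact (hFF _).trans ih
  have hGm : ∀ s t, s ≤ t → G t ⊆ G s := by
    intro s t h
    induction h with
    | refl => exact Subset.refl _
    | step _ ih => exact (hGG _).trans ih
  have hnext : ∀ i, ρ + L * (i + 1) = (ρ + L * i + L - 1) + 1 := by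
    intro i
    rw [Nat.mul_succ]
    omega
  have hpF : ∀ i, pred F (ρ + L * (i + 1)) = F (ρ + L * i + L - 1) := by
    intro i
    rw [hnext, pred_succ]
  have hpG : ∀ i, pred G (ρ + L * (i + 1)) = G (ρ + L * i + L - 1) := by
    intro i
    rw [hnext, pred_succ]
  refine rows_total M m (fun i => pred F (ρ + L * i)) (fun i => pred G (ρ + L * i))
    (fun i => K (ρ + L * i)) (fun i => N (ρ + L * i)) (fun i => Lo (ρ + L * i))
    (fun i => Hi (ρ + L * i)) (fun i => Acc (ρ + L * i)) gen ?_ ?_ ?_ ?_ ?_ ?_ ?_ hAcc ?_ ?_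
  · intro i _
    unfold pred
    split_ifs
    · exact Subset.refl _
    · exact hGF _
  · intro i _
    show pred F (ρ + L * (i + 1)) ⊆ pred F (ρ + L * i)
    rw [hpF]
    unfold pred
    split_ifs
    · exact subset_univ _
    · exact hFm _ _ (by omega)
  · intro i _
    show pred G (ρ + L * (i + 1)) ⊆ pred G (ρ + L * i)
    rw [hpG]
    unfold pred
    split_ifs
    · exact subset_univ _
    · exact hGm _ _ (by omega)
  · intro i _
    show pred F (ρ + L * i) ⊆ M.cl (pred G (ρ + L * i) ∪ (gen ∩ pred F (ρ + L * i)))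
    unfold pred
    split_ifs
    · exact subset_union_left.trans (M.subset_cl _)
    · exact hspan _
  · intro i _
    show N (ρ + L * i) ⊆ pred G (ρ + L * i)
    rcases Nat.eq_zero_or_pos (ρ + L * i) with h | h
    · rw [h, pred_zero]
      exact subset_univ _
    · obtain ⟨t, ht⟩ : ∃ t, ρ + L * i = t + 1 := ⟨ρ + L * i - 1, by omega⟩
      rw [ht, pred_succ]
      exact hN t
  · intro i _
    show Lo (ρ + L * i) ⊆ pred G (ρ + L * i)
    rcases Nat.eq_zero_or_pos (ρ + L * i) with h | h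
    · rw [h, pred_zero]
      exact subset_univ _
    · obtain ⟨t, ht⟩ : ∃ t, ρ + L * i = t + 1 := ⟨ρ + L * i - 1, by omega⟩
      rw [ht, pred_succ]
      exact hLo t
  · intro i hi
    show pred G (ρ + L * (i + 1)) ∪ Lo (ρ + L * i) ⊆ M.cl (K (ρ + L * i))
    rw [hpG]
    exact hK i hi
  · intro i hi
    show M.rr (pred F (ρ + L * (i + 1))) (Acc (ρ + L * i)) = _
    rw [hpF]
    exact hind i hi
  · intro i hi
    show _ ⊆ M.cl (pred F (ρ + L * (i + 1)) ∪ Acc (ρ + L * i))
    rw [hpF]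
    exact hmax i hi

end Crest.Agent.R305.Row2_655
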