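import Crest.Agent.R305.Row2_655
import Crest.Agent.R305.Fcl_310

/-!
# R305: row accounting for the class operator (doc 1793 step 6)

Rows `t ≡ ρ (mod 3)`, row `t` served over `F_{t+2} = fl D A (t + 2) m` (all classes `< m`).
-/

set_option autoImplicit false

namespace Crest.Agent.R305.Row3_655

open Finset Kd447 Kd447.RankFn Fcl310 Row2_655

variable {α : Type*} [DecidableEq α] [Fintype α]

/-- the elements of `O` not spanned by the other elements of `O` over `F` are at most
`rr F N` many, for every `N ⊇ O` -/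
theorem good_card_le (M : RankFn α) {F O N : Finset α} (hON : O ⊆ N) :
    (O.filter fun h => h ∉ M.cl (F ∪ O.erase h)).card ≤ M.rr F N := by
  refine (card_free_le M (F := F) (S := O) (filter_subset _ _) ?_).trans (M.rr_mono F hON)
  intro x hx
  rw [mem_filter] at hx
  exact M.notMem_cl.1 hx.2

/-- **row accounting**: own class `n`, `Hs t` the online elements of the row `t`, `Acc t` a basis of
the row over `F_{t+2}`; `gen` = generators and sampled elements of the heavier classes -/
theorem rows_fcl (M : RankFn α) (D : Data α) (hcl : ∀ X, D.cl X = M.cl X) {n m : ℕ} (hnm : n < m)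
    (Z : ℕ → Finset α) (hZ : ∀ j F, D.cl F = F → D.c j F ⊆ D.cl (F ∪ (Z j ∩ D.c j F)))
    (hc : ∀ F, D.cl (D.c n F) = D.c n F) (A B : Finset α) (Hs Acc : ℕ → Finset α)
    (hHD : ∀ t, Hs t ⊆ Dt D A t) (hHB : ∀ t, Hs t ⊆ B) (ρ T : ℕ)
    (hAcc : ∀ i < T, Acc (ρ + 3 * i) ⊆ Hs (ρ + 3 * i))
    (hind : ∀ i < T, M.rr (fl D A (ρ + 3 * i + 2) m) (Acc (ρ + 3 * i)) =
      (Acc (ρ + 3 * i)).card)
    (hmax : ∀ i < T, Hs (ρ + 3 * i) ⊆ M.cl (fl D A (ρ + 3 * i + 2) m ∪ Acc (ρ + 3 * i))) :
    ∑ i ∈ range T, M.rr (D.c n (gl D A B (ρ + 3 * i) n))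
        ((Hs (ρ + 3 * i)).filter fun a => D.cls a = n) ≤
      ∑ i ∈ range T, ((Acc (ρ + 3 * i)).filter fun a => D.cls a = n).card +
        ∑ i ∈ range T, ((Hs (ρ + 3 * i)).filter fun a => n < D.cls a).card +
        ((Ico (n + 1) m).biUnion Z ∪ A.filter fun a => n < D.cls a).card := by
  have hsplit : ∀ t, (Hs t).filter (fun a => D.cls a = n) ∪ (Hs t).filter (fun a => D.cls a < n) ∪
      (Hs t).filter (fun a => n < D.cls a) = Hs t := by
    intro t
    ext a
    simp only [mem_union, mem_filter]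
    constructor
    · tauto
    · intro h
      rcases lt_trichotomy (D.cls a) n with h1 | h1 | h1 <;> tauto
  have h := rows_time M 3 ρ T (by norm_num) (fun t => fl D A t m) (fun t => fl D A t (n + 1))
    (fun t => D.c n (gl D A B t n)) (fun t => (Hs t).filter fun a => D.cls a = n)
    (fun t => (Hs t).filter fun a => D.cls a < n) (fun t => (Hs t).filter fun a => n < D.cls a)
    Acc ((Ico (n + 1) m).biUnion Z ∪ A.filter fun a => n < D.cls a)
    (fun t => fl_le D A t hnm) (fun t => fl_anti D A (Nat.le_succ t) m)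
    (fun t => fl_anti D A (Nat.le_succ t) (n + 1)) ?_ ?_ ?_ ?_ ?_ ?_ ?_
  · refine h.trans ?_
    refine Nat.add_le_add_right (Nat.add_le_add_right ?_ _) _
    refine sum_le_sum fun i hi => card_le_card ?_
    intro a ha
    simp only [mem_inter, mem_filter] at ha ⊢
    exact ⟨ha.1, ha.2.2⟩
  · intro t
    show fl D A t m ⊆ _
    rw [← hcl]
    refine (flat_span D hZ (Nat.succ_le_of_lt hnm) (A ∩ St D A t)).trans (D.cl_mono ?_)
    refine union_subset_union_right (inter_subset_inter ?_ (Subset.refl _))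
    refine union_subset_union_right ?_
    intro a ha
    simp only [mem_filter, mem_inter] at ha ⊢
    exact ⟨ha.1.1, by omega⟩
  · intro t a ha
    rw [mem_filter] at ha
    have h1 := hHD _ ha.1
    refine mem_fl_of_St D (mem_sdiff.1 h1).1 (by omega)
  · intro t a ha
    rw [mem_filter] at ha
    have h1 := hHD _ ha.1
    refine mem_fl_of_St D (mem_sdiff.1 h1).1 (by omega)
  · intro i hi
    show fl D A (ρ + 3 * i + 3 - 1) (n + 1) ∪ _ ⊆ _
    refine Subset.trans ?_ (M.subset_cl _)
    refine union_subset ?_ ?_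
    · exact fl_succ_subset_c_gl D A B (ρ + 3 * i) n (hc _)
    · intro a ha
      rw [mem_filter] at ha
      exact D.c_ext n _ (mem_gl D (hHB _ ha.1) (hHD _ ha.1) ha.2)
  · intro i hi
    show Acc (ρ + 3 * i) ⊆ _
    rw [hsplit]
    exact hAcc i hi
  · intro i hi
    exact hind i hi
  · intro i hi
    rw [hsplit]
    exact hmax i hi

/-- **row accounting, totals**: `H` the online elements, `Acc` the accepted ones; in every row
`t ≡ ρ (mod 3)`, `t < ρ + 3 * T`, the set `Acc ∩ D_t` is a basis of `H ∩ D_t` over `F_{t+2}` -/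
theorem acc_total (M : RankFn α) (D : Data α) (hcl : ∀ X, D.cl X = M.cl X) {n m : ℕ} (hnm : n < m)
    (Z : ℕ → Finset α) (hZ : ∀ j F, D.cl F = F → D.c j F ⊆ D.cl (F ∪ (Z j ∩ D.c j F)))
    (hc : ∀ F, D.cl (D.c n F) = D.c n F) (A B H Acc : Finset α) (hHB : H ⊆ B) (hAcc : Acc ⊆ H)
    (ρ T : ℕ)
    (hind : ∀ i < T, M.rr (fl D A (ρ + 3 * i + 2) m) (Acc ∩ Dt D A (ρ + 3 * i)) =
      (Acc ∩ Dt D A (ρ + 3 * i)).card)
    (hmax : ∀ i < T, H ∩ Dt D A (ρ + 3 * i) ⊆
      M.cl (fl D A (ρ + 3 * i + 2) m ∪ (Acc ∩ Dt D A (ρ + 3 * i)))) :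
    ∑ i ∈ range T, M.rr (D.c n (gl D A B (ρ + 3 * i) n))
        ((H ∩ Dt D A (ρ + 3 * i)).filter fun a => D.cls a = n) ≤
      (Acc.filter fun a => D.cls a = n).card + (H.filter fun a => n < D.cls a).card +
        ((Ico (n + 1) m).biUnion Z ∪ A.filter fun a => n < D.cls a).card := by
  have h := rows_fcl M D hcl hnm Z hZ hc A B (fun t => H ∩ Dt D A t) (fun t => Acc ∩ Dt D A t)
    (fun t => inter_subset_right) (fun t => inter_subset_left.trans hHB) ρ T
    (fun i _ => inter_subset_inter_right hAcc) hind hmax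
  have hdis : ∀ X : Finset α, ∀ P : α → Prop, ∀ [DecidablePred P],
      ∑ i ∈ range T, ((X ∩ Dt D A (ρ + 3 * i)).filter P).card ≤ (X.filter P).card := by
    intro X P _
    rw [← card_biUnion]
    · refine card_le_card ?_
      intro a ha
      rw [mem_biUnion] at ha
      obtain ⟨i, _, ha⟩ := ha
      rw [mem_filter, mem_inter] at ha
      exact mem_filter.2 ⟨ha.1.1, ha.2⟩
    · intro i _ j _ hij
      rw [Function.onFun, disjoint_left]
      intro a ha hb
      rw [mem_filter, mem_inter] at ha hb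
      have := exit_unique D ha.1.2 hb.1.2
      exact hij (by omega)
  refine h.trans (Nat.add_le_add_right (Nat.add_le_add ?_ ?_) _)
  · exact hdis Acc _
  · exact hdis H _

end Crest.Agent.R305.Row3_655
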