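import Mathlib.Combinatorics.Matroid.Rank.ENat
import Mathlib.Data.Set.Card
import Mathlib.Algebra.BigOperators.Group.Finset.Basic
import Mathlib.Algebra.Order.BigOperators.Group.Finset
import Mathlib.Data.Fintype.Card
import Mathlib.Tactic.Linarith
import Mathlib.Tactic.Ring

/-!
# R305: row accounting (doc 1798 section 6, doc 1793 step 6), pure matroid rank

`rk M X` is the rank as a natural number. `rows_total` is the accounting over one residue class of
rows: `P i` the contracted flat below row `i - 1` (all classes), `Q i` the flat of the classes up to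
the own one, `K i` any set spanning `Q (i+1) ∪ Lo i`, `N i` the own-class online elements of the
row, `Lo i` the lower, `Hi i` the heavier ones, `Acc i` the accepted elements of the row.
-/

set_option autoImplicit false

namespace Crest.Agent.R305.Row655

open Set

variable {α : Type*}

/-- the rank as a natural number -/
noncomputable def rk (M : Matroid α) (X : Set α) : ℕ := (M.eRk X).toNat

theorem eRk_ne_top [Finite α] (M : Matroid α) (X : Set α) : M.eRk X ≠ ⊤ :=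
  ne_top_of_le_ne_top (Set.encard_ne_top_iff.2 (Set.toFinite X)) (M.eRk_le_encard X)

theorem coe_rk [Finite α] (M : Matroid α) (X : Set α) : ((rk M X : ℕ) : ℕ∞) = M.eRk X :=
  ENat.natCast_toNat (eRk_ne_top M X)

theorem rk_mono [Finite α] (M : Matroid α) {X Y : Set α} (h : X ⊆ Y) : rk M X ≤ rk M Y := by
  have := M.eRk_mono h
  rw [← coe_rk, ← coe_rk] at this
  exact_mod_cast this

theorem rk_empty (M : Matroid α) : rk M ∅ = 0 := by
  simp [rk]

theorem rk_closure (M : Matroid α) (X : Set α) : rk M (M.closure X) = rk M X := by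
  simp [rk]

theorem rk_union_closure_left (M : Matroid α) (X Y : Set α) :
    rk M (M.closure X ∪ Y) = rk M (X ∪ Y) := by
  simp [rk, M.eRk_union_closure_left_eq]

theorem rk_union_closure_right (M : Matroid α) (X Y : Set α) :
    rk M (X ∪ M.closure Y) = rk M (X ∪ Y) := by
  simp [rk, M.eRk_union_closure_right_eq]

theorem rk_inter_add_union [Finite α] (M : Matroid α) (X Y : Set α) :
    rk M (X ∩ Y) + rk M (X ∪ Y) ≤ rk M X + rk M Y := by
  have := M.eRk_inter_add_eRk_union_le X Y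
  rw [← coe_rk, ← coe_rk, ← coe_rk, ← coe_rk] at this
  exact_mod_cast this

/-- submodularity, marginal form -/
theorem rk_marg [Finite α] (M : Matroid α) {X Y : Set α} (h : X ⊆ Y) (Z : Set α) :
    rk M (Y ∪ Z) + rk M X ≤ rk M (X ∪ Z) + rk M Y := by
  have h1 := rk_inter_add_union M (X ∪ Z) Y
  have h2 : rk M X ≤ rk M ((X ∪ Z) ∩ Y) := rk_mono M (subset_inter subset_union_left h)
  have h3 : (X ∪ Z) ∪ Y = Y ∪ Z := by
    ext a
    constructor
    · rintro ((ha | ha) | ha)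
      · exact Or.inl (h ha)
      · exact Or.inr ha
      · exact Or.inl ha
    · rintro (ha | ha)
      · exact Or.inr ha
      · exact Or.inl (Or.inr ha)
  rw [h3] at h1
  omega

theorem rk_union_le_ncard [Finite α] (M : Matroid α) (X Y : Set α) :
    rk M (X ∪ Y) ≤ rk M X + Y.ncard := by
  have h := M.eRk_union_le_eRk_add_encard X Y
  rw [← coe_rk, ← coe_rk, ← (Set.toFinite Y).cast_ncard_eq] at h
  exact_mod_cast h

theorem rk_le_ncard [Finite α] (M : Matroid α) (X : Set α) : rk M X ≤ X.ncard := by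
  have h := M.eRk_le_encard X
  rw [← coe_rk, ← (Set.toFinite X).cast_ncard_eq] at h
  exact_mod_cast h

theorem indep_iff_rk [Finite α] (M : Matroid α) (X : Set α) : M.Indep X ↔ rk M X = X.ncard := by
  rw [M.indep_iff_eRk_eq_encard_of_finite (Set.toFinite X), ← coe_rk,
    ← (Set.toFinite X).cast_ncard_eq]
  exact_mod_cast Iff.rfl

/-- an independent set over `P`: every subset is independent over `P` -/
theorem rk_add_of_subset [Finite α] (M : Matroid α) {P A B : Set α} (hA : rk M (P ∪ A) = rk M P + A.ncard)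
    (hB : B ⊆ A) : rk M (P ∪ B) = rk M P + B.ncard := by
  have h1 := rk_union_le_ncard M (P ∪ B) (A \ B)
  have h2 : (P ∪ B) ∪ (A \ B) = P ∪ A := by
    rw [union_assoc, union_sdiff_cancel hB]
  have h3 : (A \ B).ncard + B.ncard = A.ncard := ncard_sdiff_add_ncard_of_subset hB
  have h4 := rk_union_le_ncard M P B
  rw [h2] at h1
  omega

/-- one row -/
theorem row_one [Finite α] (M : Matroid α) {P P' Q Q' K N Lo Hi Acc gen : Set α}
    (hQP' : Q' ⊆ P') (hQQ : Q' ⊆ Q)
    (hspan : rk M P ≤ rk M (Q ∪ (gen ∩ P)))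
    (hN : N ⊆ Q) (hLo : Lo ⊆ Q)
    (hK : rk M (K ∪ (Q' ∪ Lo)) ≤ rk M K)
    (hAcc : Acc ⊆ N ∪ Lo ∪ Hi)
    (hind : rk M (P' ∪ Acc) = rk M P' + Acc.ncard)
    (hmax : rk M (P' ∪ (N ∪ Lo ∪ Hi)) ≤ rk M (P' ∪ Acc)) :
    rk M (K ∪ N) + rk M P + rk M Q' ≤
      rk M K + rk M Q + rk M P' + (Acc ∩ N).ncard + Hi.ncard + (gen ∩ (P \ P')).ncard := by
  -- counting
  have hcnt : Acc.ncard ≤ (Acc ∩ N).ncard + (Acc ∩ Lo).ncard + Hi.ncard := by
    have h1 : Acc ⊆ (Acc ∩ N) ∪ (Acc ∩ Lo) ∪ Hi := by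
      intro a ha
      rcases hAcc ha with (h | h) | h
      · exact Or.inl (Or.inl ⟨ha, h⟩)
      · exact Or.inl (Or.inr ⟨ha, h⟩)
      · exact Or.inr h
    calc Acc.ncard ≤ ((Acc ∩ N) ∪ (Acc ∩ Lo) ∪ Hi).ncard := ncard_le_ncard h1 (Set.toFinite _)
      _ ≤ ((Acc ∩ N) ∪ (Acc ∩ Lo)).ncard + Hi.ncard := ncard_union_le _ _
      _ ≤ (Acc ∩ N).ncard + (Acc ∩ Lo).ncard + Hi.ncard := by
          have := ncard_union_le (Acc ∩ N) (Acc ∩ Lo)
          omega
  have hLoAcc : rk M (P' ∪ (Acc ∩ Lo)) = rk M P' + (Acc ∩ Lo).ncard :=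
    rk_add_of_subset M hind inter_subset_left
  have hLo2 : rk M (P' ∪ (Acc ∩ Lo)) ≤ rk M (P' ∪ Lo) :=
    rk_mono M (union_subset_union_right _ inter_subset_right)
  have hB : rk M (P' ∪ Lo ∪ N) ≤ rk M (P' ∪ (N ∪ Lo ∪ Hi)) := by
    refine rk_mono M ?_
    rintro a ((ha | ha) | ha)
    · exact Or.inl ha
    · exact Or.inr (Or.inl (Or.inr ha))
    · exact Or.inr (Or.inl (Or.inl ha))
  -- submodularity
  have e1 : P' ∪ (Q' ∪ Lo) = P' ∪ Lo := by
    rw [← union_assoc, union_eq_self_of_subset_right hQP']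
  -- rk (P' | Base) ≤ rk P' - rk Q'
  have s1 : rk M ((Q' ∪ Lo) ∪ P') + rk M Q' ≤ rk M (Q' ∪ P') + rk M (Q' ∪ Lo) :=
    rk_marg M subset_union_left P'
  rw [union_eq_self_of_subset_left hQP', union_comm (Q' ∪ Lo) P', e1] at s1
  -- rk (P' | Base ∪ N) ≥ rk (P' ∪ Q) - rk Q
  have hBN : (Q' ∪ Lo) ∪ N ⊆ Q := union_subset (union_subset hQQ hLo) hN
  have s2 : rk M (Q ∪ P') + rk M ((Q' ∪ Lo) ∪ N) ≤ rk M (((Q' ∪ Lo) ∪ N) ∪ P') + rk M Q :=
    rk_marg M hBN P'
  have e2 : ((Q' ∪ Lo) ∪ N) ∪ P' = P' ∪ Lo ∪ N := by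
    ext a
    constructor
    · rintro (((ha | ha) | ha) | ha)
      · exact Or.inl (Or.inl (hQP' ha))
      · exact Or.inl (Or.inr ha)
      · exact Or.inr ha
      · exact Or.inl (Or.inl ha)
    · rintro ((ha | ha) | ha)
      · exact Or.inr ha
      · exact Or.inl (Or.inl (Or.inr ha))
      · exact Or.inl (Or.inr ha)
  rw [e2] at s2
  -- rk (P' ∪ Q) ≥ rk P - |gen ∩ P \ P'|
  have s3 : rk M P ≤ rk M (Q ∪ P') + (gen ∩ (P \ P')).ncard := by
    refine hspan.trans ?_
    have h1 : Q ∪ (gen ∩ P) ⊆ (Q ∪ P') ∪ (gen ∩ (P \ P')) := by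
      rintro a (ha | ⟨ha, hp⟩)
      · exact Or.inl (Or.inl ha)
      · by_cases h : a ∈ P'
        · exact Or.inl (Or.inr h)
        · exact Or.inr ⟨ha, hp, h⟩
    exact (rk_mono M h1).trans (rk_union_le_ncard M _ _)
  -- K spans Base
  have s4 : rk M ((K ∪ (Q' ∪ Lo)) ∪ N) + rk M (Q' ∪ Lo) ≤
      rk M ((Q' ∪ Lo) ∪ N) + rk M (K ∪ (Q' ∪ Lo)) :=
    rk_marg M subset_union_right N
  have s5 : rk M (K ∪ N) ≤ rk M ((K ∪ (Q' ∪ Lo)) ∪ N) :=
    rk_mono M (union_subset_union_left _ subset_union_left)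
  omega

/-- **row accounting over one residue class of rows** -/
theorem rows_total [Finite α] (M : Matroid α) (m : ℕ) (P Q K N Lo Hi Acc : ℕ → Set α) (gen : Set α)
    (hQP : ∀ i ≤ m, Q i ⊆ P i) (hPP : ∀ i < m, P (i + 1) ⊆ P i)
    (hQQ : ∀ i < m, Q (i + 1) ⊆ Q i)
    (hspan : ∀ i ≤ m, rk M (P i) ≤ rk M (Q i ∪ (gen ∩ P i)))
    (hN : ∀ i < m, N i ⊆ Q i) (hLo : ∀ i < m, Lo i ⊆ Q i)
    (hK : ∀ i < m, rk M (K i ∪ (Q (i + 1) ∪ Lo i)) ≤ rk M (K i))
    (hAcc : ∀ i < m, Acc i ⊆ N i ∪ Lo i ∪ Hi i)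
    (hind : ∀ i < m, rk M (P (i + 1) ∪ Acc i) = rk M (P (i + 1)) + (Acc i).ncard)
    (hmax : ∀ i < m, rk M (P (i + 1) ∪ (N i ∪ Lo i ∪ Hi i)) ≤ rk M (P (i + 1) ∪ Acc i)) :
    ∑ i ∈ Finset.range m, (rk M (K i ∪ N i) - rk M (K i)) ≤
      ∑ i ∈ Finset.range m, (Acc i ∩ N i).ncard + ∑ i ∈ Finset.range m, (Hi i).ncard +
        gen.ncard := by
  -- partial sums
  have key : ∀ j ≤ m, ∑ i ∈ Finset.range j, (rk M (K i ∪ N i) - rk M (K i)) + rk M (P 0) +
      rk M (Q j) ≤ ∑ i ∈ Finset.range j, (Acc i ∩ N i).ncard +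
        ∑ i ∈ Finset.range j, (Hi i).ncard + (gen ∩ (P 0 \ P j)).ncard + rk M (Q 0) +
        rk M (P j) := by
    intro j
    induction j with
    | zero =>
      intro _
      simp only [Finset.range_zero, Finset.sum_empty]
      omega
    | succ j ih =>
      intro hj
      have ih := ih (by omega)
      have h1 := row_one M (hQP (j + 1) hj) (hQQ j (by omega)) (hspan j (by omega)) (hN j (by omega)) (hLo j (by omega))
        (hK j (by omega)) (hAcc j (by omega)) (hind j (by omega)) (hmax j (by omega))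
      have h2 : rk M (K j) ≤ rk M (K j ∪ N j) := rk_mono M subset_union_left
      have hP0 : ∀ i ≤ m, P i ⊆ P 0 := by
        intro i
        induction i with
        | zero => intro _; exact subset_rfl
        | succ i ih => intro hi; exact (hPP i (by omega)).trans (ih (by omega))
      have h3 : (gen ∩ (P 0 \ P j)).ncard + (gen ∩ (P j \ P (j + 1))).ncard ≤
          (gen ∩ (P 0 \ P (j + 1))).ncard := by
        rw [← ncard_union_eq _ (Set.toFinite _) (Set.toFinite _)]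
        · refine ncard_le_ncard ?_ (Set.toFinite _)
          rintro a (⟨hg, h0, hn⟩ | ⟨hg, hp, hn⟩)
          · exact ⟨hg, h0, fun h => hn (hPP j (by omega) h)⟩
          · exact ⟨hg, hP0 j (by omega) hp, hn⟩
        · rw [Set.disjoint_left]
          rintro a ⟨_, _, hn⟩ ⟨_, hp, _⟩
          exact hn hp
      rw [Finset.sum_range_succ, Finset.sum_range_succ, Finset.sum_range_succ]
      omega
  have hk := key m le_rfl
  have h1 : rk M (P m) ≤ rk M (Q m) + (gen ∩ P m).ncard :=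
    (hspan m le_rfl).trans (rk_union_le_ncard M _ _)
  have h2 : (gen ∩ (P 0 \ P m)).ncard + (gen ∩ P m).ncard ≤ gen.ncard := by
    rw [← ncard_union_eq _ (Set.toFinite _) (Set.toFinite _)]
    · refine ncard_le_ncard ?_ (Set.toFinite _)
      rintro a (⟨hg, _⟩ | ⟨hg, _⟩) <;> exact hg
    · rw [Set.disjoint_left]
      rintro a ⟨_, _, hn⟩ ⟨_, hp⟩
      exact hn hp
  have h3 : rk M (Q 0) ≤ rk M (P 0) := rk_mono M (hQP 0 (Nat.zero_le _))
  omega

end Crest.Agent.R305.Row655
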