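import Crest.Agent.R305.Rule_764
import Crest.Agent.R305.TopDef_137
import Crest.Agent.R305.Rows_755

/-!
# R305 / S0468: the rule layer, chain property and GLOBAL FORM (helper764)
-/

set_option autoImplicit false
set_option linter.unusedSectionVars false
set_option linter.unusedVariables false

namespace Crest.Agent.R305.Rule764

open Finset Kd447 Fcl310 Fcr310 Rows755

variable {k : ℕ}

section mono

variable (M : RankFn (Fin k)) (κ : ℕ) (T Z A : Finset (Fin k)) (q : Fin k → Option ℤ)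

theorem cz_mono (ℓ : ℤ) {F F' : Finset (Fin k)} (h : F ⊆ F') :
    cz M κ T Z q ℓ F ⊆ cz M κ T Z q ℓ F' := M.kc_mono (Subset.refl _) h

theorem subset_cz (ℓ : ℤ) (F : Finset (Fin k)) : F ⊆ cz M κ T Z q ℓ F := M.subset_kc _ _ _

theorem flatS_mono (s : ℤ) (n : ℕ) {S S' : Finset (Fin k)} (h : S ⊆ S') :
    flatS M κ T Z q s n S ⊆ flatS M κ T Z q s n S' := by
  induction n with
  | zero => exact Subset.refl _
  | succ n ih =>
    rw [flatS_succ, flatS_succ]
    exact M.cl_mono (union_subset_union (cz_mono M κ T Z q _ ih) (filter_subset_filter _ h))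

theorem cz_subset_flatS (s : ℤ) (n : ℕ) (S : Finset (Fin k)) :
    cz M κ T Z q (s + n) (flatS M κ T Z q s n S) ⊆ flatS M κ T Z q s (n + 1) S := by
  rw [flatS_succ]
  exact subset_union_left.trans (M.subset_cl _)

theorem flatS_le (s : ℤ) {n m : ℕ} (h : n ≤ m) (S : Finset (Fin k)) :
    flatS M κ T Z q s n S ⊆ flatS M κ T Z q s m S := by
  induction m, h using Nat.le_induction with
  | base => exact Subset.refl _
  | succ m _ ih =>
    exact ih.trans ((subset_cz M κ T Z q _ _).trans (cz_subset_flatS M κ T Z q s m S))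

variable {q}

/-- absorbed elements are in the top flat -/
theorem mem_flatS_of_inK {s u : ℤ} {S : Finset (Fin k)} (hZ : Low q Z s) (hS : Low q S s)
    (hZ' : Upp q Z u) (hS' : Upp q S u) {n : ℕ} (hn : u ≤ s + n) {e : Fin k}
    (he : inK M κ T Z q s S e) : e ∈ flatS M κ T Z q s n S := by
  obtain ⟨ℓ, hℓ, _⟩ := id he
  -- a common start level below `ℓ`
  have hZ1 : Low q Z (min s ℓ) := fun a ha x hx => (min_le_left _ _).trans (hZ a ha x hx)
  have hS1 : Low q S (min s ℓ) := fun a ha x hx => (min_le_left _ _).trans (hS a ha x hx)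
  rw [inK_shift M κ T Z hZ hS hZ1 hS1] at he
  obtain ⟨ℓ', hℓ', he'⟩ := he
  have hll : ℓ' = ℓ := by rw [hℓ] at hℓ'; exact (Option.some.inj hℓ').symm
  subst hll
  have e1 : min s ℓ' + ((ℓ' - min s ℓ').toNat : ℤ) = ℓ' := by omega
  have h1 := cz_subset_flatS M κ T Z q (min s ℓ') (ℓ' - min s ℓ').toNat S
  rw [e1] at h1
  have h2 := h1 he'
  have h3 : u ≤ min s ℓ' + (((ℓ' - min s ℓ').toNat + 1 + (u - min s ℓ').toNat : ℕ) : ℤ) := by
    push_cast; omega
  rw [flatS_top M κ T Z hZ hS hZ1 hS1 hZ' hS' hn h3]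
  exact flatS_le M κ T Z q _ (by omega) S h2

/-- (R) CHAIN PROPERTY -/
theorem chain {L ρ t t' : ℕ} {b : Fin k} (hb : row M κ T Z A q L ρ b = some t')
    (ht : t % L = ρ) (hlt : t < t') : b ∈ base M κ T Z A q L t := by
  unfold row at hb
  rw [rowS_eq_some] at hb
  obtain ⟨_, h2, h3⟩ := hb
  have hle : t + L ≤ t' := by
    have h4 : t ≡ t' [MOD L] := by rw [Nat.ModEq, ht, h3]
    have h5 := (Nat.modEq_iff_dvd' hlt.le).1 h4
    have h6 := Nat.le_of_dvd (by omega) h5
    omega
  have h7 : t + L - 1 < t' := by omega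
  have h8 := h2.1 _ h7
  have hA := As_subset M κ T Z A q (start T Z A q) (t + L - 1)
  have hA' : As M κ T Z A q (start T Z A q) (t + L - 1) ⊆ T ∪ Z ∪ A :=
    hA.trans subset_union_right
  have hZ' : Z ⊆ T ∪ Z ∪ A := subset_union_right.trans subset_union_left
  exact mem_flatS_of_inK M κ T Z (low_start T Z A hZ') (low_start T Z A hA')
    (upp_start T Z A hZ') (upp_start T Z A hA') (by simp [start, num]) h8

theorem chain' {L ρ t t' : ℕ} {a b : Fin k} (ha : row M κ T Z A q L ρ a = some t)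
    (hb : row M κ T Z A q L ρ b = some t') (hlt : t < t') : b ∈ base M κ T Z A q L t := by
  refine chain M κ T Z A hb ?_ hlt
  unfold row at ha
  rw [rowS_eq_some] at ha
  exact ha.2.2

end mono

/-! ### the rule -/

/-- the rule as an instance of the plug of helper755 -/
noncomputable def mkRule (M : Matroid (Fin k)) (κ L : ℕ) (Ω : Type) [Fintype Ω] (μ : Ω → ℝ)
    (h0 : ∀ r, 0 ≤ μ r) (h1 : ∑ r, μ r = 1) (T Z A B : Ω → Finset (Fin k)) (ρ : Ω → ℕ) :
    ClsRule k M where
  Ω := Ω
  fin := inferInstance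
  μ := μ
  μ_nonneg := h0
  μ_sum := h1
  T r := T r ∪ Z r ∪ A r
  U r := B r \ (T r ∪ Z r ∪ A r)
  disj r e he := (mem_sdiff.1 he).2
  row r q e := row (ofMatroid M) κ (T r) (Z r) (A r) q L (ρ r) e
  base r q t := base (ofMatroid M) κ (T r) (Z r) (A r) q L t
  row_loc r q q' a h := row_loc (ofMatroid M) κ (T r) (Z r) (A r) h
  base_loc r q q' t h := base_loc (ofMatroid M) κ (T r) (Z r) (A r) h
  chain r q a _ b _ t t' ha hb hlt :=
    (ofMatroid M).subset_cl _ (chain' (ofMatroid M) κ (T r) (Z r) (A r) ha hb hlt)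

/-! ### global form -/

section global

variable (M : RankFn (Fin k)) (κ : ℕ) (T Z A B : Finset (Fin k)) (q : Fin k → Option ℤ)

/-- global start level -/
def gs : ℤ := -(bd q univ : ℤ)

/-- global number of classes -/
def gn : ℕ := 2 * bd q univ + 1

/-- the class of an element -/
def gcls (e : Fin k) : ℕ := ((q e).getD (gs q) - gs q).toNat

variable {q}

theorem gs_le {e : Fin k} {x : ℤ} (h : q e = some x) : gs q ≤ x := by
  have := natAbs_le_bd (mem_univ e) h
  unfold gs; omega

theorem lt_gn {e : Fin k} {x : ℤ} (h : q e = some x) : x < gs q + gn q := by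
  have := natAbs_le_bd (mem_univ e) h
  unfold gs gn; push_cast; omega

theorem gcls_some {e : Fin k} {x : ℤ} (h : q e = some x) : gs q + (gcls q e : ℤ) = x := by
  have := gs_le h
  unfold gcls; rw [h]; simp only [Option.getD_some]; omega

theorem gcls_eq_iff {e : Fin k} {x : ℤ} (h : q e = some x) (n : ℕ) :
    gcls q e = n ↔ x = gs q + n := by
  have := gcls_some h
  omega

theorem gcls_lt (e : Fin k) : gcls q e < gn q := by
  cases h : q e with
  | none => unfold gcls gn; rw [h]; simp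
  | some x =>
    have h1 := gcls_some h
    have h2 := lt_gn h
    omega

variable (q)

/-- the instance of `TopDef137` of a level vector -/
noncomputable def inst : TopDef137.Inst (Fin k) where
  M := M
  pos := pos q
  inj := pos_inj q
  cls := gcls q
  Vd := univ.filter fun e => q e ≠ none
  anti a ha b hb h := by
    simp only [mem_filter, mem_univ, true_and, ne_eq, Option.ne_none_iff_exists'] at ha hb
    obtain ⟨y, hy⟩ := hb
    obtain ⟨x, hx, hxy⟩ := pos_antitone h hy
    have h1 := gcls_some hx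
    have h2 := gcls_some hy
    omega

@[simp] theorem inst_M : (inst M q).M = M := rfl
@[simp] theorem inst_pos : (inst M q).pos = pos q := rfl
@[simp] theorem inst_cls : (inst M q).cls = gcls q := rfl
theorem mem_Vd {e : Fin k} : e ∈ (inst M q).Vd ↔ q e ≠ none := by simp [inst]

variable {q}

/-- value of a level in terms of the class -/
theorem val_gcls {Λ : ℕ} (hΛ : 0 < Λ) {e : Fin k} (he : q e ≠ none) :
    val Λ (q e) = (Λ : ℝ) ^ (gs q) * (Λ : ℝ) ^ (gcls q e) := by
  obtain ⟨x, hx⟩ := Option.ne_none_iff_exists'.1 he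
  have h0 : (Λ : ℝ) ≠ 0 := by exact_mod_cast hΛ.ne'
  rw [hx, val_some, ← zpow_natCast, ← zpow_add₀ h0, gcls_some hx]

variable (q)

theorem below_inter {e : Fin k} (he : q e ≠ none) :
    TopDef137.below (pos q) (T ∩ (inst M q).Vd) e = below T q e := by
  ext a
  simp only [TopDef137.below, below, mem_filter, mem_inter, mem_Vd]
  constructor
  · rintro ⟨⟨h1, _⟩, h2⟩; exact ⟨h1, h2⟩
  · rintro ⟨h1, h2⟩
    obtain ⟨y, hy⟩ := Option.ne_none_iff_exists'.1 he
    obtain ⟨x, hx, _⟩ := pos_antitone h2 hy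
    exact ⟨⟨h1, by rw [hx]; simp⟩, h2⟩

/-- (G1) candidates -/
theorem mem_cand {e : Fin k} : e ∈ TopDef137.cand (inst M q) T ↔ fresh M T q e := by
  unfold TopDef137.cand fresh
  rw [mem_filter, mem_Vd]
  constructor
  · rintro ⟨h1, h2, h3⟩
    exact ⟨h2, h1, by rwa [inst_pos, below_inter M T q h1] at h3⟩
  · rintro ⟨h2, h1, h3⟩
    exact ⟨h1, h2, by rwa [inst_pos, below_inter M T q h1]⟩

theorem inter_En (n : ℕ) : Z ∩ TopDef137.En (inst M q) T n = lev M T q Z (gs q + n) := by
  ext e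
  simp only [TopDef137.En, mem_inter, mem_filter, mem_cand, mem_lev, inst_cls]
  refine and_congr_right fun _ => and_congr_right fun h => ?_
  obtain ⟨x, hx⟩ := Option.ne_none_iff_exists'.1 h.2.1
  rw [gcls_eq_iff hx, hx]
  simp

/-- (G2) the samples of the dense closures -/
theorem Zs_eq (n : ℕ) : TopDef137.Zs (inst M q) T Z n = Zp M T Z q (gs q + n) := by
  unfold TopDef137.Zs TopDef137.grd
  rw [inter_En]
  rfl

/-- (G3) the effective samples -/
theorem As_eq : TopDef137.As (inst M q) T Z A = Aeff M T Z A q := by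
  ext e
  simp only [TopDef137.As, mem_inter, mem_sdiff, mem_cand, mem_Aeff]
  tauto

/-- (G4) the flats -/
theorem flat_eq {S : Finset (Fin k)} (hS : ∀ e ∈ S, q e ≠ none) (n : ℕ) :
    flat (TopDef137.dat (inst M q) κ T Z) n S = flatS M κ T Z q (gs q) n S := by
  induction n with
  | zero => rfl
  | succ n ih =>
    rw [flat_succ, flatS_succ, ih]
    have h1 : (TopDef137.dat (inst M q) κ T Z).c n (flatS M κ T Z q (gs q) n S) =
        cz M κ T Z q (gs q + n) (flatS M κ T Z q (gs q) n S) := by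
      show M.kc κ (TopDef137.Zs (inst M q) T Z n) _ = _
      rw [Zs_eq]; rfl
    have h2 : (S.filter fun a => (TopDef137.dat (inst M q) κ T Z).cls a = n) =
        S.filter fun a => q a = some (gs q + n) := by
      apply filter_congr
      intro a ha
      obtain ⟨x, hx⟩ := Option.ne_none_iff_exists'.1 (hS a ha)
      show gcls q a = n ↔ _
      rw [gcls_eq_iff hx, hx]
      simp
    rw [h1, h2]
    rfl

theorem mem_c_iff {S : Finset (Fin k)} (hS : ∀ e ∈ S, q e ≠ none) {e : Fin k} (he : q e ≠ none) :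
    e ∈ (TopDef137.dat (inst M q) κ T Z).c ((TopDef137.dat (inst M q) κ T Z).cls e)
      (flat (TopDef137.dat (inst M q) κ T Z) ((TopDef137.dat (inst M q) κ T Z).cls e) S) ↔
    inK M κ T Z q (gs q) S e := by
  obtain ⟨x, hx⟩ := Option.ne_none_iff_exists'.1 he
  rw [flat_eq M κ T Z q hS]
  show e ∈ M.kc κ (TopDef137.Zs (inst M q) T Z (gcls q e)) (flatS M κ T Z q (gs q) (gcls q e) S) ↔ _
  rw [Zs_eq, gcls_some hx]
  have h1 : (x - gs q).toNat = gcls q e := by have := gcls_some hx; omega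
  unfold inK cz
  constructor
  · intro h
    exact ⟨x, hx, by rwa [h1]⟩
  · rintro ⟨ℓ, hℓ, h⟩
    have : ℓ = x := by rw [hx] at hℓ; exact (Option.some.inj hℓ).symm
    subst this
    rwa [h1] at h

theorem Aeff_ne {e : Fin k} (he : e ∈ Aeff M T Z A q) : q e ≠ none :=
  ((mem_Aeff M T Z A q).1 he).2.2.2.1

theorem As_ne {s : ℤ} {j : ℕ} {e : Fin k} (he : e ∈ As M κ T Z A q s j) : q e ≠ none :=
  Aeff_ne M T Z A q (As_subset_Aeff M κ T Z A q s j he)

/-- (G5) the samples of the chain -/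
theorem inter_St (t : ℕ) :
    TopDef137.As (inst M q) T Z A ∩
      St (TopDef137.dat (inst M q) κ T Z) (TopDef137.As (inst M q) T Z A) t =
    As M κ T Z A q (gs q) t := by
  induction t with
  | zero => rw [St_zero, inter_univ, As_eq]; rfl
  | succ t ih =>
    ext e
    rw [mem_inter, mem_St_succ, mem_As_succ, ← ih, mem_inter]
    constructor
    · rintro ⟨h1, h2, h3⟩
      refine ⟨⟨h1, h2⟩, ?_⟩
      have he : q e ≠ none := by rw [As_eq] at h1; exact Aeff_ne M T Z A q h1
      rw [ih, ← mem_c_iff M κ T Z q (fun _ h => As_ne M κ T Z A q h) he, ← ih]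
      exact h3
    · rintro ⟨⟨h1, h2⟩, h3⟩
      refine ⟨h1, h2, ?_⟩
      have he : q e ≠ none := by rw [As_eq] at h1; exact Aeff_ne M T Z A q h1
      rw [ih, ← mem_c_iff M κ T Z q (fun _ h => As_ne M κ T Z A q h) he, ← ih] at h3
      exact h3

/-- (G5') the flats of the chain -/
theorem fl_eq (t n : ℕ) :
    fl (TopDef137.dat (inst M q) κ T Z) (TopDef137.As (inst M q) T Z A) t n =
      flatS M κ T Z q (gs q) n (As M κ T Z A q (gs q) t) := by
  unfold fl
  rw [inter_St, flat_eq M κ T Z q (fun _ h => As_ne M κ T Z A q h)]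

theorem mem_St {e : Fin k} (he : q e ≠ none) (t : ℕ) :
    e ∈ St (TopDef137.dat (inst M q) κ T Z) (TopDef137.As (inst M q) T Z A) t ↔
      ∀ j < t, inK M κ T Z q (gs q) (As M κ T Z A q (gs q) j) e := by
  induction t with
  | zero => simp [St_zero]
  | succ t ih =>
    rw [mem_St_succ, ih]
    have h1 := mem_c_iff M κ T Z q (S := As M κ T Z A q (gs q) t)
      (fun _ h => As_ne M κ T Z A q h) he
    unfold fl
    rw [inter_St, h1]
    constructor
    · rintro ⟨h2, h3⟩ j hj
      rcases Nat.lt_succ_iff_lt_or_eq.1 hj with h4 | h4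
      · exact h2 j h4
      · subst h4; exact h3
    · intro h
      exact ⟨fun j hj => h j (by omega), h t (by omega)⟩

/-- (G6) exit times -/
theorem mem_Row {e : Fin k} (he : q e ≠ none) (t : ℕ) :
    e ∈ TopDef137.Row (inst M q) κ T Z A t ↔ exit M κ T Z A q (gs q) e t := by
  unfold TopDef137.Row exit
  rw [mem_Dt, mem_St M κ T Z A q he]
  have h1 := mem_c_iff M κ T Z q (S := As M κ T Z A q (gs q) t)
    (fun _ h => As_ne M κ T Z A q h) he
  unfold fl
  rw [inter_St, h1]

theorem low_gs (S : Finset (Fin k)) : Low q S (gs q) := fun _ _ _ hx => gs_le hx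

theorem upp_gn (S : Finset (Fin k)) : Upp q S (gs q + gn q) := fun _ _ _ hx => lt_gn hx

/-- (G7) ROWS, global form -/
theorem row_eq_some {L ρ : ℕ} {e : Fin k} {t : ℕ} :
    row M κ T Z A q L ρ e = some t ↔
      e ∈ TopDef137.cand (inst M q) T ∧ e ∈ TopDef137.Row (inst M q) κ T Z A t ∧ t % L = ρ := by
  unfold row
  rw [rowS_eq_some]
  have hZ' : Z ⊆ T ∪ Z ∪ A := subset_union_right.trans subset_union_left
  rw [served_shift M κ T Z A (low_start T Z A hZ') (low_start T Z A subset_union_right)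
    (low_gs q Z) (low_gs q A)]
  unfold served
  rw [mem_cand]
  constructor
  · rintro ⟨h1, h2, h3⟩
    exact ⟨h1, (mem_Row M κ T Z A q h1.2.1 t).2 h2, h3⟩
  · rintro ⟨h1, h2, h3⟩
    exact ⟨h1, (mem_Row M κ T Z A q h1.2.1 t).1 h2, h3⟩

/-- (G8) BASES, global form -/
theorem base_eq (L t : ℕ) {N : ℕ} (hN : gn q ≤ N) :
    base M κ T Z A q L t =
      fl (TopDef137.dat (inst M q) κ T Z) (TopDef137.As (inst M q) T Z A) (t + L - 1) N := by
  rw [fl_eq]
  unfold base
  have hZ' : Z ⊆ T ∪ Z ∪ A := subset_union_right.trans subset_union_left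
  have h1 := As_shift M κ T Z A (low_start T Z A hZ')
    (low_start T Z A (S := A) subset_union_right) (low_gs q Z) (low_gs q A) (t + L - 1)
  rw [h1]
  have hA := As_subset M κ T Z A q (gs q) (t + L - 1)
  have hA' : As M κ T Z A q (gs q) (t + L - 1) ⊆ T ∪ Z ∪ A := hA.trans subset_union_right
  rw [flatS_top M κ T Z (low_start T Z A hZ') (low_start T Z A hA') (low_gs q Z) (low_gs q _)
    (upp_start T Z A hZ') (upp_start T Z A hA') (n₁ := num T Z A q)
    (n₂ := (start T Z A q + num T Z A q - gs q).toNat) (le_refl _) (by omega)]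
  -- both are above all levels
  have h2 := flatS_stable M κ T Z (s := gs q) (u := gs q + gn q)
    (S := As M κ T Z A q (gs q) (t + L - 1)) (upp_gn q Z) (upp_gn q _) (n := gn q) (m := N)
    (le_refl _) hN
  rw [h2]
  exact flatS_top M κ T Z (low_gs q Z) (low_gs q _) (low_gs q Z) (low_gs q _)
    (u := min (start T Z A q + num T Z A q) (gs q + gn q))
    (fun a ha x hx => lt_min (upp_start T Z A hZ' a ha x hx) (lt_gn hx))
    (fun a ha x hx => lt_min (upp_start T Z A hA' a ha x hx) (lt_gn hx))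
    (by omega) (by omega)

/-- (G9) transfer of row bases: everything that the analysis needs from an accepted set -/
theorem rowBasis_global {L ρ : ℕ} {Acc : Finset (Fin k)} {N : ℕ} (hN : gn q ≤ N)
    (h : RowBasis M (B \ (T ∪ Z ∪ A)) (row M κ T Z A q L ρ) (base M κ T Z A q L) Acc) :
    Acc ⊆ TopDef137.Hs (inst M q) T Z A B ∧
    (∀ a ∈ Acc, ∃ t, t % L = ρ ∧ a ∈ TopDef137.Row (inst M q) κ T Z A t) ∧
    (∀ t, t % L = ρ →
      M.rr (fl (TopDef137.dat (inst M q) κ T Z) (TopDef137.As (inst M q) T Z A) (t + L - 1) N)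
        (Acc ∩ TopDef137.Row (inst M q) κ T Z A t) =
          (Acc ∩ TopDef137.Row (inst M q) κ T Z A t).card) ∧
    (∀ t, t % L = ρ →
      TopDef137.Hs (inst M q) T Z A B ∩ TopDef137.Row (inst M q) κ T Z A t ⊆
        M.cl (fl (TopDef137.dat (inst M q) κ T Z) (TopDef137.As (inst M q) T Z A) (t + L - 1) N ∪
          (Acc ∩ TopDef137.Row (inst M q) κ T Z A t))) := by
  have key : ∀ a ∈ Acc, ∃ t, a ∈ TopDef137.cand (inst M q) T ∧
      a ∈ TopDef137.Row (inst M q) κ T Z A t ∧ t % L = ρ := by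
    intro a ha
    obtain ⟨t, ht⟩ := Option.ne_none_iff_exists'.1 (h.row_ne a ha)
    exact ⟨t, (row_eq_some M κ T Z A q).1 ht⟩
  have hfil : ∀ t, t % L = ρ → Acc.filter (fun a => row M κ T Z A q L ρ a = some t) =
      Acc ∩ TopDef137.Row (inst M q) κ T Z A t := by
    intro t ht
    ext a
    rw [mem_filter, mem_inter, row_eq_some M κ T Z A q]
    constructor
    · rintro ⟨h1, _, h3, _⟩; exact ⟨h1, h3⟩
    · rintro ⟨h1, h3⟩
      obtain ⟨_, h4, _, _⟩ := key a h1
      exact ⟨h1, h4, h3, ht⟩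
  refine ⟨?_, ?_, ?_, ?_⟩
  · intro a ha
    obtain ⟨_, h4, _, _⟩ := key a ha
    have h5 := h.sub ha
    simp only [mem_sdiff, mem_union, not_or] at h5
    simp only [TopDef137.Hs, mem_sdiff, mem_inter]
    exact ⟨⟨h5.1, h4, h5.2.1.2⟩, h5.2.2⟩
  · intro a ha
    obtain ⟨t, _, h5, h6⟩ := key a ha
    exact ⟨t, h6, h5⟩
  · intro t ht
    have h1 := h.indep t
    rwa [hfil t ht, base_eq M κ T Z A q L t hN] at h1
  · intro t ht u hu
    rw [mem_inter] at hu
    obtain ⟨hu1, hu2⟩ := hu
    simp only [TopDef137.Hs, mem_sdiff, mem_inter] at hu1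
    have hT : u ∉ T := ((mem_cand M T q).1 hu1.1.2.1).1
    have h1 := h.span u (by
      simp only [mem_sdiff, mem_union, not_or]
      exact ⟨hu1.1.1, ⟨hT, hu1.1.2.2⟩, hu1.2⟩) t
      ((row_eq_some M κ T Z A q).2 ⟨hu1.1.2.1, hu2, ht⟩)
    rwa [hfil t ht, base_eq M κ T Z A q L t hN] at h1

end global

end Crest.Agent.R305.Rule764
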