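import Crest.Agent.R305.Fcr_310

/-!
# R305 / S0468: the deterministic rule layer (helper764)

For label sets `T Z A` (raw samples) and a level vector `q : Fin k → Option ℤ` (`none` = discarded)
this file defines the rows and the bases of the rule of doc 1793, proves that they only depend on the
levels of the sampled elements (and on the level of the element itself), the chain property, and the
independence of the start level used in the definition (shift invariance), i.e. the GLOBAL FORM with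
one fixed `rankData` of helper310.
-/

set_option autoImplicit false
set_option linter.unusedSectionVars false

namespace Crest.Agent.R305.Rule764

open Finset Kd447 Fcl310 Fcr310

variable {k : ℕ}

/-! ### the order: level first, then index -/

/-- `a` comes before `b` (heavier; `none` last; ties by index) -/
def bef (q : Fin k → Option ℤ) (a b : Fin k) : Prop :=
  match q a, q b with
  | some x, some y => y < x ∨ (x = y ∧ a < b)
  | some _, none => True
  | none, some _ => False
  | none, none => a < b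

theorem bef_congr {q q' : Fin k → Option ℤ} {a b : Fin k} (ha : q a = q' a) (hb : q b = q' b) :
    bef q a b ↔ bef q' a b := by
  unfold bef; rw [ha, hb]

theorem bef_irrefl (q : Fin k → Option ℤ) (a : Fin k) : ¬ bef q a a := by
  unfold bef
  cases h : q a <;> simp

theorem bef_trans {q : Fin k → Option ℤ} {a b c : Fin k} (h1 : bef q a b) (h2 : bef q b c) :
    bef q a c := by
  unfold bef at *
  cases ha : q a <;> cases hb : q b <;> cases hc : q c <;> simp only [ha, hb, hc] at * <;>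
    first
    | trivial
    | exact h1.elim
    | exact h2.elim
    | exact h1.trans h2
    | (rcases h1 with h1 | ⟨h1, h1'⟩ <;> rcases h2 with h2 | ⟨h2, h2'⟩
       · left; omega
       · left; omega
       · left; omega
       · right; exact ⟨by omega, h1'.trans h2'⟩)

theorem bef_total {q : Fin k → Option ℤ} {a b : Fin k} (h : a ≠ b) : bef q a b ∨ bef q b a := by
  unfold bef
  cases ha : q a <;> cases hb : q b
  · exact lt_or_gt_of_ne h
  · right; trivial
  · left; trivial
  · rename_i x y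
    simp only
    rcases lt_or_gt_of_ne h with h' | h' <;> rcases lt_trichotomy x y with h1 | h1 | h1
    · right; left; exact h1
    · left; right; exact ⟨h1, h'⟩
    · left; left; exact h1
    · right; left; exact h1
    · right; right; exact ⟨h1.symm, h'⟩
    · left; left; exact h1

open Classical in
/-- position: number of elements before `a` (heavy = small) -/
noncomputable def pos (q : Fin k → Option ℤ) (a : Fin k) : ℕ :=
  (univ.filter (fun b => bef q b a)).card

theorem pos_lt_of_bef {q : Fin k → Option ℤ} {a b : Fin k} (h : bef q a b) : pos q a < pos q b := by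
  classical
  unfold pos
  apply card_lt_card
  rw [ssubset_iff_of_subset]
  · exact ⟨a, by simpa using h, by simpa using bef_irrefl q a⟩
  · intro c hc
    simp only [mem_filter, mem_univ, true_and] at hc ⊢
    exact bef_trans hc h

theorem pos_lt_iff {q : Fin k → Option ℤ} {a b : Fin k} : pos q a < pos q b ↔ bef q a b := by
  constructor
  · intro h
    by_cases hab : a = b
    · subst hab; omega
    · rcases bef_total (q := q) hab with h1 | h1
      · exact h1
      · have := pos_lt_of_bef h1; omega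
  · exact pos_lt_of_bef

theorem pos_inj (q : Fin k → Option ℤ) : Function.Injective (pos q) := by
  intro a b h
  by_contra hab
  rcases bef_total (q := q) hab with h1 | h1 <;>
  · have := pos_lt_of_bef h1; omega

/-- levels are antitone along `pos` -/
theorem pos_antitone {q : Fin k → Option ℤ} {a b : Fin k} (h : pos q a < pos q b) {y : ℤ}
    (hb : q b = some y) : ∃ x, q a = some x ∧ y ≤ x := by
  rw [pos_lt_iff] at h
  unfold bef at h
  rw [hb] at h
  cases ha : q a with
  | none => rw [ha] at h; exact h.elim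
  | some x =>
    rw [ha] at h
    refine ⟨x, rfl, ?_⟩
    simp only at h
    omega

theorem pos_lt_of_level {q : Fin k → Option ℤ} {a b : Fin k} {x y : ℤ} (ha : q a = some x)
    (hb : q b = some y) (h : y < x) : pos q a < pos q b := by
  rw [pos_lt_iff]; unfold bef; rw [ha, hb]; exact Or.inl h

section defs

variable (M : RankFn (Fin k)) (κ : ℕ) (T Z A : Finset (Fin k)) (q : Fin k → Option ℤ)

/-- the elements of `T` heavier than `e` -/
noncomputable def below (e : Fin k) : Finset (Fin k) := T.filter (fun a => pos q a < pos q e)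

theorem mem_below {a e : Fin k} : a ∈ below T q e ↔ a ∈ T ∧ pos q a < pos q e := by
  simp only [below, mem_filter]

/-- candidates -/
def fresh (e : Fin k) : Prop := e ∉ T ∧ q e ≠ none ∧ e ∉ M.cl (below T q e)

open Classical in
/-- the fresh elements of `S` of level `ℓ` -/
noncomputable def lev (S : Finset (Fin k)) (ℓ : ℤ) : Finset (Fin k) :=
  S.filter (fun z => fresh M T q z ∧ q z = some ℓ)

theorem mem_lev {S : Finset (Fin k)} {ℓ : ℤ} {z : Fin k} :
    z ∈ lev M T q S ℓ ↔ z ∈ S ∧ fresh M T q z ∧ q z = some ℓ := by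
  simp only [lev, mem_filter]

/-- greedy basis of the fresh elements of `Z` of level `ℓ` -/
noncomputable def Zp (ℓ : ℤ) : Finset (Fin k) :=
  (lev M T q Z ℓ).filter (fun z => z ∉ M.cl ((lev M T q Z ℓ).filter (fun z' => pos q z' < pos q z)))

theorem mem_Zp {ℓ : ℤ} {z : Fin k} : z ∈ Zp M T Z q ℓ ↔
    z ∈ lev M T q Z ℓ ∧ z ∉ M.cl ((lev M T q Z ℓ).filter (fun z' => pos q z' < pos q z)) := by
  simp only [Zp, mem_filter]

/-- the dense closure of level `ℓ` -/
noncomputable def cz (ℓ : ℤ) (F : Finset (Fin k)) : Finset (Fin k) := M.kc κ (Zp M T Z q ℓ) F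

open Classical in
/-- effective part of the sample `A` -/
noncomputable def Aeff : Finset (Fin k) := A.filter (fun a => a ∉ Z ∧ fresh M T q a)

theorem mem_Aeff {a : Fin k} : a ∈ Aeff M T Z A q ↔ a ∈ A ∧ a ∉ Z ∧ fresh M T q a := by
  simp only [Aeff, mem_filter]

/-- flat generated by the levels `s, …, s + n - 1` -/
noncomputable def flatS (s : ℤ) : ℕ → Finset (Fin k) → Finset (Fin k)
  | 0, _ => M.cl ∅
  | n + 1, S => M.cl (cz M κ T Z q (s + n) (flatS s n S) ∪ S.filter (fun a => q a = some (s + n)))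

/-- `e` is absorbed by `S` -/
def inK (s : ℤ) (S : Finset (Fin k)) (e : Fin k) : Prop :=
  ∃ ℓ : ℤ, q e = some ℓ ∧ e ∈ cz M κ T Z q ℓ (flatS M κ T Z q s (ℓ - s).toNat S)

open Classical in
/-- the chain of samples `A ∩ S_t` -/
noncomputable def As (s : ℤ) : ℕ → Finset (Fin k)
  | 0 => Aeff M T Z A q
  | j + 1 => (As s j).filter (fun a => inK M κ T Z q s (As s j) a)

theorem mem_As_succ {s : ℤ} {j : ℕ} {a : Fin k} : a ∈ As M κ T Z A q s (j + 1) ↔
    a ∈ As M κ T Z A q s j ∧ inK M κ T Z q s (As M κ T Z A q s j) a := by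
  simp only [As, mem_filter]

/-- exit time -/
def exit (s : ℤ) (e : Fin k) (t : ℕ) : Prop :=
  (∀ j < t, inK M κ T Z q s (As M κ T Z A q s j) e) ∧ ¬ inK M κ T Z q s (As M κ T Z A q s t) e

theorem exit_unique {s : ℤ} {e : Fin k} {t t' : ℕ} (h : exit M κ T Z A q s e t)
    (h' : exit M κ T Z A q s e t') : t = t' := by
  rcases lt_trichotomy t t' with h1 | h1 | h1
  · exact absurd (h'.1 t h1) h.2
  · exact h1
  · exact absurd (h.1 t' h1) h'.2

/-- `e` is served in row `t` -/
def served (L ρ : ℕ) (s : ℤ) (e : Fin k) (t : ℕ) : Prop :=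
  fresh M T q e ∧ exit M κ T Z A q s e t ∧ t % L = ρ

open Classical in
/-- row with start level `s` -/
noncomputable def rowS (L ρ : ℕ) (s : ℤ) (e : Fin k) : Option ℕ :=
  if h : ∃ t, served M κ T Z A q L ρ s e t then some h.choose else none

theorem rowS_eq_some {L ρ : ℕ} {s : ℤ} {e : Fin k} {t : ℕ} :
    rowS M κ T Z A q L ρ s e = some t ↔ served M κ T Z A q L ρ s e t := by
  unfold rowS
  constructor
  · intro h
    split at h
    · rename_i h1
      have h2 := h1.choose_spec
      have h3 : h1.choose = t := by simpa using h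
      rwa [h3] at h2
    · simp at h
  · intro h
    have h1 : ∃ t, served M κ T Z A q L ρ s e t := ⟨t, h⟩
    rw [dif_pos h1]
    have h2 := h1.choose_spec
    rw [exit_unique M κ T Z A q h2.2.1 h.2.1]

/-- bound for the known levels -/
def bd (S : Finset (Fin k)) : ℕ := ∑ e ∈ S, ((q e).getD 0).natAbs

/-- start level of the rule -/
def start : ℤ := -(bd q (T ∪ Z ∪ A) : ℤ)

/-- number of levels of the rule -/
def num : ℕ := 2 * bd q (T ∪ Z ∪ A) + 1

/-- THE ROWS of the rule -/
noncomputable def row (L ρ : ℕ) (e : Fin k) : Option ℕ :=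
  rowS M κ T Z A q L ρ (start T Z A q) e

/-- THE BASES of the rule -/
noncomputable def base (L : ℕ) (t : ℕ) : Finset (Fin k) :=
  flatS M κ T Z q (start T Z A q) (num T Z A q) (As M κ T Z A q (start T Z A q) (t + L - 1))

end defs

/-! ### locality -/

section local_

variable (M : RankFn (Fin k)) (κ : ℕ) (T Z A : Finset (Fin k)) {q q' : Fin k → Option ℤ}

theorem below_congr {e : Fin k} (hT : ∀ a ∈ T, q a = q' a) (he : q e = q' e) :
    below T q e = below T q' e := by
  ext a
  rw [mem_below, mem_below, pos_lt_iff, pos_lt_iff]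
  exact and_congr_right fun ha => bef_congr (hT a ha) he

theorem fresh_congr {e : Fin k} (hT : ∀ a ∈ T, q a = q' a) (he : q e = q' e) :
    fresh M T q e ↔ fresh M T q' e := by
  unfold fresh
  rw [below_congr T hT he, he]

theorem lev_congr {S : Finset (Fin k)} {ℓ : ℤ} (hT : ∀ a ∈ T, q a = q' a)
    (hS : ∀ a ∈ S, q a = q' a) : lev M T q S ℓ = lev M T q' S ℓ := by
  ext a
  rw [mem_lev, mem_lev]
  refine and_congr_right fun ha => ?_
  rw [fresh_congr M T hT (hS a ha), hS a ha]

theorem Zp_congr {ℓ : ℤ} (hT : ∀ a ∈ T, q a = q' a) (hZ : ∀ a ∈ Z, q a = q' a) :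
    Zp M T Z q ℓ = Zp M T Z q' ℓ := by
  have h0 := lev_congr M T (ℓ := ℓ) hT hZ
  ext a
  rw [mem_Zp, mem_Zp, h0]
  refine and_congr_right fun ha => ?_
  have h1 : (lev M T q' Z ℓ).filter (fun z' => pos q z' < pos q a) =
      (lev M T q' Z ℓ).filter (fun z' => pos q' z' < pos q' a) := by
    ext b
    rw [mem_filter, mem_filter, pos_lt_iff, pos_lt_iff]
    refine and_congr_right fun hb => bef_congr (hZ b ?_) (hZ a ?_)
    · exact ((mem_lev M T q').1 hb).1
    · exact ((mem_lev M T q').1 ha).1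
  rw [h1]

theorem cz_congr {ℓ : ℤ} {F : Finset (Fin k)} (hT : ∀ a ∈ T, q a = q' a)
    (hZ : ∀ a ∈ Z, q a = q' a) : cz M κ T Z q ℓ F = cz M κ T Z q' ℓ F := by
  unfold cz
  rw [Zp_congr M T Z hT hZ]

theorem Aeff_congr (hT : ∀ a ∈ T, q a = q' a) (hA : ∀ a ∈ A, q a = q' a) :
    Aeff M T Z A q = Aeff M T Z A q' := by
  ext a
  rw [mem_Aeff, mem_Aeff]
  refine and_congr_right fun ha => ?_
  rw [fresh_congr M T hT (hA a ha)]

theorem flatS_congr {s : ℤ} {S : Finset (Fin k)} (hT : ∀ a ∈ T, q a = q' a)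
    (hZ : ∀ a ∈ Z, q a = q' a) (hS : ∀ a ∈ S, q a = q' a) (n : ℕ) :
    flatS M κ T Z q s n S = flatS M κ T Z q' s n S := by
  induction n with
  | zero => rfl
  | succ n ih =>
    rw [flatS, flatS, ih, cz_congr M κ T Z hT hZ]
    congr 2
    apply filter_congr
    intro a ha
    rw [hS a ha]

theorem inK_congr {s : ℤ} {S : Finset (Fin k)} {e : Fin k} (hT : ∀ a ∈ T, q a = q' a)
    (hZ : ∀ a ∈ Z, q a = q' a) (hS : ∀ a ∈ S, q a = q' a) (he : q e = q' e) :
    inK M κ T Z q s S e ↔ inK M κ T Z q' s S e := by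
  unfold inK
  rw [he]
  constructor
  · rintro ⟨ℓ, h1, h2⟩
    exact ⟨ℓ, h1, by rwa [cz_congr M κ T Z hT hZ, flatS_congr M κ T Z hT hZ hS] at h2⟩
  · rintro ⟨ℓ, h1, h2⟩
    exact ⟨ℓ, h1, by rwa [cz_congr M κ T Z hT hZ, flatS_congr M κ T Z hT hZ hS]⟩

theorem As_subset_Aeff (q : Fin k → Option ℤ) (s : ℤ) (j : ℕ) :
    As M κ T Z A q s j ⊆ Aeff M T Z A q := by
  induction j with
  | zero => exact Subset.refl _
  | succ j ih =>
    intro a ha
    exact ih ((mem_As_succ M κ T Z A q).1 ha).1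

theorem As_anti (q : Fin k → Option ℤ) (s : ℤ) {i j : ℕ} (h : i ≤ j) :
    As M κ T Z A q s j ⊆ As M κ T Z A q s i := by
  induction j, h using Nat.le_induction with
  | base => exact Subset.refl _
  | succ j _ ih =>
    intro a ha
    exact ih ((mem_As_succ M κ T Z A q).1 ha).1

theorem Aeff_subset (q : Fin k → Option ℤ) : Aeff M T Z A q ⊆ A :=
  fun _ ha => ((mem_Aeff M T Z A q).1 ha).1

theorem As_subset (q : Fin k → Option ℤ) (s : ℤ) (j : ℕ) : As M κ T Z A q s j ⊆ A :=
  (As_subset_Aeff M κ T Z A q s j).trans (Aeff_subset M T Z A q)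

theorem As_congr {s : ℤ} (hT : ∀ a ∈ T, q a = q' a)
    (hZ : ∀ a ∈ Z, q a = q' a) (hA : ∀ a ∈ A, q a = q' a) (j : ℕ) :
    As M κ T Z A q s j = As M κ T Z A q' s j := by
  induction j with
  | zero => exact Aeff_congr M T Z A hT hA
  | succ j ih =>
    ext a
    rw [mem_As_succ, mem_As_succ, ← ih]
    refine and_congr_right fun ha => ?_
    have h1 := As_subset M κ T Z A q s j
    exact inK_congr M κ T Z hT hZ (fun b hb => hA b (h1 hb)) (hA a (h1 ha))

theorem served_congr {L ρ : ℕ} {s : ℤ} {e : Fin k} {t : ℕ} (hT : ∀ a ∈ T, q a = q' a)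
    (hZ : ∀ a ∈ Z, q a = q' a) (hA : ∀ a ∈ A, q a = q' a) (he : q e = q' e) :
    served M κ T Z A q L ρ s e t ↔ served M κ T Z A q' L ρ s e t := by
  have h1 : ∀ j, inK M κ T Z q s (As M κ T Z A q s j) e ↔
      inK M κ T Z q' s (As M κ T Z A q' s j) e := by
    intro j
    rw [← As_congr M κ T Z A hT hZ hA j]
    exact inK_congr M κ T Z hT hZ (fun b hb => hA b (As_subset M κ T Z A q s j hb)) he
  unfold served exit
  rw [fresh_congr M T hT he]
  simp only [h1]

theorem start_congr (hT : ∀ a ∈ T, q a = q' a)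
    (hZ : ∀ a ∈ Z, q a = q' a) (hA : ∀ a ∈ A, q a = q' a) : start T Z A q = start T Z A q' := by
  unfold start bd
  congr 2
  apply sum_congr rfl
  intro e he
  rcases mem_union.1 he with he | he
  · rcases mem_union.1 he with he | he
    · rw [hT e he]
    · rw [hZ e he]
  · rw [hA e he]

theorem num_congr (hT : ∀ a ∈ T, q a = q' a)
    (hZ : ∀ a ∈ Z, q a = q' a) (hA : ∀ a ∈ A, q a = q' a) : num T Z A q = num T Z A q' := by
  unfold num bd
  congr 2
  apply sum_congr rfl
  intro e he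
  rcases mem_union.1 he with he | he
  · rcases mem_union.1 he with he | he
    · rw [hT e he]
    · rw [hZ e he]
  · rw [hA e he]

/-- (R2a) ROW LOCALITY -/
theorem row_loc {L ρ : ℕ} {e : Fin k} (h : ∀ a, a ∈ T ∪ Z ∪ A ∨ a = e → q a = q' a) :
    row M κ T Z A q L ρ e = row M κ T Z A q' L ρ e := by
  have hT : ∀ a ∈ T, q a = q' a := fun a ha => h a (Or.inl (by simp [ha]))
  have hZ : ∀ a ∈ Z, q a = q' a := fun a ha => h a (Or.inl (by simp [ha]))
  have hA : ∀ a ∈ A, q a = q' a := fun a ha => h a (Or.inl (by simp [ha]))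
  have he : q e = q' e := h e (Or.inr rfl)
  unfold row
  rw [← start_congr T Z A hT hZ hA]
  ext t
  rw [rowS_eq_some, rowS_eq_some]
  exact served_congr M κ T Z A hT hZ hA he

/-- (R2b) BASE LOCALITY -/
theorem base_loc {L t : ℕ} (h : ∀ a ∈ T ∪ Z ∪ A, q a = q' a) :
    base M κ T Z A q L t = base M κ T Z A q' L t := by
  have hT : ∀ a ∈ T, q a = q' a := fun a ha => h a (by simp [ha])
  have hZ : ∀ a ∈ Z, q a = q' a := fun a ha => h a (by simp [ha])
  have hA : ∀ a ∈ A, q a = q' a := fun a ha => h a (by simp [ha])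
  unfold base
  rw [← start_congr T Z A hT hZ hA, ← num_congr T Z A hT hZ hA, ← As_congr M κ T Z A hT hZ hA]
  exact flatS_congr M κ T Z hT hZ (fun b hb => hA b (As_subset M κ T Z A q _ _ hb)) _

end local_

/-! ### shift invariance -/

section shift

variable (M : RankFn (Fin k)) (κ : ℕ) (T Z A : Finset (Fin k)) (q : Fin k → Option ℤ)

theorem Zp_subset (ℓ : ℤ) : Zp M T Z q ℓ ⊆ Z := fun _ hz =>
  ((mem_lev M T q).1 ((mem_Zp M T Z q).1 hz).1).1

/-- known levels are at least `s` -/
def Low (S : Finset (Fin k)) (s : ℤ) : Prop := ∀ a ∈ S, ∀ x, q a = some x → s ≤ x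

/-- known levels are below `u` -/
def Upp (S : Finset (Fin k)) (u : ℤ) : Prop := ∀ a ∈ S, ∀ x, q a = some x → x < u

variable {q}

theorem Zp_empty_of_low {s ℓ : ℤ} (h : Low q Z s) (hℓ : ℓ < s) : Zp M T Z q ℓ = ∅ := by
  rw [eq_empty_iff_forall_notMem]
  intro z hz
  have h1 := (mem_lev M T q).1 ((mem_Zp M T Z q).1 hz).1
  have := h z h1.1 ℓ h1.2.2
  omega

theorem Zp_empty_of_upp {u ℓ : ℤ} (h : Upp q Z u) (hℓ : u ≤ ℓ) : Zp M T Z q ℓ = ∅ := by
  rw [eq_empty_iff_forall_notMem]
  intro z hz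
  have h1 := (mem_lev M T q).1 ((mem_Zp M T Z q).1 hz).1
  have := h z h1.1 ℓ h1.2.2
  omega

theorem flatS_succ (s : ℤ) (n : ℕ) (S : Finset (Fin k)) : flatS M κ T Z q s (n + 1) S =
    M.cl (cz M κ T Z q (s + n) (flatS M κ T Z q s n S) ∪
      S.filter (fun a => q a = some (s + n))) := rfl

theorem flatS_flat (s : ℤ) (n : ℕ) (S : Finset (Fin k)) :
    M.cl (flatS M κ T Z q s n S) = flatS M κ T Z q s n S := by
  cases n with
  | zero => exact M.cl_cl ∅
  | succ n => exact M.cl_cl _

/-- the flat does not depend on the start level, as long as all known levels are above -/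
theorem flatS_shift {s' s : ℤ} (hs : s' ≤ s) {S : Finset (Fin k)} (hZ : Low q Z s)
    (hS : Low q S s) (n : ℕ) :
    flatS M κ T Z q s' n S = flatS M κ T Z q s (s' + n - s).toNat S := by
  induction n with
  | zero =>
    have : (s' + ((0 : ℕ) : ℤ) - s).toNat = 0 := by
      rw [Int.toNat_eq_zero]; push_cast; omega
    rw [this]; rfl
  | succ n ih =>
    by_cases hlt : s' + n < s
    · have e1 : (s' + (n : ℤ) - s).toNat = 0 := by rw [Int.toNat_eq_zero]; omega
      have e2 : (s' + ((n + 1 : ℕ) : ℤ) - s).toNat = 0 := by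
        rw [Int.toNat_eq_zero]; push_cast; omega
      rw [e1] at ih
      rw [e2, flatS_succ, ih]
      have h1 : cz M κ T Z q (s' + n) (flatS M κ T Z q s 0 S) = M.cl ∅ := by
        unfold cz
        rw [Zp_empty_of_low M T Z hZ hlt, M.kc_empty_Z]
        exact M.cl_cl ∅
      have h2 : S.filter (fun a => q a = some (s' + n)) = ∅ := by
        rw [filter_eq_empty_iff]
        intro a ha hq
        have := hS a ha _ hq
        omega
      rw [h1, h2, union_empty, M.cl_cl]
      rfl
    · have e1 : (s' + ((n + 1 : ℕ) : ℤ) - s).toNat = (s' + (n : ℤ) - s).toNat + 1 := by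
        push_cast; omega
      have e2 : s + ((s' + (n : ℤ) - s).toNat : ℤ) = s' + n := by omega
      rw [e1, flatS_succ, flatS_succ, ih, e2]

/-- same flat for two start levels below all known levels -/
theorem flatS_level {s₁ s₂ : ℤ} {S : Finset (Fin k)} (hZ₁ : Low q Z s₁) (hS₁ : Low q S s₁)
    (hZ₂ : Low q Z s₂) (hS₂ : Low q S s₂) (ℓ : ℤ) :
    flatS M κ T Z q s₁ (ℓ - s₁).toNat S = flatS M κ T Z q s₂ (ℓ - s₂).toNat S := by
  have h1 := flatS_shift M κ T Z (min_le_left s₁ s₂) hZ₁ hS₁ (ℓ - min s₁ s₂).toNat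
  have h2 := flatS_shift M κ T Z (min_le_right s₁ s₂) hZ₂ hS₂ (ℓ - min s₁ s₂).toNat
  have e1 : (min s₁ s₂ + ((ℓ - min s₁ s₂).toNat : ℤ) - s₁).toNat = (ℓ - s₁).toNat := by omega
  have e2 : (min s₁ s₂ + ((ℓ - min s₁ s₂).toNat : ℤ) - s₂).toNat = (ℓ - s₂).toNat := by omega
  rw [e1] at h1
  rw [e2] at h2
  rw [← h1, ← h2]

theorem inK_shift {s₁ s₂ : ℤ} {S : Finset (Fin k)} (hZ₁ : Low q Z s₁) (hS₁ : Low q S s₁)
    (hZ₂ : Low q Z s₂) (hS₂ : Low q S s₂) (e : Fin k) :
    inK M κ T Z q s₁ S e ↔ inK M κ T Z q s₂ S e := by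
  unfold inK
  constructor
  · rintro ⟨ℓ, h1, h2⟩
    exact ⟨ℓ, h1, by rwa [flatS_level M κ T Z hZ₁ hS₁ hZ₂ hS₂] at h2⟩
  · rintro ⟨ℓ, h1, h2⟩
    exact ⟨ℓ, h1, by rwa [flatS_level M κ T Z hZ₁ hS₁ hZ₂ hS₂]⟩

theorem As_shift {s₁ s₂ : ℤ} (hZ₁ : Low q Z s₁) (hA₁ : Low q A s₁)
    (hZ₂ : Low q Z s₂) (hA₂ : Low q A s₂) (j : ℕ) :
    As M κ T Z A q s₁ j = As M κ T Z A q s₂ j := by
  induction j with
  | zero => rfl
  | succ j ih =>
    ext a
    rw [mem_As_succ, mem_As_succ, ← ih]
    refine and_congr_right fun ha => ?_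
    have h1 := As_subset M κ T Z A q s₁ j
    exact inK_shift M κ T Z hZ₁ (fun b hb => hA₁ b (h1 hb)) hZ₂ (fun b hb => hA₂ b (h1 hb)) a

theorem served_shift {L ρ : ℕ} {s₁ s₂ : ℤ} (hZ₁ : Low q Z s₁) (hA₁ : Low q A s₁)
    (hZ₂ : Low q Z s₂) (hA₂ : Low q A s₂) (e : Fin k) (t : ℕ) :
    served M κ T Z A q L ρ s₁ e t ↔ served M κ T Z A q L ρ s₂ e t := by
  have h1 : ∀ j, inK M κ T Z q s₁ (As M κ T Z A q s₁ j) e ↔
      inK M κ T Z q s₂ (As M κ T Z A q s₂ j) e := by
    intro j
    rw [← As_shift M κ T Z A hZ₁ hA₁ hZ₂ hA₂ j]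
    have h1 := As_subset M κ T Z A q s₁ j
    exact inK_shift M κ T Z hZ₁ (fun b hb => hA₁ b (h1 hb)) hZ₂ (fun b hb => hA₂ b (h1 hb)) e
  unfold served exit
  simp only [h1]

/-- above the known levels the flat is stable -/
theorem flatS_stable {s u : ℤ} {S : Finset (Fin k)} (hZ : Upp q Z u) (hS : Upp q S u) {n m : ℕ}
    (hn : u ≤ s + n) (hm : n ≤ m) : flatS M κ T Z q s m S = flatS M κ T Z q s n S := by
  induction m, hm using Nat.le_induction with
  | base => rfl
  | succ m hm ih =>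
    have hu : u ≤ s + m := by omega
    rw [flatS_succ, ih]
    have h2 : S.filter (fun a => q a = some (s + m)) = ∅ := by
      rw [filter_eq_empty_iff]
      intro a ha hq
      have := hS a ha _ hq
      omega
    rw [h2, union_empty]
    unfold cz
    rw [Zp_empty_of_upp M T Z hZ hu, M.kc_empty_Z, M.cl_cl, flatS_flat]

/-- base flats for two start levels -/
theorem flatS_top {s₁ s₂ u : ℤ} {S : Finset (Fin k)} (hZ₁ : Low q Z s₁) (hS₁ : Low q S s₁)
    (hZ₂ : Low q Z s₂) (hS₂ : Low q S s₂) (hZ : Upp q Z u) (hS : Upp q S u) {n₁ n₂ : ℕ}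
    (h1 : u ≤ s₁ + n₁) (h2 : u ≤ s₂ + n₂) :
    flatS M κ T Z q s₁ n₁ S = flatS M κ T Z q s₂ n₂ S := by
  set ℓ : ℤ := max (max (s₁ + n₁) (s₂ + n₂)) (max s₁ s₂) with hℓ
  have h3 := flatS_level M κ T Z hZ₁ hS₁ hZ₂ hS₂ ℓ
  have h4 : flatS M κ T Z q s₁ (ℓ - s₁).toNat S = flatS M κ T Z q s₁ n₁ S :=
    flatS_stable M κ T Z hZ hS h1 (by omega)
  have h5 : flatS M κ T Z q s₂ (ℓ - s₂).toNat S = flatS M κ T Z q s₂ n₂ S :=
    flatS_stable M κ T Z hZ hS h2 (by omega)
  rw [← h4, h3, h5]

theorem natAbs_le_bd {S : Finset (Fin k)} {a : Fin k} (ha : a ∈ S) {x : ℤ} (hx : q a = some x) :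
    x.natAbs ≤ bd q S := by
  unfold bd
  have := single_le_sum (f := fun e => ((q e).getD 0).natAbs) (fun _ _ => Nat.zero_le _) ha
  simpa [hx] using this

theorem low_start {S : Finset (Fin k)} (h : S ⊆ T ∪ Z ∪ A) : Low q S (start T Z A q) := by
  intro a ha x hx
  have := natAbs_le_bd (h ha) hx
  unfold start
  omega

theorem upp_start {S : Finset (Fin k)} (h : S ⊆ T ∪ Z ∪ A) :
    Upp q S (start T Z A q + num T Z A q) := by
  intro a ha x hx
  have := natAbs_le_bd (h ha) hx
  unfold start num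
  push_cast
  omega

end shift

end Crest.Agent.R305.Rule764
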