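import Crest.Agent.R305.Dep_310
import Crest.Agent.R305.Kd_447

/-!
R305 / S0468 (helper966): fresh thin sample `H` inside an `m`-sparse set
(doc 1793, Theorem C, last part; doc 1783 Fact 5), over 447's `RankFn` and 310's weight `w`.
-/

set_option autoImplicit false
set_option linter.unusedSectionVars false

namespace Crest.Agent.R305.Thin966

open Finset
open Crest.Agent.R305.Dep310 (w w_nonneg sum_w sum_mem sum_mem_mul)
open Crest.Agent.R305.Kd447

variable {α : Type*} [Fintype α] [DecidableEq α]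

/-- the harmed elements of `S` over `F`: those in the span of `F` and the other elements of `S` -/
def harm (M : RankFn α) (F S : Finset α) : Finset α :=
  S.filter fun x => x ∈ M.cl (F ∪ (S \ {x}))

theorem mem_harm {M : RankFn α} {F S : Finset α} {x : α} :
    x ∈ harm M F S ↔ x ∈ S ∧ x ∈ M.cl (F ∪ (S \ {x})) := by
  simp [harm]

theorem harm_subset (M : RankFn α) (F S : Finset α) : harm M F S ⊆ S := filter_subset _ _

theorem harm_mono (M : RankFn α) {F F' S S' : Finset α} (hF : F ⊆ F') (hS : S ⊆ S') :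
    harm M F S ⊆ harm M F' S' := by
  intro x hx
  rw [mem_harm] at hx ⊢
  exact ⟨hS hx.1, M.cl_mono (union_subset_union hF (sdiff_subset_sdiff hS Subset.rfl)) hx.2⟩

/-- (T1) deterministic bound: the elements of `W \ F` spanned by `F ∪ H` (`H ⊆ W \ F` or not) -/
theorem card_span_le (M : RankFn α) {m : ℕ} {W F : Finset α} (h : M.Sparse m W F)
    {G : Finset α} (hG : G ⊆ W \ F) (H : Finset α) :
    (G.filter fun x => x ∈ M.cl (F ∪ H)).card ≤ m * H.card := by
  set S := G.filter fun x => x ∈ M.cl (F ∪ H) with hS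
  rcases S.eq_empty_or_nonempty with h0 | h0
  · simp [h0]
  have h1 := h S ((filter_subset _ _).trans hG) h0
  have h2 : M.rr F S ≤ H.card := by
    have h3 : S ⊆ M.cl (F ∪ H) := fun x hx => (mem_filter.1 hx).2
    have h4 : M.rr F S ≤ M.rr F (H ∪ S) := M.rr_mono F subset_union_right
    have h5 : M.rr F (H ∪ S) = M.rr F H + M.rr (F ∪ H) S := M.rr_union F H S
    have h6 : M.rr (F ∪ H) S = 0 := M.subset_cl_iff_rr.1 h3
    have h7 := M.rr_le_card F H
    omega
  exact (h1.le).trans (Nat.mul_le_mul_left _ h2)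

/-- the elements of `S` which are not harmed are independent over `F` and the rest -/
theorem card_le_rr_add_harm (M : RankFn α) (F S : Finset α) :
    S.card ≤ M.rr F S + (harm M F S).card := by
  set C := S.filter fun x => x ∉ M.cl (F ∪ (S \ {x})) with hC
  have key : ∀ B ⊆ C, M.r (F ∪ (S \ C)) + B.card ≤ M.r (F ∪ (S \ C) ∪ B) := by
    intro B hB
    induction B using Finset.induction_on with
    | empty => simp
    | insert x B hx ih =>
        have h1 := ih ((subset_insert _ _).trans hB)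
        have h2 : x ∈ C := hB (mem_insert_self _ _)
        have h3 : x ∉ M.cl (F ∪ (S \ {x})) := (mem_filter.1 h2).2
        have h4 : F ∪ (S \ C) ∪ B ⊆ F ∪ (S \ {x}) := by
          intro y hy
          simp only [mem_union, mem_sdiff, mem_singleton] at hy ⊢
          rcases hy with (hy | hy) | hy
          · exact Or.inl hy
          · exact Or.inr ⟨hy.1, fun h => hy.2 (h ▸ h2)⟩
          · exact Or.inr ⟨(mem_filter.1 (hB (mem_insert_of_mem hy))).1, fun h => hx (h ▸ hy)⟩
        have h5 : x ∉ M.cl (F ∪ (S \ C) ∪ B) := fun h => h3 (M.cl_mono h4 h)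
        rw [M.notMem_cl] at h5
        rw [card_insert_of_notMem hx, union_insert]
        omega
  have h1 := key C Subset.rfl
  have h2 : M.r (F ∪ (S \ C) ∪ C) ≤ M.r (F ∪ S) := M.mono (by
    intro y hy
    simp only [mem_union, mem_sdiff] at hy ⊢
    rcases hy with (hy | hy) | hy
    · exact Or.inl hy
    · exact Or.inr hy.1
    · exact Or.inr (mem_filter.1 hy).1)
  have h3 : M.r F ≤ M.r (F ∪ (S \ C)) := M.mono subset_union_left
  have h4 := M.r_add_rr F S
  have h5 : (harm M F S).card + C.card = S.card :=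
    Finset.card_filter_add_card_filter_not (s := S) (fun x => x ∈ M.cl (F ∪ (S \ {x})))
  omega

/-- (T4) one row: `X ⊆ E`, `S` any part of `H ∩ X'`, `G = (W ∩ X') \ E`, `H ⊆ W`:
`|S| ≤ r(S / X) + |S ∩ E| + #harmed in H ∩ G over E`. -/
theorem row_ineq (M : RankFn α) {X E X' W H S : Finset α} (hXE : X ⊆ E) (hHW : H ⊆ W)
    (hS : S ⊆ H ∩ X') :
    S.card ≤ M.rr X S + (S ∩ E).card + (harm M E (H ∩ ((W ∩ X') \ E))).card := by
  have h1 := card_le_rr_add_harm M E (S \ E)
  have h2 : (S \ E).card + (S ∩ E).card = S.card := by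
    rw [add_comm]; exact Finset.card_inter_add_card_sdiff S E
  have h4 : S \ E ⊆ H ∩ ((W ∩ X') \ E) := by
    intro y hy
    rw [mem_sdiff] at hy
    have := hS hy.1
    simp only [mem_inter, mem_sdiff] at this ⊢
    exact ⟨this.1, ⟨hHW this.1, this.2⟩, hy.2⟩
  have h3 : (harm M E (S \ E)).card ≤ (harm M E (H ∩ ((W ∩ X') \ E))).card :=
    card_le_card (harm_mono M Subset.rfl h4)
  have h5 : M.rr E (S \ E) ≤ M.rr X S := by
    rw [M.rr_sdiff]
    exact M.rr_anti hXE S
  omega

/-- expected size of `H ∩ G` -/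
theorem sum_card_inter (d : α → ℝ) (G : Finset α) :
    ∑ H, w d H * ((H ∩ G).card : ℝ) = ∑ a ∈ G, d a := by
  have h1 : ∀ H : Finset α, w d H * ((H ∩ G).card : ℝ) =
      ∑ a ∈ G, w d H * (if a ∈ H then 1 else 0) := by
    intro H
    rw [← Finset.mul_sum]
    congr 1
    rw [Finset.sum_boole]
    congr 2
    ext a
    simp only [mem_inter, mem_filter]
    tauto
  rw [Finset.sum_congr rfl fun H _ => h1 H, Finset.sum_comm]
  exact Finset.sum_congr rfl fun a _ => sum_mem d a

/-- (T2) expected number of harmed elements of the thin sample, one row -/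
theorem expect_harm_le (M : RankFn α) {m : ℕ} {W F G : Finset α} (h : M.Sparse m W F)
    (hG : G ⊆ W \ F)
    {d : α → ℝ} {δ : ℝ} (h0 : ∀ a, 0 ≤ d a) (h1 : ∀ a, d a ≤ 1) (hδ : ∀ a ∈ G, d a ≤ δ)
    (hδ0 : 0 ≤ δ) :
    ∑ H, w d H * ((harm M F (H ∩ G)).card : ℝ) ≤ m * δ ^ 2 * G.card := by
  classical
  have h2 : ∀ H : Finset α,
      w d H * ((harm M F (H ∩ G)).card : ℝ) =
      ∑ a ∈ G, w d H * ((if a ∈ H then 1 else 0) *
        (if a ∈ M.cl (F ∪ ((H ∩ G) \ {a})) then 1 else 0)) := by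
    intro H
    rw [← Finset.mul_sum]
    congr 1
    unfold harm
    rw [Finset.card_filter, Finset.inter_comm, ← Finset.filter_mem_eq_inter, Finset.sum_filter]
    push_cast
    refine Finset.sum_congr rfl fun a _ => ?_
    by_cases ha : a ∈ H <;> simp [ha]
  have h3 : ∀ a ∈ G, ∑ H, w d H * ((if a ∈ H then 1 else 0) *
        (if a ∈ M.cl (F ∪ ((H ∩ G) \ {a})) then (1 : ℝ) else 0)) ≤
      δ * ∑ H, w d H * (if a ∈ M.cl (F ∪ ((H ∩ G) \ {a})) then 1 else 0) := by
    intro a ha
    rw [sum_mem_mul d a (fun H => if a ∈ M.cl (F ∪ ((H ∩ G) \ {a})) then (1 : ℝ) else 0)]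
    · refine mul_le_mul_of_nonneg_right (hδ a ha) ?_
      refine Finset.sum_nonneg fun H _ => mul_nonneg (w_nonneg h0 h1 H) ?_
      split <;> norm_num
    · intro A A' hA
      have : (A ∩ G) \ {a} = (A' ∩ G) \ {a} := by
        ext x
        simp only [mem_sdiff, mem_inter, mem_singleton]
        by_cases hx : x = a
        · simp [hx]
        · simp only [hx, not_false_eq_true, and_true, hA x hx]
      rw [this]
  calc ∑ H, w d H * ((harm M F (H ∩ G)).card : ℝ)
      = ∑ a ∈ G, ∑ H, w d H * ((if a ∈ H then 1 else 0) *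
        (if a ∈ M.cl (F ∪ ((H ∩ G) \ {a})) then 1 else 0)) := by
        rw [Finset.sum_congr rfl fun H _ => h2 H, Finset.sum_comm]
    _ ≤ ∑ a ∈ G, δ * ∑ H, w d H * (if a ∈ M.cl (F ∪ ((H ∩ G) \ {a})) then 1 else 0) :=
        Finset.sum_le_sum h3
    _ = δ * ∑ H, w d H * ((G.filter fun x => x ∈ M.cl (F ∪ ((H ∩ G) \ {x}))).card : ℝ) := by
        rw [← Finset.mul_sum, Finset.sum_comm]
        congr 1
        refine Finset.sum_congr rfl fun H _ => ?_
        rw [← Finset.mul_sum, Finset.sum_boole]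
    _ ≤ δ * ∑ H, w d H * (m * ((H ∩ G).card : ℝ)) := by
        refine mul_le_mul_of_nonneg_left (Finset.sum_le_sum fun H _ => ?_) hδ0
        refine mul_le_mul_of_nonneg_left ?_ (w_nonneg h0 h1 H)
        have h5 := card_span_le M h hG (H ∩ G)
        have h6 : (G.filter fun x => x ∈ M.cl (F ∪ ((H ∩ G) \ {x}))).card ≤
            (G.filter fun x => x ∈ M.cl (F ∪ (H ∩ G))).card := by
          refine card_le_card ?_
          intro x hx
          rw [mem_filter] at hx ⊢
          exact ⟨hx.1, M.cl_mono (union_subset_union_right sdiff_subset) hx.2⟩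
        exact_mod_cast h6.trans h5
    _ = δ * (m * ∑ a ∈ G, d a) := by
        congr 1
        rw [← sum_card_inter d G, Finset.mul_sum]
        exact Finset.sum_congr rfl fun H _ => by ring
    _ ≤ δ * (m * (δ * G.card)) := by
        refine mul_le_mul_of_nonneg_left (mul_le_mul_of_nonneg_left ?_ (Nat.cast_nonneg _)) hδ0
        calc ∑ a ∈ G, d a ≤ ∑ _a ∈ G, δ := Finset.sum_le_sum hδ
          _ = δ * G.card := by rw [Finset.sum_const, nsmul_eq_mul]; ring
    _ = m * δ ^ 2 * G.card := by ring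

/-- (T3) the harmed elements of a whole chain: `G i` disjoint parts of `W`, `F i` `m`-sparse -/
theorem expect_harm_chain_le (M : RankFn α) {ι : Type*} (I : Finset ι) {m : ℕ} {W : Finset α}
    {F G : ι → Finset α} (h : ∀ i ∈ I, M.Sparse m W (F i)) (hG : ∀ i ∈ I, G i ⊆ W \ F i)
    (hdis : (I : Set ι).PairwiseDisjoint G)
    {d : α → ℝ} {δ : ℝ} (h0 : ∀ a, 0 ≤ d a) (h1 : ∀ a, d a ≤ 1) (hδ : ∀ a ∈ W, d a ≤ δ)
    (hδ0 : 0 ≤ δ) :
    ∑ H, w d H * ∑ i ∈ I, ((harm M (F i) (H ∩ G i)).card : ℝ) ≤ m * δ ^ 2 * W.card := by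
  calc ∑ H, w d H * ∑ i ∈ I, ((harm M (F i) (H ∩ G i)).card : ℝ)
      = ∑ i ∈ I, ∑ H, w d H * ((harm M (F i) (H ∩ G i)).card : ℝ) := by
        rw [Finset.sum_comm]
        exact Finset.sum_congr rfl fun H _ => by rw [Finset.mul_sum]
    _ ≤ ∑ i ∈ I, m * δ ^ 2 * ((G i).card : ℝ) :=
        Finset.sum_le_sum fun i hi => expect_harm_le M (h i hi) (hG i hi) h0 h1
          (fun a ha => hδ a (mem_sdiff.1 (hG i hi ha)).1) hδ0
    _ = m * δ ^ 2 * ((I.biUnion G).card : ℝ) := by
        rw [← Finset.mul_sum, Finset.card_biUnion hdis]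
        push_cast
        rfl
    _ ≤ m * δ ^ 2 * W.card := by
        refine mul_le_mul_of_nonneg_left ?_ (by positivity)
        exact_mod_cast card_le_card (Finset.biUnion_subset.2 fun i hi =>
          (hG i hi).trans sdiff_subset)

/-! ### the chain `X_i`, `E_i` of one class -/

/-- the bad set of the chain: the part of `W` inside some `E i` but outside `X i`, `i < T` -/
def bad (W : Finset α) (X E : ℕ → Finset α) (T : ℕ) : Finset α :=
  (range T).biUnion fun i => W ∩ (E i \ X i)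

/-- (T4) all rows: `S i ⊆ H ∩ X (i+1) \ X i`, `X i ⊆ E i`: the served rank is at least the number of
elements minus the bad ones minus the harmed ones. -/
theorem rows_ineq (M : RankFn α) {X E S : ℕ → Finset α} {W H : Finset α} {T : ℕ}
    (hX : ∀ i < T, X i ⊆ X (i + 1)) (hXE : ∀ i < T, X i ⊆ E i) (hHW : H ⊆ W)
    (hS : ∀ i < T, S i ⊆ (H ∩ X (i + 1)) \ X i) :
    ∑ i ∈ range T, (S i).card ≤ ∑ i ∈ range T, M.rr (X i) (S i) + (H ∩ bad W X E T).card +
      ∑ i ∈ range T, (harm M (E i) (H ∩ ((W ∩ X (i + 1)) \ E i))).card := by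
  have h1 : ∀ i ∈ range T, (S i).card ≤ M.rr (X i) (S i) + (S i ∩ E i).card +
      (harm M (E i) (H ∩ ((W ∩ X (i + 1)) \ E i))).card := by
    intro i hi
    rw [mem_range] at hi
    exact row_ineq M (hXE i hi) hHW ((hS i hi).trans sdiff_subset)
  have h2 : ∑ i ∈ range T, (S i ∩ E i).card ≤ (H ∩ bad W X E T).card := by
    rw [← Finset.card_biUnion]
    · refine card_le_card ?_
      refine Finset.biUnion_subset.2 fun i hi => ?_
      intro x hx
      rw [mem_inter] at hx
      have h3 := hS i (mem_range.1 hi) hx.1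
      rw [mem_sdiff, mem_inter] at h3
      rw [mem_inter]
      refine ⟨h3.1.1, ?_⟩
      unfold bad
      rw [mem_biUnion]
      exact ⟨i, hi, mem_inter.2 ⟨hHW h3.1.1, mem_sdiff.2 ⟨hx.2, h3.2⟩⟩⟩
    · have hmono : ∀ i j, i ≤ j → j ≤ T → X i ⊆ X j := by
        intro i j hij
        induction j, hij using Nat.le_induction with
        | base => exact fun _ => Subset.rfl
        | succ j _ ih => exact fun hj => (ih (by omega)).trans (hX j (by omega))
      have hlt : ∀ i j, i < j → j < T → Disjoint (S i ∩ E i) (S j ∩ E j) := by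
        intro i j hij hj
        rw [Finset.disjoint_left]
        intro x hx hx'
        have h3 := hS i (by omega) (mem_inter.1 hx).1
        have h4 := hS j hj (mem_inter.1 hx').1
        rw [mem_sdiff, mem_inter] at h3 h4
        exact h4.2 (hmono (i + 1) j hij (by omega) h3.1.2)
      intro i hi j hj hij
      simp only [coe_range, Set.mem_Iio] at hi hj
      rcases lt_or_gt_of_ne hij with h | h
      · exact hlt i j h hj
      · exact (hlt j i h hi).symm
  calc ∑ i ∈ range T, (S i).card ≤ ∑ i ∈ range T, (M.rr (X i) (S i) + (S i ∩ E i).card +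
      (harm M (E i) (H ∩ ((W ∩ X (i + 1)) \ E i))).card) := Finset.sum_le_sum h1
    _ = ∑ i ∈ range T, M.rr (X i) (S i) + ∑ i ∈ range T, (S i ∩ E i).card +
      ∑ i ∈ range T, (harm M (E i) (H ∩ ((W ∩ X (i + 1)) \ E i))).card := by
        rw [Finset.sum_add_distrib, Finset.sum_add_distrib]
    _ ≤ _ := by gcongr

/-- (T3) for the chain -/
theorem expect_harm_rows_le (M : RankFn α) {X E : ℕ → Finset α} {W : Finset α} {T m : ℕ}
    (hX : ∀ i < T, X i ⊆ X (i + 1)) (hXE : ∀ i < T, X i ⊆ E i)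
    (hE : ∀ i < T, M.Sparse m W (E i))
    {d : α → ℝ} {δ : ℝ} (h0 : ∀ a, 0 ≤ d a) (h1 : ∀ a, d a ≤ 1) (hδ : ∀ a ∈ W, d a ≤ δ)
    (hδ0 : 0 ≤ δ) :
    ∑ H, w d H * ∑ i ∈ range T, ((harm M (E i) (H ∩ ((W ∩ X (i + 1)) \ E i))).card : ℝ) ≤
      m * δ ^ 2 * W.card := by
  refine expect_harm_chain_le M (range T) (F := E) (G := fun i => (W ∩ X (i + 1)) \ E i)
    (fun i hi => hE i (mem_range.1 hi)) ?_ ?_ h0 h1 hδ hδ0
  · intro i _ x hx
    rw [mem_sdiff, mem_inter] at hx
    exact mem_sdiff.2 ⟨hx.1.1, hx.2⟩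
  · have hmono : ∀ i j, i ≤ j → j ≤ T → X i ⊆ X j := by
      intro i j hij
      induction j, hij using Nat.le_induction with
      | base => exact fun _ => Subset.rfl
      | succ j _ ih => exact fun hj => (ih (by omega)).trans (hX j (by omega))
    have hlt : ∀ i j, i < j → j < T →
        Disjoint ((W ∩ X (i + 1)) \ E i) ((W ∩ X (j + 1)) \ E j) := by
      intro i j hij hj
      rw [Finset.disjoint_left]
      intro x hx hx'
      rw [mem_sdiff, mem_inter] at hx hx'
      exact hx'.2 (hXE j hj (hmono (i + 1) j hij (by omega) hx.1.2))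
    intro i hi j hj hij
    simp only [coe_range, Set.mem_Iio] at hi hj
    rcases lt_or_gt_of_ne hij with h | h
    · exact hlt i j h hj
    · exact (hlt j i h hi).symm

/-- (T4) expectation: `H` a product sample of rates `d a ≤ δ` on `W` (rate `0` outside `W`), the
chain fixed. -/
theorem expect_rows_ge (M : RankFn α) {X E : ℕ → Finset α} {W : Finset α} {T m : ℕ}
    (hX : ∀ i < T, X i ⊆ X (i + 1)) (hXE : ∀ i < T, X i ⊆ E i)
    (hE : ∀ i < T, M.Sparse m W (E i))
    {d : α → ℝ} {δ : ℝ} (h0 : ∀ a, 0 ≤ d a) (h1 : ∀ a, d a ≤ 1) (hδ : ∀ a ∈ W, d a ≤ δ)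
    (hδ0 : 0 ≤ δ) (S : Finset α → ℕ → Finset α)
    (hS : ∀ H, ∀ i < T, S H i ⊆ ((H ∩ W) ∩ X (i + 1)) \ X i) :
    ∑ H, w d H * ∑ i ∈ range T, ((S H i).card : ℝ) ≤
      ∑ H, w d H * ∑ i ∈ range T, (M.rr (X i) (S H i) : ℝ) +
        δ * (bad W X E T).card + m * δ ^ 2 * W.card := by
  have h2 := expect_harm_rows_le M hX hXE hE h0 h1 hδ hδ0
  have h3 : ∑ H, w d H * (((H ∩ W) ∩ bad W X E T).card : ℝ) ≤ δ * (bad W X E T).card := by
    have h4 : bad W X E T ⊆ W := Finset.biUnion_subset.2 fun i _ => inter_subset_left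
    have h5 : ∀ H : Finset α, (H ∩ W) ∩ bad W X E T = H ∩ bad W X E T := by
      intro H; rw [inter_assoc, inter_eq_right.2 h4]
    simp only [h5]
    rw [sum_card_inter]
    calc ∑ a ∈ bad W X E T, d a ≤ ∑ _a ∈ bad W X E T, δ :=
          Finset.sum_le_sum fun a ha => hδ a (h4 ha)
      _ = δ * (bad W X E T).card := by rw [Finset.sum_const, nsmul_eq_mul]; ring
  have h6 : ∀ H : Finset α, w d H * ∑ i ∈ range T, ((S H i).card : ℝ) ≤
      w d H * ∑ i ∈ range T, (M.rr (X i) (S H i) : ℝ) +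
        w d H * (((H ∩ W) ∩ bad W X E T).card : ℝ) +
        w d H * ∑ i ∈ range T, ((harm M (E i) (H ∩ ((W ∩ X (i + 1)) \ E i))).card : ℝ) := by
    intro H
    rw [← mul_add, ← mul_add]
    refine mul_le_mul_of_nonneg_left ?_ (w_nonneg h0 h1 H)
    have h7 := rows_ineq M hX hXE (inter_subset_right : H ∩ W ⊆ W) (hS H)
    have h8 : ∀ i, (H ∩ W) ∩ ((W ∩ X (i + 1)) \ E i) = H ∩ ((W ∩ X (i + 1)) \ E i) := by
      intro i
      ext x
      simp only [mem_inter, mem_sdiff]
      tauto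
    simp only [h8] at h7
    exact_mod_cast h7
  calc ∑ H, w d H * ∑ i ∈ range T, ((S H i).card : ℝ)
      ≤ ∑ H, (w d H * ∑ i ∈ range T, (M.rr (X i) (S H i) : ℝ) +
        w d H * (((H ∩ W) ∩ bad W X E T).card : ℝ) +
        w d H * ∑ i ∈ range T, ((harm M (E i) (H ∩ ((W ∩ X (i + 1)) \ E i))).card : ℝ)) :=
        Finset.sum_le_sum fun H _ => h6 H
    _ = ∑ H, w d H * ∑ i ∈ range T, (M.rr (X i) (S H i) : ℝ) +
        ∑ H, w d H * (((H ∩ W) ∩ bad W X E T).card : ℝ) +
        ∑ H, w d H * ∑ i ∈ range T, ((harm M (E i) (H ∩ ((W ∩ X (i + 1)) \ E i))).card : ℝ) := by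
        rw [Finset.sum_add_distrib, Finset.sum_add_distrib]
    _ ≤ _ := by gcongr

end Crest.Agent.R305.Thin966
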