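import Crest.Agent.R305.Fcl_310

/-!
# R305 top assembly, part A (helper137): restricting product samples, the good event

`w` is the product weight of `Dep_310`.
-/

set_option autoImplicit false

namespace Crest.Agent.R305.Top137

open Finset Dep310 Fcl310

variable {α : Type*} [Fintype α] [DecidableEq α]

/-- exchange with two rate vectors which agree on `V` -/
theorem w_s1_two {p p' : α → ℝ} {V : Finset α} (h : ∀ a ∈ V, p a = p' a) (A B : Finset α) :
    w p (s1 V A B) * w p' (s1 V B A) = w p A * w p' B := by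
  unfold w
  rw [← Finset.prod_mul_distrib, ← Finset.prod_mul_distrib]
  refine Finset.prod_congr rfl fun a _ => ?_
  simp only [mem_s1]
  by_cases hV : a ∈ V
  · simp only [hV, not_true_eq_false, false_and, true_and, false_or, h a hV]
    rw [mul_comm]
  · simp only [hV, not_false_eq_true, true_and, false_and, or_false]

theorem sum_swap_two {p p' : α → ℝ} {V : Finset α} (h : ∀ a ∈ V, p a = p' a)
    (F : Finset α → Finset α → ℝ) :
    ∑ A, ∑ B, w p A * w p' B * F (s1 V A B) (s1 V B A) =
      ∑ A, ∑ B, w p A * w p' B * F A B := by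
  rw [← Fintype.sum_prod_type', ← Fintype.sum_prod_type']
  have hinv : Function.Involutive (fun x : Finset α × Finset α =>
      (s1 V x.1 x.2, s1 V x.2 x.1)) := by
    rintro ⟨A, B⟩
    simp only
    rw [s1_s1, s1_s1]
  refine Fintype.sum_equiv hinv.toPerm _ _ ?_
  rintro ⟨A, B⟩
  simp only [Function.Involutive.coe_toPerm]
  rw [w_s1_two h]

/-- a function of `A ∩ V` only sees the rates on `V` -/
theorem sum_inter_congr {p p' : α → ℝ} {V : Finset α} (h : ∀ a ∈ V, p a = p' a)
    (F : Finset α → ℝ) : ∑ A, w p A * F (A ∩ V) = ∑ A, w p' A * F (A ∩ V) := by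
  have h1 := sum_swap_two h (fun A _ => F (A ∩ V))
  have h2 : ∀ A B : Finset α, s1 V A B ∩ V = B ∩ V := by
    intro A B
    ext a
    simp only [mem_inter, mem_s1]
    tauto
  simp only [h2] at h1
  have h3 : ∑ A, ∑ B, w p A * w p' B * F (B ∩ V) = ∑ B, w p' B * F (B ∩ V) := by
    rw [Finset.sum_comm]
    refine Finset.sum_congr rfl fun B _ => ?_
    have : ∀ A, w p A * w p' B * F (B ∩ V) = w p A * (w p' B * F (B ∩ V)) := fun A => by ring
    simp only [this]
    rw [← Finset.sum_mul, sum_w, one_mul]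
  have h4 : ∑ A, ∑ B, w p A * w p' B * F (A ∩ V) = ∑ A, w p A * F (A ∩ V) := by
    refine Finset.sum_congr rfl fun A _ => ?_
    have : ∀ B, w p A * w p' B * F (A ∩ V) = w p' B * (w p A * F (A ∩ V)) := fun B => by ring
    simp only [this]
    rw [← Finset.sum_mul, sum_w, one_mul]
  rw [h3, h4] at h1
  exact h1.symm

open Classical in
/-- the rate vector `p` on `V`, zero outside -/
noncomputable def on (V : Finset α) (p : ℝ) : α → ℝ := fun a => if a ∈ V then p else 0

theorem w_on_eq_zero {V A : Finset α} {p : ℝ} (h : ¬ A ⊆ V) : w (on V p) A = 0 := by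
  rw [Finset.not_subset] at h
  obtain ⟨a, ha, hV⟩ := h
  unfold w
  refine Finset.prod_eq_zero (mem_univ a) ?_
  rw [if_pos ha, on, if_neg hV]

theorem sum_on (V : Finset α) (p : ℝ) (F : Finset α → ℝ) :
    ∑ A, w (on V p) A * F A = ∑ A, w (fun _ => p) A * F (A ∩ V) := by
  rw [sum_inter_congr (p' := on V p) (V := V) (fun a ha => by simp [on, ha]) F]
  refine Finset.sum_congr rfl fun A _ => ?_
  by_cases h : A ⊆ V
  · rw [Finset.inter_eq_left.2 h]
  · rw [w_on_eq_zero h, zero_mul, zero_mul]

theorem sum_on_two (V : Finset α) (p : ℝ) (F : Finset α → Finset α → ℝ) :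
    ∑ A, ∑ B, w (on V p) A * w (on V p) B * F A B =
      ∑ A, ∑ B, w (fun _ => p) A * w (fun _ => p) B * F (A ∩ V) (B ∩ V) := by
  have h1 : ∀ A, ∑ B, w (on V p) A * w (on V p) B * F A B =
      w (on V p) A * ∑ B, w (fun _ => p) B * F A (B ∩ V) := by
    intro A
    rw [← sum_on, Finset.mul_sum]
    exact Finset.sum_congr rfl fun B _ => by ring
  simp only [h1]
  rw [sum_on V p (fun A => ∑ B, w (fun _ => p) B * F A (B ∩ V))]
  refine Finset.sum_congr rfl fun A _ => ?_
  rw [Finset.mul_sum]
  exact Finset.sum_congr rfl fun B _ => by ring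

open Classical in
/-- **good elements**: with samples restricted to `V`, an element `y ∈ V` which is not in `K ∅`
is online and good with probability at least `p (1 - p) / 2` -/
theorem half_le_restricted (D : Data α) {p : ℝ} (h0 : 0 ≤ p) (h1 : p ≤ 1) {V : Finset α} {y : α}
    (hy : y ∈ V) (he : y ∉ K D ∅) :
    p * (1 - p) / 2 ≤ ∑ A, ∑ B, w (fun _ => p) A * w (fun _ => p) B *
      (if y ∉ A ∧ y ∈ B ∧ GoodAt D (A ∩ V) ((B ∩ V) \ A) y then (1 : ℝ) else 0) := by
  have h := half_le_good_online D (p := on V p) (fun a => by unfold on; split <;> simp [h0])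
    (fun a => by unfold on; split <;> simp [h1]) (y := y) he
  have e1 : on V p y = p := by simp [on, hy]
  rw [e1, sum_on_two V p (fun A B => if y ∉ A ∧ y ∈ B ∧ GoodAt D A B y then (1 : ℝ) else 0)] at h
  refine h.trans ?_
  refine Finset.sum_le_sum fun A _ => Finset.sum_le_sum fun B _ => ?_
  refine mul_le_mul_of_nonneg_left ?_
    (mul_nonneg (w_nonneg (fun _ => h0) (fun _ => h1) A) (w_nonneg (fun _ => h0) (fun _ => h1) B))
  split
  · rename_i hg
    obtain ⟨g1, g2, g3⟩ := hg
    rw [if_pos]
    refine ⟨fun hA => g1 (mem_inter.2 ⟨hA, hy⟩), (mem_inter.1 g2).1, g3.anti D sdiff_subset⟩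
  · split <;> norm_num

end Crest.Agent.R305.Top137
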