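import Crest.Agent.R305.TopDef_137
import Crest.Agent.R305.TopA_137

/-!
# R305 top assembly, P1 (helper137): the expected number of good served elements
-/

set_option autoImplicit false

namespace Crest.Agent.R305.TopDef137

open Finset Dep310 Kd447 Fcl310 Fcr310 Top137

variable {α : Type*} [Fintype α] [DecidableEq α]

omit [Fintype α] [DecidableEq α] in
theorem below_mono (pos : α → ℕ) {S S' : Finset α} (h : S ⊆ S') (e : α) :
    below pos S e ⊆ below pos S' e := filter_subset_filter _ h

/-- the greedy basis is independent -/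
theorem r_grd (M : RankFn α) (pos : α → ℕ) (hinj : Function.Injective pos) (S : Finset α) :
    M.r (grd M pos S) = (grd M pos S).card := by
  have key : ∀ m : ℕ, M.r ((grd M pos S).filter fun e => pos e < m) =
      ((grd M pos S).filter fun e => pos e < m).card := by
    intro m
    induction m with
    | zero =>
      have : ((grd M pos S).filter fun e => pos e < 0) = ∅ := by simp
      rw [this, M.r_empty, card_empty]
    | succ m ih =>
      by_cases hex : ∃ e ∈ grd M pos S, pos e = m
      · obtain ⟨e, he, hm⟩ := hex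
        have h1 : ((grd M pos S).filter fun f => pos f < m + 1) =
            insert e ((grd M pos S).filter fun f => pos f < m) := by
          ext f
          simp only [mem_filter, mem_insert]
          constructor
          · rintro ⟨h2, h3⟩
            by_cases h4 : pos f = m
            · exact Or.inl (hinj (h4.trans hm.symm))
            · exact Or.inr ⟨h2, by omega⟩
          · rintro (rfl | ⟨h2, h3⟩)
            · exact ⟨he, by omega⟩
            · exact ⟨h2, by omega⟩
        have h2 : e ∉ ((grd M pos S).filter fun f => pos f < m) := by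
          simp [hm]
        have h3 : e ∉ M.cl ((grd M pos S).filter fun f => pos f < m) := by
          intro h4
          have h5 := (mem_filter.1 he).2
          apply h5
          refine M.cl_mono ?_ h4
          intro f hf
          rw [mem_filter] at hf
          unfold below
          rw [mem_filter, hm]
          exact ⟨(mem_filter.1 hf.1).1, hf.2⟩
        rw [h1, M.notMem_cl.1 h3, ih, card_insert_of_notMem h2]
      · have h1 : ((grd M pos S).filter fun f => pos f < m + 1) =
            ((grd M pos S).filter fun f => pos f < m) := by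
          ext f
          simp only [mem_filter]
          constructor
          · rintro ⟨h2, h3⟩
            refine ⟨h2, ?_⟩
            have : pos f ≠ m := fun h => hex ⟨f, h2, h⟩
            omega
          · rintro ⟨h2, h3⟩
            exact ⟨h2, by omega⟩
        rw [h1, ih]
  obtain ⟨m, hm⟩ : ∃ m, ∀ e ∈ grd M pos S, pos e < m :=
    ⟨(grd M pos S).sup pos + 1, fun e he => Nat.lt_succ_of_le (le_sup he)⟩
  have h1 : ((grd M pos S).filter fun e => pos e < m) = grd M pos S :=
    filter_true_of_mem hm
  have := key m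
  rwa [h1] at this

variable (I : Inst α)

theorem r_Zs (T Z : Finset α) (n : ℕ) : I.M.r (Zs I T Z n) = (Zs I T Z n).card :=
  r_grd I.M I.pos I.inj _

theorem opt_subset_cand {T : Finset α} {h : α} (ho : h ∈ opt I) (hT : h ∉ T) : h ∈ cand I T := by
  unfold opt grd at ho
  rw [mem_filter] at ho
  unfold cand
  rw [mem_filter]
  refine ⟨ho.1, hT, fun hc => ho.2 (I.M.cl_mono ?_ hc)⟩
  exact below_mono _ inter_subset_right _

theorem notMem_cl_empty_of_cand {T : Finset α} {h : α} (hc : h ∈ cand I T) : h ∉ I.M.cl ∅ := by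
  unfold cand at hc
  rw [mem_filter] at hc
  exact fun hh => hc.2.2 (I.M.cl_mono (empty_subset _) hh)

theorem mem_On {T : Finset α} {n : ℕ} {h : α} :
    h ∈ On I T n ↔ h ∈ opt I ∧ h ∉ T ∧ I.cls h = n := by
  unfold On
  rw [mem_filter, mem_sdiff, and_assoc]

theorem On_subset_cand (T : Finset α) (n : ℕ) : On I T n ⊆ cand I T := by
  intro h hh
  rw [mem_On] at hh
  exact opt_subset_cand I hh.1 hh.2.1

theorem On_subset_En (T : Finset α) (n : ℕ) : On I T n ⊆ En I T n := by
  intro h hh
  unfold En
  rw [mem_filter]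
  exact ⟨On_subset_cand I T n hh, ((mem_On I).1 hh).2.2⟩

open Classical in
/-- over the three residues, a good element is served exactly once -/
theorem sum_residues (k : ℕ) (T Z A B : Finset α) (n : ℕ) {h : α} (hn : I.cls h = n)
    (hH : h ∈ Hs I T Z A B) (hO : h ∈ On I T n)
    (hg : GoodAt (dat I k T Z) (As I T Z A) (Hs I T Z A B) h) :
    (1 : ℝ) ≤ ∑ i ∈ range 3, (if h ∈ good I k T Z A B i n then (1 : ℝ) else 0) := by
  obtain ⟨t, ht1, ht2⟩ := hg
  have h1 : h ∈ good I k T Z A B (t % 3) n := by
    unfold good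
    rw [mem_filter, mem_inter]
    refine ⟨⟨hH, hO⟩, t, rfl, ht1, ?_⟩
    unfold Kt
    subst hn
    exact ht2
  have h2 : t % 3 ∈ range 3 := mem_range.2 (Nat.mod_lt _ (by norm_num))
  calc (1 : ℝ) = (if h ∈ good I k T Z A B (t % 3) n then (1 : ℝ) else 0) := by rw [if_pos h1]
    _ ≤ ∑ i ∈ range 3, (if h ∈ good I k T Z A B i n then (1 : ℝ) else 0) := by
        refine Finset.single_le_sum (f := fun i => if h ∈ good I k T Z A B i n then (1 : ℝ) else 0)
          (fun i _ => ?_) h2
        split <;> norm_num

open Classical in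
theorem card_good (k : ℕ) (T Z A B : Finset α) (i n : ℕ) :
    ((good I k T Z A B i n).card : ℝ) =
      ∑ h ∈ On I T n, (if h ∈ good I k T Z A B i n then (1 : ℝ) else 0) := by
  rw [Finset.sum_boole]
  congr 2
  ext h
  rw [mem_filter]
  constructor
  · intro hh
    refine ⟨?_, hh⟩
    unfold good at hh
    exact (mem_inter.1 (mem_filter.1 hh).1).2
  · exact fun hh => hh.2

open Classical in
/-- **P1** -/
theorem good_expect {k : ℕ} (hk : 2 ≤ k) {x p : ℝ} (hx0 : 0 ≤ x) (hx1 : x ≤ 1) (hp0 : 0 ≤ p)
    (hp1 : p ≤ 1) (T : Finset α) (n : ℕ) :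
    (1 - x) * (p * (1 - p) / 2) * (On I T n).card ≤
      ∑ Z, w (fun _ => x) Z * ∑ A, ∑ B, w (fun _ => p) A * w (fun _ => p) B *
        ∑ i ∈ range 3, ((good I k T Z A B i n).card : ℝ) := by
  have e1 : ∀ Z A B : Finset α, ∑ i ∈ range 3, ((good I k T Z A B i n).card : ℝ) =
      ∑ h ∈ On I T n, ∑ i ∈ range 3, (if h ∈ good I k T Z A B i n then (1 : ℝ) else 0) := by
    intro Z A B
    rw [Finset.sum_comm]
    exact Finset.sum_congr rfl fun i _ => card_good I k T Z A B i n
  simp only [e1]
  have e2 : ∑ Z, w (fun _ : α => x) Z * ∑ A, ∑ B, w (fun _ : α => p) A * w (fun _ : α => p) B *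
      ∑ h ∈ On I T n, ∑ i ∈ range 3, (if h ∈ good I k T Z A B i n then (1 : ℝ) else 0) =
      ∑ h ∈ On I T n, ∑ Z, w (fun _ : α => x) Z * ∑ A, ∑ B,
        w (fun _ : α => p) A * w (fun _ : α => p) B *
        ∑ i ∈ range 3, (if h ∈ good I k T Z A B i n then (1 : ℝ) else 0) := by
    symm
    rw [Finset.sum_comm]
    refine Finset.sum_congr rfl fun Z _ => ?_
    rw [← Finset.mul_sum]
    congr 1
    rw [Finset.sum_comm]
    refine Finset.sum_congr rfl fun A _ => ?_
    rw [Finset.sum_comm]
    refine Finset.sum_congr rfl fun B _ => ?_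
    rw [Finset.mul_sum]
  rw [e2, mul_comm, ← nsmul_eq_mul, ← Finset.sum_const]
  refine Finset.sum_le_sum fun h hh => ?_
  have hc := On_subset_cand I T n hh
  obtain ⟨-, hT, hn⟩ := (mem_On I).1 hh
  have key : ∀ Z : Finset α, (if h ∉ Z then p * (1 - p) / 2 else 0) ≤
      ∑ A, ∑ B, w (fun _ : α => p) A * w (fun _ : α => p) B *
        ∑ i ∈ range 3, (if h ∈ good I k T Z A B i n then (1 : ℝ) else 0) := by
    intro Z
    split
    · rename_i hZ
      have hV : h ∈ cand I T \ Z := mem_sdiff.2 ⟨hc, hZ⟩
      have hK : h ∉ K (dat I k T Z) ∅ := by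
        intro hk'
        exact notMem_cl_empty_of_cand I hc ((mem_K_empty hk (r_Zs I T Z)).1 hk')
      refine (half_le_restricted (dat I k T Z) hp0 hp1 hV hK).trans ?_
      refine Finset.sum_le_sum fun A _ => Finset.sum_le_sum fun B _ => ?_
      refine mul_le_mul_of_nonneg_left ?_
        (mul_nonneg (w_nonneg (fun _ => hp0) (fun _ => hp1) A)
          (w_nonneg (fun _ => hp0) (fun _ => hp1) B))
      split
      · rename_i hg
        obtain ⟨g1, g2, g3⟩ := hg
        refine sum_residues I k T Z A B n hn ?_ hh g3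
        unfold Hs
        exact mem_sdiff.2 ⟨mem_inter.2 ⟨g2, hV⟩, g1⟩
      · refine Finset.sum_nonneg fun i _ => ?_
        split <;> norm_num
    · refine Finset.sum_nonneg fun A _ => Finset.sum_nonneg fun B _ => ?_
      refine mul_nonneg (mul_nonneg (w_nonneg (fun _ => hp0) (fun _ => hp1) A)
          (w_nonneg (fun _ => hp0) (fun _ => hp1) B)) (Finset.sum_nonneg fun i _ => ?_)
      split <;> norm_num
  have e3 : (1 - x) * (p * (1 - p) / 2) =
      ∑ Z, w (fun _ : α => x) Z * (if h ∉ Z then p * (1 - p) / 2 else 0) := by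
    have h1 : ∀ Z : Finset α, w (fun _ : α => x) Z * (if h ∉ Z then p * (1 - p) / 2 else 0) =
        w (fun _ : α => x) Z * (p * (1 - p) / 2) -
          (w (fun _ : α => x) Z * (if h ∈ Z then 1 else 0)) * (p * (1 - p) / 2) := by
      intro Z
      by_cases hZ : h ∈ Z
      · simp [hZ]
      · simp [hZ]
    simp only [h1]
    rw [Finset.sum_sub_distrib, ← Finset.sum_mul, ← Finset.sum_mul, sum_w, Dep310.sum_mem]
    ring
  rw [e3]
  exact Finset.sum_le_sum fun Z _ => mul_le_mul_of_nonneg_left (key Z)
    (w_nonneg (fun _ => hx0) (fun _ => hx1) Z)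

end Crest.Agent.R305.TopDef137
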