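import Crest.Agent.R305.TopB_137

/-!
# R305 top assembly, P5 (helper137): the per-class expected bound
-/

set_option autoImplicit false

namespace Crest.Agent.R305.TopDef137

open Finset Dep310 Kd447 Fcl310 Fcr310 Top137

variable {α : Type*} [Fintype α] [DecidableEq α] (I : Inst α)

/-- expectation over the raw samples `Z A B` -/
noncomputable def EZ (x p : ℝ) (F : Finset α → Finset α → Finset α → ℝ) : ℝ :=
  ∑ Z, w (fun _ => x) Z * ∑ A, ∑ B, w (fun _ => p) A * w (fun _ => p) B * F Z A B

theorem EZ_add (x p : ℝ) (F G : Finset α → Finset α → Finset α → ℝ) :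
    EZ x p (fun Z A B => F Z A B + G Z A B) = EZ x p F + EZ x p G := by
  unfold EZ
  rw [← Finset.sum_add_distrib]
  refine Finset.sum_congr rfl fun Z _ => ?_
  rw [← mul_add, ← Finset.sum_add_distrib]
  congr 1
  refine Finset.sum_congr rfl fun A _ => ?_
  rw [← Finset.sum_add_distrib]
  exact Finset.sum_congr rfl fun B _ => by ring

theorem EZ_const_mul (x p c : ℝ) (F : Finset α → Finset α → Finset α → ℝ) :
    EZ x p (fun Z A B => c * F Z A B) = c * EZ x p F := by
  unfold EZ
  rw [Finset.mul_sum]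
  refine Finset.sum_congr rfl fun Z _ => ?_
  have h : ∑ A, ∑ B, w (fun _ : α => p) A * w (fun _ => p) B * (c * F Z A B) =
      c * ∑ A, ∑ B, w (fun _ : α => p) A * w (fun _ => p) B * F Z A B := by
    rw [Finset.mul_sum]
    refine Finset.sum_congr rfl fun A _ => ?_
    rw [Finset.mul_sum]
    exact Finset.sum_congr rfl fun B _ => by ring
  rw [h]
  ring

theorem EZ_neg (x p : ℝ) (F : Finset α → Finset α → Finset α → ℝ) :
    EZ x p (fun Z A B => - F Z A B) = - EZ x p F := by
  have := EZ_const_mul x p (-1) F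
  simpa using this

theorem EZ_sub (x p : ℝ) (F G : Finset α → Finset α → Finset α → ℝ) :
    EZ x p (fun Z A B => F Z A B - G Z A B) = EZ x p F - EZ x p G := by
  have := EZ_add x p F (fun Z A B => - G Z A B)
  rw [EZ_neg] at this
  simpa [sub_eq_add_neg] using this

theorem EZ_zero (x p : ℝ) : EZ (α := α) x p (fun _ _ _ => 0) = 0 := by
  unfold EZ; simp

theorem EZ_sum {ι : Type*} (s : Finset ι) (x p : ℝ)
    (F : ι → Finset α → Finset α → Finset α → ℝ) :
    EZ x p (fun Z A B => ∑ i ∈ s, F i Z A B) = ∑ i ∈ s, EZ x p (F i) := by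
  classical
  induction s using Finset.induction_on with
  | empty => simp [EZ_zero]
  | insert a s ha ih =>
    simp only [Finset.sum_insert ha]
    rw [EZ_add, ih]

theorem EZ_const (x p c : ℝ) : EZ (α := α) x p (fun _ _ _ => c) = c := by
  unfold EZ
  have h1 : ∑ A : Finset α, ∑ B : Finset α, w (fun _ => p) A * w (fun _ => p) B * c = c := by
    have : ∀ A : Finset α, ∑ B : Finset α, w (fun _ => p) A * w (fun _ => p) B * c =
        w (fun _ => p) A * c := by
      intro A
      have : ∀ B : Finset α, w (fun _ => p) A * w (fun _ => p) B * c =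
          w (fun _ => p) B * (w (fun _ => p) A * c) := fun B => by ring
      simp only [this]
      rw [← Finset.sum_mul, sum_w, one_mul]
    simp only [this]
    rw [← Finset.sum_mul, sum_w, one_mul]
  simp only [h1]
  rw [← Finset.sum_mul, sum_w, one_mul]

theorem EZ_mono {x p : ℝ} (hx0 : 0 ≤ x) (hx1 : x ≤ 1) (hp0 : 0 ≤ p) (hp1 : p ≤ 1)
    {F G : Finset α → Finset α → Finset α → ℝ} (h : ∀ Z A B, F Z A B ≤ G Z A B) :
    EZ x p F ≤ EZ x p G := by
  unfold EZ
  refine Finset.sum_le_sum fun Z _ => mul_le_mul_of_nonneg_left ?_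
    (w_nonneg (fun _ => hx0) (fun _ => hx1) Z)
  refine Finset.sum_le_sum fun A _ => Finset.sum_le_sum fun B _ => ?_
  exact mul_le_mul_of_nonneg_left (h Z A B)
    (mul_nonneg (w_nonneg (fun _ => hp0) (fun _ => hp1) A)
      (w_nonneg (fun _ => hp0) (fun _ => hp1) B))

theorem card_bad_le (T Z A B : Finset α) (n : ℕ) :
    (bad I T Z A B n).card ≤ ((cand I T).filter fun e => n < I.cls e).card :=
  card_le_card (filter_subset_filter _ inter_subset_left)

/-- **P5**: the per-class expected bound -/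
theorem per_class {k : ℕ} (hk : 2 ≤ k) {x p : ℝ} (hx0 : 0 ≤ x) (hx1 : x ≤ 1) (hp0 : 0 ≤ p)
    (hp1 : p ≤ 1) (T : Finset α) (n : ℕ) (η m : ℝ) (hm : ℕ → Finset α → Finset α → Finset α → ℝ)
    (hhm : ∀ i ∈ range 3, EZ x p (hm i) ≤ p * (η * (En I T n).card + m * p * (On I T n).card)) :
    ((1 - x) * (p * (1 - p) / 2) - 3 * (m * p ^ 2)) * (On I T n).card
      - 3 * (p * η) * (En I T n).card
      - 3 * (((cand I T).filter fun e => n < I.cls e).card : ℝ) ≤
      EZ x p (fun Z A B => ∑ i ∈ range 3,
        (((good I k T Z A B i n).card : ℝ) - hm i Z A B - ((bad I T Z A B n).card : ℝ))) := by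
  have h1 := good_expect I hk hx0 hx1 hp0 hp1 T n
  change _ ≤ EZ x p (fun Z A B => ∑ i ∈ range 3, ((good I k T Z A B i n).card : ℝ)) at h1
  have h2 : EZ x p (fun Z A B => ∑ i ∈ range 3, hm i Z A B) ≤
      3 * (p * (η * (En I T n).card + m * p * (On I T n).card)) := by
    rw [EZ_sum (range 3) x p hm]
    refine (Finset.sum_le_sum hhm).trans ?_
    rw [Finset.sum_const, card_range, nsmul_eq_mul]
    norm_num
  have h3 : EZ x p (fun Z A B => ∑ _i ∈ range 3, ((bad I T Z A B n).card : ℝ)) ≤
      3 * (((cand I T).filter fun e => n < I.cls e).card : ℝ) := by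
    refine (EZ_mono hx0 hx1 hp0 hp1 (G := fun _ _ _ =>
      3 * (((cand I T).filter fun e => n < I.cls e).card : ℝ)) fun Z A B => ?_).trans ?_
    · rw [Finset.sum_const, card_range, nsmul_eq_mul]
      have := card_bad_le I T Z A B n
      have h4 : ((bad I T Z A B n).card : ℝ) ≤
          (((cand I T).filter fun e => n < I.cls e).card : ℝ) := by exact_mod_cast this
      push_cast
      linarith
    · rw [EZ_const]
  have h4 : (fun Z A B => ∑ i ∈ range 3,
        (((good I k T Z A B i n).card : ℝ) - hm i Z A B - ((bad I T Z A B n).card : ℝ))) =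
      fun Z A B => (∑ i ∈ range 3, ((good I k T Z A B i n).card : ℝ) -
        ∑ i ∈ range 3, hm i Z A B) - ∑ _i ∈ range 3, ((bad I T Z A B n).card : ℝ) := by
    funext Z A B
    rw [Finset.sum_sub_distrib, Finset.sum_sub_distrib]
  rw [h4, EZ_sub, EZ_sub]
  nlinarith [h1, h2, h3]

end Crest.Agent.R305.TopDef137
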