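import Crest.Agent.R305.TopC_137
import Crest.Agent.R305.Coin2_404

/-!
# R305 top assembly (helper137): total over the classes for a fixed class vector
-/

set_option autoImplicit false

namespace Crest.Agent.R305.TopDef137

open Finset Dep310 Kd447 Fcl310 Fcr310 Top137 Coin2404

variable {α : Type*} [Fintype α] [DecidableEq α] (I : Inst α)

/-- the lower bound of the value of one outcome -/
noncomputable def lbv (Λ : ℝ) (N k : ℕ) (T Z A B : Finset α) (i : ℕ) : ℝ :=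
  ∑ n ∈ range N, Λ ^ n * (((good I k T Z A B i n).card : ℝ) - ((harmed I k T Z A B i n).card : ℝ)
    - ((bad I T Z A B n).card : ℝ))

/-- **TOTAL** for a fixed class vector -/
theorem total {N : ℕ} (hN : ∀ e ∈ I.Vd, I.cls e < N) {k : ℕ} (hk : 2 ≤ k) {x p τ Λ η m : ℝ}
    (hx0 : 0 ≤ x) (hx1 : x ≤ 1) (hp0 : 0 ≤ p) (hp1 : p ≤ 1) (hτ0 : 0 < τ) (hτ1 : τ ≤ 1)
    (hΛ : 1 < Λ) (hη : 0 ≤ η)
    (hP2 : ∀ T n, ∀ i ∈ range 3, EZ x p (fun Z A B => ((harmed I k T Z A B i n).card : ℝ)) ≤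
      p * (η * (En I T n).card + m * p * (On I T n).card)) :
    ((1 - τ) * ((1 - x) * (p * (1 - p) / 2) - 3 * (m * p ^ 2)) -
        (3 * (p * η) + 3 / (Λ - 1)) * ((1 - τ) / τ)) * ∑ e ∈ opt I, Λ ^ I.cls e ≤
      ∑ T, w (fun _ => τ) T * EZ x p (fun Z A B => ∑ i ∈ range 3, lbv I Λ N k T Z A B i) := by
  have hΛ0 : (0 : ℝ) < Λ := by linarith
  have hN' : ∀ e ∈ I.Vd, I.cls e ∈ range N := fun e he => mem_range.2 (hN e he)
  have hvd0 : ∀ e ∈ I.Vd, (0 : ℝ) ≤ Λ ^ I.cls e := fun e _ => (pow_pos hΛ0 _).le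
  have hva : ∀ a ∈ I.Vd, ∀ b ∈ I.Vd, I.pos a < I.pos b → Λ ^ I.cls b ≤ Λ ^ I.cls a :=
    fun a ha b hb hab => pow_le_pow_right₀ hΛ.le (I.anti a ha b hb hab)
  set c1 : ℝ := (1 - x) * (p * (1 - p) / 2) - 3 * (m * p ^ 2) with hc1
  -- per sample `T`
  have step : ∀ T : Finset α,
      c1 * (∑ n ∈ range N, Λ ^ n * ((On I T n).card : ℝ)) -
        (3 * (p * η) + 3 / (Λ - 1)) * ∑ e ∈ cand I T, Λ ^ I.cls e ≤
      EZ x p (fun Z A B => ∑ i ∈ range 3, lbv I Λ N k T Z A B i) := by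
    intro T
    have h1 : (fun Z A B => ∑ i ∈ range 3, lbv I Λ N k T Z A B i) =
        fun Z A B => ∑ n ∈ range N, Λ ^ n * ∑ i ∈ range 3,
          (((good I k T Z A B i n).card : ℝ) - ((harmed I k T Z A B i n).card : ℝ)
            - ((bad I T Z A B n).card : ℝ)) := by
      funext Z A B
      unfold lbv
      rw [Finset.sum_comm]
      exact Finset.sum_congr rfl fun n _ => by rw [Finset.mul_sum]
    rw [h1, EZ_sum (range N) x p (fun n Z A B => Λ ^ n * ∑ i ∈ range 3,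
          (((good I k T Z A B i n).card : ℝ) - ((harmed I k T Z A B i n).card : ℝ)
            - ((bad I T Z A B n).card : ℝ)))]
    have h2 : ∀ n ∈ range N, Λ ^ n * (c1 * (On I T n).card - 3 * (p * η) * (En I T n).card
        - 3 * (((cand I T).filter fun e => n < I.cls e).card : ℝ)) ≤
        EZ x p (fun Z A B => Λ ^ n * ∑ i ∈ range 3,
          (((good I k T Z A B i n).card : ℝ) - ((harmed I k T Z A B i n).card : ℝ)
            - ((bad I T Z A B n).card : ℝ))) := by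
      intro n _
      rw [EZ_const_mul]
      refine mul_le_mul_of_nonneg_left ?_ (pow_pos hΛ0 _).le
      exact per_class I hk hx0 hx1 hp0 hp1 T n η m
        (fun i Z A B => ((harmed I k T Z A B i n).card : ℝ)) (hP2 T n)
    refine le_trans ?_ (Finset.sum_le_sum h2)
    have h3 : ∑ n ∈ range N, Λ ^ n * (c1 * (On I T n).card - 3 * (p * η) * (En I T n).card
        - 3 * (((cand I T).filter fun e => n < I.cls e).card : ℝ)) =
        c1 * (∑ n ∈ range N, Λ ^ n * ((On I T n).card : ℝ)) -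
          3 * (p * η) * (∑ n ∈ range N, Λ ^ n * ((En I T n).card : ℝ)) -
          3 * ∑ n ∈ range N, Λ ^ n * (((cand I T).filter fun e => n < I.cls e).card : ℝ) := by
      rw [Finset.mul_sum, Finset.mul_sum, Finset.mul_sum, ← Finset.sum_sub_distrib,
        ← Finset.sum_sub_distrib]
      exact Finset.sum_congr rfl fun n _ => by ring
    rw [h3, En_sum I (fun n => Λ ^ n) (range N) hN' T]
    have h4 := heavier_sum Λ hΛ N I.cls (cand I T)
    have h5 : (∑ e ∈ cand I T, Λ ^ I.cls e) / (Λ - 1) =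
        1 / (Λ - 1) * ∑ e ∈ cand I T, Λ ^ I.cls e := by ring
    rw [h5] at h4
    have h6 : 3 / (Λ - 1) = 3 * (1 / (Λ - 1)) := by ring
    rw [h6]
    linarith
  have h7 := Finset.sum_le_sum fun T (_ : T ∈ (univ : Finset (Finset α))) =>
    mul_le_mul_of_nonneg_left (step T)
      (w_nonneg (fun _ => hτ0.le) (fun _ => hτ1) T : 0 ≤ w (fun _ : α => τ) T)
  refine le_trans ?_ h7
  have h8 : ∑ T, w (fun _ : α => τ) T *
      (c1 * (∑ n ∈ range N, Λ ^ n * ((On I T n).card : ℝ)) -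
        (3 * (p * η) + 3 / (Λ - 1)) * ∑ e ∈ cand I T, Λ ^ I.cls e) =
      c1 * (∑ T, w (fun _ : α => τ) T * ∑ n ∈ range N, Λ ^ n * ((On I T n).card : ℝ)) -
        (3 * (p * η) + 3 / (Λ - 1)) *
          ∑ T, w (fun _ : α => τ) T * ∑ e ∈ cand I T, Λ ^ I.cls e := by
    rw [Finset.mul_sum, Finset.mul_sum, ← Finset.sum_sub_distrib]
    exact Finset.sum_congr rfl fun T _ => by ring
  rw [h8, On_sum I τ (fun n => Λ ^ n) (range N) hN']
  have h9 := cand_le_opt I τ hτ0 hτ1 (fun e => Λ ^ I.cls e) hvd0 hva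
  have h10 : 0 ≤ 3 * (p * η) + 3 / (Λ - 1) := by
    have := div_nonneg (by norm_num : (0 : ℝ) ≤ 3) (by linarith : 0 ≤ Λ - 1)
    positivity
  have h11 := mul_le_mul_of_nonneg_left h9 h10
  linarith

/-- the constants of the captain table -/
theorem total_const {N : ℕ} (hN : ∀ e ∈ I.Vd, I.cls e < N) {η : ℝ} (hη0 : 0 ≤ η)
    (hη : η ≤ 1 / 100)
    (hP2 : ∀ T n, ∀ i ∈ range 3, EZ (1 / 2) ((1 / 2) ^ 25)
        (fun Z A B => ((harmed I (2 ^ 17) T Z A B i n).card : ℝ)) ≤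
      (1 / 2) ^ 25 * (η * (En I T n).card + 2 ^ 19 * (1 / 2) ^ 25 * (On I T n).card)) :
    (1 / 2 : ℝ) ^ 30 * ∑ e ∈ opt I, ((2 : ℝ) ^ 40) ^ I.cls e ≤
      ∑ T, w (fun _ => (1 / 2 : ℝ)) T * EZ (1 / 2) ((1 / 2) ^ 25)
        (fun Z A B => ∑ i ∈ range 3, lbv I (2 ^ 40) N (2 ^ 17) T Z A B i) := by
  have h := total I hN (k := 2 ^ 17) (by norm_num) (x := 1 / 2) (p := (1 / 2) ^ 25) (τ := 1 / 2)
    (Λ := 2 ^ 40) (η := η) (m := 2 ^ 19) (by norm_num) (by norm_num) (by norm_num) (by norm_num)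
    (by norm_num) (by norm_num) (by norm_num) hη0 hP2
  refine le_trans (mul_le_mul_of_nonneg_right ?_ ?_) h
  · have h1 : ((1 / 2 : ℝ) ^ 25 * η) ≤ (1 / 2) ^ 25 * (1 / 100) :=
      mul_le_mul_of_nonneg_left hη (by norm_num)
    have h2 : (1 / 2 : ℝ) ^ 30 ≤ (1 - 1 / 2) * ((1 - 1 / 2) * ((1 / 2) ^ 25 * (1 - (1 / 2) ^ 25) / 2)
        - 3 * (2 ^ 19 * ((1 / 2) ^ 25) ^ 2)) -
        (3 * ((1 / 2) ^ 25 * (1 / 100)) + 3 / (2 ^ 40 - 1)) * ((1 - 1 / 2) / (1 / 2)) := by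
      norm_num
    linarith
  · exact Finset.sum_nonneg fun e _ => by positivity

end Crest.Agent.R305.TopDef137
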