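import Crest.Agent.R305.TopD_137
import Crest.Agent.R305.Rule2_764
import Crest.Agent.R305.P3_655
import Crest.Agent.R305.Fin_755

/-!
# R305 top assembly (helper137): the final glue
-/

set_option autoImplicit false
universe u

namespace Crest.Agent.R305.TopE137

open Finset Crest.OnlineMatroid Dep310 Kd447 Fcl310 Fcr310 TopDef137 Rows755 Red396 Rule764

variable {k : ℕ}

/-- the seed space -/
abbrev Seed (k : ℕ) : Type :=
  Finset (Fin k) × Finset (Fin k) × Finset (Fin k) × Finset (Fin k) × Fin 3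

/-- the weight of a seed -/
noncomputable def mu (τ x p : ℝ) (r : Seed k) : ℝ :=
  w (fun _ => τ) r.1 * (w (fun _ => x) r.2.1 * (w (fun _ => p) r.2.2.1 * w (fun _ => p) r.2.2.2.1)) *
    (1 / 3)

theorem sum_mu (τ x p : ℝ) (f : Seed k → ℝ) :
    ∑ r, mu τ x p r * f r = (1 / 3) * ∑ T, w (fun _ => τ) T *
      EZ x p (fun Z A B => ∑ i : Fin 3, f (T, Z, A, B, i)) := by
  rw [Fintype.sum_prod_type, Finset.mul_sum]
  refine Finset.sum_congr rfl fun T _ => ?_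
  rw [Fintype.sum_prod_type]
  unfold EZ
  rw [Finset.mul_sum, Finset.mul_sum]
  refine Finset.sum_congr rfl fun Z _ => ?_
  rw [Fintype.sum_prod_type, Finset.mul_sum, Finset.mul_sum, Finset.mul_sum]
  refine Finset.sum_congr rfl fun A _ => ?_
  rw [Fintype.sum_prod_type, Finset.mul_sum, Finset.mul_sum, Finset.mul_sum]
  refine Finset.sum_congr rfl fun B _ => ?_
  rw [Finset.mul_sum, Finset.mul_sum, Finset.mul_sum, Finset.mul_sum]
  refine Finset.sum_congr rfl fun i _ => ?_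
  unfold mu
  ring

theorem mu_nonneg {τ x p : ℝ} (hτ0 : 0 ≤ τ) (hτ1 : τ ≤ 1) (hx0 : 0 ≤ x) (hx1 : x ≤ 1)
    (hp0 : 0 ≤ p) (hp1 : p ≤ 1) (r : Seed k) : 0 ≤ mu τ x p r := by
  unfold mu
  have h1 := w_nonneg (fun _ => hτ0) (fun _ => hτ1) r.1
  have h2 := w_nonneg (fun _ => hx0) (fun _ => hx1) r.2.1
  have h3 := w_nonneg (fun _ => hp0) (fun _ => hp1) r.2.2.1
  have h4 := w_nonneg (fun _ => hp0) (fun _ => hp1) r.2.2.2.1
  positivity

theorem mu_sum (τ x p : ℝ) : ∑ r : Seed k, mu τ x p r = 1 := by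
  have h := sum_mu (k := k) τ x p (fun _ => 1)
  simp only [mul_one] at h
  rw [h]
  have h1 : EZ x p (fun _ _ _ : Finset (Fin k) => ∑ _i : Fin 3, (1 : ℝ)) = 3 := by
    rw [EZ_const]
    norm_num
  rw [h1]
  rw [← Finset.sum_mul, sum_w]
  norm_num

/-- the rule -/
noncomputable def theRule (M : Matroid (Fin k)) : ClsRule k M :=
  mkRule M (2 ^ 17) 3 (Seed k) (mu (1 / 2) (1 / 2) ((1 / 2) ^ 25))
    (mu_nonneg (by norm_num) (by norm_num) (by norm_num) (by norm_num) (by norm_num) (by norm_num))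
    (mu_sum _ _ _) (fun r => r.1) (fun r => r.2.1) (fun r => r.2.2.1) (fun r => r.2.2.2.1)
    (fun r => (r.2.2.2.2 : ℕ))

theorem val_sum (q : Fin k → Option ℤ) {Λ : ℕ} (hΛ : 0 < Λ) (S : Finset (Fin k))
    (hS : ∀ e ∈ S, q e ≠ none) :
    ∑ e ∈ S, val Λ (q e) = (Λ : ℝ) ^ (gs q) * ∑ e ∈ S, (Λ : ℝ) ^ (gcls q e) := by
  rw [Finset.mul_sum]
  exact Finset.sum_congr rfl fun e he => val_gcls hΛ (hS e he)

theorem Hs_subset_Vd (I : Inst (Fin k)) (T Z A B : Finset (Fin k)) : Hs I T Z A B ⊆ I.Vd := by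
  intro e he
  unfold Hs cand at he
  rw [mem_sdiff, mem_inter, mem_sdiff, mem_filter] at he
  exact he.1.2.1.1

/-- lower bound for one outcome -/
theorem lb_le (M : Matroid (Fin k)) (q : Fin k → Option ℤ) {Λ : ℕ} (hΛ : 0 < Λ)
    (T Z A B Acc : Finset (Fin k)) (i : Fin 3)
    (h : RowBasis (ofMatroid M) (B \ (T ∪ Z ∪ A)) (row (ofMatroid M) (2 ^ 17) T Z A q 3 i)
      (base (ofMatroid M) (2 ^ 17) T Z A q 3) Acc) :
    (Λ : ℝ) ^ (gs q) * lbv (inst (ofMatroid M) q) Λ (gn q) (2 ^ 17) T Z A B i ≤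
      ∑ e ∈ Acc, val Λ (q e) := by
  obtain ⟨h1, -, h3, h4⟩ := rowBasis_global (hN := le_rfl) (h := h)
  have h5 : ∀ e ∈ Acc, q e ≠ none := fun e he =>
    (mem_Vd (M := ofMatroid M) (q := q)).1 (Hs_subset_Vd _ T Z A B (h1 he))
  have hΛ' : (0 : ℝ) < Λ := by exact_mod_cast hΛ
  rw [val_sum q hΛ Acc h5]
  refine mul_le_mul_of_nonneg_left ?_ (zpow_pos hΛ' _).le
  have h6 := Coin2404.sum_class (gcls q) (fun n => (Λ : ℝ) ^ n) (range (gn q)) Acc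
    (fun e _ => mem_range.2 (gcls_lt e))
  rw [← h6]
  unfold lbv
  refine Finset.sum_le_sum fun n _ => mul_le_mul_of_nonneg_left ?_ (pow_pos hΛ' _).le
  have h7 := P3_655.good_le (inst (ofMatroid M) q) (k := 2 ^ 17) (N := gn q) (by norm_num)
    (fun a => gcls_lt a) T Z A B Acc i n h1 (fun t ht => h3 t ht) (fun t ht => h4 t ht)
  have h8 : ((good (inst (ofMatroid M) q) (2 ^ 17) T Z A B i n).card : ℝ) ≤
      ((Acc.filter fun a => gcls q a = n).card : ℝ) +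
      ((harmed (inst (ofMatroid M) q) (2 ^ 17) T Z A B i n).card : ℝ) +
      ((bad (inst (ofMatroid M) q) T Z A B n).card : ℝ) := by
    exact_mod_cast h7
  linarith

/-- **VALUE**, modulo P2 -/
theorem core_of_P2 (M : Matroid (Fin k)) {η : ℝ} (hη0 : 0 ≤ η) (hη : η ≤ 1 / 100)
    (hP2 : ∀ (I : Inst (Fin k)) T n, ∀ i ∈ range 3, EZ (1 / 2) ((1 / 2) ^ 25)
        (fun Z A B => ((harmed I (2 ^ 17) T Z A B i n).card : ℝ)) ≤
      (1 / 2) ^ 25 * (η * (En I T n).card + 2 ^ 19 * (1 / 2) ^ 25 * (On I T n).card)) :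
    Concl.{u} k M ((2 : ENNReal)⁻¹ ^ 310) := by
  refine Fin755.concl_of_value (theRule M) (Λ := 2 ^ 40) (by norm_num) (c := (1 / 2) ^ 32)
    (by norm_num) ?_ ?_
  · have h1 : (1 / 2 : ℝ) ^ 310 ≤ (1 / 2) ^ 72 :=
      pow_le_pow_of_le_one (by norm_num) (by norm_num) (by norm_num)
    refine h1.trans ?_
    norm_num
  · intro q J hJ hJq
    set I := inst (ofMatroid M) q with hI
    refine ⟨fun r => ((2 ^ 40 : ℕ) : ℝ) ^ (gs q) *
      lbv I ((2 ^ 40 : ℕ) : ℝ) (gn q) (2 ^ 17) r.1 r.2.1 r.2.2.1 r.2.2.2.1 r.2.2.2.2, ?_, ?_⟩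
    · rintro ⟨T, Z, A, B, i⟩ Acc hAcc
      exact lb_le M q (by norm_num) T Z A B Acc i hAcc
    · have hN : ∀ e ∈ I.Vd, I.cls e < gn q := fun e _ => gcls_lt e
      have h1 := total_const I hN hη0 hη (hP2 I)
      have h2 := sum_mu (k := k) (1 / 2) (1 / 2) ((1 / 2) ^ 25)
        (fun r => ((2 ^ 40 : ℕ) : ℝ) ^ (gs q) *
          lbv I ((2 ^ 40 : ℕ) : ℝ) (gn q) (2 ^ 17) r.1 r.2.1 r.2.2.1 r.2.2.2.1 r.2.2.2.2)
      have h3 : ∑ r, (theRule M).μ r * (fun r : Seed k => ((2 ^ 40 : ℕ) : ℝ) ^ (gs q) *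
          lbv I ((2 ^ 40 : ℕ) : ℝ) (gn q) (2 ^ 17) r.1 r.2.1 r.2.2.1 r.2.2.2.1 r.2.2.2.2) r =
          ∑ r, mu (1 / 2) (1 / 2) ((1 / 2) ^ 25) r * (((2 ^ 40 : ℕ) : ℝ) ^ (gs q) *
          lbv I ((2 ^ 40 : ℕ) : ℝ) (gn q) (2 ^ 17) r.1 r.2.1 r.2.2.1 r.2.2.2.1 r.2.2.2.2) := rfl
      rw [h3, h2]
      have h4 : ∀ T : Finset (Fin k), EZ (1 / 2) ((1 / 2) ^ 25) (fun Z A B =>
          ∑ i : Fin 3, ((2 ^ 40 : ℕ) : ℝ) ^ (gs q) *
            lbv I ((2 ^ 40 : ℕ) : ℝ) (gn q) (2 ^ 17) T Z A B i) =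
          ((2 ^ 40 : ℕ) : ℝ) ^ (gs q) * EZ (1 / 2) ((1 / 2) ^ 25) (fun Z A B =>
            ∑ i ∈ range 3, lbv I ((2 : ℝ) ^ 40) (gn q) (2 ^ 17) T Z A B i) := by
        intro T
        rw [← EZ_const_mul]
        congr 1
        funext Z A B
        rw [← Finset.mul_sum, Finset.sum_range]
        norm_num
      simp only [h4]
      have h5 : ∑ T, w (fun _ : Fin k => (1 / 2 : ℝ)) T * (((2 ^ 40 : ℕ) : ℝ) ^ (gs q) *
          EZ (1 / 2) ((1 / 2) ^ 25) (fun Z A B =>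
            ∑ i ∈ range 3, lbv I ((2 : ℝ) ^ 40) (gn q) (2 ^ 17) T Z A B i)) =
          ((2 ^ 40 : ℕ) : ℝ) ^ (gs q) * ∑ T, w (fun _ : Fin k => (1 / 2 : ℝ)) T *
          EZ (1 / 2) ((1 / 2) ^ 25) (fun Z A B =>
            ∑ i ∈ range 3, lbv I ((2 : ℝ) ^ 40) (gn q) (2 ^ 17) T Z A B i) := by
        rw [Finset.mul_sum]
        exact Finset.sum_congr rfl fun T _ => by ring
      rw [h5, val_sum q (by norm_num) J hJq]
      have hpos : (0 : ℝ) < ((2 ^ 40 : ℕ) : ℝ) ^ (gs q) := zpow_pos (by norm_num) _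
      have h6 : ∑ e ∈ J, ((2 : ℝ) ^ 40) ^ I.cls e ≤ ∑ e ∈ opt I, ((2 : ℝ) ^ 40) ^ I.cls e := by
        refine Coin2404.indep_le_opt I (fun e => ((2 : ℝ) ^ 40) ^ I.cls e)
          (fun e _ => by positivity) (fun a ha b hb hab =>
            pow_le_pow_right₀ (by norm_num) (I.anti a ha b hb hab)) J ?_ ?_
        · intro e he
          exact (mem_Vd (M := ofMatroid M) (q := q)).2 (hJq e he)
        · exact (indep_iff_r M J).1 hJ
      have h7 : ∑ e ∈ J, ((2 ^ 40 : ℕ) : ℝ) ^ (gcls q e) = ∑ e ∈ J, ((2 : ℝ) ^ 40) ^ I.cls e := by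
        refine Finset.sum_congr rfl fun e _ => ?_
        norm_num
        rfl
      rw [h7]
      have h8 : 0 ≤ ∑ e ∈ opt I, ((2 : ℝ) ^ 40) ^ I.cls e :=
        Finset.sum_nonneg fun e _ => by positivity
      have h9 : (1 / 2 : ℝ) ^ 32 * ∑ e ∈ J, ((2 : ℝ) ^ 40) ^ I.cls e ≤
          1 / 3 * ∑ T, w (fun _ : Fin k => (1 / 2 : ℝ)) T *
          EZ (1 / 2) ((1 / 2) ^ 25) (fun Z A B =>
            ∑ i ∈ range 3, lbv I ((2 : ℝ) ^ 40) (gn q) (2 ^ 17) T Z A B i) := by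
        have h10 : (1 / 2 : ℝ) ^ 32 ≤ 1 / 3 * (1 / 2) ^ 30 := by norm_num
        calc (1 / 2 : ℝ) ^ 32 * ∑ e ∈ J, ((2 : ℝ) ^ 40) ^ I.cls e
            ≤ (1 / 2 : ℝ) ^ 32 * ∑ e ∈ opt I, ((2 : ℝ) ^ 40) ^ I.cls e :=
              mul_le_mul_of_nonneg_left h6 (by norm_num)
          _ ≤ (1 / 3 * (1 / 2) ^ 30) * ∑ e ∈ opt I, ((2 : ℝ) ^ 40) ^ I.cls e :=
              mul_le_mul_of_nonneg_right h10 h8
          _ = 1 / 3 * ((1 / 2) ^ 30 * ∑ e ∈ opt I, ((2 : ℝ) ^ 40) ^ I.cls e) := by ring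
          _ ≤ _ := mul_le_mul_of_nonneg_left h1 (by norm_num)
      calc (1 / 2 : ℝ) ^ 32 * (((2 ^ 40 : ℕ) : ℝ) ^ (gs q) * ∑ e ∈ J, ((2 : ℝ) ^ 40) ^ I.cls e)
          = ((2 ^ 40 : ℕ) : ℝ) ^ (gs q) * ((1 / 2 : ℝ) ^ 32 * ∑ e ∈ J, ((2 : ℝ) ^ 40) ^ I.cls e) := by
            ring
        _ ≤ ((2 ^ 40 : ℕ) : ℝ) ^ (gs q) * (1 / 3 * ∑ T, w (fun _ : Fin k => (1 / 2 : ℝ)) T *
          EZ (1 / 2) ((1 / 2) ^ 25) (fun Z A B =>
            ∑ i ∈ range 3, lbv I ((2 : ℝ) ^ 40) (gn q) (2 ^ 17) T Z A B i)) :=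
            mul_le_mul_of_nonneg_left h9 hpos.le
        _ = _ := by ring

end Crest.Agent.R305.TopE137
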