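import Crest.Agent.R305.TopE_137
import Crest.Agent.R305.Code_310
import Crest.Agent.R305.Num_306

/-!
# R305: the core of S0468 without hypotheses
-/

set_option autoImplicit false

universe u

namespace Crest.Agent.R305.TopF137

open Finset Dep310 TopDef137 Red396 TopE137

theorem eta_nonneg : 0 ≤ Ocp228.eta (2 ^ 17) (1 / 2 : ℝ) := by
  unfold Ocp228.eta Un228.epsk
  have : 0 ≤ Real.log ((2 ^ 17 : ℕ) : ℝ) := Real.log_natCast_nonneg _
  positivity

theorem core {k : ℕ} (M : Matroid (Fin k)) : Concl.{u} k M ((2 : ENNReal)⁻¹ ^ 310) := by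
  refine core_of_P2 M (η := Ocp228.eta (2 ^ 17) (1 / 2)) eta_nonneg ?_ ?_
  · exact Num306.eta_le
  · intro I T n i _
    have h := Harm310.harm_expect_all I (k := 2 ^ 17) (m := 2 ^ 19) (by norm_num)
      (x := 1 / 2) (p := (1 / 2) ^ 25) (by norm_num) (by norm_num) (by positivity)
      (by norm_num) (by norm_num) T n i
    refine le_trans (le_of_eq ?_) (h.trans (le_of_eq ?_))
    · rfl
    · norm_num

end Crest.Agent.R305.TopF137
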