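import Crest.Agent.R305.TopE_137
import Crest.Agent.R305.Code_310
import Crest.Agent.R305.Num_306

/-!
# R305: the conclusion of S0468 for every matroid
-/

set_option autoImplicit false

universe u

namespace Crest.Agent.R305.Tot310

open Finset Dep310 Kd447 Fcl310 Fcr310 TopDef137

theorem eta_le : Ocp228.eta (2 ^ 17) (1 / 2) ≤ 1 / 100 := by
  have h := Num306.eta_le
  unfold Ocp228.eta
  exact h

theorem eta_nonneg : 0 ≤ Ocp228.eta (2 ^ 17) (1 / 2) := by
  unfold Ocp228.eta Un228.epsk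
  have h1 : 0 ≤ Real.log ((2 ^ 17 : ℕ) : ℝ) := Real.log_nonneg (by norm_num)
  have h2 := (Real.exp_pos (-(((2 ^ 17 : ℕ) : ℝ) / 8))).le
  have h3 : 0 ≤ 16 * ((2 * Real.log ((2 ^ 17 : ℕ) : ℝ) + 4) / ((2 ^ 17 : ℕ) : ℝ)) / (1 / 2) := by
    positivity
  linarith

theorem p2 {α : Type*} [Fintype α] [DecidableEq α] (I : Inst α) (T : Finset α) (n i : ℕ) :
    EZ (1 / 2) ((1 / 2) ^ 25)
        (fun Z A B => ((harmed I (2 ^ 17) T Z A B i n).card : ℝ)) ≤
      (1 / 2) ^ 25 * (Ocp228.eta (2 ^ 17) (1 / 2) * (En I T n).card +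
        2 ^ 19 * (1 / 2) ^ 25 * (On I T n).card) := by
  have h := Harm310.harm_expect_all I (k := 2 ^ 17) (m := 2 ^ 19) (by norm_num) (x := 1 / 2)
    (p := (1 / 2) ^ 25) (by norm_num) (by norm_num) (by norm_num) (by norm_num) (by norm_num) T n i
  unfold EZ
  refine h.trans (le_of_eq ?_)
  push_cast
  ring

/-- the conclusion of S0468 for every matroid -/
theorem concl {k : ℕ} (M : Matroid (Fin k)) :
    Red396.Concl.{u} k M ((2 : ENNReal)⁻¹ ^ 310) :=
  TopE137.core_of_P2 M eta_nonneg eta_le fun I T n i _ => p2 I T n i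

end Crest.Agent.R305.Tot310
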